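import Vale.Agent.Lib.P328.CT.MixAbs

/-!
# P328 / abstract: robustness of the mixing bound under an approximate class resampling

`X` is a finite state space, `rel i`, `i ∈ I`, are equivalence relations on `X` and
`heatKernel I rel` is the transition matrix of the chain that picks `i ∈ I` uniformly at random
and moves to a uniformly random element of the `rel i`-class of the current state (`CT/MixAbs`).

* `pow_perturb`: if the rows of two stochastic matrices `P`, `Q` are `η`-close in `ℓ¹`, the rows
  of `Q ^ t` and `P ^ t` are `t * η`-close;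
* `classKernel rel`: the transition matrix of the uniform resampling of the `rel`-class;
* `approxKernel I rel i₀ S`: the chain of `heatKernel I rel` in which the resampling of the
  `rel i₀`-class is replaced by an arbitrary transition matrix `S`;
* `approx_mix`: if `S` is stochastic and every row of `S` is `δ`-close in `ℓ¹` to the uniform
  distribution on the `rel i₀`-class, then under the hypothesis of `heatKernel_mix` the chain
  `approxKernel I rel i₀ S` is within
  `sqrt |X| * (1 - 1 / (Cp * |I|)) ^ t + t * (δ / |I|)` of the uniform distribution after `t`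
  steps.
-/

namespace Vale.Agent.Lib.P328.AM

open Finset
open scoped Classical
open Vale.Agent.Lib.P328.CT

variable {X : Type*} [Fintype X] [DecidableEq X]

/-- The rows of the powers of a matrix with row sums `1` have sum `1`. -/
theorem pow_row_sum (P : Matrix X X ℝ) (hP1 : ∀ x, ∑ y, P x y = 1) (t : ℕ) (x : X) :
    ∑ y, (P ^ t) x y = 1 := by
  induction t generalizing x with
  | zero =>
    rw [pow_zero]
    simp [Matrix.one_apply]
  | succ t ih =>
    rw [pow_succ]
    simp only [Matrix.mul_apply]
    rw [Finset.sum_comm]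
    have h : ∀ z ∈ (Finset.univ : Finset X), ∑ y, (P ^ t) x z * P z y = (P ^ t) x z := by
      intro z _
      rw [← Finset.mul_sum, hP1 z, mul_one]
    rw [Finset.sum_congr rfl h]
    exact ih x

/-- The powers of a matrix with nonnegative entries have nonnegative entries. -/
theorem pow_entry_nonneg (P : Matrix X X ℝ) (hP0 : ∀ x y, 0 ≤ P x y) (t : ℕ) (x y : X) :
    0 ≤ (P ^ t) x y := by
  induction t generalizing x y with
  | zero =>
    rw [pow_zero, Matrix.one_apply]
    split_ifs <;> norm_num
  | succ t ih =>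
    rw [pow_succ, Matrix.mul_apply]
    exact Finset.sum_nonneg (fun z _ => mul_nonneg (ih x z) (hP0 z y))

/-- Perturbation of the powers of a stochastic matrix: if every row of `Q` is within `η` of the
corresponding row of `P` in `ℓ¹` distance, then every row of `Q ^ t` is within `t * η` of the
corresponding row of `P ^ t`. -/
theorem pow_perturb (P Q : Matrix X X ℝ)
    (hP0 : ∀ x y, 0 ≤ P x y) (hP1 : ∀ x, ∑ y, P x y = 1)
    (hQ0 : ∀ x y, 0 ≤ Q x y) (hQ1 : ∀ x, ∑ y, Q x y = 1)
    (η : ℝ) (h : ∀ x, ∑ y, |Q x y - P x y| ≤ η) (t : ℕ) (x : X) :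
    ∑ y, |(Q ^ t) x y - (P ^ t) x y| ≤ (t : ℝ) * η := by
  induction t generalizing x with
  | zero => simp
  | succ t ih =>
    rw [pow_succ, pow_succ]
    have h1 : ∀ y, |(Q ^ t * Q) x y - (P ^ t * P) x y|
        ≤ ∑ z, ((Q ^ t) x z * |Q z y - P z y| + |(Q ^ t) x z - (P ^ t) x z| * P z y) := by
      intro y
      rw [Matrix.mul_apply, Matrix.mul_apply, ← Finset.sum_sub_distrib]
      refine le_trans (Finset.abs_sum_le_sum_abs _ _) (Finset.sum_le_sum (fun z _ => ?_))
      have e : (Q ^ t) x z * Q z y - (P ^ t) x z * P z y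
          = (Q ^ t) x z * (Q z y - P z y) + ((Q ^ t) x z - (P ^ t) x z) * P z y := by ring
      rw [e]
      refine le_trans (abs_add_le _ _) ?_
      rw [abs_mul, abs_mul, abs_of_nonneg (pow_entry_nonneg Q hQ0 t x z),
        abs_of_nonneg (hP0 z y)]
    calc ∑ y, |(Q ^ t * Q) x y - (P ^ t * P) x y|
        ≤ ∑ y, ∑ z, ((Q ^ t) x z * |Q z y - P z y|
            + |(Q ^ t) x z - (P ^ t) x z| * P z y) :=
          Finset.sum_le_sum (fun y _ => h1 y)
      _ = ∑ z, ((Q ^ t) x z * ∑ y, |Q z y - P z y|
            + |(Q ^ t) x z - (P ^ t) x z| * ∑ y, P z y) := by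
          rw [Finset.sum_comm]
          apply Finset.sum_congr rfl
          intro z _
          rw [Finset.sum_add_distrib, ← Finset.mul_sum, ← Finset.mul_sum]
      _ ≤ ∑ z, ((Q ^ t) x z * η + |(Q ^ t) x z - (P ^ t) x z|) := by
          apply Finset.sum_le_sum
          intro z _
          rw [hP1 z, mul_one]
          have h2 := mul_le_mul_of_nonneg_left (h z) (pow_entry_nonneg Q hQ0 t x z)
          linarith
      _ = η + ∑ z, |(Q ^ t) x z - (P ^ t) x z| := by
          rw [Finset.sum_add_distrib, ← Finset.sum_mul, pow_row_sum Q hQ1 t x, one_mul]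
      _ ≤ η + (t : ℝ) * η := by linarith [ih x]
      _ = ((t + 1 : ℕ) : ℝ) * η := by push_cast; ring

/-- The transition matrix of the uniform resampling of the class of a relation: from `x`, move
to a uniformly random `y` with `rel x y`. -/
noncomputable def classKernel (rel : X → X → Prop) : Matrix X X ℝ :=
  fun x y => if rel x y then 1 / ((Finset.univ.filter (fun z => rel x z)).card : ℝ) else 0

omit [DecidableEq X] in
theorem classKernel_nonneg (rel : X → X → Prop) (x y : X) : 0 ≤ classKernel rel x y := by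
  unfold classKernel
  split_ifs
  · positivity
  · exact le_rfl

omit [DecidableEq X] in
theorem classKernel_row_sum (rel : X → X → Prop) (x : X) (hx : rel x x) :
    ∑ y, classKernel rel x y = 1 := by
  unfold classKernel
  rw [← Finset.sum_filter, Finset.sum_const, nsmul_eq_mul]
  have hpos : 0 < (Finset.univ.filter (fun z => rel x z)).card :=
    Finset.card_pos.mpr ⟨x, Finset.mem_filter.mpr ⟨Finset.mem_univ x, hx⟩⟩
  have hne : ((Finset.univ.filter (fun z => rel x z)).card : ℝ) ≠ 0 :=
    Nat.cast_ne_zero.mpr (Nat.pos_iff_ne_zero.mp hpos)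
  field_simp

omit [DecidableEq X] in
/-- The heat kernel is the average of the class kernels. -/
theorem heatKernel_eq {ι : Type*} (I : Finset ι) (rel : ι → X → X → Prop) (x y : X) :
    heatKernel I rel x y = (∑ i ∈ I, classKernel (rel i) x y) / (I.card : ℝ) := rfl

omit [DecidableEq X] in
theorem heatKernel_entry_nonneg {ι : Type*} (I : Finset ι) (rel : ι → X → X → Prop) (x y : X) :
    0 ≤ heatKernel I rel x y := by
  rw [heatKernel_eq]
  exact div_nonneg (Finset.sum_nonneg (fun i _ => classKernel_nonneg (rel i) x y))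
    (Nat.cast_nonneg _)

omit [DecidableEq X] in
theorem heatKernel_row_sum {ι : Type*} (I : Finset ι) (hI : I.Nonempty)
    (rel : ι → X → X → Prop) (hrefl : ∀ i ∈ I, ∀ x, rel i x x) (x : X) :
    ∑ y, heatKernel I rel x y = 1 := by
  have hne : (I.card : ℝ) ≠ 0 :=
    Nat.cast_ne_zero.mpr (Nat.pos_iff_ne_zero.mp (Finset.card_pos.mpr hI))
  simp only [heatKernel_eq]
  rw [← Finset.sum_div, Finset.sum_comm]
  rw [Finset.sum_congr rfl (fun i hi => classKernel_row_sum (rel i) x (hrefl i hi x))]
  rw [Finset.sum_const, nsmul_eq_mul, mul_one]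
  exact div_self hne

/-- The chain of `heatKernel I rel` in which the uniform resampling of the `rel i₀`-class is
replaced by the transition matrix `S`: pick `i ∈ I` uniformly at random; if `i ≠ i₀` move to a
uniformly random element of the `rel i`-class of the current state, if `i = i₀` move according
to `S`. -/
noncomputable def approxKernel {ι : Type*} (I : Finset ι) (rel : ι → X → X → Prop) (i₀ : ι)
    (S : Matrix X X ℝ) : Matrix X X ℝ :=
  fun x y => (∑ i ∈ I.erase i₀, classKernel (rel i) x y + S x y) / (I.card : ℝ)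

omit [DecidableEq X] in
theorem approxKernel_nonneg {ι : Type*} (I : Finset ι) (rel : ι → X → X → Prop) (i₀ : ι)
    (S : Matrix X X ℝ) (hS0 : ∀ x y, 0 ≤ S x y) (x y : X) :
    0 ≤ approxKernel I rel i₀ S x y := by
  unfold approxKernel
  exact div_nonneg (add_nonneg (Finset.sum_nonneg (fun i _ => classKernel_nonneg (rel i) x y))
    (hS0 x y)) (Nat.cast_nonneg _)

omit [DecidableEq X] in
theorem approxKernel_sub {ι : Type*} (I : Finset ι) (rel : ι → X → X → Prop) (i₀ : ι)
    (hi₀ : i₀ ∈ I) (S : Matrix X X ℝ) (x y : X) :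
    approxKernel I rel i₀ S x y - heatKernel I rel x y
      = (S x y - classKernel (rel i₀) x y) / (I.card : ℝ) := by
  rw [heatKernel_eq]
  unfold approxKernel
  rw [← Finset.sum_erase_add I _ hi₀]
  ring

omit [DecidableEq X] in
theorem approxKernel_row_sum {ι : Type*} (I : Finset ι) (rel : ι → X → X → Prop) (i₀ : ι)
    (hi₀ : i₀ ∈ I) (hrefl : ∀ i ∈ I, ∀ x, rel i x x)
    (S : Matrix X X ℝ) (hS1 : ∀ x, ∑ y, S x y = 1) (x : X) :
    ∑ y, approxKernel I rel i₀ S x y = 1 := by
  have h : ∀ y ∈ (Finset.univ : Finset X), approxKernel I rel i₀ S x y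
      = heatKernel I rel x y + (S x y - classKernel (rel i₀) x y) / (I.card : ℝ) := by
    intro y _
    rw [← approxKernel_sub I rel i₀ hi₀ S x y]
    ring
  rw [Finset.sum_congr rfl h, Finset.sum_add_distrib, ← Finset.sum_div,
    Finset.sum_sub_distrib, heatKernel_row_sum I ⟨i₀, hi₀⟩ rel hrefl x, hS1 x,
    classKernel_row_sum (rel i₀) x (hrefl i₀ hi₀ x)]
  simp

omit [DecidableEq X] in
/-- The rows of the approximate chain are `δ / |I|`-close to the rows of the ideal chain. -/
theorem approxKernel_close {ι : Type*} (I : Finset ι) (rel : ι → X → X → Prop) (i₀ : ι)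
    (hi₀ : i₀ ∈ I) (S : Matrix X X ℝ) (δ : ℝ)
    (hS : ∀ x, ∑ y, |S x y - classKernel (rel i₀) x y| ≤ δ) (x : X) :
    ∑ y, |approxKernel I rel i₀ S x y - heatKernel I rel x y| ≤ δ / (I.card : ℝ) := by
  have hpos : (0 : ℝ) < (I.card : ℝ) := Nat.cast_pos.mpr (Finset.card_pos.mpr ⟨i₀, hi₀⟩)
  have h : ∀ y ∈ (Finset.univ : Finset X), |approxKernel I rel i₀ S x y - heatKernel I rel x y|
      = |S x y - classKernel (rel i₀) x y| / (I.card : ℝ) := by
    intro y _
    rw [approxKernel_sub I rel i₀ hi₀ S x y, abs_div, abs_of_pos hpos]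
  rw [Finset.sum_congr rfl h, ← Finset.sum_div]
  exact div_le_div_of_nonneg_right (hS x) hpos.le

/-- Robust mixing.  Assume the Poincare inequality of `heatKernel_mix` for the relations
`rel i`, `i ∈ I`.  Replace the uniform resampling of the `rel i₀`-class by any transition matrix
`S` (nonnegative entries, row sums `1`) each of whose rows is within `δ`, in `ℓ¹` distance, of
the uniform distribution on the `rel i₀`-class of the current state.  Then from every start `x`
the `t`-step distribution of the resulting chain is within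
`sqrt |X| * (1 - 1 / (Cp * |I|)) ^ t + t * (δ / |I|)` of the uniform distribution on `X`, in
`ℓ¹` distance. -/
theorem approx_mix {ι : Type*} (I : Finset ι) (rel : ι → X → X → Prop)
    (hrel : ∀ i ∈ I, Equivalence (rel i)) (Cp : ℝ) (hC : 1 ≤ Cp)
    (hP : ∀ f : X → ℝ, ∑ x, (f x - (∑ y, f y) / (Fintype.card X : ℝ)) ^ 2
      ≤ Cp * ∑ i ∈ I, ∑ x, (f x - Vale.Agent.Lib.P335.Bip.av (rel i) f x) ^ 2)
    (i₀ : ι) (hi₀ : i₀ ∈ I) (S : Matrix X X ℝ) (hS0 : ∀ x y, 0 ≤ S x y)
    (hS1 : ∀ x, ∑ y, S x y = 1) (δ : ℝ)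
    (hS : ∀ x, ∑ y, |S x y - classKernel (rel i₀) x y| ≤ δ) (x : X) (t : ℕ) :
    ∑ y, |(approxKernel I rel i₀ S ^ t) x y - 1 / (Fintype.card X : ℝ)|
      ≤ Real.sqrt (Fintype.card X : ℝ) * (1 - 1 / (Cp * (I.card : ℝ))) ^ t
        + (t : ℝ) * (δ / (I.card : ℝ)) := by
  have hI : I.Nonempty := ⟨i₀, hi₀⟩
  have hrefl : ∀ i ∈ I, ∀ x, rel i x x := fun i hi x => (hrel i hi).refl x
  have h1 := heatKernel_mix I hI rel hrel Cp hC hP x t
  have h2 := pow_perturb (heatKernel I rel) (approxKernel I rel i₀ S)
    (heatKernel_entry_nonneg I rel) (heatKernel_row_sum I hI rel hrefl)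
    (approxKernel_nonneg I rel i₀ S hS0) (approxKernel_row_sum I rel i₀ hi₀ hrefl S hS1)
    (δ / (I.card : ℝ)) (approxKernel_close I rel i₀ hi₀ S δ hS) t x
  have h3 : ∀ y ∈ (Finset.univ : Finset X),
      |(approxKernel I rel i₀ S ^ t) x y - 1 / (Fintype.card X : ℝ)|
        ≤ |(approxKernel I rel i₀ S ^ t) x y - (heatKernel I rel ^ t) x y|
          + |(heatKernel I rel ^ t) x y - 1 / (Fintype.card X : ℝ)| := by
    intro y _
    have e : (approxKernel I rel i₀ S ^ t) x y - 1 / (Fintype.card X : ℝ)
        = ((approxKernel I rel i₀ S ^ t) x y - (heatKernel I rel ^ t) x y)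
          + ((heatKernel I rel ^ t) x y - 1 / (Fintype.card X : ℝ)) := by ring
    rw [e]
    exact abs_add_le _ _
  refine le_trans (Finset.sum_le_sum h3) ?_
  rw [Finset.sum_add_distrib]
  linarith

end Vale.Agent.Lib.P328.AM
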