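import Vale.Agent.Lib.P328.CT.MixTime
import Vale.Agent.Lib.P328.AM.ApproxKernel

/-!
# P328: robust mixing time on contingency tables

The chain on the tables `Tab r c` picks one of the equivalence relations `rel i`, `i ∈ I`,
uniformly at random and resamples the class of the current table, except that the resampling of
the `rel i₀`-class is performed by an arbitrary transition matrix `S` whose rows are within `δ`
of the uniform distribution on that class.  Under the Poincare inequality with constant `Cp`,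
after `t ≥ Cp |I| ((m / 2) ∑ j, log (c j + 1) + log (2 / ε))` steps, and if `t δ ≤ (ε / 2) |I|`,
the chain is within `ε` of the uniform distribution in `ℓ¹` distance.
-/

namespace Vale.Agent.Lib.P328.AM

open Finset
open scoped Classical
open Vale.Agent.Lib.P328.CT

variable {R C : Type*} [Fintype R] [Fintype C]

/-- Robust mixing time: see the header of this file. -/
theorem approx_mix_time {r : R → ℕ} {c : C → ℕ} {ι : Type*} (I : Finset ι)
    (rel : ι → Tab r c → Tab r c → Prop)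
    (hrel : ∀ i ∈ I, Equivalence (rel i)) (Cp : ℝ) (hC : 1 ≤ Cp)
    (hP : ∀ f : Tab r c → ℝ, ∑ x, (f x - (∑ y, f y) / (Fintype.card (Tab r c) : ℝ)) ^ 2
      ≤ Cp * ∑ i ∈ I, ∑ x, (f x - Vale.Agent.Lib.P335.Bip.av (rel i) f x) ^ 2)
    (i₀ : ι) (hi₀ : i₀ ∈ I) (S : Matrix (Tab r c) (Tab r c) ℝ) (hS0 : ∀ x y, 0 ≤ S x y)
    (hS1 : ∀ x, ∑ y, S x y = 1) (δ : ℝ)
    (hS : ∀ x, ∑ y, |S x y - classKernel (rel i₀) x y| ≤ δ)
    (ε : ℝ) (hε : 0 < ε) (t : ℕ)
    (ht : Cp * (I.card : ℝ)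
      * ((Fintype.card R : ℝ) / 2 * ∑ j, Real.log ((c j : ℝ) + 1) + Real.log (2 / ε)) ≤ t)
    (hδ : (t : ℝ) * δ ≤ ε / 2 * (I.card : ℝ)) (x : Tab r c) :
    ∑ y, |(approxKernel I rel i₀ S ^ t) x y - 1 / (Fintype.card (Tab r c) : ℝ)| ≤ ε := by
  have hcard : (1 : ℝ) ≤ (I.card : ℝ) := by
    have h : 1 ≤ I.card := Finset.card_pos.mpr ⟨i₀, hi₀⟩
    exact_mod_cast h
  have hK1 : (1 : ℝ) ≤ Cp * (I.card : ℝ) := by nlinarith
  have h1 := approx_mix I rel hrel Cp hC hP i₀ hi₀ S hS0 hS1 δ hS x t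
  have e : (1 : ℝ) / (ε / 2) = 2 / ε := by
    field_simp
  have h2 := mix_time_aux r c (Cp * (I.card : ℝ)) hK1 (ε / 2) (by positivity) t
    (by rw [e]; exact ht)
  have h3 : (t : ℝ) * (δ / (I.card : ℝ)) ≤ ε / 2 := by
    rw [← mul_div_assoc, div_le_iff₀ (by linarith)]
    exact hδ
  linarith

end Vale.Agent.Lib.P328.AM
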