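import Vale.Agent.Lib.P328.CT.TwoByTwo

/-!
# P328: transposition symmetry of the 2 × 2 heat bath

The transpose `tr M` of a table with row sums `r` and column sums `c` is a table with row sums
`c` and column sums `r`, and the 2 × 2 classes correspond (`boxClass c r p q (tr M)` is the
image of `boxClass r c q p M`).  Hence a Poincare inequality for the 2 × 2 heat bath on
`tables c r` gives the same inequality on `tables r c` (`box_poincare_transpose`).  The file
also derives the mixing statements of the 2 × 2 heat bath from a Poincare inequality on the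
set of tables with an arbitrary constant (`box_mixing_of_poincare`,
`box_mixing_time_of_poincare`).
-/

namespace Vale.Agent.Lib.P328.AM

open Finset
open scoped Classical
open Vale.Agent.Lib.P335.Bip
open Vale.Agent.Lib.P328.CT

variable {R C : Type*} [Fintype R] [Fintype C]

/-- The transpose of a table. -/
def tr (M : R → C → ℕ) : C → R → ℕ := fun j i => M i j

omit [Fintype R] [Fintype C] in
theorem tr_tr (M : R → C → ℕ) : tr (tr M) = M := rfl

theorem tr_mem_tables {r : R → ℕ} {c : C → ℕ} {M : R → C → ℕ} :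
    tr M ∈ tables c r ↔ M ∈ tables r c := by
  rw [mem_tables, mem_tables]
  exact ⟨fun h => ⟨h.2, h.1⟩, fun h => ⟨h.2, h.1⟩⟩

/-- Sums over `tables c r` are sums over `tables r c` of the transposed tables. -/
theorem sum_tables_tr (r : R → ℕ) (c : C → ℕ) (g : (C → R → ℕ) → ℝ) :
    ∑ N ∈ tables c r, g N = ∑ M ∈ tables r c, g (tr M) := by
  refine Finset.sum_nbij' (fun N => tr N) (fun M => tr M) ?_ ?_ ?_ ?_ ?_
  · intro N hN
    exact tr_mem_tables.mpr hN
  · intro M hM
    exact tr_mem_tables.mpr hM
  · intro N _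
    rfl
  · intro M _
    rfl
  · intro N _
    rfl

theorem card_tables_tr (r : R → ℕ) (c : C → ℕ) :
    ((tables c r).card : ℝ) = ((tables r c).card : ℝ) := by
  have h := sum_tables_tr r c (fun _ => (1 : ℝ))
  rw [Finset.sum_const, Finset.sum_const, nsmul_eq_mul, nsmul_eq_mul, mul_one, mul_one] at h
  exact h

theorem tr_mem_boxClass (r : R → ℕ) (c : C → ℕ) (q : Finset R) (p : Finset C)
    (M N : R → C → ℕ) :
    tr N ∈ boxClass c r p q (tr M) ↔ N ∈ boxClass r c q p M := by
  unfold boxClass
  rw [Finset.mem_filter, Finset.mem_filter, tr_mem_tables]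
  refine and_congr Iff.rfl ⟨fun h i j hij => ?_, fun h j i hji => ?_⟩
  · exact h j i hij.symm
  · exact h i j hji.symm

/-- Sums over a 2 × 2 class of the transposed table. -/
theorem sum_boxClass_tr (r : R → ℕ) (c : C → ℕ) (q : Finset R) (p : Finset C)
    (M : R → C → ℕ) (g : (C → R → ℕ) → ℝ) :
    ∑ N ∈ boxClass c r p q (tr M), g N = ∑ N ∈ boxClass r c q p M, g (tr N) := by
  refine Finset.sum_nbij' (fun N => tr N) (fun N => tr N) ?_ ?_ ?_ ?_ ?_
  · intro N hN
    exact (tr_mem_boxClass r c q p M (tr N)).mp hN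
  · intro N hN
    exact (tr_mem_boxClass r c q p M N).mpr hN
  · intro N _
    rfl
  · intro N _
    rfl
  · intro N _
    rfl

/-- The 2 × 2 class average of the transposed table. -/
theorem boxAvg_tr (r : R → ℕ) (c : C → ℕ) (q : Finset R) (p : Finset C)
    (f : (C → R → ℕ) → ℝ) (M : R → C → ℕ) :
    boxAvg c r p q f (tr M) = boxAvg r c q p (fun M' => f (tr M')) M := by
  have hcard : ((boxClass c r p q (tr M)).card : ℝ) = ((boxClass r c q p M).card : ℝ) := by
    have h := sum_boxClass_tr r c q p M (fun _ => (1 : ℝ))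
    rw [Finset.sum_const, Finset.sum_const, nsmul_eq_mul, nsmul_eq_mul, mul_one, mul_one] at h
    exact h
  unfold boxAvg
  rw [sum_boxClass_tr r c q p M f, hcard]

/-- **Transposition.**  A Poincare inequality for the 2 × 2 heat bath on the tables with row
sums `c` and column sums `r` gives the same inequality, with the same constant, on the tables
with row sums `r` and column sums `c`. -/
theorem box_poincare_transpose (r : R → ℕ) (c : C → ℕ) (K : ℝ)
    (h : ∀ f : (C → R → ℕ) → ℝ,
      ∑ N ∈ tables c r, (f N - (∑ N' ∈ tables c r, f N') / ((tables c r).card : ℝ)) ^ 2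
        ≤ K * ∑ p ∈ (Finset.univ : Finset C).powersetCard 2,
            ∑ q ∈ (Finset.univ : Finset R).powersetCard 2,
              ∑ N ∈ tables c r, (f N - boxAvg c r p q f N) ^ 2)
    (f : (R → C → ℕ) → ℝ) :
    ∑ M ∈ tables r c, (f M - (∑ N ∈ tables r c, f N) / ((tables r c).card : ℝ)) ^ 2
      ≤ K * ∑ q ∈ (Finset.univ : Finset R).powersetCard 2,
          ∑ p ∈ (Finset.univ : Finset C).powersetCard 2,
            ∑ M ∈ tables r c, (f M - boxAvg r c q p f M) ^ 2 := by
  have h1 := h (fun N => f (tr N))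
  have hsum : ∑ N' ∈ tables c r, f (tr N') = ∑ N ∈ tables r c, f N :=
    sum_tables_tr r c (fun N => f (tr N))
  have hL : ∑ N ∈ tables c r, (f (tr N) - (∑ N' ∈ tables c r, f (tr N'))
        / ((tables c r).card : ℝ)) ^ 2
      = ∑ M ∈ tables r c, (f M - (∑ N ∈ tables r c, f N) / ((tables r c).card : ℝ)) ^ 2 := by
    rw [hsum, card_tables_tr r c]
    exact sum_tables_tr r c
      (fun N => (f (tr N) - (∑ N ∈ tables r c, f N) / ((tables r c).card : ℝ)) ^ 2)
  have hR : ∀ p ∈ (Finset.univ : Finset C).powersetCard 2,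
      ∀ q ∈ (Finset.univ : Finset R).powersetCard 2,
      ∑ N ∈ tables c r, (f (tr N) - boxAvg c r p q (fun N => f (tr N)) N) ^ 2
        = ∑ M ∈ tables r c, (f M - boxAvg r c q p f M) ^ 2 := by
    intro p _ q _
    rw [sum_tables_tr r c
      (fun N => (f (tr N) - boxAvg c r p q (fun N => f (tr N)) N) ^ 2)]
    refine Finset.sum_congr rfl (fun M _ => ?_)
    rw [boxAvg_tr r c q p (fun N => f (tr N)) M]
    rfl
  rw [hL] at h1
  refine le_trans h1 (le_of_eq ?_)
  rw [Finset.sum_comm]
  refine congrArg (fun z => K * z) ?_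
  refine Finset.sum_congr rfl (fun q hq => ?_)
  exact Finset.sum_congr rfl (fun p hp => hR p hp q hq)

/-- Every function on the state space is the restriction of a function on all matrices. -/
theorem exists_extension {r : R → ℕ} {c : C → ℕ} (f : Tab r c → ℝ) :
    ∃ F : (R → C → ℕ) → ℝ, f = fun y : Tab r c => F y.1 := by
  refine ⟨fun M => if h : M ∈ tables r c then f ⟨M, h⟩ else 0, ?_⟩
  funext y
  show f y = if h : y.1 ∈ tables r c then f ⟨y.1, h⟩ else 0
  rw [dif_pos y.2]

/-- A Poincare inequality for the 2 × 2 heat bath on the set of tables gives the Poincare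
inequality on the state space, in the form used by `heatKernel_mix`. -/
theorem box_poincare_state (r : R → ℕ) (c : C → ℕ) (K : ℝ)
    (hP : ∀ F : (R → C → ℕ) → ℝ,
      ∑ M ∈ tables r c, (F M - (∑ N ∈ tables r c, F N) / ((tables r c).card : ℝ)) ^ 2
        ≤ K * ∑ q ∈ (Finset.univ : Finset R).powersetCard 2,
            ∑ p ∈ (Finset.univ : Finset C).powersetCard 2,
              ∑ M ∈ tables r c, (F M - boxAvg r c q p F M) ^ 2)
    (f : Tab r c → ℝ) :
    ∑ y, (f y - (∑ z, f z) / (Fintype.card (Tab r c) : ℝ)) ^ 2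
      ≤ K * ∑ qp ∈ ((Finset.univ : Finset R).powersetCard 2) ×ˢ
            ((Finset.univ : Finset C).powersetCard 2),
          ∑ y, (f y - av (RelBox qp.1 qp.2) f y) ^ 2 := by
  obtain ⟨F, rfl⟩ := exists_extension f
  have h := hP F
  have hcard : (Fintype.card (Tab r c) : ℝ) = ((tables r c).card : ℝ) := by
    rw [Fintype.card_coe]
  have hsum : ∑ z : Tab r c, F z.1 = ∑ N ∈ tables r c, F N :=
    Finset.sum_coe_sort (tables r c) F
  have hL : ∑ y : Tab r c, (F y.1 - (∑ z : Tab r c, F z.1) / (Fintype.card (Tab r c) : ℝ)) ^ 2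
      = ∑ M ∈ tables r c, (F M - (∑ N ∈ tables r c, F N) / ((tables r c).card : ℝ)) ^ 2 := by
    rw [hsum, hcard]
    exact Finset.sum_coe_sort (tables r c)
      (fun M => (F M - (∑ N ∈ tables r c, F N) / ((tables r c).card : ℝ)) ^ 2)
  rw [hL, Finset.sum_product]
  refine le_trans h (le_of_eq ?_)
  refine congrArg (fun z => K * z) ?_
  refine Finset.sum_congr rfl (fun q _ => ?_)
  refine Finset.sum_congr rfl (fun p _ => ?_)
  exact (sum_tab_box_eq q p F).symm

/-- Mixing of the 2 × 2 heat bath from a Poincare inequality on the set of tables with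
constant `K ≥ 1`. -/
theorem box_mixing_of_poincare (r : R → ℕ) (c : C → ℕ) (hR : 2 ≤ Fintype.card R)
    (hC : 2 ≤ Fintype.card C) (K : ℝ) (hK : 1 ≤ K)
    (hP : ∀ F : (R → C → ℕ) → ℝ,
      ∑ M ∈ tables r c, (F M - (∑ N ∈ tables r c, F N) / ((tables r c).card : ℝ)) ^ 2
        ≤ K * ∑ q ∈ (Finset.univ : Finset R).powersetCard 2,
            ∑ p ∈ (Finset.univ : Finset C).powersetCard 2,
              ∑ M ∈ tables r c, (F M - boxAvg r c q p F M) ^ 2)
    (x : Tab r c) (t : ℕ) :
    ∑ y, |(heatKernel (((Finset.univ : Finset R).powersetCard 2) ×ˢ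
            ((Finset.univ : Finset C).powersetCard 2))
          (fun qp => RelBox (r := r) (c := c) qp.1 qp.2) ^ t) x y
          - 1 / (Fintype.card (Tab r c) : ℝ)|
      ≤ Real.sqrt (Fintype.card (Tab r c) : ℝ)
        * (1 - 1 / (K * (((Fintype.card R).choose 2 : ℝ)
            * ((Fintype.card C).choose 2 : ℝ)))) ^ t := by
  have hneR : ((Finset.univ : Finset R).powersetCard 2).Nonempty := by
    rw [Finset.powersetCard_nonempty, Finset.card_univ]
    exact hR
  have hneC : ((Finset.univ : Finset C).powersetCard 2).Nonempty := by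
    rw [Finset.powersetCard_nonempty, Finset.card_univ]
    exact hC
  have hne : (((Finset.univ : Finset R).powersetCard 2) ×ˢ
      ((Finset.univ : Finset C).powersetCard 2)).Nonempty := Finset.Nonempty.product hneR hneC
  have key := heatKernel_mix (((Finset.univ : Finset R).powersetCard 2) ×ˢ
      ((Finset.univ : Finset C).powersetCard 2)) hne
    (fun qp => RelBox (r := r) (c := c) qp.1 qp.2) (fun qp _ => relBox_equivalence _ _)
    K hK (box_poincare_state r c K hP) x t
  rw [Finset.card_product, Finset.card_powersetCard, Finset.card_powersetCard,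
    Finset.card_univ, Finset.card_univ, Nat.cast_mul] at key
  exact key

/-- Mixing time of the 2 × 2 heat bath from a Poincare inequality on the set of tables with
constant `K ≥ 1`. -/
theorem box_mixing_time_of_poincare (r : R → ℕ) (c : C → ℕ) (hR : 2 ≤ Fintype.card R)
    (hC : 2 ≤ Fintype.card C) (K : ℝ) (hK : 1 ≤ K)
    (hP : ∀ F : (R → C → ℕ) → ℝ,
      ∑ M ∈ tables r c, (F M - (∑ N ∈ tables r c, F N) / ((tables r c).card : ℝ)) ^ 2
        ≤ K * ∑ q ∈ (Finset.univ : Finset R).powersetCard 2,
            ∑ p ∈ (Finset.univ : Finset C).powersetCard 2,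
              ∑ M ∈ tables r c, (F M - boxAvg r c q p F M) ^ 2)
    (ε : ℝ) (hε : 0 < ε) (t : ℕ)
    (ht : K * (((Fintype.card R).choose 2 : ℝ) * ((Fintype.card C).choose 2 : ℝ))
        * ((Fintype.card R : ℝ) / 2 * ∑ j, Real.log ((c j : ℝ) + 1) + Real.log (1 / ε)) ≤ t)
    (x : Tab r c) :
    ∑ y, |(heatKernel (((Finset.univ : Finset R).powersetCard 2) ×ˢ
            ((Finset.univ : Finset C).powersetCard 2))
          (fun qp => RelBox (r := r) (c := c) qp.1 qp.2) ^ t) x y
          - 1 / (Fintype.card (Tab r c) : ℝ)|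
      ≤ ε := by
  refine le_trans (box_mixing_of_poincare r c hR hC K hK hP x t) ?_
  have hch : (1 : ℝ) ≤ ((Fintype.card R).choose 2 : ℝ) := by
    have h1 : 1 ≤ (Fintype.card R).choose 2 := Nat.choose_pos hR
    exact_mod_cast h1
  have hchC : (1 : ℝ) ≤ ((Fintype.card C).choose 2 : ℝ) := by
    have h1 : 1 ≤ (Fintype.card C).choose 2 := Nat.choose_pos hC
    exact_mod_cast h1
  have hprod : (1 : ℝ) ≤ ((Fintype.card R).choose 2 : ℝ) * ((Fintype.card C).choose 2 : ℝ) := by
    nlinarith
  have hK1 : (1 : ℝ) ≤ K * (((Fintype.card R).choose 2 : ℝ)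
      * ((Fintype.card C).choose 2 : ℝ)) := by
    nlinarith
  exact mix_time_aux r c _ hK1 ε hε t ht

end Vale.Agent.Lib.P328.AM
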