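import Vale.Agent.Lib.P328.AM.Wrap
import Vale.Agent.Lib.P328.AM.Transpose

/-!
# P328 / all margins: the 2 × 2 heat bath, rows or columns

`PCbox K r c` says that `K` is a Poincare constant of the 2 × 2 heat bath on the tables with
row sums `r` and column sums `c`.  By the transposition of tables (`box_poincare_transpose`),
`PCbox K c r` implies `PCbox K r c` (`pcbox_transpose`).  A Poincare constant of the row-pair
heat bath is one of the 2 × 2 heat bath (`pcbox_of_pcrow`), and `PCbox K r c` gives the `ℓ¹`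
mixing bound and the mixing time of the 2 × 2 heat bath (`pcbox_mixing`, `pcbox_mixing_time`).
`pcbox_rows_or_cols`: one symmetric constant for the two cases, all rows but two with small
entries or all columns but two with small entries.
-/

namespace Vale.Agent.Lib.P328.AM

open Finset
open scoped Classical
open Vale.Agent.Lib.P328.CT Vale.Agent.Lib.P335.Bip

variable {R C : Type*} [Fintype R] [Fintype C]

/-- `K` is a Poincare constant of the 2 × 2 heat bath on the tables with margins `r`, `c`. -/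
def PCbox (K : ℝ) (r : R → ℕ) (c : C → ℕ) : Prop :=
  ∀ f : (R → C → ℕ) → ℝ,
    ∑ M ∈ tables r c, (f M - (∑ N ∈ tables r c, f N) / ((tables r c).card : ℝ)) ^ 2
      ≤ K * ∑ q ∈ (Finset.univ : Finset R).powersetCard 2,
            ∑ p ∈ (Finset.univ : Finset C).powersetCard 2,
              ∑ M ∈ tables r c, (f M - boxAvg r c q p f M) ^ 2

/-- A larger constant is also a Poincare constant of the 2 × 2 heat bath. -/
theorem PCbox.mono {K K' : ℝ} {r : R → ℕ} {c : C → ℕ} (h : PCbox K r c) (hK : K ≤ K') :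
    PCbox K' r c := by
  intro f
  refine le_trans (h f) ?_
  apply mul_le_mul_of_nonneg_right hK
  exact Finset.sum_nonneg (fun q _ => Finset.sum_nonneg (fun p _ =>
    Finset.sum_nonneg (fun M _ => sq_nonneg _)))

/-- A Poincare constant `K ≥ 1` of the row-pair heat bath is a Poincare constant of the
2 × 2 heat bath (at least two columns). -/
theorem pcbox_of_pcrow {r : R → ℕ} {c : C → ℕ} {K : ℝ} (hK : 1 ≤ K) (h : PCrow K r c)
    (hC : 2 ≤ Fintype.card C) : PCbox K r c :=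
  fun f => pcrow_twobytwo_tables hK h hC f

/-- The Poincare constants of the 2 × 2 heat bath for the margins `(c, r)` are Poincare
constants for the margins `(r, c)`. -/
theorem pcbox_transpose {K : ℝ} {r : R → ℕ} {c : C → ℕ} (h : PCbox K c r) : PCbox K r c :=
  fun f => box_poincare_transpose r c K h f

/-- Mixing of the 2 × 2 heat bath from a Poincare constant `K ≥ 1`. -/
theorem pcbox_mixing {r : R → ℕ} {c : C → ℕ} {K : ℝ} (hK : 1 ≤ K) (h : PCbox K r c)
    (hR : 2 ≤ Fintype.card R) (hC : 2 ≤ Fintype.card C) (x : Tab r c) (t : ℕ) :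
    ∑ y, |(heatKernel (((Finset.univ : Finset R).powersetCard 2) ×ˢ
            ((Finset.univ : Finset C).powersetCard 2))
          (fun qp => RelBox (r := r) (c := c) qp.1 qp.2) ^ t) x y
          - 1 / (Fintype.card (Tab r c) : ℝ)|
      ≤ Real.sqrt (Fintype.card (Tab r c) : ℝ)
        * (1 - 1 / (K
            * (((Fintype.card R).choose 2 : ℝ) * ((Fintype.card C).choose 2 : ℝ)))) ^ t :=
  box_mixing_of_poincare r c hR hC K hK h x t

/-- The mixing time of the 2 × 2 heat bath from a Poincare constant `K ≥ 1`. -/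
theorem pcbox_mixing_time {r : R → ℕ} {c : C → ℕ} {K : ℝ} (hK : 1 ≤ K) (h : PCbox K r c)
    (hR : 2 ≤ Fintype.card R) (hC : 2 ≤ Fintype.card C) (ε : ℝ) (hε : 0 < ε) (t : ℕ)
    (ht : K * (((Fintype.card R).choose 2 : ℝ) * ((Fintype.card C).choose 2 : ℝ))
        * ((Fintype.card R : ℝ) / 2 * ∑ j, Real.log ((c j : ℝ) + 1) + Real.log (1 / ε)) ≤ t)
    (x : Tab r c) :
    ∑ y, |(heatKernel (((Finset.univ : Finset R).powersetCard 2) ×ˢ
            ((Finset.univ : Finset C).powersetCard 2))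
          (fun qp => RelBox (r := r) (c := c) qp.1 qp.2) ^ t) x y
          - 1 / (Fintype.card (Tab r c) : ℝ)|
      ≤ ε :=
  box_mixing_time_of_poincare r c hR hC K hK h ε hε t ht x

/-- Rows or columns: if all rows but two have all their entries forced to be at most `W`, or
all columns but two have all their entries forced to be at most `W`, then
`4 W^2 (max m n)^5` is a Poincare constant of the 2 × 2 heat bath (`m` rows, `n` columns),
given the Poincare constants `4 W^2 n^4 m` of the row-pair heat bath for the margins `(r, c)`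
in the first case and `4 W^2 m^4 n` for the transposed margins `(c, r)` in the second case. -/
theorem pcbox_rows_or_cols {r : R → ℕ} {c : C → ℕ} {W : ℕ} (hW : 1 ≤ W)
    (hR : 2 ≤ Fintype.card R) (hC : 2 ≤ Fintype.card C)
    (hrow : (∃ u₁ u₂ : R, u₁ ≠ u₂ ∧ ∀ i, i ≠ u₁ → i ≠ u₂ → ∀ j, min (r i) (c j) ≤ W) →
      PCrow (4 * (W : ℝ) ^ 2 * (Fintype.card C : ℝ) ^ 4 * (Fintype.card R : ℝ)) r c)
    (hcol : (∃ v₁ v₂ : C, v₁ ≠ v₂ ∧ ∀ j, j ≠ v₁ → j ≠ v₂ → ∀ i, min (c j) (r i) ≤ W) →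
      PCrow (4 * (W : ℝ) ^ 2 * (Fintype.card R : ℝ) ^ 4 * (Fintype.card C : ℝ)) c r)
    (h : (∃ u₁ u₂ : R, u₁ ≠ u₂ ∧ ∀ i, i ≠ u₁ → i ≠ u₂ → ∀ j, min (r i) (c j) ≤ W) ∨
      (∃ v₁ v₂ : C, v₁ ≠ v₂ ∧ ∀ j, j ≠ v₁ → j ≠ v₂ → ∀ i, min (r i) (c j) ≤ W)) :
    PCbox (4 * (W : ℝ) ^ 2 * ((max (Fintype.card R) (Fintype.card C) : ℕ) : ℝ) ^ 5) r c := by
  have hWr : (1 : ℝ) ≤ (W : ℝ) := by exact_mod_cast hW
  have hmr : (2 : ℝ) ≤ (Fintype.card R : ℝ) := by exact_mod_cast hR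
  have hnr : (2 : ℝ) ≤ (Fintype.card C : ℝ) := by exact_mod_cast hC
  have hmX : (Fintype.card R : ℝ) ≤ ((max (Fintype.card R) (Fintype.card C) : ℕ) : ℝ) := by
    exact_mod_cast le_max_left (Fintype.card R) (Fintype.card C)
  have hnX : (Fintype.card C : ℝ) ≤ ((max (Fintype.card R) (Fintype.card C) : ℕ) : ℝ) := by
    exact_mod_cast le_max_right (Fintype.card R) (Fintype.card C)
  have hW2 : (1 : ℝ) ≤ (W : ℝ) ^ 2 := one_le_pow₀ hWr
  have hm0 : (0 : ℝ) ≤ (Fintype.card R : ℝ) := by linarith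
  have hn0 : (0 : ℝ) ≤ (Fintype.card C : ℝ) := by linarith
  have hX0 : (0 : ℝ) ≤ ((max (Fintype.card R) (Fintype.card C) : ℕ) : ℝ) := by linarith
  have hm4 : (1 : ℝ) ≤ (Fintype.card R : ℝ) ^ 4 := one_le_pow₀ (by linarith)
  have hn4 : (1 : ℝ) ≤ (Fintype.card C : ℝ) ^ 4 := one_le_pow₀ (by linarith)
  have hm4X : (Fintype.card R : ℝ) ^ 4
      ≤ ((max (Fintype.card R) (Fintype.card C) : ℕ) : ℝ) ^ 4 := pow_le_pow_left₀ hm0 hmX 4
  have hn4X : (Fintype.card C : ℝ) ^ 4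
      ≤ ((max (Fintype.card R) (Fintype.card C) : ℕ) : ℝ) ^ 4 := pow_le_pow_left₀ hn0 hnX 4
  have hX4 : (0 : ℝ) ≤ ((max (Fintype.card R) (Fintype.card C) : ℕ) : ℝ) ^ 4 := pow_nonneg hX0 4
  have h5 : ((max (Fintype.card R) (Fintype.card C) : ℕ) : ℝ) ^ 5
      = ((max (Fintype.card R) (Fintype.card C) : ℕ) : ℝ) ^ 4
        * ((max (Fintype.card R) (Fintype.card C) : ℕ) : ℝ) := by ring
  have hW0 : (0 : ℝ) ≤ 4 * (W : ℝ) ^ 2 := by positivity
  rcases h with h | h
  · have hK1 : (1 : ℝ)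
        ≤ 4 * (W : ℝ) ^ 2 * (Fintype.card C : ℝ) ^ 4 * (Fintype.card R : ℝ) := by
      have h1 : (1 : ℝ) ≤ (W : ℝ) ^ 2 * (Fintype.card C : ℝ) ^ 4 := by nlinarith
      nlinarith
    refine (pcbox_of_pcrow hK1 (hrow h) hC).mono ?_
    have hle : (Fintype.card C : ℝ) ^ 4 * (Fintype.card R : ℝ)
        ≤ ((max (Fintype.card R) (Fintype.card C) : ℕ) : ℝ) ^ 4
          * ((max (Fintype.card R) (Fintype.card C) : ℕ) : ℝ) :=
      mul_le_mul hn4X hmX hm0 hX4
    rw [h5]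
    calc 4 * (W : ℝ) ^ 2 * (Fintype.card C : ℝ) ^ 4 * (Fintype.card R : ℝ)
        = 4 * (W : ℝ) ^ 2 * ((Fintype.card C : ℝ) ^ 4 * (Fintype.card R : ℝ)) := by ring
      _ ≤ 4 * (W : ℝ) ^ 2 * (((max (Fintype.card R) (Fintype.card C) : ℕ) : ℝ) ^ 4
          * ((max (Fintype.card R) (Fintype.card C) : ℕ) : ℝ)) :=
        mul_le_mul_of_nonneg_left hle hW0
  · have h' : ∃ v₁ v₂ : C, v₁ ≠ v₂ ∧ ∀ j, j ≠ v₁ → j ≠ v₂ → ∀ i, min (c j) (r i) ≤ W := by
      obtain ⟨v₁, v₂, hv, hall⟩ := h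
      refine ⟨v₁, v₂, hv, fun j h1 h2 i => ?_⟩
      rw [min_comm]
      exact hall j h1 h2 i
    have hK1 : (1 : ℝ)
        ≤ 4 * (W : ℝ) ^ 2 * (Fintype.card R : ℝ) ^ 4 * (Fintype.card C : ℝ) := by
      have h1 : (1 : ℝ) ≤ (W : ℝ) ^ 2 * (Fintype.card R : ℝ) ^ 4 := by nlinarith
      nlinarith
    refine (pcbox_transpose (pcbox_of_pcrow hK1 (hcol h') hR)).mono ?_
    have hle : (Fintype.card R : ℝ) ^ 4 * (Fintype.card C : ℝ)
        ≤ ((max (Fintype.card R) (Fintype.card C) : ℕ) : ℝ) ^ 4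
          * ((max (Fintype.card R) (Fintype.card C) : ℕ) : ℝ) :=
      mul_le_mul hm4X hnX hn0 hX4
    rw [h5]
    calc 4 * (W : ℝ) ^ 2 * (Fintype.card R : ℝ) ^ 4 * (Fintype.card C : ℝ)
        = 4 * (W : ℝ) ^ 2 * ((Fintype.card R : ℝ) ^ 4 * (Fintype.card C : ℝ)) := by ring
      _ ≤ 4 * (W : ℝ) ^ 2 * (((max (Fintype.card R) (Fintype.card C) : ℕ) : ℝ) ^ 4
          * ((max (Fintype.card R) (Fintype.card C) : ℕ) : ℝ)) :=
        mul_le_mul_of_nonneg_left hle hW0

end Vale.Agent.Lib.P328.AM
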