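import Vale.Agent.Lib.P328.CT.Final

/-!
# P328 / all margins: the statement of the cross bound on the set of contingency tables

`CrossCT R C`: for all margins `r`, `c`, every row `m` and every `W` such that for every
column `j` the row sum `r m` or the column sum `c j` is at most `W`, the sum over the tables
of the squared differences between the conditional mean of `f` given the row `m`
(`blockAvg r c (univ.erase m) f`) and the mean of `f` is at most `4 W^2 n^4 m` times the sum
of the row-pair terms of the pairs `{u, m}` (`n` columns, `m` rows).
-/

namespace Vale.Agent.Lib.P328.AM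

open Finset
open scoped Classical
open Vale.Agent.Lib.P328.CT Vale.Agent.Lib.P335.Bip

universe u v

/-- The cross bound of the peeling of the row `m`, on the set of contingency tables. -/
def CrossCT (R : Type u) (C : Type v) [Fintype R] [Fintype C] : Prop :=
  ∀ (r : R → ℕ) (c : C → ℕ) (m : R) (W : ℕ), (∀ j, min (r m) (c j) ≤ W) →
    ∀ f : (R → C → ℕ) → ℝ,
      ∑ M ∈ tables r c, (blockAvg r c (Finset.univ.erase m) f M
          - (∑ N ∈ tables r c, f N) / ((tables r c).card : ℝ)) ^ 2
        ≤ 4 * (W : ℝ) ^ 2 * (Fintype.card C : ℝ) ^ 4 * (Fintype.card R : ℝ)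
            * ∑ u ∈ Finset.univ.erase m,
                ∑ M ∈ tables r c, (f M - blockAvg r c {u, m} f M) ^ 2

end Vale.Agent.Lib.P328.AM
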