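import Vale.Agent.Lib.P328.Hive.Main

/-!
# P328 (all margins): coupling objects and the statement of the star coupling

`UCpl S S' Rel` is a coupling of the uniform laws on two finite sets `S`, `S'` that is
supported on the relation `Rel`.  `OmF E D` is the finite set of tables on the cell set `E`
with signed margin vector `D` (the model of `Hive/Count`).  `StarRel w T T'` says that the two
tables differ, on the cells at the vertex `w`, in exactly one cell and by exactly one unit.
`StarCouplingStatement` is the star coupling: if the margins of two nonempty classes differ by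
`single w 1 - single q 1`, their uniform laws have a coupling supported on `StarRel w`.
-/

namespace Vale.Agent.Lib.P328.AM

open Finset Vale.Agent.Lib.P328.Hive

/-- A coupling of the uniform laws on `S` and `S'` supported on `Rel`. -/
def UCpl {α : Type*} (S S' : Finset α) (Rel : α → α → Prop) : Prop :=
  ∃ κ : α → α → ℝ, (∀ x y, 0 ≤ κ x y) ∧ (∀ x ∈ S, ∀ y ∈ S', κ x y ≠ 0 → Rel x y) ∧
    (∀ x ∈ S, ∑ y ∈ S', κ x y = 1 / (S.card : ℝ)) ∧
    (∀ y ∈ S', ∑ x ∈ S, κ x y = 1 / (S'.card : ℝ))

variable {R C : Type*} [Fintype R] [Fintype C] [DecidableEq R] [DecidableEq C]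

/-- The finite set of tables on `E` with signed margin vector `D`. -/
noncomputable def OmF (E : Finset (R × C)) (D : R ⊕ C → ℤ) : Finset (R × C → ℕ) :=
  (Om_finite E D).toFinset

theorem mem_OmF {E : Finset (R × C)} {D : R ⊕ C → ℤ} {T : R × C → ℕ} :
    T ∈ OmF E D ↔ T ∈ Om E D := by
  unfold OmF
  exact Set.Finite.mem_toFinset _

theorem card_OmF (E : Finset (R × C)) (D : R ⊕ C → ℤ) : (OmF E D).card = cnt E D := by
  unfold OmF cnt
  exact (Set.ncard_eq_toFinset_card _ _).symm

/-- The two tables differ on the cells at `w` in exactly one cell, by exactly one unit. -/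
def StarRel (w : R ⊕ C) (T T' : R × C → ℕ) : Prop :=
  ∃ e : R × C, chi e w ≠ 0 ∧ (T' e = T e + 1 ∨ T e = T' e + 1) ∧
    ∀ e' : R × C, chi e' w ≠ 0 → e' ≠ e → T' e' = T e'

/-- The star coupling for the cell set `E`: all margins, all pairs of vertices. -/
def StarCouplingOn (E : Finset (R × C)) : Prop :=
  ∀ (D : R ⊕ C → ℤ) (w q : R ⊕ C), q ≠ w → cnt E D ≠ 0 →
    cnt E (D + Pi.single w 1 - Pi.single q 1) ≠ 0 →
    UCpl (OmF E D) (OmF E (D + Pi.single w 1 - Pi.single q 1)) (StarRel w)

end Vale.Agent.Lib.P328.AM
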