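import Vale.Agent.Lib.P328.AM.Defs

/-!
# P328 / all margins: tables with prescribed values on a set of cells

`res S T` is the restriction of a table `T` to the set of cells `S` (zero elsewhere).  For
`S ⊆ E` and a table `σ` that vanishes outside `S`, the tables of `Om E D` that agree with `σ`
on `S` are exactly the tables `A + σ` with `A ∈ Om (E \ S) (D - dv σ)`.  Sums over the finite
set `OmF E D` of these tables (see `Defs`) are decomposed along the values on `S`.
-/

namespace Vale.Agent.Lib.P328.AM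

open Finset
open Vale.Agent.Lib.P328.Hive

variable {R C : Type*} [Fintype R] [Fintype C] [DecidableEq R] [DecidableEq C]

theorem dv_add (A B : R × C → ℕ) : dv (A + B) = dv A + dv B := by
  unfold dv
  rw [← Finset.sum_add_distrib]
  refine Finset.sum_congr rfl (fun e _ => ?_)
  rw [Pi.add_apply, Nat.cast_add, add_smul]

theorem dv_zero : dv (0 : R × C → ℕ) = 0 := by
  unfold dv
  simp

theorem dv_single (e : R × C) (t : ℕ) : dv (Pi.single e t : R × C → ℕ) = (t : ℤ) • chi e := by
  unfold dv
  rw [Finset.sum_eq_single e]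
  · rw [Pi.single_eq_same]
  · intro e' _ he'
    rw [Pi.single_eq_of_ne he']
    simp
  · intro h
    exact absurd (Finset.mem_univ e) h

/-- The restriction of a table to a set of cells. -/
def res (S : Finset (R × C)) (T : R × C → ℕ) : R × C → ℕ := fun e => if e ∈ S then T e else 0

omit [Fintype R] [Fintype C] in
theorem res_apply_of_mem {S : Finset (R × C)} (T : R × C → ℕ) {e : R × C} (he : e ∈ S) :
    res S T e = T e := if_pos he

omit [Fintype R] [Fintype C] in
theorem res_apply_of_notMem {S : Finset (R × C)} (T : R × C → ℕ) {e : R × C} (he : e ∉ S) :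
    res S T e = 0 := if_neg he

omit [Fintype R] [Fintype C] in
theorem res_eq_self {S : Finset (R × C)} {σ : R × C → ℕ} (hσ : ∀ e, e ∉ S → σ e = 0) :
    res S σ = σ := by
  funext e
  by_cases he : e ∈ S
  · exact res_apply_of_mem σ he
  · rw [res_apply_of_notMem σ he, hσ e he]

omit [Fintype R] [Fintype C] in
/-- A table supported on `E` is the sum of its restrictions to `S` and to `E \ S`. -/
theorem res_sdiff_add_res {E S : Finset (R × C)} {T : R × C → ℕ}
    (hT : ∀ e, e ∉ E → T e = 0) : res (E \ S) T + res S T = T := by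
  funext e
  rw [Pi.add_apply]
  by_cases heS : e ∈ S
  · rw [res_apply_of_mem T heS,
      res_apply_of_notMem T (fun h => (Finset.mem_sdiff.mp h).2 heS), zero_add]
  · rw [res_apply_of_notMem T heS, add_zero]
    by_cases heE : e ∈ E
    · exact res_apply_of_mem T (Finset.mem_sdiff.mpr ⟨heE, heS⟩)
    · rw [res_apply_of_notMem T (fun h => heE (Finset.mem_sdiff.mp h).1), hT e heE]

omit [Fintype R] [Fintype C] in
/-- The restriction to `S` of `A + σ`, for `A` vanishing on `S` and `σ` vanishing outside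
`S`. -/
theorem res_add {S : Finset (R × C)} {A σ : R × C → ℕ} (hA : ∀ e, e ∈ S → A e = 0)
    (hσ : ∀ e, e ∉ S → σ e = 0) : res S (A + σ) = σ := by
  funext e
  by_cases he : e ∈ S
  · rw [res_apply_of_mem _ he, Pi.add_apply, hA e he, zero_add]
  · rw [res_apply_of_notMem _ he, hσ e he]

omit [Fintype R] [Fintype C] in
theorem res_sdiff_add {E S : Finset (R × C)} {A σ : R × C → ℕ}
    (hA : ∀ e, e ∉ E \ S → A e = 0) (hσ : ∀ e, e ∉ S → σ e = 0) :
    res (E \ S) (A + σ) = A := by
  funext e
  by_cases he : e ∈ E \ S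
  · rw [res_apply_of_mem _ he, Pi.add_apply, hσ e (Finset.mem_sdiff.mp he).2, add_zero]
  · rw [res_apply_of_notMem _ he, hA e he]

/-- Adding prescribed values on `S` to a table on `E \ S`. -/
theorem add_mem_Om {E S : Finset (R × C)} (hSE : S ⊆ E) {D : R ⊕ C → ℤ} {σ A : R × C → ℕ}
    (hσ : ∀ e, e ∉ S → σ e = 0) (hA : A ∈ Om (E \ S) (D - dv σ)) : A + σ ∈ Om E D := by
  refine ⟨?_, ?_⟩
  · intro e he
    rw [Pi.add_apply, hA.1 e (fun h => he (Finset.mem_sdiff.mp h).1),
      hσ e (fun h => he (hSE h))]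
  · rw [dv_add, hA.2]
    abel

/-- Removing the values on `S` from a table on `E`. -/
theorem res_sdiff_mem_Om {E : Finset (R × C)} (S : Finset (R × C)) {D : R ⊕ C → ℤ}
    {T : R × C → ℕ} (hT : T ∈ Om E D) : res (E \ S) T ∈ Om (E \ S) (D - dv (res S T)) := by
  refine ⟨fun e he => res_apply_of_notMem T he, ?_⟩
  have h := congrArg dv (res_sdiff_add_res (S := S) hT.1)
  rw [dv_add, hT.2] at h
  rw [← h]
  abel

/-- The tables of `Om E D` with the values `σ` on `S` are the tables `A + σ` with `A` a table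
on `E \ S` with margins `D - dv σ`. -/
theorem fiberS_eq_image {E S : Finset (R × C)} (hSE : S ⊆ E) (D : R ⊕ C → ℤ)
    {σ : R × C → ℕ} (hσ : ∀ e, e ∉ S → σ e = 0) :
    {T ∈ Om E D | res S T = σ} = (fun A => A + σ) '' Om (E \ S) (D - dv σ) := by
  ext T
  constructor
  · rintro ⟨hT, hres⟩
    refine ⟨res (E \ S) T, ?_, ?_⟩
    · have := res_sdiff_mem_Om S hT
      rwa [hres] at this
    · show res (E \ S) T + σ = T
      rw [← hres]
      exact res_sdiff_add_res hT.1
  · rintro ⟨A, hA, rfl⟩
    exact ⟨add_mem_Om hSE hσ hA, res_add (fun e he => hA.1 e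
      (fun h => (Finset.mem_sdiff.mp h).2 he)) hσ⟩

/-- The number of tables of `Om E D` with the values `σ` on `S`. -/
theorem fiberS_ncard {E S : Finset (R × C)} (hSE : S ⊆ E) (D : R ⊕ C → ℤ)
    {σ : R × C → ℕ} (hσ : ∀ e, e ∉ S → σ e = 0) :
    {T ∈ Om E D | res S T = σ}.ncard = cnt (E \ S) (D - dv σ) := by
  rw [fiberS_eq_image hSE D hσ]
  exact Set.ncard_image_of_injective _ (fun A A' h => add_right_cancel h)

/-- A sum over the tables on `E` with the values `σ` on `S` is a sum over the tables on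
`E \ S`. -/
theorem sum_OmF_filter_res {E S : Finset (R × C)} (hSE : S ⊆ E) (D : R ⊕ C → ℤ)
    {σ : R × C → ℕ} (hσ : ∀ e, e ∉ S → σ e = 0) (G : (R × C → ℕ) → ℝ) :
    ∑ T ∈ (OmF E D).filter (fun T => res S T = σ), G T
      = ∑ A ∈ OmF (E \ S) (D - dv σ), G (A + σ) := by
  refine Finset.sum_nbij' (fun T => res (E \ S) T) (fun A => A + σ) ?_ ?_ ?_ ?_ ?_
  · intro T hT
    rw [Finset.mem_filter, mem_OmF] at hT
    rw [mem_OmF]
    have := res_sdiff_mem_Om S hT.1
    rwa [hT.2] at this
  · intro A hA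
    rw [mem_OmF] at hA
    rw [Finset.mem_filter, mem_OmF]
    exact ⟨add_mem_Om hSE hσ hA, res_add (fun e he => hA.1 e
      (fun h => (Finset.mem_sdiff.mp h).2 he)) hσ⟩
  · intro T hT
    rw [Finset.mem_filter, mem_OmF] at hT
    show res (E \ S) T + σ = T
    rw [← hT.2]
    exact res_sdiff_add_res hT.1.1
  · intro A hA
    rw [mem_OmF] at hA
    exact res_sdiff_add hA.1 hσ
  · intro T hT
    rw [Finset.mem_filter, mem_OmF] at hT
    show G T = G (res (E \ S) T + σ)
    rw [← hT.2, res_sdiff_add_res hT.1.1]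

/-- Decomposition of a sum over the tables on `E` along their values on `S`. -/
theorem sum_OmF_res {E S : Finset (R × C)} (hSE : S ⊆ E) (D : R ⊕ C → ℤ)
    (G : (R × C → ℕ) → ℝ) :
    ∑ T ∈ OmF E D, G T
      = ∑ σ ∈ (OmF E D).image (res S), ∑ A ∈ OmF (E \ S) (D - dv σ), G (A + σ) := by
  rw [← Finset.sum_fiberwise_of_maps_to (g := res S) (t := (OmF E D).image (res S))
    (fun T hT => Finset.mem_image_of_mem _ hT)]
  refine Finset.sum_congr rfl (fun σ hσ => ?_)
  obtain ⟨T0, -, rfl⟩ := Finset.mem_image.mp hσ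
  exact sum_OmF_filter_res hSE D (fun e he => res_apply_of_notMem T0 he) G

/-- The number of tables on `E` with the values `σ` on `S`, as a cardinality of a finite
set. -/
theorem card_OmF_filter_res {E S : Finset (R × C)} (hSE : S ⊆ E) (D : R ⊕ C → ℤ)
    {σ : R × C → ℕ} (hσ : ∀ e, e ∉ S → σ e = 0) :
    ((OmF E D).filter (fun T => res S T = σ)).card = cnt (E \ S) (D - dv σ) := by
  have h := sum_OmF_filter_res hSE D hσ (fun _ => (1 : ℝ))
  rw [Finset.sum_const, Finset.sum_const, nsmul_eq_mul, nsmul_eq_mul, mul_one, mul_one,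
    card_OmF] at h
  exact_mod_cast h

end Vale.Agent.Lib.P328.AM
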