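import Vale.Agent.Lib.P328.AM.Defs
import Vale.Agent.Lib.P328.AM.Restrict
import Vale.Agent.Lib.P328.Poly.Defs

/-!
# P328 / all margins: definitions and statements for the peeling of one row (part (D))

Tables are functions `R × C → ℕ` on a cell set `E` with signed margin vector `D`
(`Hive/Count`), `OmF E D` is their finite set (`AM/Defs`).

* `rowOf u T`: the content of the row `u` of the table `T`;
* `rowTab u y`: the table whose only nonzero row is `u`, with content `y`;
* `rowCnt E D u y`: the number of tables of `OmF E D` whose row `u` is `y`;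
* `mvRow x j k`: the row content `x` with one unit added at `j` and one unit removed at `k`;
* `hClass E D q T`: the tables of `OmF E D` that agree with `T` outside the rows of `q`;
  `hAvg E D q F T`: the average of `F` over this class; `hVar E D q F`: the sum over all
  tables `T` of `OmF E D` of the squared deviation of `F T` from `hAvg E D q F T`.

The statements of the parts of the proof are recorded as propositions:
`OneRowStatement` (nearest-neighbour Poincare inequality for the law of one row),
`PColStatement` (comparison of the means over two neighbouring classes of tables on a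
rectangle), `PeelStatement` (the variance of the conditional mean given one row is bounded by
the row-pair energies through that row) and `HiveStatement` (the row-pair Poincare inequality
for all row sets containing two given rows).
-/

namespace Vale.Agent.Lib.P328.AM

open Finset
open Vale.Agent.Lib.P328.Hive

variable {R C : Type*} [Fintype R] [Fintype C] [DecidableEq R] [DecidableEq C]

/-- The content of the row `u` of a table. -/
def rowOf (u : R) (T : R × C → ℕ) : C → ℕ := fun j => T (u, j)

/-- The table whose only nonzero row is `u`, with content `y`. -/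
def rowTab (u : R) (y : C → ℕ) : R × C → ℕ := fun e => if e.1 = u then y e.2 else 0

/-- The number of tables of `OmF E D` whose row `u` has content `y`. -/
noncomputable def rowCnt (E : Finset (R × C)) (D : R ⊕ C → ℤ) (u : R) (y : C → ℕ) : ℕ :=
  ((OmF E D).filter (fun T => rowOf u T = y)).card

/-- The row content `x` with one unit added at `j` and one unit removed at `k`. -/
def mvRow (x : C → ℕ) (j k : C) : C → ℕ :=
  Function.update (Function.update x j (x j + 1)) k (x k - 1)

/-- The tables of `OmF E D` that agree with `T` on every row outside `q`. -/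
noncomputable def hClass (E : Finset (R × C)) (D : R ⊕ C → ℤ) (q : Finset R) (T : R × C → ℕ) :
    Finset (R × C → ℕ) :=
  (OmF E D).filter (fun T' => ∀ e : R × C, e.1 ∉ q → T' e = T e)

/-- The average of `F` over the tables of `OmF E D` that agree with `T` outside the rows of
`q`. -/
noncomputable def hAvg (E : Finset (R × C)) (D : R ⊕ C → ℤ) (q : Finset R)
    (F : (R × C → ℕ) → ℝ) (T : R × C → ℕ) : ℝ :=
  (∑ T' ∈ hClass E D q T, F T') / ((hClass E D q T).card : ℝ)

/-- The sum over the tables of `OmF E D` of the squared deviation of `F` from its average over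
the tables that agree with the given one outside the rows of `q`. -/
noncomputable def hVar (E : Finset (R × C)) (D : R ⊕ C → ℤ) (q : Finset R)
    (F : (R × C → ℕ) → ℝ) : ℝ :=
  ∑ T ∈ OmF E D, (F T - hAvg E D q F T) ^ 2

/-- The row content `z` with one unit added at `l`. -/
def incr (z : C → ℕ) (l : C) : C → ℕ := Function.update z l (z l + 1)

/-- The row content `x` with one unit removed at `k`. -/
def decr (x : C → ℕ) (k : C) : C → ℕ := Function.update x k (x k - 1)

/-- The average of `F` over the tables of `OmF E D` whose row `u` has content `y`. -/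
noncomputable def rowAvg (E : Finset (R × C)) (D : R ⊕ C → ℤ) (u : R) (F : (R × C → ℕ) → ℝ)
    (y : C → ℕ) : ℝ :=
  (∑ T ∈ (OmF E D).filter (fun T => rowOf u T = y), F T) / (rowCnt E D u y : ℝ)

/-- The energy of the row pair `{u, v}` carried by the tables of `OmF E D` whose row `u` has
content `y`. -/
noncomputable def rowEn (E : Finset (R × C)) (D : R ⊕ C → ℤ) (u v : R) (F : (R × C → ℕ) → ℝ)
    (y : C → ℕ) : ℝ :=
  ∑ T ∈ (OmF E D).filter (fun T => rowOf u T = y), (F T - hAvg E D {u, v} F T) ^ 2

/-- Part (C): nearest-neighbour Poincare inequality for the law of the row `m` of a uniformly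
random table of `OmF E D`, all entries of that row being at most `L`. -/
def OneRowStatement (R C : Type*) [Fintype R] [Fintype C] [DecidableEq R] [DecidableEq C] :
    Prop :=
  ∀ (E : Finset (R × C)) (D : R ⊕ C → ℤ) (m : R) (L : ℕ),
    (∀ T ∈ OmF E D, ∀ j, T (m, j) ≤ L) → ∀ g : (C → ℕ) → ℝ,
      ∑ T ∈ OmF E D, ∑ T' ∈ OmF E D, (g (rowOf m T) - g (rowOf m T')) ^ 2
        ≤ 2 * (L : ℝ) ^ 2 * ((OmF E D).card : ℝ)
            * ∑ x ∈ (OmF E D).image (rowOf m), ∑ j, ∑ k,
                (if j = k then 0 else
                  min (rowCnt E D m x : ℝ) (rowCnt E D m (mvRow x j k) : ℝ)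
                    * (g (mvRow x j k) - g x) ^ 2)

/-- Part (P): comparison of the means of `F` over two neighbouring classes of tables on a
rectangle `P ×ˢ Q`. -/
def PColStatement (R C : Type*) [Fintype R] [Fintype C] [DecidableEq R] [DecidableEq C] :
    Prop :=
  ∀ (P : Finset R) (Q : Finset C) (D : R ⊕ C → ℤ) (s b : C) (F : (R × C → ℕ) → ℝ),
    s ∈ Q → b ∈ Q → (OmF (P ×ˢ Q) (Poly.Dl D s)).Nonempty →
    (OmF (P ×ˢ Q) (Poly.Dl D b)).Nonempty →
      (Poly.avg (OmF (P ×ˢ Q) (Poly.Dl D b)) F - Poly.avg (OmF (P ×ˢ Q) (Poly.Dl D s)) F) ^ 2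
        ≤ ((P.card : ℝ) + 1) / ((OmF (P ×ˢ Q) (Poly.Dl D b)).card : ℝ)
            * ∑ l ∈ Q, ∑ A ∈ OmF (P ×ˢ Q) (Poly.Dl D l), ∑ u ∈ P, ∑ l' ∈ Q.erase l,
                Poly.ew F A u l l'

/-- Peeling of the row `u` (for every column, the row sum of `u` or the column sum is at most
`W`, so that all entries of the row `u` are at most `W`) from the row set `insert u S'`: the sum of
the squared differences between the conditional mean of `F` given the row `u` and the mean of
`F` is at most `4 W^2 n^4 m` times the sum of the row-pair energies of the pairs `{u, v}`,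
`v ∈ S'`. -/
def PeelStatement (R C : Type*) [Fintype R] [Fintype C] [DecidableEq R] [DecidableEq C] :
    Prop :=
  ∀ (S' : Finset R) (u : R), u ∉ S' → ∀ (W : ℕ) (D : R ⊕ C → ℤ),
    (∀ j, min (D (Sum.inl u)) (-D (Sum.inr j)) ≤ (W : ℤ)) → ∀ F : (R × C → ℕ) → ℝ,
      ∑ T ∈ OmF (insert u S' ×ˢ (Finset.univ : Finset C)) D,
          (hAvg (insert u S' ×ˢ (Finset.univ : Finset C)) D S' F T
            - hAvg (insert u S' ×ˢ (Finset.univ : Finset C)) D (insert u S') F T) ^ 2
        ≤ 4 * (W : ℝ) ^ 2 * (Fintype.card C : ℝ) ^ 4 * (Fintype.card R : ℝ)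
            * ∑ v ∈ S', hVar (insert u S' ×ˢ (Finset.univ : Finset C)) D {u, v} F

/-- The row-pair Poincare inequality for the tables on the rows of `S` (all columns, at least
one column): `S` contains the two rows `u₁ ≠ u₂`, for every other row of `S` and every column the row sum
or the column sum is at most `W`, and `1 ≤ W`. -/
def HiveStatement (R C : Type*) [Fintype R] [Fintype C] [DecidableEq R] [DecidableEq C] :
    Prop :=
  1 ≤ Fintype.card C → ∀ (u₁ u₂ : R), u₁ ≠ u₂ → ∀ (W : ℕ), 1 ≤ W →
    ∀ (S : Finset R), u₁ ∈ S → u₂ ∈ S →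
    ∀ (D : R ⊕ C → ℤ),
      (∀ i ∈ S, i ≠ u₁ → i ≠ u₂ → ∀ j, min (D (Sum.inl i)) (-D (Sum.inr j)) ≤ (W : ℤ)) →
      ∀ F : (R × C → ℕ) → ℝ,
        hVar (S ×ˢ (Finset.univ : Finset C)) D S F
          ≤ 4 * (W : ℝ) ^ 2 * (Fintype.card C : ℝ) ^ 4 * (Fintype.card R : ℝ)
              * ∑ q ∈ S.powersetCard 2, hVar (S ×ˢ (Finset.univ : Finset C)) D q F

end Vale.Agent.Lib.P328.AM
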