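import Vale.Agent.Lib.P328.Hive.Tables
import Vale.Agent.Lib.P328.AM.Defs
import Vale.Agent.Lib.P328.AM.PeelDefs
import Vale.Agent.Lib.P328.AM.CrossDefs

/-!
# P328 (all margins): bridge between the two models of contingency tables

`CT.tables r c` is the finite set of tables `R → C → ℕ` with row sums `r` and column sums `c`;
`OmF univ (margin r c)` is the same set in the cell model `R × C → ℕ`.  `unc` and `cur` are the
two translations.  This file transfers sums, cardinalities and block averages, and derives
the table form `cross_CT` of the between-rows half of the row peeling step from its two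
ingredients (the one-row inequality and the comparison of its edge form with the row-pair
block averages), both taken as hypotheses.
-/

namespace Vale.Agent.Lib.P328.AM

open Finset Vale.Agent.Lib.P328.Hive Vale.Agent.Lib.P328.CT
open scoped Classical

variable {R C : Type*} [Fintype R] [Fintype C]

/-- A table `R → C → ℕ` as a function on cells. -/
def unc (M : R → C → ℕ) : R × C → ℕ := fun e => M e.1 e.2

/-- A function on cells as a table `R → C → ℕ`. -/
def cur (T : R × C → ℕ) : R → C → ℕ := fun i j => T (i, j)

omit [Fintype R] [Fintype C] in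
theorem cur_unc (M : R → C → ℕ) : cur (unc M) = M := rfl

omit [Fintype R] [Fintype C] in
theorem unc_cur (T : R × C → ℕ) : unc (cur T) = T := rfl

theorem unc_mem {r : R → ℕ} {c : C → ℕ} {M : R → C → ℕ} :
    unc M ∈ OmF (Finset.univ : Finset (R × C)) (margin r c) ↔ M ∈ tables r c := by
  rw [mem_OmF, mem_Om_univ, mem_tables]
  rfl

theorem cur_mem {r : R → ℕ} {c : C → ℕ} {T : R × C → ℕ} :
    cur T ∈ tables r c ↔ T ∈ OmF (Finset.univ : Finset (R × C)) (margin r c) := by
  rw [mem_OmF, mem_Om_univ, mem_tables]
  rfl

/-- Sums over a part of `tables r c` as sums over the cell model. -/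
theorem sum_tables_filter (r : R → ℕ) (c : C → ℕ) (p : (R → C → ℕ) → Prop) [DecidablePred p]
    (q : (R × C → ℕ) → Prop) [DecidablePred q] (hpq : ∀ T, p (cur T) ↔ q T)
    (G : (R → C → ℕ) → ℝ) :
    ∑ M ∈ (tables r c).filter p, G M
      = ∑ T ∈ (OmF (Finset.univ : Finset (R × C)) (margin r c)).filter q, G (cur T) := by
  symm
  refine Finset.sum_bij (fun T _ => cur T) ?_ ?_ ?_ ?_
  · intro T hT
    rw [Finset.mem_filter] at hT ⊢
    exact ⟨cur_mem.mpr hT.1, (hpq T).mpr hT.2⟩
  · intro T _ T' _ h
    have h2 := congrArg unc h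
    rw [unc_cur, unc_cur] at h2
    exact h2
  · intro M hM
    rw [Finset.mem_filter] at hM
    exact ⟨unc M, Finset.mem_filter.mpr ⟨unc_mem.mpr hM.1, (hpq (unc M)).mp hM.2⟩, rfl⟩
  · intro T _
    rfl

theorem card_tables_filter (r : R → ℕ) (c : C → ℕ) (p : (R → C → ℕ) → Prop) [DecidablePred p]
    (q : (R × C → ℕ) → Prop) [DecidablePred q] (hpq : ∀ T, p (cur T) ↔ q T) :
    ((tables r c).filter p).card
      = ((OmF (Finset.univ : Finset (R × C)) (margin r c)).filter q).card := by
  symm
  refine Finset.card_bij (fun T _ => cur T) ?_ ?_ ?_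
  · intro T hT
    rw [Finset.mem_filter] at hT ⊢
    exact ⟨cur_mem.mpr hT.1, (hpq T).mpr hT.2⟩
  · intro T _ T' _ h
    have h2 := congrArg unc h
    rw [unc_cur, unc_cur] at h2
    exact h2
  · intro M hM
    rw [Finset.mem_filter] at hM
    exact ⟨unc M, Finset.mem_filter.mpr ⟨unc_mem.mpr hM.1, (hpq (unc M)).mp hM.2⟩, rfl⟩

theorem sum_tables (r : R → ℕ) (c : C → ℕ) (G : (R → C → ℕ) → ℝ) :
    ∑ M ∈ tables r c, G M
      = ∑ T ∈ OmF (Finset.univ : Finset (R × C)) (margin r c), G (cur T) := by
  have h := sum_tables_filter r c (fun _ => True) (fun _ => True) (fun _ => Iff.rfl) G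
  rw [Finset.filter_true_of_mem (fun _ _ => trivial),
    Finset.filter_true_of_mem (fun _ _ => trivial)] at h
  exact h

theorem card_tables (r : R → ℕ) (c : C → ℕ) :
    (tables r c).card = (OmF (Finset.univ : Finset (R × C)) (margin r c)).card := by
  have h := card_tables_filter r c (fun _ => True) (fun _ => True) (fun _ => Iff.rfl)
  rw [Finset.filter_true_of_mem (fun _ _ => trivial),
    Finset.filter_true_of_mem (fun _ _ => trivial)] at h
  exact h

/-- The block average of the table model in the cell model: the average of `f ∘ cur` over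
the tables of the class that agree with `unc M` on all cells outside the rows of `S`. -/
theorem blockAvg_eq (r : R → ℕ) (c : C → ℕ) (S : Finset R) (f : (R → C → ℕ) → ℝ)
    (M : R → C → ℕ) :
    blockAvg r c S f M
      = (∑ T ∈ (OmF (Finset.univ : Finset (R × C)) (margin r c)).filter
            (fun T' => ∀ e : R × C, e.1 ∉ S → T' e = unc M e), f (cur T))
        / (((OmF (Finset.univ : Finset (R × C)) (margin r c)).filter
            (fun T' => ∀ e : R × C, e.1 ∉ S → T' e = unc M e)).card : ℝ) := by
  have hp : ∀ T : R × C → ℕ,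
      (∀ i, i ∉ S → cur T i = M i) ↔ (∀ e : R × C, e.1 ∉ S → T e = unc M e) := by
    intro T
    constructor
    · intro h e he
      exact congrFun (h e.1 he) e.2
    · intro h i hi
      funext j
      exact h (i, j) hi
  unfold blockAvg blockClass
  rw [sum_tables_filter r c _ _ hp, card_tables_filter r c _ _ hp]

/-- The block average over all rows but `m` is the average over the tables with the same
row `m`. -/
theorem blockAvg_erase_eq (r : R → ℕ) (c : C → ℕ) (m : R) (f : (R → C → ℕ) → ℝ)
    (M : R → C → ℕ) :
    blockAvg r c ((Finset.univ : Finset R).erase m) f M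
      = (∑ T ∈ (OmF (Finset.univ : Finset (R × C)) (margin r c)).filter
            (fun T' => (fun j => T' (m, j)) = M m), f (cur T))
        / (((OmF (Finset.univ : Finset (R × C)) (margin r c)).filter
            (fun T' => (fun j => T' (m, j)) = M m)).card : ℝ) := by
  have hp : ∀ T : R × C → ℕ,
      (∀ i, i ∉ (Finset.univ : Finset R).erase m → cur T i = M i)
        ↔ ((fun j => T (m, j)) = M m) := by
    intro T
    constructor
    · intro h
      exact h m (by simp)
    · intro h i hi
      have him : i = m := by simpa using hi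
      subst him
      exact h
  unfold blockAvg blockClass
  rw [sum_tables_filter r c _ _ hp, card_tables_filter r c _ _ hp]

/-- The sum of the squared differences over all pairs is twice the number of points times
the sum of the squared deviations from the mean. -/
theorem pair_sum_sq {α : Type*} (S : Finset α) (a : α → ℝ) :
    ∑ x ∈ S, ∑ y ∈ S, (a x - a y) ^ 2
      = 2 * (S.card : ℝ) * ∑ x ∈ S, (a x - (∑ y ∈ S, a y) / (S.card : ℝ)) ^ 2 := by
  rcases Finset.eq_empty_or_nonempty S with h | h
  · subst h
    simp
  have hN : (0 : ℝ) < (S.card : ℝ) := by exact_mod_cast Finset.card_pos.mpr h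
  have h1 : ∀ x ∈ S, ∑ y ∈ S, (a x - a y) ^ 2
      = (S.card : ℝ) * a x ^ 2 - 2 * a x * (∑ y ∈ S, a y) + ∑ y ∈ S, a y ^ 2 := by
    intro x _
    have : ∀ y ∈ S, (a x - a y) ^ 2 = a x ^ 2 - 2 * a x * a y + a y ^ 2 := fun y _ => by ring
    rw [Finset.sum_congr rfl this, Finset.sum_add_distrib, Finset.sum_sub_distrib,
      Finset.sum_const, ← Finset.mul_sum, nsmul_eq_mul]
  rw [Finset.sum_congr rfl h1, Finset.sum_add_distrib, Finset.sum_sub_distrib,
    ← Finset.mul_sum, Finset.sum_const, nsmul_eq_mul]
  have h2 : ∑ x ∈ S, 2 * a x * (∑ y ∈ S, a y) = 2 * (∑ y ∈ S, a y) ^ 2 := by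
    rw [← Finset.sum_mul, ← Finset.mul_sum]
    ring
  rw [h2]
  have h3 : ∀ x ∈ S, (a x - (∑ y ∈ S, a y) / (S.card : ℝ)) ^ 2
      = a x ^ 2 - 2 * ((∑ y ∈ S, a y) / (S.card : ℝ)) * a x
        + ((∑ y ∈ S, a y) / (S.card : ℝ)) ^ 2 := fun x _ => by ring
  rw [Finset.sum_congr rfl h3, Finset.sum_add_distrib, Finset.sum_sub_distrib,
    ← Finset.mul_sum, Finset.sum_const, nsmul_eq_mul]
  field_simp
  ring

/-- The fibre averages of `F` along `ρ` have the same total as `F`. -/
theorem sum_fiber_avg {α β : Type*} [DecidableEq β] (S : Finset α) (ρ : α → β) (F : α → ℝ) :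
    ∑ T ∈ S, (∑ T' ∈ S.filter (fun T' => ρ T' = ρ T), F T')
        / ((S.filter (fun T' => ρ T' = ρ T)).card : ℝ)
      = ∑ T ∈ S, F T := by
  rw [← Finset.sum_fiberwise_of_maps_to (s := S) (t := S.image ρ) (g := ρ)
      (fun x hx => Finset.mem_image_of_mem ρ hx),
    ← Finset.sum_fiberwise_of_maps_to (s := S) (t := S.image ρ) (g := ρ)
      (fun x hx => Finset.mem_image_of_mem ρ hx) F]
  apply Finset.sum_congr rfl
  intro x hx
  have hne : (S.filter (fun T' => ρ T' = x)).Nonempty := by
    obtain ⟨T, hT, rfl⟩ := Finset.mem_image.mp hx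
    exact ⟨T, Finset.mem_filter.mpr ⟨hT, rfl⟩⟩
  have hpos : ((S.filter (fun T' => ρ T' = x)).card : ℝ) ≠ 0 := by
    exact_mod_cast (Finset.card_pos.mpr hne).ne'
  have h1 : ∀ T ∈ S.filter (fun T' => ρ T' = x),
      (∑ T' ∈ S.filter (fun T' => ρ T' = ρ T), F T')
          / ((S.filter (fun T' => ρ T' = ρ T)).card : ℝ)
        = (∑ T' ∈ S.filter (fun T' => ρ T' = x), F T')
          / ((S.filter (fun T' => ρ T' = x)).card : ℝ) := by
    intro T hT
    rw [(Finset.mem_filter.mp hT).2]
  rw [Finset.sum_congr rfl h1, Finset.sum_const, nsmul_eq_mul]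
  field_simp

/-- The between-rows half of the row peeling step, in the table model.  `hC` is the one-row
inequality (the pair-sum form of the variance of a function of row `m` is bounded by an edge
form `Edge`), `hX` bounds the edge form of the fibre averages of `f` by the row-pair block
terms; the conclusion bounds the variance of the conditional mean of `f` given row `m` by
the block terms of the pairs of rows `{u, m}`. -/
theorem cross_CT (r : R → ℕ) (c : C → ℕ) (m : R) (f : (R → C → ℕ) → ℝ) (K₁ K₂ : ℝ)
    (hK₁ : 0 ≤ K₁) (Edge : ((C → ℕ) → ℝ) → ℝ)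
    (hC : ∀ g : (C → ℕ) → ℝ,
      ∑ T ∈ OmF (Finset.univ : Finset (R × C)) (margin r c),
        ∑ T' ∈ OmF (Finset.univ : Finset (R × C)) (margin r c),
          (g (fun j => T (m, j)) - g (fun j => T' (m, j))) ^ 2
        ≤ K₁ * ((OmF (Finset.univ : Finset (R × C)) (margin r c)).card : ℝ) * Edge g)
    (hX : Edge (fun x => (∑ T ∈ (OmF (Finset.univ : Finset (R × C)) (margin r c)).filter
              (fun T' => (fun j => T' (m, j)) = x), f (cur T))
            / (((OmF (Finset.univ : Finset (R × C)) (margin r c)).filter
              (fun T' => (fun j => T' (m, j)) = x)).card : ℝ))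
        ≤ K₂ * ∑ u ∈ (Finset.univ : Finset R).erase m,
            ∑ T ∈ OmF (Finset.univ : Finset (R × C)) (margin r c),
              (f (cur T) - (∑ T' ∈ (OmF (Finset.univ : Finset (R × C)) (margin r c)).filter
                  (fun T' => ∀ e : R × C, e.1 ∉ ({u, m} : Finset R) → T' e = T e), f (cur T'))
                / (((OmF (Finset.univ : Finset (R × C)) (margin r c)).filter
                  (fun T' => ∀ e : R × C, e.1 ∉ ({u, m} : Finset R) → T' e = T e)).card : ℝ))
                ^ 2) :
    ∑ M ∈ tables r c, (blockAvg r c ((Finset.univ : Finset R).erase m) f M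
        - (∑ N ∈ tables r c, f N) / ((tables r c).card : ℝ)) ^ 2
      ≤ K₁ / 2 * K₂ * ∑ u ∈ (Finset.univ : Finset R).erase m,
          ∑ M ∈ tables r c, (f M - blockAvg r c {u, m} f M) ^ 2 := by
  -- the right side in the cell model
  have hR : ∀ u ∈ (Finset.univ : Finset R).erase m,
      ∑ M ∈ tables r c, (f M - blockAvg r c {u, m} f M) ^ 2
        = ∑ T ∈ OmF (Finset.univ : Finset (R × C)) (margin r c),
            (f (cur T) - (∑ T' ∈ (OmF (Finset.univ : Finset (R × C)) (margin r c)).filter
                (fun T' => ∀ e : R × C, e.1 ∉ ({u, m} : Finset R) → T' e = T e), f (cur T'))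
              / (((OmF (Finset.univ : Finset (R × C)) (margin r c)).filter
                (fun T' => ∀ e : R × C, e.1 ∉ ({u, m} : Finset R) → T' e = T e)).card : ℝ))
              ^ 2 := by
    intro u _
    rw [sum_tables]
    apply Finset.sum_congr rfl
    intro T _
    rw [blockAvg_eq]
    rfl
  rw [Finset.sum_congr rfl hR]
  -- the left side in the cell model
  have hL : ∑ M ∈ tables r c, (blockAvg r c ((Finset.univ : Finset R).erase m) f M
        - (∑ N ∈ tables r c, f N) / ((tables r c).card : ℝ)) ^ 2
      = ∑ T ∈ OmF (Finset.univ : Finset (R × C)) (margin r c),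
          ((∑ T' ∈ (OmF (Finset.univ : Finset (R × C)) (margin r c)).filter
                (fun T' => (fun j => T' (m, j)) = (fun j => T (m, j))), f (cur T'))
              / (((OmF (Finset.univ : Finset (R × C)) (margin r c)).filter
                (fun T' => (fun j => T' (m, j)) = (fun j => T (m, j)))).card : ℝ)
            - (∑ T' ∈ OmF (Finset.univ : Finset (R × C)) (margin r c), f (cur T'))
              / ((OmF (Finset.univ : Finset (R × C)) (margin r c)).card : ℝ)) ^ 2 := by
    rw [sum_tables]
    apply Finset.sum_congr rfl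
    intro T _
    rw [blockAvg_erase_eq, sum_tables r c f, card_tables]
    rfl
  rw [hL]
  have hmean := sum_fiber_avg (OmF (Finset.univ : Finset (R × C)) (margin r c))
    (fun (T : R × C → ℕ) => (fun j => T (m, j))) (fun T => f (cur T))
  have hpair := pair_sum_sq (OmF (Finset.univ : Finset (R × C)) (margin r c))
    (fun T => (∑ T' ∈ (OmF (Finset.univ : Finset (R × C)) (margin r c)).filter
                (fun T' => (fun j => T' (m, j)) = (fun j => T (m, j))), f (cur T'))
              / (((OmF (Finset.univ : Finset (R × C)) (margin r c)).filter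
                (fun T' => (fun j => T' (m, j)) = (fun j => T (m, j)))).card : ℝ))
  rw [hmean] at hpair
  have hC' := hC (fun x => (∑ T ∈ (OmF (Finset.univ : Finset (R × C)) (margin r c)).filter
              (fun T' => (fun j => T' (m, j)) = x), f (cur T))
            / (((OmF (Finset.univ : Finset (R × C)) (margin r c)).filter
              (fun T' => (fun j => T' (m, j)) = x)).card : ℝ))
  rw [hpair] at hC'
  rcases Finset.eq_empty_or_nonempty (OmF (Finset.univ : Finset (R × C)) (margin r c)) with h0 | h0
  · rw [h0]
    simp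
  have hN : (0 : ℝ) < ((OmF (Finset.univ : Finset (R × C)) (margin r c)).card : ℝ) := by
    exact_mod_cast Finset.card_pos.mpr h0
  have h4 := hC'.trans (mul_le_mul_of_nonneg_left hX (mul_nonneg hK₁ hN.le))
  refine le_of_mul_le_mul_left (h4.trans (le_of_eq ?_)) (mul_pos two_pos hN)
  ring

/-- The block average of the table model is the class average `hAvg` of the cell model. -/
theorem blockAvg_eq_hAvg (r : R → ℕ) (c : C → ℕ) (S : Finset R) (f : (R → C → ℕ) → ℝ)
    (T : R × C → ℕ) :
    blockAvg r c S f (cur T)
      = hAvg (Finset.univ : Finset (R × C)) (margin r c) S (fun T' => f (cur T')) T := by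
  rw [blockAvg_eq]
  rfl

/-- The row-pair terms of the table model are the `hVar` of the cell model. -/
theorem sum_block_eq_hVar (r : R → ℕ) (c : C → ℕ) (S : Finset R) (f : (R → C → ℕ) → ℝ) :
    ∑ M ∈ tables r c, (f M - blockAvg r c S f M) ^ 2
      = hVar (Finset.univ : Finset (R × C)) (margin r c) S (fun T' => f (cur T')) := by
  rw [sum_tables]
  unfold hVar
  apply Finset.sum_congr rfl
  intro T _
  rw [blockAvg_eq_hAvg]

/-- The cross bound on the set of contingency tables from the peeling inequality of the cell
model (row `m` split off from all rows). -/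
theorem crossCT_of_peel (hPeel : PeelStatement R C) : CrossCT R C := by
  intro r c m W hW f
  have hWD : ∀ j, min (margin r c (Sum.inl m)) (-margin r c (Sum.inr j)) ≤ (W : ℤ) := by
    intro j
    simp only [margin, Sum.elim_inl, Sum.elim_inr, neg_neg]
    exact_mod_cast hW j
  have h := hPeel ((Finset.univ : Finset R).erase m) m (Finset.notMem_erase m _) W (margin r c)
    hWD (fun T => f (cur T))
  rw [Finset.insert_erase (Finset.mem_univ m), Finset.univ_product_univ] at h
  have hL : ∑ M ∈ tables r c, (blockAvg r c ((Finset.univ : Finset R).erase m) f M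
        - (∑ N ∈ tables r c, f N) / ((tables r c).card : ℝ)) ^ 2
      = ∑ T ∈ OmF (Finset.univ : Finset (R × C)) (margin r c),
          (hAvg (Finset.univ : Finset (R × C)) (margin r c) ((Finset.univ : Finset R).erase m)
              (fun T => f (cur T)) T
            - hAvg (Finset.univ : Finset (R × C)) (margin r c) (Finset.univ : Finset R)
              (fun T => f (cur T)) T) ^ 2 := by
    rw [sum_tables]
    apply Finset.sum_congr rfl
    intro T _
    rw [← blockAvg_eq_hAvg, ← blockAvg_eq_hAvg]
    have hu : blockAvg r c (Finset.univ : Finset R) f (cur T)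
        = (∑ N ∈ tables r c, f N) / ((tables r c).card : ℝ) := by
      unfold blockAvg
      rw [blockClass_univ]
    rw [hu]
  have hR : ∀ u ∈ (Finset.univ : Finset R).erase m,
      ∑ M ∈ tables r c, (f M - blockAvg r c {u, m} f M) ^ 2
        = hVar (Finset.univ : Finset (R × C)) (margin r c) {m, u} (fun T => f (cur T)) := by
    intro u _
    rw [sum_block_eq_hVar, Finset.pair_comm]
  rw [hL, Finset.sum_congr rfl hR]
  exact h

end Vale.Agent.Lib.P328.AM
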