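import Vale.Agent.Lib.P328.AM.CoreWrap
import Vale.Agent.Lib.P328.AM.ApproxTime

/-!
# P328 / all margins: the heavy-block move performed by an approximate sampler

In the dynamics of `AM/CoreWrap` (a uniformly random move of `coreMoves R C`: a 2 × 2 heat bath
move, or the heavy-block move `none`), replace the heavy-block move by an arbitrary transition
matrix `S` on the tables, each of whose rows is within `δ`, in `ℓ¹` distance, of the uniform
distribution on the `RelCore W`-class of the current table (`classKernel (RelCore W)`).  The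
resulting chain is `approxKernel (coreMoves R C) (coreMoveRel W) none S`.  From a Poincare
constant `K ≥ 1` of the ideal dynamics: the `ℓ¹` distance to uniform after `t` steps is at most
the bound of the ideal dynamics plus `t δ / |coreMoves|`, and an explicit mixing time.
-/

namespace Vale.Agent.Lib.P328.AM

open Finset
open scoped Classical
open Vale.Agent.Lib.P328.CT Vale.Agent.Lib.P335.Bip

variable {R C : Type*} [Fintype R] [Fintype C]

/-- The heavy-block move is one of the moves. -/
theorem none_mem_coreMoves (R C : Type*) [Fintype R] [Fintype C] :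
    (none : Option (Finset R × Finset C)) ∈ coreMoves R C :=
  Finset.mem_insert_self _ _

/-- Mixing of the 2 × 2 heat bath with an approximate heavy-block resampling `S`, from a
Poincare constant `K ≥ 1` of the ideal dynamics. -/
theorem pccore_approx_mixing {r : R → ℕ} {c : C → ℕ} {K : ℝ} {W : ℕ} (hK : 1 ≤ K)
    (h : PCcore K W r c) (S : Matrix (Tab r c) (Tab r c) ℝ) (hS0 : ∀ x y, 0 ≤ S x y)
    (hS1 : ∀ x, ∑ y, S x y = 1) (δ : ℝ)
    (hS : ∀ x, ∑ y, |S x y - classKernel (RelCore W) x y| ≤ δ) (x : Tab r c) (t : ℕ) :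
    ∑ y, |(approxKernel (coreMoves R C) (coreMoveRel (r := r) (c := c) W) none S ^ t) x y
          - 1 / (Fintype.card (Tab r c) : ℝ)|
      ≤ Real.sqrt (Fintype.card (Tab r c) : ℝ)
          * (1 - 1 / (K * (((Fintype.card R).choose 2 : ℝ) * ((Fintype.card C).choose 2 : ℝ)
              + 1))) ^ t
        + (t : ℝ) * (δ / (((Fintype.card R).choose 2 : ℝ) * ((Fintype.card C).choose 2 : ℝ)
              + 1)) := by
  have h1 := approx_mix (coreMoves R C) (coreMoveRel (r := r) (c := c) W)
    (fun i _ => coreMoveRel_equivalence W i) K hK (fun f => pccore_state h f) none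
    (none_mem_coreMoves R C) S hS0 hS1 δ hS x t
  rw [card_coreMoves R C] at h1
  exact h1

/-- The mixing time of the 2 × 2 heat bath with an approximate heavy-block resampling `S`, from
a Poincare constant `K ≥ 1` of the ideal dynamics. -/
theorem pccore_approx_mixing_time {r : R → ℕ} {c : C → ℕ} {K : ℝ} {W : ℕ} (hK : 1 ≤ K)
    (h : PCcore K W r c) (S : Matrix (Tab r c) (Tab r c) ℝ) (hS0 : ∀ x y, 0 ≤ S x y)
    (hS1 : ∀ x, ∑ y, S x y = 1) (δ : ℝ)
    (hS : ∀ x, ∑ y, |S x y - classKernel (RelCore W) x y| ≤ δ)
    (ε : ℝ) (hε : 0 < ε) (t : ℕ)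
    (ht : K * (((Fintype.card R).choose 2 : ℝ) * ((Fintype.card C).choose 2 : ℝ) + 1)
        * ((Fintype.card R : ℝ) / 2 * ∑ j, Real.log ((c j : ℝ) + 1) + Real.log (2 / ε)) ≤ t)
    (hδ : (t : ℝ) * δ
        ≤ ε / 2 * (((Fintype.card R).choose 2 : ℝ) * ((Fintype.card C).choose 2 : ℝ) + 1))
    (x : Tab r c) :
    ∑ y, |(approxKernel (coreMoves R C) (coreMoveRel (r := r) (c := c) W) none S ^ t) x y
          - 1 / (Fintype.card (Tab r c) : ℝ)|
      ≤ ε := by
  refine approx_mix_time (coreMoves R C) (coreMoveRel (r := r) (c := c) W)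
    (fun i _ => coreMoveRel_equivalence W i) K hK (fun f => pccore_state h f) none
    (none_mem_coreMoves R C) S hS0 hS1 δ hS ε hε t ?_ ?_ x
  · rw [card_coreMoves R C]
    exact ht
  · rw [card_coreMoves R C]
    exact hδ

end Vale.Agent.Lib.P328.AM
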