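import Vale.Agent.Lib.P328.AM.CoreDefs

/-!
# P328 / all margins: three auxiliary facts for the heavy-block peeling

Monotonicity of `PCcore` in the constant; the row-pair term of two rows is at most the sum of
the 2 × 2 terms of these rows (`two_row_poincare` on the set of tables); gluing a row to two
tables preserves `CoreRel`.
-/

namespace Vale.Agent.Lib.P328.AM

open Finset
open scoped Classical
open Vale.Agent.Lib.P328.CT Vale.Agent.Lib.P335.Bip

variable {R C : Type*} [Fintype R] [Fintype C]

/-- A larger constant is also a Poincare constant. -/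
theorem PCcore.mono {K K' : ℝ} {W : ℕ} {r : R → ℕ} {c : C → ℕ} (h : PCcore K W r c)
    (hK : K ≤ K') : PCcore K' W r c := by
  intro f
  refine le_trans (h f) ?_
  apply mul_le_mul_of_nonneg_right hK
  exact add_nonneg
    (Finset.sum_nonneg (fun q _ => Finset.sum_nonneg (fun p _ =>
      Finset.sum_nonneg (fun M _ => sq_nonneg _))))
    (Finset.sum_nonneg (fun M _ => sq_nonneg _))

/-- The row-pair term of two rows is at most the sum of the 2 × 2 terms of these rows. -/
theorem rowpair_le_boxes {r : R → ℕ} {c : C → ℕ} (hC : 2 ≤ Fintype.card C) (a b : R)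
    (hab : a ≠ b) (f : (R → C → ℕ) → ℝ) :
    ∑ M ∈ tables r c, (f M - blockAvg r c {a, b} f M) ^ 2
      ≤ ∑ p ∈ (Finset.univ : Finset C).powersetCard 2,
          ∑ M ∈ tables r c, (f M - boxAvg r c {a, b} p f M) ^ 2 := by
  have h := two_row_poincare hC a b hab (fun y : Tab r c => f y.1)
  rw [sum_tab_eq {a, b} f,
    Finset.sum_congr rfl (fun p _ => sum_tab_box_eq {a, b} p f)] at h
  exact h

omit [Fintype R] [Fintype C] in
/-- Gluing a row preserves `CoreRel`. -/
theorem coreRel_glue (m : R) (x : C → ℕ) {W : ℕ} {M' N' : {u : R // u ≠ m} → C → ℕ}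
    (h : CoreRel W M' N') : CoreRel W (glue m x M') (glue m x N') := by
  obtain ⟨P', Q, hH, hag⟩ := h
  refine ⟨P'.map (Function.Embedding.subtype _), Q, ⟨?_, ?_⟩, ?_⟩
  · intro i hi
    obtain ⟨u, hu, rfl⟩ := Finset.mem_map.mp hi
    have e : ∀ j ∈ Q, glue m x M' ((Function.Embedding.subtype _) u) j = M' u j := by
      intro j _
      show glue m x M' u.1 j = M' u j
      rw [glue_ne m x M' u.1 u.2]
    rw [Finset.sum_congr rfl e]
    exact hH.1 u hu
  · intro j hj
    rw [Finset.sum_map]
    have e : ∀ u ∈ P', glue m x M' ((Function.Embedding.subtype _) u) j = M' u j := by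
      intro u _
      show glue m x M' u.1 j = M' u j
      rw [glue_ne m x M' u.1 u.2]
    rw [Finset.sum_congr rfl e]
    exact hH.2 j hj
  · intro i j hij
    by_cases him : i = m
    · subst him
      rw [glue_self, glue_self]
    · rw [glue_ne m x N' i him, glue_ne m x M' i him]
      apply hag
      rcases hij with hi | hj
      · left
        intro hmem
        exact hi (Finset.mem_map.mpr ⟨⟨i, him⟩, hmem, rfl⟩)
      · right
        exact hj

end Vale.Agent.Lib.P328.AM
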