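import Vale.Agent.Lib.P328.AM.CoreEquiv

/-!
# P328 / all margins: the class averages of `RelCore W` are the `coreAvg`

Sums over a `RelCore W`-class of the state space are sums over `coreClass`; the class
average is `coreAvg`; `coreAvg` and `boxAvg` are constant on their classes.
-/

namespace Vale.Agent.Lib.P328.AM

open Finset
open scoped Classical
open Vale.Agent.Lib.P328.CT Vale.Agent.Lib.P335.Bip

variable {R C : Type*} [Fintype R] [Fintype C]

/-- Sums over the `RelCore W`-class of `x` in the state space are sums over `coreClass`. -/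
theorem sum_relCore_class {r : R → ℕ} {c : C → ℕ} (W : ℕ) (g : (R → C → ℕ) → ℝ)
    (x : Tab r c) :
    ∑ y ∈ Finset.univ.filter (fun y : Tab r c => RelCore W x y), g y.1
      = ∑ N ∈ coreClass W r c x.1, g N := by
  unfold coreClass
  rw [Finset.sum_filter, Finset.sum_filter, ← Finset.sum_coe_sort (tables r c)]
  refine Finset.sum_congr rfl (fun y _ => ?_)
  by_cases h : RelCore W x y
  · rw [if_pos h, if_pos (show CoreRel W x.1 y.1 from h)]
  · rw [if_neg h, if_neg (show ¬ CoreRel W x.1 y.1 from h)]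

/-- The `RelCore W`-class average on the state space is `coreAvg`. -/
theorem av_relCore_eq_coreAvg {r : R → ℕ} {c : C → ℕ} (W : ℕ) (f : (R → C → ℕ) → ℝ)
    (x : Tab r c) :
    av (RelCore W) (fun y : Tab r c => f y.1) x = coreAvg W r c f x.1 := by
  have hcard : ((Finset.univ.filter (fun y : Tab r c => RelCore W x y)).card : ℝ)
      = ((coreClass W r c x.1).card : ℝ) := by
    have h1 := sum_relCore_class W (fun _ => (1 : ℝ)) x
    rw [Finset.sum_const, Finset.sum_const, nsmul_eq_mul, nsmul_eq_mul, mul_one, mul_one] at h1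
    exact h1
  show (∑ y ∈ Finset.univ.filter (fun y : Tab r c => RelCore W x y), f y.1)
      / ((Finset.univ.filter (fun y : Tab r c => RelCore W x y)).card : ℝ)
    = (∑ N ∈ coreClass W r c x.1, f N) / ((coreClass W r c x.1).card : ℝ)
  rw [sum_relCore_class W f x, hcard]

/-- The variance inside the `RelCore W`-classes, on the state space and on the set of
tables. -/
theorem sum_tab_core_eq {r : R → ℕ} {c : C → ℕ} (W : ℕ) (f : (R → C → ℕ) → ℝ) :
    ∑ x : Tab r c, ((fun y : Tab r c => f y.1) x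
        - av (RelCore W) (fun y : Tab r c => f y.1) x) ^ 2
      = ∑ M ∈ tables r c, (f M - coreAvg W r c f M) ^ 2 := by
  rw [← Finset.sum_coe_sort (tables r c)]
  refine Finset.sum_congr rfl (fun x _ => ?_)
  rw [av_relCore_eq_coreAvg W f x]

/-- `coreAvg` is constant on the classes of `CoreRel W`. -/
theorem coreAvg_congr {r : R → ℕ} {c : C → ℕ} (W : ℕ) (f : (R → C → ℕ) → ℝ)
    {M N : R → C → ℕ} (hM : M ∈ tables r c) (hN : N ∈ tables r c) (h : CoreRel W M N) :
    coreAvg W r c f M = coreAvg W r c f N := by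
  have h1 : av (RelCore W) (fun y : Tab r c => f y.1) ⟨M, hM⟩ = coreAvg W r c f M :=
    av_relCore_eq_coreAvg W f ⟨M, hM⟩
  have h2 : av (RelCore W) (fun y : Tab r c => f y.1) ⟨N, hN⟩ = coreAvg W r c f N :=
    av_relCore_eq_coreAvg W f ⟨N, hN⟩
  rw [← h1, ← h2]
  exact av_congr_of_rel (relCore_equivalence W) (fun y : Tab r c => f y.1)
    (x := ⟨M, hM⟩) (y := ⟨N, hN⟩) h

/-- `boxAvg` is constant on the classes of tables that agree outside the subtable. -/
theorem boxAvg_congr {r : R → ℕ} {c : C → ℕ} (q : Finset R) (p : Finset C)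
    (f : (R → C → ℕ) → ℝ) {M N : R → C → ℕ} (hM : M ∈ tables r c) (hN : N ∈ tables r c)
    (h : ∀ i j, (i ∉ q ∨ j ∉ p) → M i j = N i j) :
    boxAvg r c q p f M = boxAvg r c q p f N := by
  have h1 : av (RelBox q p) (fun y : Tab r c => f y.1) ⟨M, hM⟩ = boxAvg r c q p f M :=
    av_relBox_eq_boxAvg q p f ⟨M, hM⟩
  have h2 : av (RelBox q p) (fun y : Tab r c => f y.1) ⟨N, hN⟩ = boxAvg r c q p f N :=
    av_relBox_eq_boxAvg q p f ⟨N, hN⟩
  rw [← h1, ← h2]
  exact av_congr_of_rel (relBox_equivalence q p) (fun y : Tab r c => f y.1)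
    (x := ⟨M, hM⟩) (y := ⟨N, hN⟩) h

end Vale.Agent.Lib.P328.AM
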