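import Vale.Agent.Lib.P328.AM.CoreDefs

/-!
# P328 / all margins: the two base cases of the heavy-block induction

`pccore_trivial`: with at most one row or at most one column there is at most one table.
`pccore_terminal`: if every row sum and every column sum exceeds `W`, the whole table is a
`W`-heavy block of every table, the class of `CoreRel W` is the set of all tables and the
heavy-block term is the whole variance.
-/

namespace Vale.Agent.Lib.P328.AM

open Finset
open scoped Classical
open Vale.Agent.Lib.P328.CT Vale.Agent.Lib.P335.Bip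

variable {R C : Type*} [Fintype R] [Fintype C]

/-- With at most one row or at most one column there is at most one table. -/
theorem tables_card_le_one (r : R → ℕ) (c : C → ℕ)
    (h : Fintype.card R ≤ 1 ∨ Fintype.card C ≤ 1) : (tables r c).card ≤ 1 := by
  rw [Finset.card_le_one]
  intro M hM N hN
  rw [mem_tables] at hM hN
  funext i j
  rcases h with h | h
  · have hs : Subsingleton R := Fintype.card_le_one_iff_subsingleton.mp h
    have h1 := hM.2 j
    have h2 := hN.2 j
    rw [Fintype.sum_subsingleton _ i] at h1 h2
    rw [h1, h2]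
  · have hs : Subsingleton C := Fintype.card_le_one_iff_subsingleton.mp h
    have h1 := hM.1 i
    have h2 := hN.1 i
    rw [Fintype.sum_subsingleton _ j] at h1 h2
    rw [h1, h2]

/-- With at most one row or at most one column every `K ≥ 0` is a Poincare constant. -/
theorem pccore_trivial {K : ℝ} (hK : 0 ≤ K) (W : ℕ) (r : R → ℕ) (c : C → ℕ)
    (h : Fintype.card R ≤ 1 ∨ Fintype.card C ≤ 1) : PCcore K W r c := by
  intro f
  have hcard := tables_card_le_one r c h
  have hzero : ∑ M ∈ tables r c,
      (f M - (∑ N ∈ tables r c, f N) / ((tables r c).card : ℝ)) ^ 2 = 0 := by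
    apply Finset.sum_eq_zero
    intro M hM
    have hall : ∀ N ∈ tables r c, N = M := fun N hN => (Finset.card_le_one.mp hcard) N hN M hM
    have hsing : tables r c = {M} := by
      ext N
      rw [Finset.mem_singleton]
      exact ⟨fun hN => hall N hN, fun hN => hN ▸ hM⟩
    rw [hsing, Finset.sum_singleton, Finset.card_singleton]
    simp
  rw [hzero]
  apply mul_nonneg hK
  apply add_nonneg
  · exact Finset.sum_nonneg (fun q _ => Finset.sum_nonneg
      (fun p _ => Finset.sum_nonneg (fun M _ => sq_nonneg _)))
  · exact Finset.sum_nonneg (fun M _ => sq_nonneg _)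

/-- If every row sum and every column sum exceeds `W`, every `K ≥ 1` is a Poincare
constant: the heavy-block term is the whole variance. -/
theorem pccore_terminal {K : ℝ} (hK : 1 ≤ K) (W : ℕ) (r : R → ℕ) (c : C → ℕ)
    (hr : ∀ i, W < r i) (hc : ∀ j, W < c j) : PCcore K W r c := by
  intro f
  have hcls : ∀ M ∈ tables r c, coreClass W r c M = tables r c := by
    intro M hM
    unfold coreClass
    apply Finset.filter_true_of_mem
    intro N _
    refine ⟨Finset.univ, Finset.univ, ⟨fun i _ => ?_, fun j _ => ?_⟩, fun i j hij => ?_⟩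
    · rw [(mem_tables.mp hM).1 i]
      exact hr i
    · rw [(mem_tables.mp hM).2 j]
      exact hc j
    · rcases hij with hi | hj
      · exact absurd (Finset.mem_univ i) hi
      · exact absurd (Finset.mem_univ j) hj
  have hcore : ∑ M ∈ tables r c, (f M - coreAvg W r c f M) ^ 2
      = ∑ M ∈ tables r c, (f M - (∑ N ∈ tables r c, f N) / ((tables r c).card : ℝ)) ^ 2 := by
    apply Finset.sum_congr rfl
    intro M hM
    unfold coreAvg
    rw [hcls M hM]
  rw [hcore]
  have hbox : (0 : ℝ) ≤ ∑ q ∈ (Finset.univ : Finset R).powersetCard 2,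
      ∑ p ∈ (Finset.univ : Finset C).powersetCard 2,
        ∑ M ∈ tables r c, (f M - boxAvg r c q p f M) ^ 2 :=
    Finset.sum_nonneg (fun q _ => Finset.sum_nonneg
      (fun p _ => Finset.sum_nonneg (fun M _ => sq_nonneg _)))
  have hvar : (0 : ℝ) ≤ ∑ M ∈ tables r c,
      (f M - (∑ N ∈ tables r c, f N) / ((tables r c).card : ℝ)) ^ 2 :=
    Finset.sum_nonneg (fun M _ => sq_nonneg _)
  nlinarith

end Vale.Agent.Lib.P328.AM
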