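import Vale.Agent.Lib.P328.AM.CoreDefs

/-!
# P328 / all margins: the largest heavy block

For every table `M` there is one `W`-heavy block `P × Q` of `M` (the union of all the `W`-heavy
blocks of `M`) such that the tables `N` with `CoreRel W M N` are exactly the tables that agree
with `M` outside `P × Q`.  So the class of `M` for `CoreRel W`, inside the tables with the
margins of `M`, is the set of all fillings of the block `P × Q` with the row and column sums
that `M` has inside the block, and all these sums exceed `W`.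
-/

namespace Vale.Agent.Lib.P328.AM

open Finset
open scoped Classical
open Vale.Agent.Lib.P328.CT

variable {R C : Type*} [Fintype R] [Fintype C]

/-- The largest `W`-heavy block of a table: `CoreRel W M N` holds exactly when `N` agrees with
`M` outside this block. -/
theorem coreRel_maxBlock (W : ℕ) (M : R → C → ℕ) :
    ∃ (P : Finset R) (Q : Finset C), Heavy W M P Q ∧
      ∀ N : R → C → ℕ, CoreRel W M N ↔ ∀ i j, (i ∉ P ∨ j ∉ Q) → N i j = M i j := by
  obtain ⟨P₀, hP₀⟩ : ∃ P₀ : Finset R, P₀ = Finset.univ.filter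
      (fun i => ∃ (P : Finset R) (Q : Finset C), Heavy W M P Q ∧ i ∈ P) := ⟨_, rfl⟩
  obtain ⟨Q₀, hQ₀⟩ : ∃ Q₀ : Finset C, Q₀ = Finset.univ.filter
      (fun j => ∃ (P : Finset R) (Q : Finset C), Heavy W M P Q ∧ j ∈ Q) := ⟨_, rfl⟩
  have hPsub : ∀ (P : Finset R) (Q : Finset C), Heavy W M P Q → P ⊆ P₀ := by
    intro P Q hH i hi
    rw [hP₀, Finset.mem_filter]
    exact ⟨Finset.mem_univ i, P, Q, hH, hi⟩
  have hQsub : ∀ (P : Finset R) (Q : Finset C), Heavy W M P Q → Q ⊆ Q₀ := by
    intro P Q hH j hj
    rw [hQ₀, Finset.mem_filter]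
    exact ⟨Finset.mem_univ j, P, Q, hH, hj⟩
  have hheavy : Heavy W M P₀ Q₀ := by
    constructor
    · intro i hi
      rw [hP₀, Finset.mem_filter] at hi
      obtain ⟨-, P, Q, hH, hiP⟩ := hi
      exact lt_of_lt_of_le (hH.1 i hiP) (Finset.sum_le_sum_of_subset (hQsub P Q hH))
    · intro j hj
      rw [hQ₀, Finset.mem_filter] at hj
      obtain ⟨-, P, Q, hH, hjQ⟩ := hj
      exact lt_of_lt_of_le (hH.2 j hjQ) (Finset.sum_le_sum_of_subset (hPsub P Q hH))
  refine ⟨P₀, Q₀, hheavy, fun N => ⟨?_, fun h => ⟨P₀, Q₀, hheavy, h⟩⟩⟩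
  rintro ⟨P, Q, hH, hag⟩ i j hij
  apply hag
  rcases hij with hi | hj
  · exact Or.inl (fun hiP => hi (hPsub P Q hH hiP))
  · exact Or.inr (fun hjQ => hj (hQsub P Q hH hjQ))

/-- The largest `W`-heavy block of a table with margins `r`, `c`: the `RelCore W`-class of `x`
consists of the tables with these margins that agree with `x` outside this block. -/
theorem relCore_maxBlock {r : R → ℕ} {c : C → ℕ} (W : ℕ) (x : Tab r c) :
    ∃ (P : Finset R) (Q : Finset C), Heavy W x.1 P Q ∧
      ∀ y : Tab r c, RelCore W x y ↔ ∀ i j, (i ∉ P ∨ j ∉ Q) → y.1 i j = x.1 i j := by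
  obtain ⟨P, Q, hH, h⟩ := coreRel_maxBlock W x.1
  exact ⟨P, Q, hH, fun y => h y.1⟩

/-- Membership in a class of `CoreRel W`, for tables with the same margins: `N` has the margins
`r`, `c` and agrees with `M` outside the block `P × Q` exactly when it agrees with `M` outside
the block and has the same row and column sums as `M` inside the block. -/
theorem mem_tables_agree_iff {r : R → ℕ} {c : C → ℕ} {M : R → C → ℕ} (hM : M ∈ tables r c)
    (P : Finset R) (Q : Finset C) (N : R → C → ℕ) :
    (N ∈ tables r c ∧ ∀ i j, (i ∉ P ∨ j ∉ Q) → N i j = M i j) ↔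
      ((∀ i j, (i ∉ P ∨ j ∉ Q) → N i j = M i j) ∧ (∀ i ∈ P, ∑ j ∈ Q, N i j = ∑ j ∈ Q, M i j) ∧
        (∀ j ∈ Q, ∑ i ∈ P, N i j = ∑ i ∈ P, M i j)) := by
  rw [mem_tables] at hM
  have hrowc : ∀ i, (∀ j, j ∉ Q → N i j = M i j) →
      ∑ j ∈ Qᶜ, N i j = ∑ j ∈ Qᶜ, M i j := by
    intro i h
    exact Finset.sum_congr rfl (fun j hj => h j (Finset.mem_compl.mp hj))
  have hcolc : ∀ j, (∀ i, i ∉ P → N i j = M i j) →
      ∑ i ∈ Pᶜ, N i j = ∑ i ∈ Pᶜ, M i j := by
    intro j h
    exact Finset.sum_congr rfl (fun i hi => h i (Finset.mem_compl.mp hi))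
  constructor
  · rintro ⟨hN, hag⟩
    rw [mem_tables] at hN
    refine ⟨hag, fun i _ => ?_, fun j _ => ?_⟩
    · have h1 := Finset.sum_add_sum_compl Q (fun j => N i j)
      have h2 := Finset.sum_add_sum_compl Q (fun j => M i j)
      have h3 := hrowc i (fun j hj => hag i j (Or.inr hj))
      have h4 := hN.1 i
      have h5 := hM.1 i
      omega
    · have h1 := Finset.sum_add_sum_compl P (fun i => N i j)
      have h2 := Finset.sum_add_sum_compl P (fun i => M i j)
      have h3 := hcolc j (fun i hi => hag i j (Or.inl hi))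
      have h4 := hN.2 j
      have h5 := hM.2 j
      omega
  · rintro ⟨hag, hrow, hcol⟩
    refine ⟨?_, hag⟩
    rw [mem_tables]
    refine ⟨fun i => ?_, fun j => ?_⟩
    · by_cases hi : i ∈ P
      · have h1 := Finset.sum_add_sum_compl Q (fun j => N i j)
        have h2 := Finset.sum_add_sum_compl Q (fun j => M i j)
        have h3 := hrowc i (fun j hj => hag i j (Or.inr hj))
        have h4 := hrow i hi
        have h5 := hM.1 i
        omega
      · rw [← hM.1 i]
        exact Finset.sum_congr rfl (fun j _ => hag i j (Or.inl hi))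
    · by_cases hj : j ∈ Q
      · have h1 := Finset.sum_add_sum_compl P (fun i => N i j)
        have h2 := Finset.sum_add_sum_compl P (fun i => M i j)
        have h3 := hcolc j (fun i hi => hag i j (Or.inl hi))
        have h4 := hcol j hj
        have h5 := hM.2 j
        omega
      · rw [← hM.2 j]
        exact Finset.sum_congr rfl (fun i _ => hag i j (Or.inr hj))

/-- The class of the heavy-block move is a set of tables with large margins: for every table
`M` with margins `r`, `c` there is a block `P × Q` in which all row sums and all column sums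
of `M` exceed `W`, such that the class of `M` consists exactly of the tables `N` that agree
with `M` outside the block and whose row and column sums inside the block are those of `M`
(the fillings of the block with its margins, which all exceed `W`). -/
theorem coreClass_eq_fillings {r : R → ℕ} {c : C → ℕ} (W : ℕ) {M : R → C → ℕ}
    (hM : M ∈ tables r c) :
    ∃ (P : Finset R) (Q : Finset C), Heavy W M P Q ∧
      ∀ N : R → C → ℕ, N ∈ coreClass W r c M ↔
        ((∀ i j, (i ∉ P ∨ j ∉ Q) → N i j = M i j) ∧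
          (∀ i ∈ P, ∑ j ∈ Q, N i j = ∑ j ∈ Q, M i j) ∧
          (∀ j ∈ Q, ∑ i ∈ P, N i j = ∑ i ∈ P, M i j)) := by
  obtain ⟨P, Q, hH, h⟩ := coreRel_maxBlock W M
  refine ⟨P, Q, hH, fun N => ?_⟩
  unfold coreClass
  rw [Finset.mem_filter, h N]
  exact mem_tables_agree_iff hM P Q N

end Vale.Agent.Lib.P328.AM
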