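import Vale.Agent.Lib.P328.AM.PeelDefs
import Vale.Agent.Lib.P328.Poly.KlLemmas

/-!
# P328 / all margins: the cross term of the peeling of one row

Setting of `PeelDefs`: tables on the rows `insert u S'` (all columns), `u ∉ S'`.  `rowAvg`
is the conditional mean of `F` given the content of the row `u`.  The theorem `cross_bound`
bounds the nearest-neighbour energy of `rowAvg` (the right-hand side of `OneRowStatement`)
by the row-pair energies `hVar _ _ {u, v} F`, `v ∈ S'`, using the comparison `PColStatement`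
of the means over neighbouring classes of tables on the rectangle `S' ×ˢ univ`.
-/

namespace Vale.Agent.Lib.P328.AM

open Finset
open Vale.Agent.Lib.P328.Hive

variable {R C : Type*} [Fintype R] [Fintype C] [DecidableEq R] [DecidableEq C]

namespace Cross

omit [Fintype R] [Fintype C] [DecidableEq C] in
theorem rowTab_self (u : R) (y : C → ℕ) (j : C) : rowTab u y (u, j) = y j := if_pos rfl

omit [Fintype R] [Fintype C] [DecidableEq C] in
theorem rowTab_of_ne (u : R) (y : C → ℕ) {e : R × C} (h : e.1 ≠ u) : rowTab u y e = 0 :=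
  if_neg h

omit [Fintype R] [Fintype C] in
theorem rowTab_add_single (u : R) (y : C → ℕ) (l : C) :
    rowTab u (y + Pi.single l 1) = rowTab u y + Pi.single (u, l) 1 := by
  funext e
  obtain ⟨a, c⟩ := e
  by_cases ha : a = u
  · subst ha
    rw [Pi.add_apply, rowTab_self, rowTab_self, Pi.add_apply]
    by_cases hc : c = l
    · subst hc
      rw [Pi.single_eq_same, Pi.single_eq_same]
    · rw [Pi.single_eq_of_ne hc, Pi.single_eq_of_ne (fun h => hc (Prod.ext_iff.mp h).2)]
  · rw [Pi.add_apply, rowTab_of_ne u _ ha, rowTab_of_ne u _ ha,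
      Pi.single_eq_of_ne (fun h => ha (Prod.ext_iff.mp h).1), add_zero]

theorem dv_rowTab_add_single (u : R) (y : C → ℕ) (l : C) :
    dv (rowTab u (y + Pi.single l 1)) = dv (rowTab u y) + chi (u, l) := by
  rw [rowTab_add_single, dv_add, dv_single, Nat.cast_one, one_smul]

theorem dv_rowTab_inr (u : R) (z : C → ℕ) (j : C) :
    dv (rowTab u z) (Sum.inr j) = -(z j : ℤ) := by
  rw [dv_inr, Finset.sum_eq_single u]
  · rw [rowTab_self]
  · intro a _ ha
    rw [rowTab_of_ne u z ha, Nat.cast_zero]
  · intro h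
    exact absurd (Finset.mem_univ u) h

omit [Fintype R] in
theorem res_row_eq_iff (u : R) (T : R × C → ℕ) (x : C → ℕ) :
    res (({u} : Finset R) ×ˢ (Finset.univ : Finset C)) T = rowTab u x ↔ rowOf u T = x := by
  constructor
  · intro h
    funext j
    have h1 := congrFun h (u, j)
    rw [res_apply_of_mem T (by simp), rowTab_self] at h1
    exact h1
  · intro h
    funext e
    obtain ⟨a, c⟩ := e
    by_cases ha : a = u
    · subst ha
      rw [res_apply_of_mem T (by simp), rowTab_self, ← h]
      rfl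
    · rw [res_apply_of_notMem T (by simpa using Ne.symm ha), rowTab_of_ne u x ha]

omit [Fintype R] in
theorem sdiff_row (S' : Finset R) (u : R) (hu : u ∉ S') :
    (insert u S' ×ˢ (Finset.univ : Finset C)) \ (({u} : Finset R) ×ˢ (Finset.univ : Finset C))
      = S' ×ˢ (Finset.univ : Finset C) := by
  ext e
  simp only [Finset.mem_sdiff, Finset.mem_product, Finset.mem_insert, Finset.mem_univ,
    and_true, Finset.mem_singleton]
  constructor
  · rintro ⟨h1 | h1, h2⟩
    · exact absurd h1 h2
    · exact h1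
  · intro h
    exact ⟨Or.inr h, fun h' => hu (h' ▸ h)⟩

/-- A sum over the tables whose row `u` is `x` is a sum over the tables on the other rows. -/
theorem sum_slice (S' : Finset R) (u : R) (hu : u ∉ S') (D : R ⊕ C → ℤ) (x : C → ℕ)
    (G : (R × C → ℕ) → ℝ) :
    ∑ T ∈ (OmF (insert u S' ×ˢ (Finset.univ : Finset C)) D).filter (fun T => rowOf u T = x),
        G T
      = ∑ A ∈ OmF (S' ×ˢ (Finset.univ : Finset C)) (D - dv (rowTab u x)),
          G (A + rowTab u x) := by
  have hσ : ∀ e : R × C, e ∉ ({u} : Finset R) ×ˢ (Finset.univ : Finset C) →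
      rowTab u x e = 0 := by
    intro e he
    apply rowTab_of_ne
    intro h
    apply he
    rw [Finset.mem_product]
    exact ⟨Finset.mem_singleton.mpr h, Finset.mem_univ _⟩
  have hsub : ({u} : Finset R) ×ˢ (Finset.univ : Finset C)
      ⊆ insert u S' ×ˢ (Finset.univ : Finset C) := by
    intro e he
    simp only [Finset.mem_product, Finset.mem_singleton, Finset.mem_univ, and_true] at he
    simp [he]
  have h := sum_OmF_filter_res hsub D hσ G
  rw [sdiff_row S' u hu] at h
  rw [← h]
  apply Finset.sum_congr _ (fun _ _ => rfl)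
  apply Finset.filter_congr
  intro T _
  exact (res_row_eq_iff u T x).symm

theorem rowCnt_eq (S' : Finset R) (u : R) (hu : u ∉ S') (D : R ⊕ C → ℤ) (x : C → ℕ) :
    rowCnt (insert u S' ×ˢ (Finset.univ : Finset C)) D u x
      = (OmF (S' ×ˢ (Finset.univ : Finset C)) (D - dv (rowTab u x))).card := by
  have h := sum_slice S' u hu D x (fun _ => (1 : ℝ))
  rw [Finset.sum_const, Finset.sum_const, nsmul_eq_mul, nsmul_eq_mul, mul_one, mul_one] at h
  unfold rowCnt
  exact_mod_cast h

/-- Completion of a table on the rows of `S'` by the row `u` that makes the column margins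
equal to those of `D`. -/
def fill (D : R ⊕ C → ℤ) (u : R) (A : R × C → ℕ) : R × C → ℕ :=
  A + rowTab u (fun j => (dv A (Sum.inr j) - D (Sum.inr j)).toNat)

theorem fill_eq (D : R ⊕ C → ℤ) (u : R) (A : R × C → ℕ) (z : C → ℕ)
    (hA : dv A = D - dv (rowTab u z)) : fill D u A = A + rowTab u z := by
  unfold fill
  congr 2
  funext j
  rw [hA, Pi.sub_apply, dv_rowTab_inr]
  simp

theorem rowAvg_eq (S' : Finset R) (u : R) (hu : u ∉ S') (D : R ⊕ C → ℤ)
    (F : (R × C → ℕ) → ℝ) (x : C → ℕ) :
    rowAvg (insert u S' ×ˢ (Finset.univ : Finset C)) D u F x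
      = Poly.avg (OmF (S' ×ˢ (Finset.univ : Finset C)) (D - dv (rowTab u x)))
          (fun A => F (fill D u A)) := by
  unfold rowAvg Poly.avg
  rw [sum_slice S' u hu D x F, rowCnt_eq S' u hu D x]
  congr 1
  apply Finset.sum_congr rfl
  intro A hA
  show F (A + rowTab u x) = F (fill D u A)
  rw [fill_eq D u A x (mem_OmF.mp hA).2]

/-- The margins such that the class of the column `l` consists of the tables on the rows of
`S'` that are completed by the row `y + e_l`. -/
def D0 (D : R ⊕ C → ℤ) (u : R) (y : C → ℕ) : R ⊕ C → ℤ :=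
  D - dv (rowTab u y) - Pi.single (Sum.inl u) 1

theorem Dl_D0 (D : R ⊕ C → ℤ) (u : R) (y : C → ℕ) (l : C) :
    Poly.Dl (D0 D u y) l = D - dv (rowTab u (y + Pi.single l 1)) := by
  rw [dv_rowTab_add_single]
  unfold Poly.Dl Poly.eC D0 chi
  dsimp only
  abel

/-- Remove one unit at `k`. -/
def dec (x : C → ℕ) (k : C) : C → ℕ := Function.update x k (x k - 1)

omit [Fintype R] [Fintype C] [DecidableEq R] in
theorem dec_add_single (x : C → ℕ) (k : C) (hk : 1 ≤ x k) : dec x k + Pi.single k 1 = x := by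
  funext c
  rw [Pi.add_apply]
  by_cases hc : c = k
  · subst hc
    unfold dec
    rw [Function.update_self, Pi.single_eq_same]
    omega
  · unfold dec
    rw [Function.update_of_ne hc, Pi.single_eq_of_ne hc, add_zero]

omit [Fintype R] [Fintype C] [DecidableEq R] in
theorem mvRow_eq (x : C → ℕ) {j k : C} (hjk : j ≠ k) :
    mvRow x j k = dec x k + Pi.single j 1 := by
  funext c
  rw [Pi.add_apply]
  unfold mvRow dec
  by_cases hc : c = k
  · subst hc
    rw [Function.update_self, Function.update_self, Pi.single_eq_of_ne (Ne.symm hjk), add_zero]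
  · rw [Function.update_of_ne hc, Function.update_of_ne hc]
    by_cases hcj : c = j
    · subst hcj
      rw [Function.update_self, Pi.single_eq_same]
    · rw [Function.update_of_ne hcj, Pi.single_eq_of_ne hcj, add_zero]


/-- If the rows `x` and `mvRow x j k` both occur, then `x k` is positive. -/
theorem pos_of_slices (E : Finset (R × C)) (D : R ⊕ C → ℤ) (u : R) (x : C → ℕ) {j k : C}
    (hjk : j ≠ k) {T T' : R × C → ℕ} (hT : T ∈ Om E D) (hTx : rowOf u T = x)
    (hT' : T' ∈ Om E D) (hT'x : rowOf u T' = mvRow x j k) : 1 ≤ x k := by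
  by_contra hk
  have hk0 : x k = 0 := by omega
  have h1 := dv_inl T u
  have h2 := dv_inl T' u
  rw [hT.2] at h1
  rw [hT'.2, h1] at h2
  have hlt : ∑ v, (T (u, v) : ℤ) < ∑ v, (T' (u, v) : ℤ) := by
    apply Finset.sum_lt_sum
    · intro c _
      have e1 : T (u, c) = x c := congrFun hTx c
      have e2 : T' (u, c) = mvRow x j k c := congrFun hT'x c
      rw [e1, e2, mvRow_eq x hjk, Pi.add_apply]
      unfold dec
      by_cases hc : c = k
      · subst hc
        rw [hk0]
        exact_mod_cast Nat.zero_le _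
      · rw [Function.update_of_ne hc]
        exact_mod_cast Nat.le_add_right _ _
    · refine ⟨j, Finset.mem_univ j, ?_⟩
      have e1 : T (u, j) = x j := congrFun hTx j
      have e2 : T' (u, j) = mvRow x j k j := congrFun hT'x j
      rw [e1, e2, mvRow_eq x hjk, Pi.add_apply, Pi.single_eq_same]
      unfold dec
      rw [Function.update_of_ne hjk]
      exact_mod_cast Nat.lt_succ_self _
  rw [h2] at hlt
  exact lt_irrefl _ hlt

omit [Fintype R] [Fintype C] in
theorem move_apply (T : R × C → ℕ) (u : R) (l l' : C) (e : R × C) :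
    Poly.move T u l l' e
      = if e = (u, l') then T (u, l') - 1 else if e = (u, l) then T (u, l) + 1 else T e := by
  unfold Poly.move
  rw [Function.update_apply, Function.update_apply]

/-- The unit switch of a full table: one unit of row `v` goes from column `l'` to column `l`
and one unit of row `u` goes from column `l` to column `l'`. -/
def sw (u : R) (T : R × C → ℕ) (v : R) (l l' : C) : R × C → ℕ :=
  Poly.move (Poly.move T v l l') u l' l

omit [Fintype R] [Fintype C] in
theorem move_add_rowTab (u v : R) (hvu : v ≠ u) (A : R × C → ℕ) (hA : ∀ j, A (u, j) = 0)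
    (y : C → ℕ) {l l' : C} (hll : l ≠ l') :
    Poly.move A v l l' + rowTab u (y + Pi.single l' 1)
      = sw u (A + rowTab u (y + Pi.single l 1)) v l l' := by
  funext e
  obtain ⟨a, c⟩ := e
  unfold sw
  simp only [Pi.add_apply, move_apply, rowTab, Prod.mk.injEq, Pi.single_apply]
  have h1 := hA c
  by_cases ha : a = u
  · subst ha
    by_cases hc : c = l
    · subst hc
      simp [hll, Ne.symm hvu, h1]
    · by_cases hc' : c = l'
      · subst hc'
        simp [Ne.symm hvu, Ne.symm hll, h1]
      · simp [Ne.symm hvu, hc, hc', h1]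
  · by_cases hav : a = v
    · subst hav
      by_cases hc : c = l
      · subst hc
        simp [hvu, hll]
      · by_cases hc' : c = l'
        · subst hc'
          simp [hvu, Ne.symm hll]
        · simp [hvu, hc, hc']
    · simp [ha, hav]


omit [Fintype R] [Fintype C] in
theorem sw_of_ne (u : R) (T : R × C → ℕ) (v : R) (l l' : C) (e : R × C) (h1 : e.1 ≠ u)
    (h2 : e.1 ≠ v) : sw u T v l l' e = T e := by
  unfold sw
  rw [Poly.move_of_ne _ u l' l e (fun h => h1 (congrArg Prod.fst h))
      (fun h => h1 (congrArg Prod.fst h)),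
    Poly.move_of_ne _ v l l' e (fun h => h2 (congrArg Prod.fst h))
      (fun h => h2 (congrArg Prod.fst h))]

omit [Fintype R] [Fintype C] in
theorem move_pos_aux (u : R) (T : R × C → ℕ) {v : R} (hvu : v ≠ u) (l l' : C)
    (h2 : 1 ≤ T (u, l)) : 1 ≤ Poly.move T v l l' (u, l) := by
  rw [Poly.move_of_ne T v l l' (u, l) (fun h => hvu (congrArg Prod.fst h).symm)
    (fun h => hvu (congrArg Prod.fst h).symm)]
  exact h2

theorem sw_mem (S' : Finset R) (u : R) (hu : u ∉ S') (D : R ⊕ C → ℤ) {T : R × C → ℕ}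
    (hT : T ∈ Om (insert u S' ×ˢ (Finset.univ : Finset C)) D) {v : R} (hv : v ∈ S')
    {l l' : C} (hll : l ≠ l') (h1 : 1 ≤ T (v, l')) (h2 : 1 ≤ T (u, l)) :
    sw u T v l l' ∈ Om (insert u S' ×ˢ (Finset.univ : Finset C)) D := by
  have hvu : v ≠ u := fun h => hu (h ▸ hv)
  refine ⟨?_, ?_⟩
  · intro e he
    have he1 : e.1 ∉ insert u S' :=
      fun h => he (Finset.mem_product.mpr ⟨h, Finset.mem_univ _⟩)
    rw [sw_of_ne u T v l l' e (fun h => he1 (by rw [h]; exact Finset.mem_insert_self u S'))
      (fun h => he1 (by rw [h]; exact Finset.mem_insert_of_mem hv))]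
    exact hT.1 e he
  · unfold sw
    rw [Poly.dv_move _ u (Ne.symm hll) (move_pos_aux u T hvu l l' h2),
      Poly.dv_move T v hll h1, hT.2]
    abel

omit [Fintype R] [Fintype C] in
theorem sw_back (u : R) (T : R × C → ℕ) {v : R} (hvu : v ≠ u) {l l' : C} (hll : l ≠ l')
    (h1 : 1 ≤ T (v, l')) (h2 : 1 ≤ T (u, l)) :
    Poly.move (Poly.move (sw u T v l l') u l l') v l' l = T := by
  unfold sw
  rw [Poly.move_move _ u (Ne.symm hll) (move_pos_aux u T hvu l l' h2),
    Poly.move_move T v hll h1]

theorem hAvg_congr (E : Finset (R × C)) (D : R ⊕ C → ℤ) (q : Finset R)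
    (F : (R × C → ℕ) → ℝ) {T T' : R × C → ℕ} (h : ∀ e : R × C, e.1 ∉ q → T e = T' e) :
    hAvg E D q F T = hAvg E D q F T' := by
  have hc : hClass E D q T = hClass E D q T' := by
    unfold hClass
    apply Finset.filter_congr
    intro T'' _
    constructor
    · intro h1 e he
      rw [h1 e he, h e he]
    · intro h1 e he
      rw [h1 e he, h e he]
  unfold hAvg
  rw [hc]

/-- The bound for the weight of the edge at the full table `T` that moves a unit of row `v`
from column `l'` to column `l` (and a unit of row `u` from column `l` to column `l'`). -/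
noncomputable def hw (E : Finset (R × C)) (D : R ⊕ C → ℤ) (u : R) (F : (R × C → ℕ) → ℝ)
    (T : R × C → ℕ) (v : R) (l l' : C) : ℝ :=
  if 1 ≤ T (v, l') ∧ 1 ≤ T (u, l) then
    2 * (F T - hAvg E D {u, v} F T) ^ 2
      + 2 * (F (sw u T v l l') - hAvg E D {u, v} F (sw u T v l l')) ^ 2
  else 0

theorem hw_nonneg (E : Finset (R × C)) (D : R ⊕ C → ℤ) (u : R) (F : (R × C → ℕ) → ℝ)
    (T : R × C → ℕ) (v : R) (l l' : C) : 0 ≤ hw E D u F T v l l' := by
  unfold hw
  split_ifs
  · positivity
  · exact le_refl _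

theorem ew_le (S' : Finset R) (u : R) (hu : u ∉ S') (D : R ⊕ C → ℤ) (F : (R × C → ℕ) → ℝ)
    (y : C → ℕ) (l : C) {A : R × C → ℕ}
    (hA : A ∈ Om (S' ×ˢ (Finset.univ : Finset C)) (D - dv (rowTab u (y + Pi.single l 1))))
    {v : R} (hv : v ∈ S') {l' : C} (hll : l ≠ l') :
    Poly.ew (fun A => F (fill D u A)) A v l l'
      ≤ hw (insert u S' ×ˢ (Finset.univ : Finset C)) D u F
          (A + rowTab u (y + Pi.single l 1)) v l l' := by
  have hvu : v ≠ u := fun h => hu (h ▸ hv)
  unfold Poly.ew
  split_ifs with hpos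
  · have hAu : ∀ j, A (u, j) = 0 :=
      fun j => hA.1 (u, j) (fun h => hu (Finset.mem_product.mp h).1)
    have hT1 : 1 ≤ (A + rowTab u (y + Pi.single l 1) : R × C → ℕ) (v, l') := by
      rw [Pi.add_apply]
      exact le_trans hpos (Nat.le_add_right _ _)
    have hT2 : 1 ≤ (A + rowTab u (y + Pi.single l 1) : R × C → ℕ) (u, l) := by
      rw [Pi.add_apply, rowTab_self, Pi.add_apply, Pi.single_eq_same]
      omega
    have hdv : dv (Poly.move A v l l') = D - dv (rowTab u (y + Pi.single l' 1)) := by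
      rw [Poly.dv_move A v hll hpos, hA.2, dv_rowTab_add_single, dv_rowTab_add_single]
      unfold Poly.eC chi
      dsimp only
      abel
    have e1 : fill D u A = A + rowTab u (y + Pi.single l 1) := fill_eq D u A _ hA.2
    have e2 : fill D u (Poly.move A v l l')
        = sw u (A + rowTab u (y + Pi.single l 1)) v l l' := by
      rw [fill_eq D u _ _ hdv, move_add_rowTab u v hvu A hAu y hll]
    have e3 : hAvg (insert u S' ×ˢ (Finset.univ : Finset C)) D {u, v} F
          (sw u (A + rowTab u (y + Pi.single l 1)) v l l')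
        = hAvg (insert u S' ×ˢ (Finset.univ : Finset C)) D {u, v} F
          (A + rowTab u (y + Pi.single l 1)) := by
      apply hAvg_congr
      intro e he
      exact sw_of_ne u _ v l l' e (fun h => he (by rw [h]; simp)) (fun h => he (by rw [h]; simp))
    show (F (fill D u (Poly.move A v l l')) - F (fill D u A)) ^ 2 ≤ _
    rw [e1, e2]
    unfold hw
    rw [if_pos ⟨hT1, hT2⟩, e3]
    nlinarith [sq_nonneg (F (sw u (A + rowTab u (y + Pi.single l 1)) v l l')
      + F (A + rowTab u (y + Pi.single l 1))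
      - 2 * hAvg (insert u S' ×ˢ (Finset.univ : Finset C)) D {u, v} F
          (A + rowTab u (y + Pi.single l 1)))]
  · exact hw_nonneg _ _ _ _ _ _ _ _


/-- The energy of `PColStatement` for the classes obtained from the rows `y + e_l`. -/
noncomputable def EnY (S' : Finset R) (D : R ⊕ C → ℤ) (u : R) (F : (R × C → ℕ) → ℝ)
    (y : C → ℕ) : ℝ :=
  ∑ l, ∑ A ∈ OmF (S' ×ˢ (Finset.univ : Finset C)) (Poly.Dl (D0 D u y) l), ∑ v ∈ S',
    ∑ l' ∈ (Finset.univ : Finset C).erase l, Poly.ew (fun A => F (fill D u A)) A v l l'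

theorem EnY_nonneg (S' : Finset R) (D : R ⊕ C → ℤ) (u : R) (F : (R × C → ℕ) → ℝ)
    (y : C → ℕ) : 0 ≤ EnY S' D u F y := by
  unfold EnY
  exact Finset.sum_nonneg (fun l _ => Finset.sum_nonneg (fun A _ => Finset.sum_nonneg
    (fun v _ => Finset.sum_nonneg (fun l' _ => Poly.ew_nonneg _ _ _ _ _))))

/-- The sum of the edge bounds at the full table `T` for the column `l`. -/
noncomputable def HH (S' : Finset R) (D : R ⊕ C → ℤ) (u : R) (F : (R × C → ℕ) → ℝ)
    (T : R × C → ℕ) (l : C) : ℝ :=
  ∑ v ∈ S', ∑ l' ∈ (Finset.univ : Finset C).erase l,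
    hw (insert u S' ×ˢ (Finset.univ : Finset C)) D u F T v l l'

theorem HH_nonneg (S' : Finset R) (D : R ⊕ C → ℤ) (u : R) (F : (R × C → ℕ) → ℝ)
    (T : R × C → ℕ) (l : C) : 0 ≤ HH S' D u F T l := by
  unfold HH
  exact Finset.sum_nonneg (fun v _ => Finset.sum_nonneg (fun l' _ => hw_nonneg _ _ _ _ _ _ _ _))

theorem EnY_le (S' : Finset R) (u : R) (hu : u ∉ S') (D : R ⊕ C → ℤ) (F : (R × C → ℕ) → ℝ)
    (y : C → ℕ) :
    EnY S' D u F y
      ≤ ∑ l, ∑ T ∈ OmF (insert u S' ×ˢ (Finset.univ : Finset C)) D,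
          (if rowOf u T = y + Pi.single l 1 then HH S' D u F T l else 0) := by
  unfold EnY
  apply Finset.sum_le_sum
  intro l _
  rw [← Finset.sum_filter, sum_slice S' u hu D (y + Pi.single l 1) (fun T => HH S' D u F T l),
    Dl_D0]
  apply Finset.sum_le_sum
  intro A hA
  show _ ≤ HH S' D u F (A + rowTab u (y + Pi.single l 1)) l
  unfold HH
  apply Finset.sum_le_sum
  intro v hv
  apply Finset.sum_le_sum
  intro l' hl'
  exact ew_le S' u hu D F y l (mem_OmF.mp hA) hv (Finset.ne_of_mem_erase hl').symm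

theorem term_le (hP : PColStatement R C) (S' : Finset R) (u : R) (hu : u ∉ S')
    (D : R ⊕ C → ℤ) (F : (R × C → ℕ) → ℝ) {x : C → ℕ}
    (hx : x ∈ (OmF (insert u S' ×ˢ (Finset.univ : Finset C)) D).image (rowOf u)) {j k : C}
    (hjk : j ≠ k) :
    min (rowCnt (insert u S' ×ˢ (Finset.univ : Finset C)) D u x : ℝ)
        (rowCnt (insert u S' ×ˢ (Finset.univ : Finset C)) D u (mvRow x j k) : ℝ)
      * (rowAvg (insert u S' ×ˢ (Finset.univ : Finset C)) D u F (mvRow x j k)
          - rowAvg (insert u S' ×ˢ (Finset.univ : Finset C)) D u F x) ^ 2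
      ≤ if 1 ≤ x k then ((S'.card : ℝ) + 1) * EnY S' D u F (dec x k) else 0 := by
  have hrhs : 0 ≤ (if 1 ≤ x k then ((S'.card : ℝ) + 1) * EnY S' D u F (dec x k) else 0) := by
    split_ifs
    · exact mul_nonneg (by positivity) (EnY_nonneg S' D u F _)
    · exact le_refl _
  by_cases hN : rowCnt (insert u S' ×ˢ (Finset.univ : Finset C)) D u (mvRow x j k) = 0
  · rw [hN, Nat.cast_zero, min_eq_right (Nat.cast_nonneg _), zero_mul]
    exact hrhs
  · obtain ⟨T, hT, hTx⟩ := Finset.mem_image.mp hx
    have hne' : ((OmF (insert u S' ×ˢ (Finset.univ : Finset C)) D).filter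
        (fun T => rowOf u T = mvRow x j k)).Nonempty :=
      Finset.card_pos.mp (Nat.pos_of_ne_zero hN)
    obtain ⟨T', hT'⟩ := hne'
    rw [Finset.mem_filter] at hT'
    have hk : 1 ≤ x k :=
      pos_of_slices _ D u x hjk (mem_OmF.mp hT) hTx (mem_OmF.mp hT'.1) hT'.2
    rw [if_pos hk]
    have hxk : dec x k + Pi.single k 1 = x := dec_add_single x k hk
    have hxj : mvRow x j k = dec x k + Pi.single j 1 := mvRow_eq x hjk
    have hNx : rowCnt (insert u S' ×ˢ (Finset.univ : Finset C)) D u x ≠ 0 := by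
      unfold rowCnt
      exact Finset.card_ne_zero.mpr ⟨T, Finset.mem_filter.mpr ⟨hT, hTx⟩⟩
    have ek : D - dv (rowTab u x) = Poly.Dl (D0 D u (dec x k)) k := by rw [Dl_D0, hxk]
    have ej : D - dv (rowTab u (mvRow x j k)) = Poly.Dl (D0 D u (dec x k)) j := by
      rw [Dl_D0, hxj]
    have cN : rowCnt (insert u S' ×ˢ (Finset.univ : Finset C)) D u x
        = (OmF (S' ×ˢ (Finset.univ : Finset C)) (Poly.Dl (D0 D u (dec x k)) k)).card := by
      rw [rowCnt_eq S' u hu D x, ek]
    have cN' : rowCnt (insert u S' ×ˢ (Finset.univ : Finset C)) D u (mvRow x j k)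
        = (OmF (S' ×ˢ (Finset.univ : Finset C)) (Poly.Dl (D0 D u (dec x k)) j)).card := by
      rw [rowCnt_eq S' u hu D _, ej]
    have cA : rowAvg (insert u S' ×ˢ (Finset.univ : Finset C)) D u F x
        = Poly.avg (OmF (S' ×ˢ (Finset.univ : Finset C)) (Poly.Dl (D0 D u (dec x k)) k))
            (fun A => F (fill D u A)) := by
      rw [rowAvg_eq S' u hu D F x, ek]
    have cA' : rowAvg (insert u S' ×ˢ (Finset.univ : Finset C)) D u F (mvRow x j k)
        = Poly.avg (OmF (S' ×ˢ (Finset.univ : Finset C)) (Poly.Dl (D0 D u (dec x k)) j))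
            (fun A => F (fill D u A)) := by
      rw [rowAvg_eq S' u hu D F _, ej]
    have hX : (OmF (S' ×ˢ (Finset.univ : Finset C)) (Poly.Dl (D0 D u (dec x k)) k)).Nonempty :=
      Finset.card_pos.mp (by rw [← cN]; exact Nat.pos_of_ne_zero hNx)
    have hY : (OmF (S' ×ˢ (Finset.univ : Finset C)) (Poly.Dl (D0 D u (dec x k)) j)).Nonempty :=
      Finset.card_pos.mp (by rw [← cN']; exact Nat.pos_of_ne_zero hN)
    have hmain : (Poly.avg (OmF (S' ×ˢ (Finset.univ : Finset C)) (Poly.Dl (D0 D u (dec x k)) j))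
          (fun A => F (fill D u A))
        - Poly.avg (OmF (S' ×ˢ (Finset.univ : Finset C)) (Poly.Dl (D0 D u (dec x k)) k))
          (fun A => F (fill D u A))) ^ 2
        ≤ ((S'.card : ℝ) + 1)
            / ((OmF (S' ×ˢ (Finset.univ : Finset C)) (Poly.Dl (D0 D u (dec x k)) j)).card : ℝ)
            * EnY S' D u F (dec x k) :=
      hP S' Finset.univ (D0 D u (dec x k)) k j (fun A => F (fill D u A)) (Finset.mem_univ k)
        (Finset.mem_univ j) hX hY
    have hpos : (0 : ℝ)
        < ((OmF (S' ×ˢ (Finset.univ : Finset C)) (Poly.Dl (D0 D u (dec x k)) j)).card : ℝ) := by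
      exact_mod_cast Finset.card_pos.mpr hY
    rw [cN, cN', cA, cA']
    refine le_trans (mul_le_mul_of_nonneg_right (min_le_right _ _) (sq_nonneg _)) ?_
    refine le_trans (mul_le_mul_of_nonneg_left hmain hpos.le) ?_
    apply le_of_eq
    field_simp

theorem sum_ite_le_of_unique {α : Type*} (s : Finset α) (p : α → Prop) [DecidablePred p]
    (c : ℝ) (hc : 0 ≤ c) (huniq : ∀ a ∈ s, ∀ b ∈ s, p a → p b → a = b) :
    ∑ a ∈ s, (if p a then c else 0) ≤ c := by
  rw [← Finset.sum_filter, Finset.sum_const, nsmul_eq_mul]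
  have h : (s.filter p).card ≤ 1 := by
    apply Finset.card_le_one.mpr
    intro a ha b hb
    rw [Finset.mem_filter] at ha hb
    exact huniq a ha.1 b hb.1 ha.2 hb.2
  have h' : ((s.filter p).card : ℝ) ≤ 1 := by exact_mod_cast h
  nlinarith

theorem hVar_nonneg (E : Finset (R × C)) (D : R ⊕ C → ℤ) (q : Finset R)
    (F : (R × C → ℕ) → ℝ) : 0 ≤ hVar E D q F := by
  unfold hVar
  exact Finset.sum_nonneg (fun T _ => sq_nonneg _)

theorem sum_hw_le (S' : Finset R) (u : R) (hu : u ∉ S') (D : R ⊕ C → ℤ)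
    (F : (R × C → ℕ) → ℝ) {v : R} (hv : v ∈ S') {l l' : C} (hll : l ≠ l') :
    ∑ T ∈ OmF (insert u S' ×ˢ (Finset.univ : Finset C)) D,
        hw (insert u S' ×ˢ (Finset.univ : Finset C)) D u F T v l l'
      ≤ 4 * hVar (insert u S' ×ˢ (Finset.univ : Finset C)) D {u, v} F := by
  have hvu : v ≠ u := fun h => hu (h ▸ hv)
  have hsplit : ∀ T : R × C → ℕ,
      hw (insert u S' ×ˢ (Finset.univ : Finset C)) D u F T v l l'
        = (if 1 ≤ T (v, l') ∧ 1 ≤ T (u, l) then
            2 * (F T - hAvg (insert u S' ×ˢ (Finset.univ : Finset C)) D {u, v} F T) ^ 2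
            else 0)
          + (if 1 ≤ T (v, l') ∧ 1 ≤ T (u, l) then
            2 * (F (sw u T v l l')
              - hAvg (insert u S' ×ˢ (Finset.univ : Finset C)) D {u, v} F (sw u T v l l')) ^ 2
            else 0) := by
    intro T
    unfold hw
    split_ifs
    · rfl
    · rw [add_zero]
  have h1 : ∑ T ∈ OmF (insert u S' ×ˢ (Finset.univ : Finset C)) D,
      (if 1 ≤ T (v, l') ∧ 1 ≤ T (u, l) then
        2 * (F T - hAvg (insert u S' ×ˢ (Finset.univ : Finset C)) D {u, v} F T) ^ 2 else 0)
      ≤ 2 * hVar (insert u S' ×ˢ (Finset.univ : Finset C)) D {u, v} F := by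
    unfold hVar
    rw [Finset.mul_sum]
    apply Finset.sum_le_sum
    intro T _
    split_ifs
    · exact le_refl _
    · positivity
  have h2 : ∑ T ∈ OmF (insert u S' ×ˢ (Finset.univ : Finset C)) D,
      (if 1 ≤ T (v, l') ∧ 1 ≤ T (u, l) then
        2 * (F (sw u T v l l')
          - hAvg (insert u S' ×ˢ (Finset.univ : Finset C)) D {u, v} F (sw u T v l l')) ^ 2
        else 0)
      ≤ 2 * hVar (insert u S' ×ˢ (Finset.univ : Finset C)) D {u, v} F := by
    rw [← Finset.sum_filter]
    have hinj : Set.InjOn (fun T : R × C → ℕ => sw u T v l l')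
        (((OmF (insert u S' ×ˢ (Finset.univ : Finset C)) D).filter
          (fun T => 1 ≤ T (v, l') ∧ 1 ≤ T (u, l)) : Finset (R × C → ℕ)) : Set (R × C → ℕ)) := by
      intro T1 h1 T2 h2 heq
      rw [Finset.mem_coe, Finset.mem_filter] at h1 h2
      have heq' : sw u T1 v l l' = sw u T2 v l l' := heq
      have e1 := sw_back u T1 hvu hll h1.2.1 h1.2.2
      have e2 := sw_back u T2 hvu hll h2.2.1 h2.2.2
      rw [← e1, ← e2, heq']
    rw [← Finset.sum_image (f := fun T' : R × C → ℕ =>
      2 * (F T' - hAvg (insert u S' ×ˢ (Finset.univ : Finset C)) D {u, v} F T') ^ 2) hinj]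
    unfold hVar
    rw [Finset.mul_sum]
    apply Finset.sum_le_sum_of_subset_of_nonneg
    · intro T' hT'
      obtain ⟨T, hT, rfl⟩ := Finset.mem_image.mp hT'
      rw [Finset.mem_filter] at hT
      exact mem_OmF.mpr (sw_mem S' u hu D (mem_OmF.mp hT.1) hv hll hT.2.1 hT.2.2)
    · intro T' _ _
      positivity
  calc ∑ T ∈ OmF (insert u S' ×ˢ (Finset.univ : Finset C)) D,
        hw (insert u S' ×ˢ (Finset.univ : Finset C)) D u F T v l l'
      = ∑ T ∈ OmF (insert u S' ×ˢ (Finset.univ : Finset C)) D,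
          ((if 1 ≤ T (v, l') ∧ 1 ≤ T (u, l) then
            2 * (F T - hAvg (insert u S' ×ˢ (Finset.univ : Finset C)) D {u, v} F T) ^ 2
            else 0)
          + (if 1 ≤ T (v, l') ∧ 1 ≤ T (u, l) then
            2 * (F (sw u T v l l')
              - hAvg (insert u S' ×ˢ (Finset.univ : Finset C)) D {u, v} F (sw u T v l l')) ^ 2
            else 0)) := Finset.sum_congr rfl (fun T _ => hsplit T)
    _ = _ + _ := Finset.sum_add_distrib
    _ ≤ 2 * hVar (insert u S' ×ˢ (Finset.univ : Finset C)) D {u, v} F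
          + 2 * hVar (insert u S' ×ˢ (Finset.univ : Finset C)) D {u, v} F := add_le_add h1 h2
    _ = 4 * hVar (insert u S' ×ˢ (Finset.univ : Finset C)) D {u, v} F := by ring


theorem step3 (S' : Finset R) (u : R) (hu : u ∉ S') (D : R ⊕ C → ℤ) (F : (R × C → ℕ) → ℝ) :
    ∑ l, ∑ T ∈ OmF (insert u S' ×ˢ (Finset.univ : Finset C)) D, HH S' D u F T l
      ≤ (Fintype.card C : ℝ) * ((Fintype.card C : ℝ)
          * (4 * ∑ v ∈ S', hVar (insert u S' ×ˢ (Finset.univ : Finset C)) D {u, v} F)) := by
  have hl : ∀ l : C, ∑ T ∈ OmF (insert u S' ×ˢ (Finset.univ : Finset C)) D, HH S' D u F T l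
      ≤ (Fintype.card C : ℝ)
          * (4 * ∑ v ∈ S', hVar (insert u S' ×ˢ (Finset.univ : Finset C)) D {u, v} F) := by
    intro l
    unfold HH
    rw [Finset.sum_comm]
    calc ∑ v ∈ S', ∑ T ∈ OmF (insert u S' ×ˢ (Finset.univ : Finset C)) D,
          ∑ l' ∈ (Finset.univ : Finset C).erase l,
            hw (insert u S' ×ˢ (Finset.univ : Finset C)) D u F T v l l'
        = ∑ v ∈ S', ∑ l' ∈ (Finset.univ : Finset C).erase l,
            ∑ T ∈ OmF (insert u S' ×ˢ (Finset.univ : Finset C)) D,
              hw (insert u S' ×ˢ (Finset.univ : Finset C)) D u F T v l l' :=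
          Finset.sum_congr rfl (fun v _ => Finset.sum_comm)
      _ ≤ ∑ v ∈ S', ∑ l' ∈ (Finset.univ : Finset C).erase l,
            4 * hVar (insert u S' ×ˢ (Finset.univ : Finset C)) D {u, v} F :=
          Finset.sum_le_sum (fun v hv => Finset.sum_le_sum (fun l' hl' =>
            sum_hw_le S' u hu D F hv (Finset.ne_of_mem_erase hl').symm))
      _ ≤ ∑ v ∈ S', (Fintype.card C : ℝ)
            * (4 * hVar (insert u S' ×ˢ (Finset.univ : Finset C)) D {u, v} F) := by
          apply Finset.sum_le_sum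
          intro v _
          rw [Finset.sum_const, nsmul_eq_mul]
          apply mul_le_mul_of_nonneg_right _
            (mul_nonneg (by norm_num) (hVar_nonneg _ _ _ _))
          have h1 : ((Finset.univ : Finset C).erase l).card ≤ Fintype.card C :=
            (Finset.card_erase_le).trans (le_of_eq Finset.card_univ)
          exact_mod_cast h1
      _ = (Fintype.card C : ℝ)
            * (4 * ∑ v ∈ S', hVar (insert u S' ×ˢ (Finset.univ : Finset C)) D {u, v} F) := by
          rw [Finset.mul_sum, Finset.mul_sum]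
  calc ∑ l, ∑ T ∈ OmF (insert u S' ×ˢ (Finset.univ : Finset C)) D, HH S' D u F T l
      ≤ ∑ _l : C, (Fintype.card C : ℝ)
          * (4 * ∑ v ∈ S', hVar (insert u S' ×ˢ (Finset.univ : Finset C)) D {u, v} F) :=
        Finset.sum_le_sum (fun l _ => hl l)
    _ = _ := by rw [Finset.sum_const, Finset.card_univ, nsmul_eq_mul]

theorem step2 (S' : Finset R) (u : R) (hu : u ∉ S') (D : R ⊕ C → ℤ) (F : (R × C → ℕ) → ℝ) :
    ∑ x ∈ (OmF (insert u S' ×ˢ (Finset.univ : Finset C)) D).image (rowOf u), ∑ k,
        (if 1 ≤ x k then EnY S' D u F (dec x k) else 0)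
      ≤ (Fintype.card C : ℝ)
          * ∑ l, ∑ T ∈ OmF (insert u S' ×ˢ (Finset.univ : Finset C)) D, HH S' D u F T l := by
  calc ∑ x ∈ (OmF (insert u S' ×ˢ (Finset.univ : Finset C)) D).image (rowOf u), ∑ k,
        (if 1 ≤ x k then EnY S' D u F (dec x k) else 0)
      ≤ ∑ x ∈ (OmF (insert u S' ×ˢ (Finset.univ : Finset C)) D).image (rowOf u), ∑ k, ∑ l,
          ∑ T ∈ OmF (insert u S' ×ˢ (Finset.univ : Finset C)) D,
            (if 1 ≤ x k ∧ rowOf u T = dec x k + Pi.single l 1 then HH S' D u F T l else 0) := by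
        apply Finset.sum_le_sum
        intro x _
        apply Finset.sum_le_sum
        intro k _
        by_cases hk : 1 ≤ x k
        · rw [if_pos hk]
          simp only [hk, true_and]
          exact EnY_le S' u hu D F (dec x k)
        · rw [if_neg hk]
          simp only [hk, false_and, if_false, Finset.sum_const_zero]
          exact le_refl _
    _ = ∑ k, ∑ l, ∑ T ∈ OmF (insert u S' ×ˢ (Finset.univ : Finset C)) D,
          ∑ x ∈ (OmF (insert u S' ×ˢ (Finset.univ : Finset C)) D).image (rowOf u),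
            (if 1 ≤ x k ∧ rowOf u T = dec x k + Pi.single l 1 then HH S' D u F T l else 0) := by
        rw [Finset.sum_comm]
        apply Finset.sum_congr rfl
        intro k _
        rw [Finset.sum_comm]
        apply Finset.sum_congr rfl
        intro l _
        rw [Finset.sum_comm]
    _ ≤ ∑ _k : C, ∑ l, ∑ T ∈ OmF (insert u S' ×ˢ (Finset.univ : Finset C)) D,
          HH S' D u F T l := by
        apply Finset.sum_le_sum
        intro k _
        apply Finset.sum_le_sum
        intro l _
        apply Finset.sum_le_sum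
        intro T _
        apply sum_ite_le_of_unique _ (fun x : C → ℕ => 1 ≤ x k ∧ rowOf u T = dec x k + Pi.single l 1)
          _ (HH_nonneg S' D u F T l)
        intro a _ b _ ha hb
        have h1 : dec a k = dec b k := add_right_cancel (ha.2.symm.trans hb.2)
        rw [← dec_add_single a k ha.1, ← dec_add_single b k hb.1, h1]
    _ = _ := by rw [Finset.sum_const, Finset.card_univ, nsmul_eq_mul]

theorem step1 (hP : PColStatement R C) (S' : Finset R) (u : R) (hu : u ∉ S') (D : R ⊕ C → ℤ)
    (F : (R × C → ℕ) → ℝ) :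
    ∑ x ∈ (OmF (insert u S' ×ˢ (Finset.univ : Finset C)) D).image (rowOf u), ∑ j, ∑ k,
        (if j = k then 0 else
          min (rowCnt (insert u S' ×ˢ (Finset.univ : Finset C)) D u x : ℝ)
              (rowCnt (insert u S' ×ˢ (Finset.univ : Finset C)) D u (mvRow x j k) : ℝ)
            * (rowAvg (insert u S' ×ˢ (Finset.univ : Finset C)) D u F (mvRow x j k)
                - rowAvg (insert u S' ×ˢ (Finset.univ : Finset C)) D u F x) ^ 2)
      ≤ (Fintype.card C : ℝ) * (((S'.card : ℝ) + 1)
          * ∑ x ∈ (OmF (insert u S' ×ˢ (Finset.univ : Finset C)) D).image (rowOf u), ∑ k,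
              (if 1 ≤ x k then EnY S' D u F (dec x k) else 0)) := by
  calc ∑ x ∈ (OmF (insert u S' ×ˢ (Finset.univ : Finset C)) D).image (rowOf u), ∑ j, ∑ k,
        (if j = k then 0 else
          min (rowCnt (insert u S' ×ˢ (Finset.univ : Finset C)) D u x : ℝ)
              (rowCnt (insert u S' ×ˢ (Finset.univ : Finset C)) D u (mvRow x j k) : ℝ)
            * (rowAvg (insert u S' ×ˢ (Finset.univ : Finset C)) D u F (mvRow x j k)
                - rowAvg (insert u S' ×ˢ (Finset.univ : Finset C)) D u F x) ^ 2)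
      ≤ ∑ x ∈ (OmF (insert u S' ×ˢ (Finset.univ : Finset C)) D).image (rowOf u), ∑ _j : C,
          ∑ k, (if 1 ≤ x k then ((S'.card : ℝ) + 1) * EnY S' D u F (dec x k) else 0) := by
        apply Finset.sum_le_sum
        intro x hx
        apply Finset.sum_le_sum
        intro j _
        apply Finset.sum_le_sum
        intro k _
        by_cases hjk : j = k
        · rw [if_pos hjk]
          split_ifs
          · exact mul_nonneg (by positivity) (EnY_nonneg S' D u F _)
          · exact le_refl _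
        · rw [if_neg hjk]
          exact term_le hP S' u hu D F hx hjk
    _ = _ := by
        rw [Finset.mul_sum, Finset.mul_sum]
        apply Finset.sum_congr rfl
        intro x _
        rw [Finset.sum_const, Finset.card_univ, nsmul_eq_mul]
        congr 1
        rw [Finset.mul_sum]
        apply Finset.sum_congr rfl
        intro k _
        split_ifs
        · rfl
        · rw [mul_zero]

end Cross

/-- **The cross term of the peeling of the row `u`.**  For the tables on the rows
`insert u S'` (`u ∉ S'`, all columns) with margins `D`, the nearest-neighbour energy of the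
conditional mean `rowAvg` of `F` given the row `u` (the right-hand side of `OneRowStatement`
for `g = rowAvg`) is at most `4 n^4 (|S'| + 1)` times the sum of the row-pair energies
`hVar _ _ {u, v} F`, `v ∈ S'`; `n` is the number of columns. -/
theorem cross_bound (hP : PColStatement R C) (S' : Finset R) (u : R) (hu : u ∉ S')
    (D : R ⊕ C → ℤ) (F : (R × C → ℕ) → ℝ) :
    ∑ x ∈ (OmF (insert u S' ×ˢ (Finset.univ : Finset C)) D).image (rowOf u), ∑ j, ∑ k,
        (if j = k then 0 else
          min (rowCnt (insert u S' ×ˢ (Finset.univ : Finset C)) D u x : ℝ)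
              (rowCnt (insert u S' ×ˢ (Finset.univ : Finset C)) D u (mvRow x j k) : ℝ)
            * (rowAvg (insert u S' ×ˢ (Finset.univ : Finset C)) D u F (mvRow x j k)
                - rowAvg (insert u S' ×ˢ (Finset.univ : Finset C)) D u F x) ^ 2)
      ≤ 4 * (Fintype.card C : ℝ) ^ 4 * ((S'.card : ℝ) + 1)
          * ∑ v ∈ S', hVar (insert u S' ×ˢ (Finset.univ : Finset C)) D {u, v} F := by
  have hn : (0 : ℝ) ≤ (Fintype.card C : ℝ) := Nat.cast_nonneg _
  have hp : (0 : ℝ) ≤ (S'.card : ℝ) + 1 := by positivity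
  refine le_trans (Cross.step1 hP S' u hu D F) ?_
  refine le_trans (mul_le_mul_of_nonneg_left (mul_le_mul_of_nonneg_left
    (Cross.step2 S' u hu D F) hp) hn) ?_
  refine le_trans (mul_le_mul_of_nonneg_left (mul_le_mul_of_nonneg_left
    (mul_le_mul_of_nonneg_left (Cross.step3 S' u hu D F) hn) hp) hn) ?_
  apply le_of_eq
  ring

end Vale.Agent.Lib.P328.AM
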