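import Vale.Agent.Lib.P328.Hive.Main

/-!
# P328 / all margins: the number of tables as a function of the value of one cell

`fib E0 e X t` is the number of tables on the cell set `E0` whose signed margin vector is `X`
lowered by `t` units of the cell `e` (the number of tables on `E0 ∪ {e}` with margins `X` and
value `t` at `e`).  From the midpoint inequality `cnt_mid`:

* `fiber_mid`, `fiber_interval`: `t ↦ fib E0 e X t` has no internal zeros;
* `fiber_cross_mid1`, `fiber_cross_mid2`: the two mixed midpoint inequalities for margin vectors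
  `X`, `Y` such that `Y - X` and `Y - X - chi e` are differences of two unit vectors;
* `fiber_adj_a`, `fiber_adj_b`: the adjacent likelihood ratio inequalities;
* `fiber_tp2_a`, `fiber_tp2_b`: the likelihood ratio inequalities for all pairs `s ≤ t`
  (the value of the cell under `Y` is between the value under `X` and that value plus one,
  in the likelihood ratio order).
-/

namespace Vale.Agent.Lib.P328.AM

open Finset
open Vale.Agent.Lib.P328.Hive

variable {R C : Type*} [Fintype R] [Fintype C] [DecidableEq R] [DecidableEq C]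

/-- The number of tables on `E0` with signed margin vector `X` lowered by `t` units of `e`. -/
noncomputable def fib (E0 : Finset (R × C)) (e : R × C) (X : R ⊕ C → ℤ) (t : ℕ) : ℕ :=
  cnt E0 (X - (t : ℤ) • chi e)

omit [Fintype R] [Fintype C] [DecidableEq R] [DecidableEq C] in
private lemma sum_shift (X Y χ : R ⊕ C → ℤ) (A B S T : ℤ) (h : A + B = S + T) :
    (X - A • χ) + (Y - B • χ) = (X - S • χ) + (Y - T • χ) := by
  ext v
  simp only [Pi.add_apply, Pi.sub_apply, Pi.smul_apply, smul_eq_mul]
  linear_combination (-(χ v)) * h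

omit [Fintype R] [Fintype C] [DecidableEq R] [DecidableEq C] in
private lemma diff_shift (X Y χ : R ⊕ C → ℤ) (A B : ℤ) :
    (X - A • χ) - (Y - B • χ) = (X - Y) - (A - B) • χ := by
  ext v
  simp only [Pi.sub_apply, Pi.smul_apply, smul_eq_mul]
  ring

private lemma half_even {n : ℕ} (h : Even n) : (n + 1) / 2 = n / 2 := by
  obtain ⟨k, hk⟩ := h
  omega

private lemma half_odd {n : ℕ} (h : Odd n) : (n + 1) / 2 = n / 2 + 1 := by
  obtain ⟨k, hk⟩ := h
  omega

/-- Midpoint inequality along one cell. -/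
theorem fiber_mid (E0 : Finset (R × C)) (e : R × C) (X : R ⊕ C → ℤ) (s t : ℕ) :
    fib E0 e X s * fib E0 e X t ≤ fib E0 e X ((s + t) / 2) * fib E0 e X ((s + t + 1) / 2) := by
  unfold fib
  have hc := half_sum_cast s t
  rcases Nat.even_or_odd (s + t) with hev | hodd
  · have h12 := half_even hev
    refine cnt_mid E0 _ _ _ _ (sum_shift X X (chi e) _ _ _ _ (by linear_combination hc))
      (Sum.inl e.1) (Sum.inl e.1) ?_
    rw [diff_shift, h12]
    simp
  · have h12 := half_odd hodd
    refine cnt_mid E0 _ _ _ _ (sum_shift X X (chi e) _ _ _ _ (by linear_combination hc))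
      (Sum.inl e.1) (Sum.inr e.2) ?_
    have hz : (((s + t) / 2 : ℕ) : ℤ) - (((s + t + 1) / 2 : ℕ) : ℤ) = -1 := by
      rw [h12]
      push_cast
      ring
    rw [diff_shift, hz, sub_self, zero_sub, neg_smul, one_smul, neg_neg]
    rfl

private lemma fiber_interval_aux (E0 : Finset (R × C)) (e : R × C) (X : R ⊕ C → ℤ) :
    ∀ (d s t u : ℕ), t - s ≤ d → s ≤ u → u ≤ t → fib E0 e X s ≠ 0 → fib E0 e X t ≠ 0 →
      fib E0 e X u ≠ 0 := by
  intro d
  induction d with
  | zero =>
    intro s t u hd hsu hut hs ht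
    have : u = s := by omega
    rw [this]
    exact hs
  | succ d ih =>
    intro s t u hd hsu hut hs ht
    by_cases h1 : u = s
    · rw [h1]
      exact hs
    by_cases h2 : u = t
    · rw [h2]
      exact ht
    have hm := fiber_mid E0 e X s t
    have hpos : fib E0 e X s * fib E0 e X t ≠ 0 := Nat.mul_ne_zero hs ht
    have hm' : fib E0 e X ((s + t) / 2) * fib E0 e X ((s + t + 1) / 2) ≠ 0 := by
      intro h0
      rw [h0] at hm
      exact hpos (Nat.le_zero.mp hm)
    have hp1 := (Nat.mul_ne_zero_iff.mp hm').1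
    have hp2 := (Nat.mul_ne_zero_iff.mp hm').2
    by_cases hu : u ≤ (s + t) / 2
    · exact ih s ((s + t) / 2) u (by omega) hsu hu hs hp1
    · exact ih ((s + t + 1) / 2) t u (by omega) (by omega) hut hp2 ht

/-- The support of `t ↦ fib E0 e X t` is an interval. -/
theorem fiber_interval (E0 : Finset (R × C)) (e : R × C) (X : R ⊕ C → ℤ) {s u t : ℕ}
    (hsu : s ≤ u) (hut : u ≤ t) (hs : fib E0 e X s ≠ 0) (ht : fib E0 e X t ≠ 0) :
    fib E0 e X u ≠ 0 :=
  fiber_interval_aux E0 e X (t - s) s t u le_rfl hsu hut hs ht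

/-- First mixed midpoint inequality. -/
theorem fiber_cross_mid1 (E0 : Finset (R × C)) (e : R × C) (X Y : R ⊕ C → ℤ)
    (a b a' b' : R ⊕ C) (h1 : Y - X - chi e = Pi.single a 1 - Pi.single b 1)
    (h2 : Y - X = Pi.single a' 1 - Pi.single b' 1) (s t : ℕ) :
    fib E0 e X t * fib E0 e Y s ≤ fib E0 e X ((s + t) / 2) * fib E0 e Y ((s + t + 1) / 2) := by
  unfold fib
  have hc := half_sum_cast s t
  rcases Nat.even_or_odd (s + t) with hev | hodd
  · have h12 := half_even hev
    refine cnt_mid E0 _ _ _ _ (sum_shift X Y (chi e) _ _ _ _ (by linear_combination hc)) b' a' ?_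
    rw [diff_shift, h12, sub_self, zero_smul, sub_zero, ← neg_sub Y X, h2, neg_sub]
  · have h12 := half_odd hodd
    refine cnt_mid E0 _ _ _ _ (sum_shift X Y (chi e) _ _ _ _ (by linear_combination hc)) b a ?_
    have hz : (((s + t) / 2 : ℕ) : ℤ) - (((s + t + 1) / 2 : ℕ) : ℤ) = -1 := by
      rw [h12]
      push_cast
      ring
    rw [diff_shift, hz, neg_smul, one_smul, sub_neg_eq_add, ← neg_sub (Pi.single a 1), ← h1]
    abel

/-- Second mixed midpoint inequality. -/
theorem fiber_cross_mid2 (E0 : Finset (R × C)) (e : R × C) (X Y : R ⊕ C → ℤ)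
    (a b a' b' : R ⊕ C) (h1 : Y - X - chi e = Pi.single a 1 - Pi.single b 1)
    (h2 : Y - X = Pi.single a' 1 - Pi.single b' 1) (s t : ℕ) :
    fib E0 e Y (t + 1) * fib E0 e X s
      ≤ fib E0 e Y ((s + t) / 2 + 1) * fib E0 e X ((s + t + 1) / 2) := by
  unfold fib
  have hc := half_sum_cast s t
  rcases Nat.even_or_odd (s + t) with hev | hodd
  · have h12 := half_even hev
    refine cnt_mid E0 _ _ _ _ (sum_shift Y X (chi e) _ _ _ _
        (by simp only [Nat.cast_add, Nat.cast_one]; linear_combination hc))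
      a b ?_
    have hz : (((s + t) / 2 + 1 : ℕ) : ℤ) - (((s + t + 1) / 2 : ℕ) : ℤ) = 1 := by
      rw [h12]
      push_cast
      ring
    rw [diff_shift, hz, one_smul, h1]
  · have h12 := half_odd hodd
    refine cnt_mid E0 _ _ _ _ (sum_shift Y X (chi e) _ _ _ _
        (by simp only [Nat.cast_add, Nat.cast_one]; linear_combination hc))
      a' b' ?_
    rw [diff_shift, h12, sub_self, zero_smul, sub_zero, h2]

/-- Adjacent likelihood ratio inequality: the value under `Y` dominates the value under `X`. -/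
theorem fiber_adj_a (E0 : Finset (R × C)) (e : R × C) (X Y : R ⊕ C → ℤ)
    (a b a' b' : R ⊕ C) (h1 : Y - X - chi e = Pi.single a 1 - Pi.single b 1)
    (h2 : Y - X = Pi.single a' 1 - Pi.single b' 1) (t : ℕ) :
    fib E0 e X (t + 1) * fib E0 e Y t ≤ fib E0 e X t * fib E0 e Y (t + 1) := by
  have h := fiber_cross_mid1 E0 e X Y a b a' b' h1 h2 t (t + 1)
  have e1 : (t + (t + 1)) / 2 = t := by omega
  have e2 : (t + (t + 1) + 1) / 2 = t + 1 := by omega
  rw [e1, e2] at h
  exact h

/-- Adjacent likelihood ratio inequality: the value under `Y` is dominated by one plus the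
value under `X`. -/
theorem fiber_adj_b (E0 : Finset (R × C)) (e : R × C) (X Y : R ⊕ C → ℤ)
    (a b a' b' : R ⊕ C) (h1 : Y - X - chi e = Pi.single a 1 - Pi.single b 1)
    (h2 : Y - X = Pi.single a' 1 - Pi.single b' 1) (t : ℕ) :
    fib E0 e Y (t + 2) * fib E0 e X t ≤ fib E0 e Y (t + 1) * fib E0 e X (t + 1) := by
  have h := fiber_cross_mid2 E0 e X Y a b a' b' h1 h2 t (t + 1)
  have e1 : (t + (t + 1)) / 2 = t := by omega
  have e2 : (t + (t + 1) + 1) / 2 = t + 1 := by omega
  rw [e1, e2] at h
  exact h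

private lemma tp2_aux (F G : ℕ → ℕ)
    (hG : ∀ s u t, s ≤ u → u ≤ t → G s ≠ 0 → G t ≠ 0 → G u ≠ 0)
    (hmid : ∀ s t, F t * G s ≤ F ((s + t) / 2) * G ((s + t + 1) / 2)) :
    ∀ (d s t : ℕ), t - s ≤ d → s ≤ t → F t * G s ≤ F s * G t := by
  intro d
  induction d with
  | zero =>
    intro s t hd hst
    have : t = s := by omega
    rw [this]
  | succ d ih =>
    intro s t hd hst
    by_cases h0 : t = s
    · rw [h0]
    by_cases h1 : t = s + 1
    · have h := hmid s (s + 1)
      have e1 : (s + (s + 1)) / 2 = s := by omega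
      have e2 : (s + (s + 1) + 1) / 2 = s + 1 := by omega
      rw [e1, e2] at h
      rw [h1]
      exact h
    by_cases hz : F t * G s = 0
    · rw [hz]
      exact Nat.zero_le _
    have hm := hmid s t
    have hm' : F ((s + t) / 2) * G ((s + t + 1) / 2) ≠ 0 := by
      intro h0'
      rw [h0'] at hm
      exact hz (Nat.le_zero.mp hm)
    have hFp := (Nat.mul_ne_zero_iff.mp hm').1
    have hGp := (Nat.mul_ne_zero_iff.mp hm').2
    have hGs := (Nat.mul_ne_zero_iff.mp hz).2
    have hGp' : G ((s + t) / 2) ≠ 0 :=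
      hG s ((s + t) / 2) ((s + t + 1) / 2) (by omega) (by omega) hGs hGp
    have ih1 := ih s ((s + t) / 2) (by omega) (by omega)
    have ih2 := ih ((s + t) / 2) t (by omega) (by omega)
    have key : (F t * G s) * (F ((s + t) / 2) * G ((s + t) / 2))
        ≤ (F s * G t) * (F ((s + t) / 2) * G ((s + t) / 2)) := by
      calc (F t * G s) * (F ((s + t) / 2) * G ((s + t) / 2))
          = (F ((s + t) / 2) * G s) * (F t * G ((s + t) / 2)) := by ring
        _ ≤ (F s * G ((s + t) / 2)) * (F ((s + t) / 2) * G t) := Nat.mul_le_mul ih1 ih2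
        _ = (F s * G t) * (F ((s + t) / 2) * G ((s + t) / 2)) := by ring
    exact Nat.le_of_mul_le_mul_right key (Nat.pos_of_ne_zero (Nat.mul_ne_zero hFp hGp'))

/-- Abstract chaining: a mixed midpoint inequality and interval support of `G` give the
likelihood ratio inequality for all pairs. -/
theorem tp2_of_mid (F G : ℕ → ℕ)
    (hG : ∀ s u t, s ≤ u → u ≤ t → G s ≠ 0 → G t ≠ 0 → G u ≠ 0)
    (hmid : ∀ s t, F t * G s ≤ F ((s + t) / 2) * G ((s + t + 1) / 2))
    {s t : ℕ} (hst : s ≤ t) : F t * G s ≤ F s * G t :=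
  tp2_aux F G hG hmid (t - s) s t le_rfl hst

/-- Likelihood ratio order, all pairs: the value under `Y` dominates the value under `X`. -/
theorem fiber_tp2_a (E0 : Finset (R × C)) (e : R × C) (X Y : R ⊕ C → ℤ)
    (a b a' b' : R ⊕ C) (h1 : Y - X - chi e = Pi.single a 1 - Pi.single b 1)
    (h2 : Y - X = Pi.single a' 1 - Pi.single b' 1) {s t : ℕ} (hst : s ≤ t) :
    fib E0 e X t * fib E0 e Y s ≤ fib E0 e X s * fib E0 e Y t :=
  tp2_of_mid (fib E0 e X) (fib E0 e Y)
    (fun _ _ _ hsu hut hs ht => fiber_interval E0 e Y hsu hut hs ht)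
    (fun s t => fiber_cross_mid1 E0 e X Y a b a' b' h1 h2 s t) hst

/-- Likelihood ratio order, all pairs: the value under `Y` is dominated by one plus the value
under `X`. -/
theorem fiber_tp2_b (E0 : Finset (R × C)) (e : R × C) (X Y : R ⊕ C → ℤ)
    (a b a' b' : R ⊕ C) (h1 : Y - X - chi e = Pi.single a 1 - Pi.single b 1)
    (h2 : Y - X = Pi.single a' 1 - Pi.single b' 1) {s t : ℕ} (hst : s ≤ t) :
    fib E0 e Y (t + 1) * fib E0 e X s ≤ fib E0 e Y (s + 1) * fib E0 e X t :=
  tp2_of_mid (fun i => fib E0 e Y (i + 1)) (fib E0 e X)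
    (fun _ _ _ hsu hut hs ht => fiber_interval E0 e X hsu hut hs ht)
    (fun s t => fiber_cross_mid2 E0 e X Y a b a' b' h1 h2 s t) hst

end Vale.Agent.Lib.P328.AM
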