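import Vale.Agent.Lib.P328.AM.Defs
import Vale.Agent.Lib.P328.AM.FiberLR

/-!
# P328 / all margins: the terminal case of the star coupling, and the fibre bijection

* `UCpl.of_bij` : a bijection `S → S'` whose graph lies in `Rel` is a coupling of the two
  uniform laws.
* `fibre_bijOn`, `fibre_card` : for a cell `e ∈ E`, erasing the value at `e` is a bijection
  from the tables of `OmF E D` with value `t` at `e` onto `OmF (E.erase e) (D - t • chi e)`.
* `star_terminal` : the star coupling when every cell of `E` at `q` is also at `w`: there is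
  exactly one cell `e0` joining `q` and `w`, its value is forced in both classes, and adding
  or removing one unit at `e0` is a bijection between the two classes.
-/

namespace Vale.Agent.Lib.P328.AM

open Finset Vale.Agent.Lib.P328.Hive

/-- A bijection whose graph lies in `Rel` gives a coupling of the uniform laws. -/
theorem UCpl.of_bij {α : Type*} (S S' : Finset α) (Rel : α → α → Prop) (φ : α → α)
    (hφ : ∀ x ∈ S, φ x ∈ S') (hinj : ∀ x ∈ S, ∀ y ∈ S, φ x = φ y → x = y)
    (hsurj : ∀ y ∈ S', ∃ x ∈ S, φ x = y) (hrel : ∀ x ∈ S, Rel x (φ x)) : UCpl S S' Rel := by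
  classical
  have hcard : S.card = S'.card :=
    Finset.card_bij (fun x _ => φ x) hφ (fun a ha b hb h => hinj a ha b hb h)
      (fun y hy => by
        obtain ⟨x, hx, hxy⟩ := hsurj y hy
        exact ⟨x, hx, hxy⟩)
  refine ⟨fun x y => if y = φ x then 1 / (S.card : ℝ) else 0, ?_, ?_, ?_, ?_⟩
  · intro x y
    by_cases h : y = φ x
    · simp only [h, if_true]
      positivity
    · simp [h]
  · intro x hx y hy hne
    by_cases h : y = φ x
    · rw [h]
      exact hrel x hx
    · simp [h] at hne
  · intro x hx
    rw [Finset.sum_ite_eq' S' (φ x) (fun _ => 1 / (S.card : ℝ))]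
    simp [hφ x hx]
  · intro y hy
    obtain ⟨x0, hx0, hxy⟩ := hsurj y hy
    rw [Finset.sum_eq_single x0]
    · simp [hxy, hcard]
    · intro x hx hne
      have hy' : y ≠ φ x := by
        intro h
        apply hne
        exact hinj x hx x0 hx0 (by rw [← h, hxy])
      simp [hy']
    · intro h
      exact absurd hx0 h

variable {R C : Type*} [Fintype R] [Fintype C] [DecidableEq R] [DecidableEq C]

omit [Fintype R] [Fintype C] in
theorem chi_inl (e : R × C) (u : R) : chi e (Sum.inl u) = if u = e.1 then 1 else 0 := by
  unfold chi
  by_cases h : u = e.1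
  · simp [h]
  · simp [h]

omit [Fintype R] [Fintype C] in
theorem chi_inr (e : R × C) (v : C) : chi e (Sum.inr v) = if v = e.2 then -1 else 0 := by
  unfold chi
  by_cases h : v = e.2
  · simp [h]
  · simp [h]

omit [Fintype R] [Fintype C] in
theorem chi_ne_zero_iff (e : R × C) (v : R ⊕ C) :
    chi e v ≠ 0 ↔ v = Sum.inl e.1 ∨ v = Sum.inr e.2 := by
  rcases v with u | c
  · rw [chi_inl]
    by_cases h : u = e.1
    · simp [h]
    · simp [h]
  · rw [chi_inr]
    by_cases h : c = e.2
    · simp [h]
    · simp [h]

/-- Erasing the value at `e` maps the tables with value `t` at `e` bijectively onto the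
tables on `E.erase e` with margins lowered by `t` units of `e`. -/
theorem fibre_bijOn (E : Finset (R × C)) (D : R ⊕ C → ℤ) (e : R × C) (he : e ∈ E) (t : ℕ) :
    Set.BijOn (fun T : R × C → ℕ => Function.update T e 0)
      (((OmF E D).filter (fun T => T e = t) : Finset (R × C → ℕ)) : Set (R × C → ℕ))
      ((OmF (E.erase e) (D - (t : ℤ) • chi e) : Finset (R × C → ℕ)) : Set (R × C → ℕ)) := by
  refine ⟨?_, ?_, ?_⟩
  · intro T hT
    rw [Finset.mem_coe, Finset.mem_filter, mem_OmF] at hT
    obtain ⟨⟨hs, hd⟩, hTe⟩ := hT
    rw [Finset.mem_coe, mem_OmF]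
    show Function.update T e 0 ∈ Om (E.erase e) (D - (t : ℤ) • chi e)
    refine ⟨?_, ?_⟩
    · intro e' he'
      by_cases h : e' = e
      · subst h
        exact Function.update_self ..
      · rw [Function.update_of_ne h]
        apply hs
        intro hmem
        exact he' (Finset.mem_erase.mpr ⟨h, hmem⟩)
    · rw [dv_update, hd, hTe]
      simp only [Nat.cast_zero, zero_sub, neg_smul]
      abel
  · intro T hT T' hT' heq
    rw [Finset.mem_coe, Finset.mem_filter] at hT hT'
    funext e'
    by_cases h : e' = e
    · subst h
      rw [hT.2, hT'.2]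
    · have := congrFun heq e'
      simp only at this
      rwa [Function.update_of_ne h, Function.update_of_ne h] at this
  · intro T' hT'
    rw [Finset.mem_coe, mem_OmF] at hT'
    obtain ⟨hs, hd⟩ := hT'
    have hT'e : T' e = 0 := hs e (Finset.notMem_erase e E)
    refine ⟨Function.update T' e t, ?_, ?_⟩
    · rw [Finset.mem_coe, Finset.mem_filter, mem_OmF]
      refine ⟨⟨?_, ?_⟩, Function.update_self ..⟩
      · intro e' he'
        have h : e' ≠ e := fun h => he' (h ▸ he)
        rw [Function.update_of_ne h]
        apply hs
        intro hmem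
        exact he' (Finset.mem_of_mem_erase hmem)
      · rw [dv_update, hd, hT'e]
        simp only [Nat.cast_zero, sub_zero]
        abel
    · show Function.update (Function.update T' e t) e 0 = T'
      rw [Function.update_idem, ← hT'e]
      exact Function.update_eq_self e T'

/-- The number of tables of `OmF E D` with value `t` at the cell `e ∈ E`. -/
theorem fibre_card (E : Finset (R × C)) (D : R ⊕ C → ℤ) (e : R × C) (he : e ∈ E) (t : ℕ) :
    ((OmF E D).filter (fun T => T e = t)).card = fib (E.erase e) e D t := by
  have h := (fibre_bijOn E D e he t)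
  have hc := Set.InjOn.ncard_image h.injOn
  rw [h.image_eq, Set.ncard_coe_finset, Set.ncard_coe_finset] at hc
  rw [← hc, card_OmF]
  rfl

/-- If every cell at `q` is the cell `e0`, the margin at `q` is carried by `e0`. -/
theorem margin_single_cell {E : Finset (R × C)} {D : R ⊕ C → ℤ} {T : R × C → ℕ}
    (hT : T ∈ Om E D) (q : R ⊕ C) (e0 : R × C) (huniq : ∀ e ∈ E, chi e q ≠ 0 → e = e0) :
    D q = (T e0 : ℤ) * chi e0 q := by
  rw [← hT.2]
  unfold dv
  rw [Finset.sum_apply, Finset.sum_eq_single e0]
  · simp
  · intro e _ hne
    by_cases he : e ∈ E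
    · have h0 : chi e q = 0 := by
        by_contra h
        exact hne (huniq e he h)
      simp [h0]
    · simp [hT.1 e he]
  · intro h
    exact absurd (Finset.mem_univ e0) h

/-- The terminal case of the star coupling: every cell of `E` at `q` is also at `w`. -/
theorem star_terminal (E : Finset (R × C)) (D : R ⊕ C → ℤ) (w q : R ⊕ C) (hqw : q ≠ w)
    (h1 : cnt E D ≠ 0) (h2 : cnt E (D + Pi.single w 1 - Pi.single q 1) ≠ 0)
    (hcase : ∀ e ∈ E, chi e q ≠ 0 → chi e w ≠ 0) :
    UCpl (OmF E D) (OmF E (D + Pi.single w 1 - Pi.single q 1)) (StarRel w) := by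
  classical
  obtain ⟨T0, hT0⟩ := Set.nonempty_of_ncard_ne_zero h1
  obtain ⟨T0', hT0'⟩ := Set.nonempty_of_ncard_ne_zero h2
  have hDq : (D + Pi.single w 1 - Pi.single q 1 : R ⊕ C → ℤ) q = D q - 1 := by
    simp [hqw]
  have hex : ∃ e0 ∈ E, chi e0 q ≠ 0 := by
    by_contra hno
    have hno' : ∀ e ∈ E, chi e q = 0 := by
      intro e he
      by_contra h
      exact hno ⟨e, he, h⟩
    have a1 := margin_zero_of_no_cell hT0 q hno'
    have a2 := margin_zero_of_no_cell hT0' q hno'
    rw [hDq, a1] at a2
    norm_num at a2
  obtain ⟨⟨u0, v0⟩, he0, hq0⟩ := hex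
  have hw0 := hcase (u0, v0) he0 hq0
  rw [chi_ne_zero_iff] at hq0 hw0
  simp only at hq0 hw0
  -- the two configurations
  have hconf : (q = Sum.inr v0 ∧ w = Sum.inl u0) ∨ (q = Sum.inl u0 ∧ w = Sum.inr v0) := by
    rcases hq0 with hq0 | hq0 <;> rcases hw0 with hw0 | hw0
    · exact absurd (hq0.trans hw0.symm) hqw
    · exact Or.inr ⟨hq0, hw0⟩
    · exact Or.inl ⟨hq0, hw0⟩
    · exact absurd (hq0.trans hw0.symm) hqw
  have huniq : ∀ e ∈ E, chi e q ≠ 0 → e = (u0, v0) := by
    intro e he hne
    have hne' := hcase e he hne
    rw [chi_ne_zero_iff] at hne hne'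
    rcases hconf with ⟨hq, hw⟩ | ⟨hq, hw⟩
    · rw [hq] at hne
      rw [hw] at hne'
      have e2 : v0 = e.2 := by
        rcases hne with h | h
        · exact absurd h (by simp)
        · exact Sum.inr.inj h
      have e1 : u0 = e.1 := by
        rcases hne' with h | h
        · exact Sum.inl.inj h
        · exact absurd h (by simp)
      exact Prod.ext e1.symm e2.symm
    · rw [hq] at hne
      rw [hw] at hne'
      have e1 : u0 = e.1 := by
        rcases hne with h | h
        · exact Sum.inl.inj h
        · exact absurd h (by simp)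
      have e2 : v0 = e.2 := by
        rcases hne' with h | h
        · exact absurd h (by simp)
        · exact Sum.inr.inj h
      exact Prod.ext e1.symm e2.symm
  have hval : ∀ T, T ∈ Om E D → D q = (T (u0, v0) : ℤ) * chi (u0, v0) q :=
    fun T hT => margin_single_cell hT q (u0, v0) huniq
  have hval' : ∀ T, T ∈ Om E (D + Pi.single w 1 - Pi.single q 1) →
      D q - 1 = (T (u0, v0) : ℤ) * chi (u0, v0) q := by
    intro T hT
    rw [← hDq]
    exact margin_single_cell hT q (u0, v0) huniq
  rcases hconf with ⟨hq, hw⟩ | ⟨hq, hw⟩
  · -- `q` is the column of the cell, `w` its row: one more unit in the second class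
    have hchi : chi (u0, v0) = Pi.single w 1 - Pi.single q 1 := by
      rw [hq, hw]
      rfl
    have hchiq : chi (u0, v0) q = -1 := by
      rw [hq, chi_inr]
      simp
    have hpos : ∀ T, T ∈ Om E (D + Pi.single w 1 - Pi.single q 1) →
        (T (u0, v0) : ℤ) = (T0 (u0, v0) : ℤ) + 1 := by
      intro T hT
      have a := hval T0 hT0
      have b := hval' T hT
      rw [hchiq] at a b
      linarith
    have hsame : ∀ T, T ∈ Om E D → (T (u0, v0) : ℤ) = (T0 (u0, v0) : ℤ) := by
      intro T hT
      have a := hval T0 hT0
      have b := hval T hT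
      rw [hchiq] at a b
      linarith
    refine UCpl.of_bij _ _ _ (fun T => Function.update T (u0, v0) (T (u0, v0) + 1)) ?_ ?_ ?_ ?_
    · intro T hT
      rw [mem_OmF] at hT ⊢
      refine ⟨?_, ?_⟩
      · intro e' he'
        have h : e' ≠ (u0, v0) := fun h => he' (h ▸ he0)
        rw [Function.update_of_ne h]
        exact hT.1 e' he'
      · rw [dv_update, hT.2, hchi]
        push_cast
        simp
        abel
    · intro T hT T' hT' heq
      rw [mem_OmF] at hT hT'
      funext e'
      by_cases h : e' = (u0, v0)
      · subst h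
        have a := hsame T hT
        have b := hsame T' hT'
        omega
      · have := congrFun heq e'
        rwa [Function.update_of_ne h, Function.update_of_ne h] at this
    · intro T' hT'
      rw [mem_OmF] at hT'
      have hp := hpos T' hT'
      refine ⟨Function.update T' (u0, v0) (T' (u0, v0) - 1), ?_, ?_⟩
      · rw [mem_OmF]
        refine ⟨?_, ?_⟩
        · intro e' he'
          have h : e' ≠ (u0, v0) := fun h => he' (h ▸ he0)
          rw [Function.update_of_ne h]
          exact hT'.1 e' he'
        · rw [dv_update, hT'.2, hchi]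
          have hc : ((T' (u0, v0) - 1 : ℕ) : ℤ) - (T' (u0, v0) : ℤ) = -1 := by omega
          rw [hc, neg_smul, one_smul]
          abel
      · show Function.update (Function.update T' (u0, v0) (T' (u0, v0) - 1)) (u0, v0)
          (Function.update T' (u0, v0) (T' (u0, v0) - 1) (u0, v0) + 1) = T'
        rw [Function.update_self, Function.update_idem]
        have hc : T' (u0, v0) - 1 + 1 = T' (u0, v0) := by omega
        rw [hc]
        exact Function.update_eq_self _ T'
    · intro T _
      refine ⟨(u0, v0), ?_, Or.inl (Function.update_self ..), ?_⟩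
      · rw [chi_ne_zero_iff]
        exact Or.inl hw
      · intro e' _ hne
        exact Function.update_of_ne hne _ _
  · -- `q` is the row of the cell, `w` its column: one unit less in the second class
    have hchi : chi (u0, v0) = Pi.single q 1 - Pi.single w 1 := by
      rw [hq, hw]
      rfl
    have hchiq : chi (u0, v0) q = 1 := by
      rw [hq, chi_inl]
      simp
    have hpos : ∀ T, T ∈ Om E D → (T (u0, v0) : ℤ) = (T0' (u0, v0) : ℤ) + 1 := by
      intro T hT
      have a := hval T hT
      have b := hval' T0' hT0'
      rw [hchiq] at a b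
      linarith
    have hsame : ∀ T, T ∈ Om E (D + Pi.single w 1 - Pi.single q 1) →
        (T (u0, v0) : ℤ) = (T0' (u0, v0) : ℤ) := by
      intro T hT
      have a := hval' T0' hT0'
      have b := hval' T hT
      rw [hchiq] at a b
      linarith
    refine UCpl.of_bij _ _ _ (fun T => Function.update T (u0, v0) (T (u0, v0) - 1)) ?_ ?_ ?_ ?_
    · intro T hT
      rw [mem_OmF] at hT ⊢
      have hp := hpos T hT
      refine ⟨?_, ?_⟩
      · intro e' he'
        have h : e' ≠ (u0, v0) := fun h => he' (h ▸ he0)
        rw [Function.update_of_ne h]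
        exact hT.1 e' he'
      · rw [dv_update, hT.2, hchi]
        have hc : ((T (u0, v0) - 1 : ℕ) : ℤ) - (T (u0, v0) : ℤ) = -1 := by omega
        rw [hc, neg_smul, one_smul]
        abel
    · intro T hT T' hT' heq
      rw [mem_OmF] at hT hT'
      funext e'
      by_cases h : e' = (u0, v0)
      · subst h
        have a := hpos T hT
        have b := hpos T' hT'
        omega
      · have := congrFun heq e'
        rwa [Function.update_of_ne h, Function.update_of_ne h] at this
    · intro T' hT'
      rw [mem_OmF] at hT'
      refine ⟨Function.update T' (u0, v0) (T' (u0, v0) + 1), ?_, ?_⟩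
      · rw [mem_OmF]
        refine ⟨?_, ?_⟩
        · intro e' he'
          have h : e' ≠ (u0, v0) := fun h => he' (h ▸ he0)
          rw [Function.update_of_ne h]
          exact hT'.1 e' he'
        · rw [dv_update, hT'.2, hchi]
          push_cast
          simp
      · show Function.update (Function.update T' (u0, v0) (T' (u0, v0) + 1)) (u0, v0)
          (Function.update T' (u0, v0) (T' (u0, v0) + 1) (u0, v0) - 1) = T'
        rw [Function.update_self, Function.update_idem]
        have hc : T' (u0, v0) + 1 - 1 = T' (u0, v0) := by omega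
        rw [hc]
        exact Function.update_eq_self _ T'
    · intro T hT
      rw [mem_OmF] at hT
      have hp := hpos T hT
      refine ⟨(u0, v0), ?_, Or.inr ?_, ?_⟩
      · rw [chi_ne_zero_iff]
        exact Or.inr hw
      · rw [Function.update_self]
        omega
      · intro e' _ hne
        exact Function.update_of_ne hne _ _

end Vale.Agent.Lib.P328.AM
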