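import Vale.Agent.Lib.P328.AM.Star
import Vale.Agent.Lib.P328.AM.StarTerminal

/-!
# P328 (all margins): the star coupling

For every cell set `E`, every signed margin vector `D` and every two distinct vertices `w`, `q`
such that the classes with margins `D` and `D + single w 1 - single q 1` are both nonempty,
the uniform laws of the two classes have a coupling in which the two tables differ, on the
cells at `w`, in exactly one cell and by exactly one unit.
-/

namespace Vale.Agent.Lib.P328.AM

open Finset Vale.Agent.Lib.P328.Hive

variable {R C : Type*} [Fintype R] [Fintype C] [DecidableEq R] [DecidableEq C]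

/-- The star coupling, for every cell set. -/
theorem star_coupling (E : Finset (R × C)) : StarCouplingOn E :=
  star_coupling_of_terminal star_terminal E.card E rfl

/-- The star coupling in unfolded form. -/
theorem star_coupling' (E : Finset (R × C)) (D : R ⊕ C → ℤ) (w q : R ⊕ C) (hqw : q ≠ w)
    (h1 : cnt E D ≠ 0) (h2 : cnt E (D + Pi.single w 1 - Pi.single q 1) ≠ 0) :
    UCpl (OmF E D) (OmF E (D + Pi.single w 1 - Pi.single q 1)) (StarRel w) :=
  star_coupling E D w q hqw h1 h2

end Vale.Agent.Lib.P328.AM
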