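import Vale.Agent.Lib.P328.AM.OneRow
import Vale.Agent.Lib.P328.AM.StarCoupling
import Vale.Agent.Lib.P328.AM.PeelDefs

/-!
# P328 (all margins): part (C) in the form used by the peeling step

`oneRowStatement` proves the proposition `OneRowStatement` of `AM/PeelDefs` from
`one_row_poincare` (`AM/OneRow`) and the star coupling (`AM/StarCoupling`).
-/

namespace Vale.Agent.Lib.P328.AM

open Finset
open Vale.Agent.Lib.P328.Hive

variable {R C : Type*} [Fintype R] [Fintype C] [DecidableEq R] [DecidableEq C]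

/-- The sum of the squared differences over all ordered pairs is twice the cardinality times
the sum of the squared deviations from the mean. -/
theorem pair_sum_eq {α : Type*} (I : Finset α) (F : α → ℝ) :
    ∑ a ∈ I, ∑ b ∈ I, (F a - F b) ^ 2
      = 2 * (I.card : ℝ) * ∑ a ∈ I, (F a - (∑ b ∈ I, F b) / (I.card : ℝ)) ^ 2 := by
  have h : ∀ b ∈ I, ∑ a ∈ I, (F a - F b) ^ 2
      = ∑ a ∈ I, (F a - (∑ b ∈ I, F b) / (I.card : ℝ)) ^ 2
        + (I.card : ℝ) * ((∑ b ∈ I, F b) / (I.card : ℝ) - F b) ^ 2 :=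
    fun b _ => sum_sq_sub_const I F (F b)
  have h2 : ∑ b ∈ I, ((∑ b ∈ I, F b) / (I.card : ℝ) - F b) ^ 2
      = ∑ a ∈ I, (F a - (∑ b ∈ I, F b) / (I.card : ℝ)) ^ 2 :=
    Finset.sum_congr rfl (fun b _ => by ring)
  rw [Finset.sum_comm, Finset.sum_congr rfl h, Finset.sum_add_distrib, Finset.sum_const,
    nsmul_eq_mul, ← Finset.mul_sum, h2]
  ring

/-- The energy of `AM/OneRow`, written as a sum over the rows that occur. -/
theorem rowEnergy_le_rows (E : Finset (R × C)) (D : R ⊕ C → ℤ) (m : R) (g : (C → ℕ) → ℝ) :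
    rowEnergy E D m g
      ≤ ∑ x ∈ (OmF E D).image (rowAt m), ∑ j, ∑ k,
          (if j = k then 0 else
            min (rowN E D m x) (rowN E D m (mv x j k)) * (g (mv x j k) - g x) ^ 2) := by
  unfold rowEnergy
  have hnn : ∀ (T : R × C → ℕ) (j k : C), 0 ≤ (if j = k then (0 : ℝ) else
      min (rowN E D m (rowAt m T)) (rowN E D m (mv (rowAt m T) j k)) / rowN E D m (rowAt m T)
        * (g (mv (rowAt m T) j k) - g (rowAt m T)) ^ 2) := by
    intro T j k
    split_ifs
    · exact le_rfl
    · exact mul_nonneg (div_nonneg (le_min (rowN_nonneg _ _ _ _) (rowN_nonneg _ _ _ _))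
        (rowN_nonneg _ _ _ _)) (sq_nonneg _)
  have h1 : ∀ T ∈ OmF E D, ∑ j ∈ starCols E m, ∑ k ∈ starCols E m,
        (if j = k then (0 : ℝ) else
          min (rowN E D m (rowAt m T)) (rowN E D m (mv (rowAt m T) j k))
            / rowN E D m (rowAt m T) * (g (mv (rowAt m T) j k) - g (rowAt m T)) ^ 2)
      ≤ ∑ j, ∑ k, (if j = k then (0 : ℝ) else
          min (rowN E D m (rowAt m T)) (rowN E D m (mv (rowAt m T) j k))
            / rowN E D m (rowAt m T) * (g (mv (rowAt m T) j k) - g (rowAt m T)) ^ 2) := by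
    intro T _
    refine le_trans (Finset.sum_le_sum (fun j _ => ?_))
      (Finset.sum_le_sum_of_subset_of_nonneg (Finset.subset_univ _)
        (fun j _ _ => Finset.sum_nonneg (fun k _ => hnn T j k)))
    exact Finset.sum_le_sum_of_subset_of_nonneg (Finset.subset_univ _)
      (fun k _ _ => hnn T j k)
  refine le_trans (Finset.sum_le_sum h1) (le_of_eq ?_)
  rw [← Finset.sum_fiberwise_of_maps_to (g := rowAt m) (t := (OmF E D).image (rowAt m))
    (fun T hT => Finset.mem_image_of_mem _ hT)]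
  apply Finset.sum_congr rfl
  intro x hx
  have hN : rowN E D m x ≠ 0 := by
    unfold rowN
    obtain ⟨T, hT, rfl⟩ := Finset.mem_image.mp hx
    exact Nat.cast_ne_zero.mpr (Finset.card_ne_zero.mpr ⟨T, Finset.mem_filter.mpr ⟨hT, rfl⟩⟩)
  have e : ∀ T ∈ (OmF E D).filter (fun T => rowAt m T = x),
      ∑ j, ∑ k, (if j = k then (0 : ℝ) else
          min (rowN E D m (rowAt m T)) (rowN E D m (mv (rowAt m T) j k))
            / rowN E D m (rowAt m T) * (g (mv (rowAt m T) j k) - g (rowAt m T)) ^ 2)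
        = ∑ j, ∑ k, (if j = k then (0 : ℝ) else
          min (rowN E D m x) (rowN E D m (mv x j k))
            / rowN E D m x * (g (mv x j k) - g x) ^ 2) := by
    intro T hT
    rw [(Finset.mem_filter.mp hT).2]
  have hcard : (((OmF E D).filter (fun T => rowAt m T = x)).card : ℝ) = rowN E D m x := rfl
  rw [Finset.sum_congr rfl e, Finset.sum_const, nsmul_eq_mul, hcard, Finset.mul_sum]
  apply Finset.sum_congr rfl
  intro j _
  rw [Finset.mul_sum]
  apply Finset.sum_congr rfl
  intro k _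
  split_ifs
  · rw [mul_zero]
  · field_simp

/-- Part (C): the nearest-neighbour Poincare inequality for the law of one row holds. -/
theorem oneRowStatement : OneRowStatement R C := by
  intro E D m L hL g
  have h1 := one_row_poincare star_coupling E D m L hL g
  have h2 := rowEnergy_le_rows E D m g
  have h3 := pair_sum_eq (OmF E D) (fun T => g (rowAt m T))
  show ∑ T ∈ OmF E D, ∑ T' ∈ OmF E D, (g (rowAt m T) - g (rowAt m T')) ^ 2
      ≤ 2 * (L : ℝ) ^ 2 * ((OmF E D).card : ℝ)
          * ∑ x ∈ (OmF E D).image (rowAt m), ∑ j, ∑ k,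
              (if j = k then 0 else
                min (rowN E D m x) (rowN E D m (mv x j k)) * (g (mv x j k) - g x) ^ 2)
  rw [h3]
  have hc : (0 : ℝ) ≤ ((OmF E D).card : ℝ) := Nat.cast_nonneg _
  have hL2 : (0 : ℝ) ≤ (L : ℝ) ^ 2 := sq_nonneg _
  calc 2 * ((OmF E D).card : ℝ) * ∑ a ∈ OmF E D,
          (g (rowAt m a) - (∑ b ∈ OmF E D, g (rowAt m b)) / ((OmF E D).card : ℝ)) ^ 2
      ≤ 2 * ((OmF E D).card : ℝ) * ((L : ℝ) ^ 2 * rowEnergy E D m g) :=
        mul_le_mul_of_nonneg_left h1 (by positivity)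
    _ ≤ 2 * ((OmF E D).card : ℝ) * ((L : ℝ) ^ 2
          * ∑ x ∈ (OmF E D).image (rowAt m), ∑ j, ∑ k,
              (if j = k then 0 else
                min (rowN E D m x) (rowN E D m (mv x j k)) * (g (mv x j k) - g x) ^ 2)) :=
        mul_le_mul_of_nonneg_left (mul_le_mul_of_nonneg_left h2 hL2) (by positivity)
    _ = 2 * (L : ℝ) ^ 2 * ((OmF E D).card : ℝ)
          * ∑ x ∈ (OmF E D).image (rowAt m), ∑ j, ∑ k,
              (if j = k then 0 else
                min (rowN E D m x) (rowN E D m (mv x j k)) * (g (mv x j k) - g x) ^ 2) := by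
        ring

end Vale.Agent.Lib.P328.AM
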