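import Vale.Agent.Lib.P328.AM.PeelDefs
import Vale.Agent.Lib.P328.Poly.Main

/-!
# Part (P) in the form used by the peeling step

The comparison lemma `Poly.P_col` gives the proposition `PColStatement` of `AM/PeelDefs`.
-/

namespace Vale.Agent.Lib.P328.AM

open Finset
open Vale.Agent.Lib.P328.Hive

variable {R C : Type*} [Fintype R] [Fintype C] [DecidableEq R] [DecidableEq C]

/-- Part (P): the comparison of the means over two neighbouring classes holds. -/
theorem pColStatement : PColStatement R C := by
  intro P Q D s b F hs hb hX hY
  exact Poly.P_col P Q D s b F hs hb hX hY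

end Vale.Agent.Lib.P328.AM
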