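import Vale.Agent.Lib.P328.AM.PeelDefs

/-!
# P328 / all margins: auxiliary facts for the peeling of one row

Tables on the cell set `insert u S' ×ˢ univ`.  The class of a table for the row set
`insert u S'` is the whole set of tables, and its class for the row set `S'` is the set of
tables with the same row `u`.  The sum of the squared differences of the two class averages is
a double sum of squared differences of the means over the tables with a given row `u`
(`peel_lhs`); this is the left side of the one-row inequality.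
-/

namespace Vale.Agent.Lib.P328.AM

open Finset
open Vale.Agent.Lib.P328.Hive

variable {R C : Type*} [Fintype R] [Fintype C] [DecidableEq R] [DecidableEq C]

/-- The double sum of squared differences is twice the cardinality times the sum of squared
deviations from the mean. -/
theorem pair_sum_finset {α : Type*} (I : Finset α) (h : α → ℝ) :
    ∑ s ∈ I, ∑ t ∈ I, (h s - h t) ^ 2
      = 2 * (I.card : ℝ) * ∑ s ∈ I, (h s - (∑ t ∈ I, h t) / (I.card : ℝ)) ^ 2 := by
  rcases Finset.eq_empty_or_nonempty I with hI | hI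
  · subst hI
    simp
  have hn : (I.card : ℝ) ≠ 0 := by
    have := Finset.card_pos.mpr hI
    positivity
  have e1 : ∑ s ∈ I, ∑ t ∈ I, (h s - h t) ^ 2
      = 2 * (I.card : ℝ) * (∑ s ∈ I, h s ^ 2) - 2 * (∑ s ∈ I, h s) ^ 2 := by
    have e : ∀ s t, (h s - h t) ^ 2 = h s ^ 2 - 2 * (h s * h t) + h t ^ 2 := by
      intro s t
      ring
    simp only [e, Finset.sum_add_distrib, Finset.sum_sub_distrib, ← Finset.mul_sum,
      ← Finset.sum_mul, Finset.sum_const, nsmul_eq_mul]
    ring
  have e2 : ∑ s ∈ I, (h s - (∑ t ∈ I, h t) / (I.card : ℝ)) ^ 2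
      = (∑ s ∈ I, h s ^ 2) - (∑ s ∈ I, h s) ^ 2 / (I.card : ℝ) := by
    have e : ∀ s, (h s - (∑ t ∈ I, h t) / (I.card : ℝ)) ^ 2
        = h s ^ 2 - 2 * ((∑ t ∈ I, h t) / (I.card : ℝ)) * h s
          + ((∑ t ∈ I, h t) / (I.card : ℝ)) ^ 2 := by
      intro s
      ring
    simp only [e, Finset.sum_add_distrib, Finset.sum_sub_distrib, ← Finset.mul_sum,
      Finset.sum_const, nsmul_eq_mul]
    field_simp
    ring
  rw [e1, e2]
  field_simp

/-- If every cell of `E` lies in a row of `q`, the class of a table for `q` is everything. -/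
theorem hClass_of_rows {E : Finset (R × C)} {D : R ⊕ C → ℤ} {q : Finset R}
    (hq : ∀ e ∈ E, e.1 ∈ q) {T : R × C → ℕ} (hT : T ∈ OmF E D) :
    hClass E D q T = OmF E D := by
  unfold hClass
  apply Finset.filter_true_of_mem
  intro T' hT' e he
  have heE : e ∉ E := fun h => he (hq e h)
  rw [(mem_OmF.mp hT').1 e heE, (mem_OmF.mp hT).1 e heE]

/-- On the rows `insert u S'`, the class of a table for `insert u S'` is everything. -/
theorem hClass_full (S' : Finset R) (u : R) (D : R ⊕ C → ℤ) {T : R × C → ℕ}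
    (hT : T ∈ OmF (insert u S' ×ˢ (Finset.univ : Finset C)) D) :
    hClass (insert u S' ×ˢ (Finset.univ : Finset C)) D (insert u S') T
      = OmF (insert u S' ×ˢ (Finset.univ : Finset C)) D :=
  hClass_of_rows (fun _ he => (Finset.mem_product.mp he).1) hT

/-- On the rows `insert u S'`, the class of a table for `S'` consists of the tables with the
same row `u`. -/
theorem hClass_row (S' : Finset R) (u : R) (hu : u ∉ S') (D : R ⊕ C → ℤ) {T : R × C → ℕ}
    (hT : T ∈ OmF (insert u S' ×ˢ (Finset.univ : Finset C)) D) :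
    hClass (insert u S' ×ˢ (Finset.univ : Finset C)) D S' T
      = (OmF (insert u S' ×ˢ (Finset.univ : Finset C)) D).filter
          (fun T' => rowOf u T' = rowOf u T) := by
  unfold hClass
  apply Finset.filter_congr
  intro T' hT'
  constructor
  · intro h
    funext j
    exact h (u, j) hu
  · intro h e he
    by_cases heu : e.1 = u
    · have h1 := congrFun h e.2
      unfold rowOf at h1
      rw [← heu] at h1
      exact h1
    · have heE : e ∉ insert u S' ×ˢ (Finset.univ : Finset C) := by
        intro hmem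
        rcases Finset.mem_insert.mp (Finset.mem_product.mp hmem).1 with h2 | h2
        · exact heu h2
        · exact he h2
      rw [(mem_OmF.mp hT').1 e heE, (mem_OmF.mp hT).1 e heE]

/-- The class average for the row set `insert u S'` is the mean over all tables. -/
theorem hAvg_full (S' : Finset R) (u : R) (D : R ⊕ C → ℤ) (F : (R × C → ℕ) → ℝ)
    {T : R × C → ℕ} (hT : T ∈ OmF (insert u S' ×ˢ (Finset.univ : Finset C)) D) :
    hAvg (insert u S' ×ˢ (Finset.univ : Finset C)) D (insert u S') F T
      = (∑ T' ∈ OmF (insert u S' ×ˢ (Finset.univ : Finset C)) D, F T')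
          / ((OmF (insert u S' ×ˢ (Finset.univ : Finset C)) D).card : ℝ) := by
  unfold hAvg
  rw [hClass_full S' u D hT]

/-- The class average for the row set `S'` is the mean over the tables with the same
row `u`. -/
theorem hAvg_row (S' : Finset R) (u : R) (hu : u ∉ S') (D : R ⊕ C → ℤ)
    (F : (R × C → ℕ) → ℝ) {T : R × C → ℕ}
    (hT : T ∈ OmF (insert u S' ×ˢ (Finset.univ : Finset C)) D) :
    hAvg (insert u S' ×ˢ (Finset.univ : Finset C)) D S' F T
      = rowAvg (insert u S' ×ˢ (Finset.univ : Finset C)) D u F (rowOf u T) := by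
  unfold hAvg rowAvg rowCnt
  rw [hClass_row S' u hu D hT]

/-- The entries of the row `u` are at most its row sum. -/
theorem row_entry_le {E : Finset (R × C)} {D : R ⊕ C → ℤ} {T : R × C → ℕ}
    (hT : T ∈ OmF E D) (u : R) (W : ℕ) (hW : D (Sum.inl u) ≤ W) (j : C) : T (u, j) ≤ W := by
  have h := entry_le (mem_OmF.mp hT) (u, j)
  have h2 : ((T (u, j) : ℕ) : ℤ) ≤ (W : ℤ) := le_trans h hW
  exact_mod_cast h2

/-- An entry is at most its column sum. -/
theorem entry_le_col {E : Finset (R × C)} {D : R ⊕ C → ℤ} {T : R × C → ℕ}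
    (hT : T ∈ OmF E D) (u : R) (j : C) : (T (u, j) : ℤ) ≤ -D (Sum.inr j) := by
  rw [← (mem_OmF.mp hT).2, dv_inr, neg_neg]
  exact Finset.single_le_sum (f := fun i => (T (i, j) : ℤ)) (fun _ _ => Int.natCast_nonneg _)
    (Finset.mem_univ u)

/-- If for every column the row sum of `u` or the column sum is at most `W`, the entries of
the row `u` are at most `W`. -/
theorem row_entry_le' {E : Finset (R × C)} {D : R ⊕ C → ℤ} {T : R × C → ℕ}
    (hT : T ∈ OmF E D) (u : R) (W : ℕ)
    (hW : ∀ j, min (D (Sum.inl u)) (-D (Sum.inr j)) ≤ (W : ℤ)) (j : C) : T (u, j) ≤ W := by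
  have h1 := entry_le (mem_OmF.mp hT) (u, j)
  have h2 := entry_le_col hT u j
  have h3 : ((T (u, j) : ℕ) : ℤ) ≤ (W : ℤ) := le_trans (le_min h1 h2) (hW j)
  exact_mod_cast h3

/-- The fibre means have the same total as `F`. -/
theorem sum_rowAvg_row (E : Finset (R × C)) (D : R ⊕ C → ℤ) (u : R) (F : (R × C → ℕ) → ℝ) :
    ∑ T ∈ OmF E D, rowAvg E D u F (rowOf u T) = ∑ T ∈ OmF E D, F T := by
  have hfib : ∀ h : (R × C → ℕ) → ℝ, ∑ T ∈ OmF E D, h T
      = ∑ x ∈ (OmF E D).image (rowOf u),
          ∑ T ∈ (OmF E D).filter (fun T => rowOf u T = x), h T := by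
    intro h
    exact (Finset.sum_fiberwise_of_maps_to
      (fun T hT => Finset.mem_image_of_mem (rowOf u) hT) h).symm
  rw [hfib, hfib F]
  refine Finset.sum_congr rfl (fun x hx => ?_)
  have h1 : ∀ T ∈ (OmF E D).filter (fun T => rowOf u T = x),
      rowAvg E D u F (rowOf u T) = rowAvg E D u F x := by
    intro T hT
    rw [(Finset.mem_filter.mp hT).2]
  rw [Finset.sum_congr rfl h1, Finset.sum_const, nsmul_eq_mul]
  unfold rowAvg rowCnt
  have hne : (((OmF E D).filter (fun T => rowOf u T = x)).card : ℝ) ≠ 0 := by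
    obtain ⟨T, hT, hTx⟩ := Finset.mem_image.mp hx
    have hpos : 0 < ((OmF E D).filter (fun T => rowOf u T = x)).card :=
      Finset.card_pos.mpr ⟨T, Finset.mem_filter.mpr ⟨hT, hTx⟩⟩
    positivity
  field_simp

/-- The left side of the peeling inequality is the double sum of the one-row inequality for
the fibre means, divided by twice the number of tables. -/
theorem peel_lhs (S' : Finset R) (u : R) (hu : u ∉ S') (D : R ⊕ C → ℤ)
    (F : (R × C → ℕ) → ℝ) :
    ∑ T ∈ OmF (insert u S' ×ˢ (Finset.univ : Finset C)) D,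
        (hAvg (insert u S' ×ˢ (Finset.univ : Finset C)) D S' F T
          - hAvg (insert u S' ×ˢ (Finset.univ : Finset C)) D (insert u S') F T) ^ 2
      = (∑ T ∈ OmF (insert u S' ×ˢ (Finset.univ : Finset C)) D,
          ∑ T' ∈ OmF (insert u S' ×ˢ (Finset.univ : Finset C)) D,
            (rowAvg (insert u S' ×ˢ (Finset.univ : Finset C)) D u F (rowOf u T)
              - rowAvg (insert u S' ×ˢ (Finset.univ : Finset C)) D u F (rowOf u T')) ^ 2)
        / (2 * ((OmF (insert u S' ×ˢ (Finset.univ : Finset C)) D).card : ℝ)) := by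
  set E : Finset (R × C) := insert u S' ×ˢ (Finset.univ : Finset C) with hE
  rcases Finset.eq_empty_or_nonempty (OmF E D) with hO | hO
  · rw [hO]
    simp
  have hn : ((OmF E D).card : ℝ) ≠ 0 := by
    have := Finset.card_pos.mpr hO
    positivity
  rw [pair_sum_finset (OmF E D) (fun T => rowAvg E D u F (rowOf u T)), sum_rowAvg_row]
  have h1 : ∀ T ∈ OmF E D,
      (hAvg E D S' F T - hAvg E D (insert u S') F T) ^ 2
        = (rowAvg E D u F (rowOf u T) - (∑ T' ∈ OmF E D, F T') / ((OmF E D).card : ℝ)) ^ 2 := by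
    intro T hT
    rw [hAvg_row S' u hu D F hT, hAvg_full S' u D F hT]
  rw [Finset.sum_congr rfl h1, mul_div_cancel_left₀ _ (mul_ne_zero two_ne_zero hn)]

/-- The left side of the peeling inequality in variance form: the sum of the squared
deviations of the row averages from their mean. -/
theorem peel_lhs_eq (S' : Finset R) (u : R) (hu : u ∉ S') (D : R ⊕ C → ℤ)
    (F : (R × C → ℕ) → ℝ) :
    ∑ T ∈ OmF (insert u S' ×ˢ (Finset.univ : Finset C)) D,
        (hAvg (insert u S' ×ˢ (Finset.univ : Finset C)) D S' F T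
          - hAvg (insert u S' ×ˢ (Finset.univ : Finset C)) D (insert u S') F T) ^ 2
      = ∑ T ∈ OmF (insert u S' ×ˢ (Finset.univ : Finset C)) D,
          (rowAvg (insert u S' ×ˢ (Finset.univ : Finset C)) D u F (rowOf u T)
            - (∑ T' ∈ OmF (insert u S' ×ˢ (Finset.univ : Finset C)) D,
                rowAvg (insert u S' ×ˢ (Finset.univ : Finset C)) D u F (rowOf u T'))
              / ((OmF (insert u S' ×ˢ (Finset.univ : Finset C)) D).card : ℝ)) ^ 2 := by
  refine Finset.sum_congr rfl (fun T hT => ?_)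
  rw [hAvg_row S' u hu D F hT, hAvg_full S' u D F hT, sum_rowAvg_row]

theorem peelAux_hVar_nonneg (E : Finset (R × C)) (D : R ⊕ C → ℤ) (q : Finset R)
    (F : (R × C → ℕ) → ℝ) : 0 ≤ hVar E D q F := by
  unfold hVar
  exact Finset.sum_nonneg (fun T _ => sq_nonneg _)

/-- The cross bound: the nearest-neighbour energy of the fibre means of the row `u` is bounded
by the row-pair energies of the pairs `{u, v}`, `v ∈ S'`. -/
def CrossStatement (R C : Type*) [Fintype R] [Fintype C] [DecidableEq R] [DecidableEq C] :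
    Prop :=
  ∀ (S' : Finset R) (u : R), u ∉ S' → ∀ (D : R ⊕ C → ℤ) (F : (R × C → ℕ) → ℝ),
    ∑ x ∈ (OmF (insert u S' ×ˢ (Finset.univ : Finset C)) D).image (rowOf u), ∑ j, ∑ k,
        (if j = k then 0 else
          min (rowCnt (insert u S' ×ˢ (Finset.univ : Finset C)) D u x : ℝ)
              (rowCnt (insert u S' ×ˢ (Finset.univ : Finset C)) D u (mvRow x j k) : ℝ)
            * (rowAvg (insert u S' ×ˢ (Finset.univ : Finset C)) D u F (mvRow x j k)
                - rowAvg (insert u S' ×ˢ (Finset.univ : Finset C)) D u F x) ^ 2)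
      ≤ 4 * (Fintype.card C : ℝ) ^ 4 * ((S'.card : ℝ) + 1)
          * ∑ v ∈ S', hVar (insert u S' ×ˢ (Finset.univ : Finset C)) D {u, v} F

/-- The peeling inequality from the one-row inequality and the cross bound. -/
theorem peel_of_cross (hC : OneRowStatement R C) (hX : CrossStatement R C) :
    PeelStatement R C := by
  intro S' u hu W D hW F
  rw [peel_lhs S' u hu D F]
  set E : Finset (R × C) := insert u S' ×ˢ (Finset.univ : Finset C) with hE
  have h1 := hC E D u W (fun T hT j => row_entry_le' hT u W hW j) (rowAvg E D u F)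
  have h2 := hX S' u hu D F
  rw [← hE] at h2
  have hS : 0 ≤ ∑ v ∈ S', hVar E D {u, v} F :=
    Finset.sum_nonneg (fun v _ => peelAux_hVar_nonneg E D {u, v} F)
  have hcard : (S'.card : ℝ) + 1 ≤ (Fintype.card R : ℝ) := by
    have h3 : (insert u S').card ≤ Fintype.card R := Finset.card_le_univ _
    rw [Finset.card_insert_of_notMem hu] at h3
    exact_mod_cast h3
  have hn4 : 0 ≤ (Fintype.card C : ℝ) ^ 4 := by positivity
  have hW2 : 0 ≤ (W : ℝ) ^ 2 := by positivity
  rcases Finset.eq_empty_or_nonempty (OmF E D) with hO | hO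
  · rw [hO]
    simp only [Finset.sum_empty, Finset.card_empty, Nat.cast_zero, mul_zero, div_zero]
    positivity
  have hn : 0 < ((OmF E D).card : ℝ) := by
    have := Finset.card_pos.mpr hO
    positivity
  rw [div_le_iff₀ (by positivity)]
  refine le_trans h1 ?_
  have h4 : 2 * (W : ℝ) ^ 2 * ((OmF E D).card : ℝ)
        * (4 * (Fintype.card C : ℝ) ^ 4 * ((S'.card : ℝ) + 1)
            * ∑ v ∈ S', hVar E D {u, v} F)
      ≤ 4 * (W : ℝ) ^ 2 * (Fintype.card C : ℝ) ^ 4 * (Fintype.card R : ℝ)
          * (∑ v ∈ S', hVar E D {u, v} F) * (2 * ((OmF E D).card : ℝ)) := by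
    have h5 : 4 * (Fintype.card C : ℝ) ^ 4 * ((S'.card : ℝ) + 1)
          * ∑ v ∈ S', hVar E D {u, v} F
        ≤ 4 * (Fintype.card C : ℝ) ^ 4 * (Fintype.card R : ℝ)
          * ∑ v ∈ S', hVar E D {u, v} F := by
      apply mul_le_mul_of_nonneg_right _ hS
      apply mul_le_mul_of_nonneg_left hcard
      positivity
    calc 2 * (W : ℝ) ^ 2 * ((OmF E D).card : ℝ)
          * (4 * (Fintype.card C : ℝ) ^ 4 * ((S'.card : ℝ) + 1)
              * ∑ v ∈ S', hVar E D {u, v} F)
        ≤ 2 * (W : ℝ) ^ 2 * ((OmF E D).card : ℝ)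
          * (4 * (Fintype.card C : ℝ) ^ 4 * (Fintype.card R : ℝ)
              * ∑ v ∈ S', hVar E D {u, v} F) := by
          apply mul_le_mul_of_nonneg_left h5
          positivity
      _ = 4 * (W : ℝ) ^ 2 * (Fintype.card C : ℝ) ^ 4 * (Fintype.card R : ℝ)
          * (∑ v ∈ S', hVar E D {u, v} F) * (2 * ((OmF E D).card : ℝ)) := by ring
  refine le_trans ?_ h4
  apply mul_le_mul_of_nonneg_left h2
  positivity

end Vale.Agent.Lib.P328.AM
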