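import Vale.Agent.Lib.P328.AM.Bridge
import Vale.Agent.Lib.P328.AM.PeelAux
import Vale.Agent.Lib.P328.AM.Cross
import Vale.Agent.Lib.P328.AM.OneRowProof
import Vale.Agent.Lib.P328.AM.PColProof

/-!
# P328 / all margins: the cross bound on the set of contingency tables, for all finite types
-/

namespace Vale.Agent.Lib.P328.AM

open Finset
open scoped Classical
open Vale.Agent.Lib.P328.CT Vale.Agent.Lib.P335.Bip

/-- The cross bound of the peeling of one row, for all finite sets of rows and columns. -/
theorem crossCT_all (R C : Type*) [Fintype R] [Fintype C] : CrossCT R C :=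
  crossCT_of_peel (peel_of_cross oneRowStatement
    (fun S' u hu D F => cross_bound pColStatement S' u hu D F))

end Vale.Agent.Lib.P328.AM
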