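import Vale.Agent.Lib.P328.AM.PeelCT
import Vale.Agent.Lib.P328.AM.CrossDefs

/-!
# P328 / all margins: induction over the rows

From the cross bound `CrossCT` (for all row types of one universe) and the peeling lemmas
`var_split`, `peel_inner`: if two rows `u₁ ≠ u₂` are arbitrary and every entry of every other
row is forced to be at most `W` by its row sum or its column sum, the row-pair heat bath has
Poincare constant at most `4 W^2 n^4 m` (`n` columns, `m` rows).
-/

namespace Vale.Agent.Lib.P328.AM

open Finset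
open scoped Classical
open Vale.Agent.Lib.P328.CT Vale.Agent.Lib.P335.Bip

universe u v

/-- The pairs of rows are the pairs of rows different from `m` and the pairs `{u, m}`. -/
theorem sum_pairs_split {R : Type u} [Fintype R] (m : R) (G : Finset R → ℝ) :
    ∑ q ∈ (Finset.univ : Finset R).powersetCard 2, G q
      = ∑ q ∈ (Finset.univ.erase m).powersetCard 2, G q
        + ∑ u ∈ Finset.univ.erase m, G {u, m} := by
  have hm : m ∉ (Finset.univ.erase m : Finset R) := Finset.notMem_erase m _
  have hins : (Finset.univ : Finset R) = insert m (Finset.univ.erase m) :=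
    (Finset.insert_erase (Finset.mem_univ m)).symm
  have hsplit : (Finset.univ : Finset R).powersetCard 2
      = (Finset.univ.erase m).powersetCard 2
        ∪ ((Finset.univ.erase m).powersetCard 1).image (insert m) := by
    conv_lhs => rw [hins]
    exact Finset.powersetCard_succ_insert hm 1
  have hdisj : Disjoint ((Finset.univ.erase m).powersetCard 2)
      (((Finset.univ.erase m).powersetCard 1).image (insert m)) := by
    rw [Finset.disjoint_left]
    intro q hq hq'
    rw [Finset.mem_powersetCard] at hq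
    obtain ⟨q', -, rfl⟩ := Finset.mem_image.mp hq'
    exact hm (hq.1 (Finset.mem_insert_self m q'))
  rw [hsplit, Finset.sum_union hdisj]
  congr 1
  rw [Finset.powersetCard_one, Finset.sum_image, Finset.sum_map]
  · refine Finset.sum_congr rfl (fun u _ => ?_)
    show G (insert m {u}) = G {u, m}
    rw [Finset.pair_comm]
  · intro a ha b hb hab
    rw [Finset.mem_coe, Finset.mem_map] at ha hb
    obtain ⟨a', ha', rfl⟩ := ha
    obtain ⟨b', hb', rfl⟩ := hb
    have ha'm : a' ≠ m := Finset.ne_of_mem_erase ha'
    have hb'm : b' ≠ m := Finset.ne_of_mem_erase hb'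
    have h1 : a' ∈ insert m ({b'} : Finset R) := by
      have : a' ∈ insert m ({a'} : Finset R) :=
        Finset.mem_insert_of_mem (Finset.mem_singleton_self a')
      have hab' : insert m ({a'} : Finset R) = insert m ({b'} : Finset R) := hab
      rwa [hab'] at this
    rw [Finset.mem_insert, Finset.mem_singleton] at h1
    rcases h1 with h1 | h1
    · exact absurd h1 ha'm
    · show ({a'} : Finset R) = {b'}
      rw [h1]

/-- A larger constant is also a Poincare constant. -/
theorem PCrow.mono {R : Type u} {C : Type v} [Fintype R] [Fintype C] {K K' : ℝ} {r : R → ℕ}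
    {c : C → ℕ} (h : PCrow K r c) (hK : K ≤ K') : PCrow K' r c := by
  intro f
  refine le_trans (h f) ?_
  apply mul_le_mul_of_nonneg_right hK
  exact Finset.sum_nonneg (fun q _ => Finset.sum_nonneg (fun M _ => sq_nonneg _))

/-- Two rows: every constant `K ≥ 1` is a Poincare constant. -/
theorem pcrow_two {R : Type u} {C : Type v} [Fintype R] [Fintype C] (r : R → ℕ) (c : C → ℕ)
    (u₁ u₂ : R) (hu : u₁ ≠ u₂) (hall : ∀ m : R, m ≠ u₁ → m = u₂) (K : ℝ) (hK : 1 ≤ K) :
    PCrow K r c := by
  intro f
  have huniv : (Finset.univ : Finset R) = {u₁, u₂} := by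
    ext m
    simp only [Finset.mem_univ, Finset.mem_insert, Finset.mem_singleton, true_iff]
    by_cases h : m = u₁
    · exact Or.inl h
    · exact Or.inr (hall m h)
  have hcard : (Finset.univ : Finset R).card = 2 := by
    rw [huniv, Finset.card_pair hu]
  have hps : (Finset.univ : Finset R).powersetCard 2 = {Finset.univ} := by
    conv_lhs => rw [← hcard]
    exact Finset.powersetCard_self _
  rw [hps, Finset.sum_singleton]
  have h3 : ∀ M ∈ tables r c, (f M - blockAvg r c (Finset.univ : Finset R) f M) ^ 2
      = (f M - (∑ N ∈ tables r c, f N) / ((tables r c).card : ℝ)) ^ 2 := by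
    intro M _
    unfold blockAvg
    rw [blockClass_univ]
  rw [Finset.sum_congr rfl h3]
  have hnn : 0 ≤ ∑ M ∈ tables r c,
      (f M - (∑ N ∈ tables r c, f N) / ((tables r c).card : ℝ)) ^ 2 :=
    Finset.sum_nonneg (fun M _ => sq_nonneg _)
  nlinarith

/-- The Poincare constant of the row-pair heat bath, by induction on the number of rows. -/
theorem pcrow_all {C : Type v} [Fintype C] [Nonempty C]
    (hX : ∀ (R : Type u) [Fintype R], CrossCT R C) (W : ℕ) (hW1 : 1 ≤ W) :
    ∀ (n : ℕ) (R : Type u) [Fintype R], Fintype.card R = n →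
      ∀ (r : R → ℕ) (c : C → ℕ) (u₁ u₂ : R), u₁ ≠ u₂ →
        (∀ i, i ≠ u₁ → i ≠ u₂ → ∀ j, min (r i) (c j) ≤ W) →
        PCrow (4 * (W : ℝ) ^ 2 * (Fintype.card C : ℝ) ^ 4 * (Fintype.card R : ℝ)) r c := by
  have hWr : (1 : ℝ) ≤ (W : ℝ) := by exact_mod_cast hW1
  have hNr : (1 : ℝ) ≤ (Fintype.card C : ℝ) := by
    have : 1 ≤ Fintype.card C := Fintype.card_pos
    exact_mod_cast this
  have hW2 : (1 : ℝ) ≤ (W : ℝ) ^ 2 := one_le_pow₀ hWr
  have hN4 : (1 : ℝ) ≤ (Fintype.card C : ℝ) ^ 4 := one_le_pow₀ hNr
  have hWN : (1 : ℝ) ≤ (W : ℝ) ^ 2 * (Fintype.card C : ℝ) ^ 4 := by nlinarith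
  intro n
  induction n with
  | zero =>
    intro R _ hcard r c u₁ u₂ hu hW
    exfalso
    have : IsEmpty R := Fintype.card_eq_zero_iff.mp hcard
    exact this.false u₁
  | succ n ih =>
    intro R _ hcard r c u₁ u₂ hu hW
    by_cases hex : ∃ m : R, m ≠ u₁ ∧ m ≠ u₂
    · obtain ⟨m, hm1, hm2⟩ := hex
      have hcard' : Fintype.card {u : R // u ≠ m} = n := by
        rw [Fintype.card_subtype_compl, Fintype.card_subtype_eq, hcard]
        rfl
      have hIH : ∀ x : C → ℕ,
          PCrow (4 * (W : ℝ) ^ 2 * (Fintype.card C : ℝ) ^ 4 * (Fintype.card R : ℝ))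
            (fun u : {u : R // u ≠ m} => r u.1) (fun j => c j - x j) := by
        intro x
        have h := ih {u : R // u ≠ m} hcard' (fun u => r u.1) (fun j => c j - x j)
          ⟨u₁, Ne.symm hm1⟩ ⟨u₂, Ne.symm hm2⟩
          (fun h => hu (congrArg Subtype.val h))
          (fun i hi1 hi2 j =>
            le_trans (min_le_min_left _ (Nat.sub_le _ _))
              (hW i.1 (fun h => hi1 (Subtype.ext h)) (fun h => hi2 (Subtype.ext h)) j))
        refine h.mono ?_
        rw [hcard', hcard]
        have hn : (n : ℝ) ≤ ((n + 1 : ℕ) : ℝ) := by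
          push_cast
          linarith
        have hpos : (0 : ℝ) ≤ 4 * (W : ℝ) ^ 2 * (Fintype.card C : ℝ) ^ 4 := by positivity
        exact mul_le_mul_of_nonneg_left hn hpos
      intro f
      rw [var_split m f, sum_pairs_split m, mul_add]
      apply add_le_add
      · exact peel_inner m _ hIH f
      · exact hX R r c m W (hW m hm1 hm2) f
    · push Not at hex
      have hR : (1 : ℝ) ≤ (Fintype.card R : ℝ) := by
        have : 1 ≤ Fintype.card R := by omega
        exact_mod_cast this
      have hK : (1 : ℝ) ≤ 4 * (W : ℝ) ^ 2 * (Fintype.card C : ℝ) ^ 4 * (Fintype.card R : ℝ) := by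
        nlinarith
      exact pcrow_two r c u₁ u₂ hu hex _ hK

end Vale.Agent.Lib.P328.AM
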