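import Vale.Agent.Lib.P328.AM.BoxSym
import Vale.Agent.Lib.P328.AM.Top

/-!
# P328 / all margins: the 2 × 2 heat bath with heavy-block resampling - definitions

A block `P × Q` (a set `P` of rows, a set `Q` of columns) is `W`-heavy for a table `M` when,
inside the block, every row sum and every column sum of `M` exceeds `W` (`Heavy`).
`CoreRel W M N`: `N` agrees with `M` outside some block that is `W`-heavy for `M`.  On the
tables with given margins this is an equivalence relation; the class of `M` consists of the
tables that agree with `M` outside the largest `W`-heavy block of `M`, that is of all the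
fillings of that block with the margins that `M` has inside it, which all exceed `W`.
`coreAvg W r c f M` is the average of `f` over that class, and `PCcore K W r c` says that `K`
is a Poincare constant of the dynamics whose moves are the 2 × 2 heat bath moves and the
uniform resampling of the class of `CoreRel W`.
-/

namespace Vale.Agent.Lib.P328.AM

open Finset
open scoped Classical
open Vale.Agent.Lib.P328.CT Vale.Agent.Lib.P335.Bip

/-- The block `P × Q` is `W`-heavy for the table `M`: every row of `P` has sum larger than `W`
inside the columns of `Q`, and every column of `Q` has sum larger than `W` inside the rows of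
`P`. -/
def Heavy {R C : Type*} (W : ℕ) (M : R → C → ℕ) (P : Finset R) (Q : Finset C) : Prop :=
  (∀ i ∈ P, W < ∑ j ∈ Q, M i j) ∧ (∀ j ∈ Q, W < ∑ i ∈ P, M i j)

/-- The table `N` agrees with the table `M` outside some block that is `W`-heavy for `M`. -/
def CoreRel {R C : Type*} (W : ℕ) (M N : R → C → ℕ) : Prop :=
  ∃ (P : Finset R) (Q : Finset C), Heavy W M P Q ∧ ∀ i j, (i ∉ P ∨ j ∉ Q) → N i j = M i j

variable {R C : Type*} [Fintype R] [Fintype C]

/-- The tables with margins `r`, `c` that agree with `M` outside some `W`-heavy block of
`M`. -/
noncomputable def coreClass (W : ℕ) (r : R → ℕ) (c : C → ℕ) (M : R → C → ℕ) :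
    Finset (R → C → ℕ) :=
  (tables r c).filter (fun N => CoreRel W M N)

/-- The average of `f` over the tables that agree with `M` outside some `W`-heavy block of
`M`. -/
noncomputable def coreAvg (W : ℕ) (r : R → ℕ) (c : C → ℕ) (f : (R → C → ℕ) → ℝ)
    (M : R → C → ℕ) : ℝ :=
  (∑ N ∈ coreClass W r c M, f N) / ((coreClass W r c M).card : ℝ)

/-- `K` is a Poincare constant of the 2 × 2 heat bath with heavy-block resampling on the tables
with margins `r`, `c`: the sum of the squared deviations of `f` from its mean is at most `K`
times the sum of the 2 × 2 terms and of the heavy-block term. -/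
def PCcore (K : ℝ) (W : ℕ) (r : R → ℕ) (c : C → ℕ) : Prop :=
  ∀ f : (R → C → ℕ) → ℝ,
    ∑ M ∈ tables r c, (f M - (∑ N ∈ tables r c, f N) / ((tables r c).card : ℝ)) ^ 2
      ≤ K * (∑ q ∈ (Finset.univ : Finset R).powersetCard 2,
              ∑ p ∈ (Finset.univ : Finset C).powersetCard 2,
                ∑ M ∈ tables r c, (f M - boxAvg r c q p f M) ^ 2
            + ∑ M ∈ tables r c, (f M - coreAvg W r c f M) ^ 2)

/-- `CoreRel` on the state space. -/
def RelCore {r : R → ℕ} {c : C → ℕ} (W : ℕ) (x y : Tab r c) : Prop := CoreRel W x.1 y.1

/-- The moves of the dynamics: `none` is the heavy-block move, `some (q, p)` the 2 × 2 move of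
the pair `q` of rows and the pair `p` of columns. -/
noncomputable def coreMoves (R C : Type*) [Fintype R] [Fintype C] :
    Finset (Option (Finset R × Finset C)) :=
  insert none ((((Finset.univ : Finset R).powersetCard 2) ×ˢ
    ((Finset.univ : Finset C).powersetCard 2)).map Function.Embedding.some)

/-- The equivalence relation of a move. -/
def coreMoveRel {r : R → ℕ} {c : C → ℕ} (W : ℕ) (i : Option (Finset R × Finset C)) :
    Tab r c → Tab r c → Prop :=
  i.elim (RelCore W) (fun qp => RelBox qp.1 qp.2)

end Vale.Agent.Lib.P328.AM
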