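import Vale.Agent.Lib.P328.AM.CoreDefs

/-!
# P328 / all margins: `CoreRel` is an equivalence relation on the tables with given margins

Heavy blocks are closed under unions, and two tables with the same margins that agree outside
a block have the same row and column sums inside every larger block.  Hence `RelCore W` is an
equivalence relation on the state space, and its class averages are the `coreAvg`.
-/

namespace Vale.Agent.Lib.P328.AM

open Finset
open scoped Classical
open Vale.Agent.Lib.P328.CT Vale.Agent.Lib.P335.Bip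

variable {R C : Type*} [Fintype R] [Fintype C]

omit [Fintype R] [Fintype C] in
/-- The union of two heavy blocks is heavy. -/
theorem heavy_union {W : ℕ} {M : R → C → ℕ} {P P' : Finset R} {Q Q' : Finset C}
    (h : Heavy W M P Q) (h' : Heavy W M P' Q') : Heavy W M (P ∪ P') (Q ∪ Q') := by
  obtain ⟨h1, h2⟩ := h
  obtain ⟨h1', h2'⟩ := h'
  constructor
  · intro i hi
    rcases Finset.mem_union.mp hi with hi | hi
    · exact lt_of_lt_of_le (h1 i hi) (Finset.sum_le_sum_of_subset Finset.subset_union_left)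
    · exact lt_of_lt_of_le (h1' i hi) (Finset.sum_le_sum_of_subset Finset.subset_union_right)
  · intro j hj
    rcases Finset.mem_union.mp hj with hj | hj
    · exact lt_of_lt_of_le (h2 j hj) (Finset.sum_le_sum_of_subset Finset.subset_union_left)
    · exact lt_of_lt_of_le (h2' j hj) (Finset.sum_le_sum_of_subset Finset.subset_union_right)

/-- Two tables with the same row sums that agree outside the columns of `Q` have the same row
sums inside every larger set of columns. -/
private theorem row_agree {r : R → ℕ} {c : C → ℕ} {M N : R → C → ℕ}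
    (hM : M ∈ tables r c) (hN : N ∈ tables r c) {P : Finset R} {Q Q' : Finset C}
    (hQ : Q ⊆ Q') (hag : ∀ i j, (i ∉ P ∨ j ∉ Q) → N i j = M i j) (i : R) :
    ∑ j ∈ Q', N i j = ∑ j ∈ Q', M i j := by
  have hMr : ∑ j, M i j = r i := (mem_tables.mp hM).1 i
  have hNr : ∑ j, N i j = r i := (mem_tables.mp hN).1 i
  have hc : ∑ j ∈ Q'ᶜ, N i j = ∑ j ∈ Q'ᶜ, M i j := by
    refine Finset.sum_congr rfl (fun j hj => ?_)
    exact hag i j (Or.inr (fun hjQ => (Finset.mem_compl.mp hj) (hQ hjQ)))
  have e1 : ∑ j ∈ Q', N i j + ∑ j ∈ Q'ᶜ, N i j = ∑ j, N i j :=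
    Finset.sum_add_sum_compl Q' _
  have e2 : ∑ j ∈ Q', M i j + ∑ j ∈ Q'ᶜ, M i j = ∑ j, M i j :=
    Finset.sum_add_sum_compl Q' _
  omega

/-- Two tables with the same column sums that agree outside the rows of `P` have the same
column sums inside every larger set of rows. -/
private theorem col_agree {r : R → ℕ} {c : C → ℕ} {M N : R → C → ℕ}
    (hM : M ∈ tables r c) (hN : N ∈ tables r c) {P P' : Finset R} {Q : Finset C}
    (hP : P ⊆ P') (hag : ∀ i j, (i ∉ P ∨ j ∉ Q) → N i j = M i j) (j : C) :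
    ∑ i ∈ P', N i j = ∑ i ∈ P', M i j := by
  have hMc : ∑ i, M i j = c j := (mem_tables.mp hM).2 j
  have hNc : ∑ i, N i j = c j := (mem_tables.mp hN).2 j
  have hc : ∑ i ∈ P'ᶜ, N i j = ∑ i ∈ P'ᶜ, M i j := by
    refine Finset.sum_congr rfl (fun i hi => ?_)
    exact hag i j (Or.inl (fun hiP => (Finset.mem_compl.mp hi) (hP hiP)))
  have e1 : ∑ i ∈ P', N i j + ∑ i ∈ P'ᶜ, N i j = ∑ i, N i j :=
    Finset.sum_add_sum_compl P' _
  have e2 : ∑ i ∈ P', M i j + ∑ i ∈ P'ᶜ, M i j = ∑ i, M i j :=
    Finset.sum_add_sum_compl P' _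
  omega

/-- Two tables with the same margins that agree outside the block `P × Q` have the same heavy
blocks among the blocks that contain `P × Q`. -/
theorem heavy_of_agree {r : R → ℕ} {c : C → ℕ} {W : ℕ} {M N : R → C → ℕ}
    (hM : M ∈ tables r c) (hN : N ∈ tables r c) {P P' : Finset R} {Q Q' : Finset C}
    (hP : P ⊆ P') (hQ : Q ⊆ Q')
    (hag : ∀ i j, (i ∉ P ∨ j ∉ Q) → N i j = M i j) (h : Heavy W M P' Q') :
    Heavy W N P' Q' := by
  obtain ⟨h1, h2⟩ := h
  refine ⟨fun i hi => ?_, fun j hj => ?_⟩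
  · rw [row_agree hM hN hQ hag i]
    exact h1 i hi
  · rw [col_agree hM hN hP hag j]
    exact h2 j hj

/-- `RelCore W` is an equivalence relation on the state space. -/
theorem relCore_equivalence {r : R → ℕ} {c : C → ℕ} (W : ℕ) :
    Equivalence (RelCore (r := r) (c := c) W) := by
  refine ⟨fun x => ?_, fun {x y} hxy => ?_, fun {x y z} hxy hyz => ?_⟩
  · exact ⟨∅, ∅, ⟨fun i hi => absurd hi (Finset.notMem_empty i),
      fun j hj => absurd hj (Finset.notMem_empty j)⟩, fun _ _ _ => rfl⟩
  · obtain ⟨P, Q, hH, hag⟩ := hxy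
    exact ⟨P, Q, heavy_of_agree x.2 y.2 (Finset.Subset.refl P) (Finset.Subset.refl Q) hag hH,
      fun i j hij => (hag i j hij).symm⟩
  · obtain ⟨P, Q, hH, hag⟩ := hxy
    obtain ⟨P', Q', hH', hag'⟩ := hyz
    have hHy : Heavy W y.1 P Q :=
      heavy_of_agree x.2 y.2 (Finset.Subset.refl P) (Finset.Subset.refl Q) hag hH
    have hU : Heavy W y.1 (P ∪ P') (Q ∪ Q') := heavy_union hHy hH'
    have hsymm : ∀ i j, (i ∉ P ∨ j ∉ Q) → x.1 i j = y.1 i j :=
      fun i j hij => (hag i j hij).symm
    have hUx : Heavy W x.1 (P ∪ P') (Q ∪ Q') :=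
      heavy_of_agree y.2 x.2 Finset.subset_union_left Finset.subset_union_left hsymm hU
    refine ⟨P ∪ P', Q ∪ Q', hUx, fun i j hij => ?_⟩
    have h1 : i ∉ P ∨ j ∉ Q := by
      rcases hij with hi | hj
      · exact Or.inl (fun h => hi (Finset.mem_union_left _ h))
      · exact Or.inr (fun h => hj (Finset.mem_union_left _ h))
    have h2 : i ∉ P' ∨ j ∉ Q' := by
      rcases hij with hi | hj
      · exact Or.inl (fun h => hi (Finset.mem_union_right _ h))
      · exact Or.inr (fun h => hj (Finset.mem_union_right _ h))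
    rw [hag' i j h2, hag i j h1]

end Vale.Agent.Lib.P328.AM
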