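import Vale.Agent.Lib.P328.AM.CoreBlock

/-!
# P328 / all margins: the heavy-block class is the set of all fillings of a block

For every table `M` with margins `r`, `c` there is a block `P × Q` of rows and columns such
that all the row sums and all the column sums of `M` inside the block exceed `W`, and such
that the restriction to the block is a bijection from the class `coreClass W r c M` (the tables
that the heavy-block move can reach from `M`) onto the set of ALL contingency tables on
`P × Q` with the row and column sums that `M` has inside the block.  So the heavy-block move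
draws a uniformly random contingency table all of whose margins exceed `W`.
-/

namespace Vale.Agent.Lib.P328.AM

open Finset
open scoped Classical
open Vale.Agent.Lib.P328.CT

variable {R C : Type*} [Fintype R] [Fintype C]

namespace CoreFill

/-- Two tables with the same margins that agree outside the block `P × Q` have the same row
sums inside the block. -/
theorem row_block_eq {r : R → ℕ} {c : C → ℕ} {M N : R → C → ℕ} (hM : M ∈ tables r c)
    (hN : N ∈ tables r c) (P : Finset R) (Q : Finset C)
    (hag : ∀ i j, (i ∉ P ∨ j ∉ Q) → N i j = M i j) (i : R) :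
    ∑ j ∈ Q, N i j = ∑ j ∈ Q, M i j := by
  have h1 := (mem_tables.mp hM).1 i
  have h2 := (mem_tables.mp hN).1 i
  rw [← Finset.sum_add_sum_compl Q] at h1 h2
  have h3 : ∑ j ∈ Qᶜ, N i j = ∑ j ∈ Qᶜ, M i j :=
    Finset.sum_congr rfl (fun j hj => hag i j (Or.inr (Finset.mem_compl.mp hj)))
  omega

/-- Two tables with the same margins that agree outside the block `P × Q` have the same
column sums inside the block. -/
theorem col_block_eq {r : R → ℕ} {c : C → ℕ} {M N : R → C → ℕ} (hM : M ∈ tables r c)
    (hN : N ∈ tables r c) (P : Finset R) (Q : Finset C)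
    (hag : ∀ i j, (i ∉ P ∨ j ∉ Q) → N i j = M i j) (j : C) :
    ∑ i ∈ P, N i j = ∑ i ∈ P, M i j := by
  have h1 := (mem_tables.mp hM).2 j
  have h2 := (mem_tables.mp hN).2 j
  rw [← Finset.sum_add_sum_compl P] at h1 h2
  have h3 : ∑ i ∈ Pᶜ, N i j = ∑ i ∈ Pᶜ, M i j :=
    Finset.sum_congr rfl (fun i hi => hag i j (Or.inl (Finset.mem_compl.mp hi)))
  omega

/-- The table `M` with the block `P × Q` replaced by `N'`. -/
noncomputable def patch (P : Finset R) (Q : Finset C) (M : R → C → ℕ) (N' : P → Q → ℕ) :
    R → C → ℕ :=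
  fun i j => if h : i ∈ P ∧ j ∈ Q then N' ⟨i, h.1⟩ ⟨j, h.2⟩ else M i j

omit [Fintype R] [Fintype C] in
theorem patch_in (P : Finset R) (Q : Finset C) (M : R → C → ℕ) (N' : P → Q → ℕ) (i : P)
    (j : Q) : patch P Q M N' i.1 j.1 = N' i j := by
  unfold patch
  rw [dif_pos ⟨i.2, j.2⟩]

omit [Fintype R] [Fintype C] in
theorem patch_out (P : Finset R) (Q : Finset C) (M : R → C → ℕ) (N' : P → Q → ℕ) (i : R)
    (j : C) (h : i ∉ P ∨ j ∉ Q) : patch P Q M N' i j = M i j := by
  unfold patch
  rw [dif_neg (not_and_or.mpr h)]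

end CoreFill

open CoreFill

/-- **The heavy-block class is a set of contingency tables with large margins.**  For every
table `M` with margins `r`, `c` there is a block `P × Q` such that every row sum and every
column sum of `M` inside the block exceeds `W`, and such that the restriction to the block is
a bijection from the class of `M` for the heavy-block move onto the set of all contingency
tables on `P × Q` with these row and column sums. -/
theorem coreClass_bijOn (W : ℕ) (r : R → ℕ) (c : C → ℕ) (M : R → C → ℕ)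
    (hM : M ∈ tables r c) :
    ∃ (P : Finset R) (Q : Finset C),
      (∀ i : P, W < ∑ j ∈ Q, M i.1 j) ∧ (∀ j : Q, W < ∑ i ∈ P, M i j.1) ∧
      Set.BijOn (fun (N : R → C → ℕ) (i : P) (j : Q) => N i.1 j.1)
        (↑(coreClass W r c M))
        (↑(tables (fun i : P => ∑ j ∈ Q, M i.1 j) (fun j : Q => ∑ i ∈ P, M i j.1))) := by
  obtain ⟨P, Q, hH, hmax⟩ := coreRel_maxBlock W M
  have hcls : ∀ N : R → C → ℕ, N ∈ coreClass W r c M ↔
      N ∈ tables r c ∧ ∀ i j, (i ∉ P ∨ j ∉ Q) → N i j = M i j := by
    intro N
    unfold coreClass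
    rw [Finset.mem_filter, hmax N]
  refine ⟨P, Q, fun i => hH.1 i.1 i.2, fun j => hH.2 j.1 j.2, ?_, ?_, ?_⟩
  · -- the restriction has the block margins
    intro N hN
    rw [Finset.mem_coe, hcls] at hN
    rw [Finset.mem_coe, mem_tables]
    refine ⟨fun i => ?_, fun j => ?_⟩
    · rw [Finset.sum_coe_sort Q (fun j => N i.1 j)]
      exact row_block_eq hM hN.1 P Q hN.2 i.1
    · rw [Finset.sum_coe_sort P (fun i => N i j.1)]
      exact col_block_eq hM hN.1 P Q hN.2 j.1
  · -- the restriction is injective on the class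
    intro N₁ hN₁ N₂ hN₂ heq
    rw [Finset.mem_coe, hcls] at hN₁ hN₂
    funext i j
    by_cases h : i ∈ P ∧ j ∈ Q
    · exact congrFun (congrFun heq ⟨i, h.1⟩) ⟨j, h.2⟩
    · have h' : i ∉ P ∨ j ∉ Q := not_and_or.mp h
      rw [hN₁.2 i j h', hN₂.2 i j h']
  · -- every table on the block with the block margins is a restriction
    intro N' hN'
    rw [Finset.mem_coe, mem_tables] at hN'
    refine ⟨patch P Q M N', ?_, ?_⟩
    · rw [Finset.mem_coe, hcls]
      refine ⟨?_, fun i j h => patch_out P Q M N' i j h⟩
      rw [mem_tables]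
      refine ⟨fun i => ?_, fun j => ?_⟩
      · rw [← (mem_tables.mp hM).1 i]
        by_cases hi : i ∈ P
        · rw [← Finset.sum_add_sum_compl Q, ← Finset.sum_add_sum_compl Q (fun j => M i j)]
          have h1 : ∑ j ∈ Q, patch P Q M N' i j = ∑ j ∈ Q, M i j := by
            rw [← Finset.sum_coe_sort Q (fun j => patch P Q M N' i j)]
            exact Eq.trans (Finset.sum_congr rfl (fun j _ => patch_in P Q M N' ⟨i, hi⟩ j))
              (hN'.1 ⟨i, hi⟩)
          have h3 : ∑ j ∈ Qᶜ, patch P Q M N' i j = ∑ j ∈ Qᶜ, M i j :=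
            Finset.sum_congr rfl (fun j hj =>
              patch_out P Q M N' i j (Or.inr (Finset.mem_compl.mp hj)))
          rw [h1, h3]
        · exact Finset.sum_congr rfl (fun j _ => patch_out P Q M N' i j (Or.inl hi))
      · rw [← (mem_tables.mp hM).2 j]
        by_cases hj : j ∈ Q
        · rw [← Finset.sum_add_sum_compl P, ← Finset.sum_add_sum_compl P (fun i => M i j)]
          have h1 : ∑ i ∈ P, patch P Q M N' i j = ∑ i ∈ P, M i j := by
            rw [← Finset.sum_coe_sort P (fun i => patch P Q M N' i j)]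
            exact Eq.trans (Finset.sum_congr rfl (fun i _ => patch_in P Q M N' i ⟨j, hj⟩))
              (hN'.2 ⟨j, hj⟩)
          have h3 : ∑ i ∈ Pᶜ, patch P Q M N' i j = ∑ i ∈ Pᶜ, M i j :=
            Finset.sum_congr rfl (fun i hi =>
              patch_out P Q M N' i j (Or.inl (Finset.mem_compl.mp hi)))
          rw [h1, h3]
        · exact Finset.sum_congr rfl (fun i _ => patch_out P Q M N' i j (Or.inr hj))
    · funext i j
      exact patch_in P Q M N' i j

/-- The same on the state space: the class of `x` for the heavy-block move `RelCore W` is, by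
restriction to a block `P × Q`, in bijection with the set of all contingency tables on
`P × Q` with the row and column sums of `x` inside the block, all of which exceed `W`. -/
theorem relCore_bijOn {r : R → ℕ} {c : C → ℕ} (W : ℕ) (x : Tab r c) :
    ∃ (P : Finset R) (Q : Finset C),
      (∀ i : P, W < ∑ j ∈ Q, x.1 i.1 j) ∧ (∀ j : Q, W < ∑ i ∈ P, x.1 i j.1) ∧
      Set.BijOn (fun (y : Tab r c) (i : P) (j : Q) => y.1 i.1 j.1)
        {y : Tab r c | RelCore W x y}
        (↑(tables (fun i : P => ∑ j ∈ Q, x.1 i.1 j) (fun j : Q => ∑ i ∈ P, x.1 i j.1))) := by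
  obtain ⟨P, Q, h1, h2, hmaps, hinj, hsurj⟩ := coreClass_bijOn W r c x.1 x.2
  have hmem : ∀ y : Tab r c, RelCore W x y ↔ y.1 ∈ coreClass W r c x.1 := by
    intro y
    unfold coreClass RelCore
    rw [Finset.mem_filter]
    exact ⟨fun h => ⟨y.2, h⟩, fun h => h.2⟩
  refine ⟨P, Q, h1, h2, ?_, ?_, ?_⟩
  · intro y hy
    exact hmaps (Finset.mem_coe.mpr ((hmem y).mp hy))
  · intro y₁ hy₁ y₂ hy₂ heq
    exact Subtype.ext (hinj (Finset.mem_coe.mpr ((hmem y₁).mp hy₁))
      (Finset.mem_coe.mpr ((hmem y₂).mp hy₂)) heq)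
  · intro N' hN'
    obtain ⟨N, hN, hNN'⟩ := hsurj hN'
    have hNt : N ∈ tables r c := by
      have h3 := Finset.mem_coe.mp hN
      unfold coreClass at h3
      exact (Finset.mem_filter.mp h3).1
    exact ⟨⟨N, hNt⟩, (hmem ⟨N, hNt⟩).mpr (Finset.mem_coe.mp hN), hNN'⟩

end Vale.Agent.Lib.P328.AM
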