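import Vale.Agent.Lib.P328.AM.CoreDefs

/-!
# P328 / all margins: the largest heavy block

Every table `M` has a largest `W`-heavy block (the rows and the columns that lie in some
`W`-heavy block of `M`), and `CoreRel W M N` holds exactly when `N` agrees with `M` outside this
block.  So the class of `M` consists of all the fillings of one block, whose row and column
sums inside the block all exceed `W`.
-/

namespace Vale.Agent.Lib.P328.AM

open Finset
open scoped Classical

variable {R C : Type*} [Fintype R] [Fintype C]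

/-- Every table has a largest `W`-heavy block. -/
theorem exists_max_heavy (W : ℕ) (M : R → C → ℕ) :
    ∃ (P : Finset R) (Q : Finset C), Heavy W M P Q ∧
      ∀ (P' : Finset R) (Q' : Finset C), Heavy W M P' Q' → P' ⊆ P ∧ Q' ⊆ Q := by
  refine ⟨Finset.univ.filter
      (fun i => ∃ (P' : Finset R) (Q' : Finset C), Heavy W M P' Q' ∧ i ∈ P'),
    Finset.univ.filter
      (fun j => ∃ (P' : Finset R) (Q' : Finset C), Heavy W M P' Q' ∧ j ∈ Q'),
    ⟨?_, ?_⟩, ?_⟩
  · intro i hi
    obtain ⟨P', Q', h, hiP⟩ := (Finset.mem_filter.mp hi).2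
    refine lt_of_lt_of_le (h.1 i hiP) (Finset.sum_le_sum_of_subset ?_)
    intro j hj
    exact Finset.mem_filter.mpr ⟨Finset.mem_univ j, P', Q', h, hj⟩
  · intro j hj
    obtain ⟨P', Q', h, hjQ⟩ := (Finset.mem_filter.mp hj).2
    refine lt_of_lt_of_le (h.2 j hjQ) (Finset.sum_le_sum_of_subset ?_)
    intro i hi
    exact Finset.mem_filter.mpr ⟨Finset.mem_univ i, P', Q', h, hi⟩
  · intro P' Q' h
    exact ⟨fun i hi => Finset.mem_filter.mpr ⟨Finset.mem_univ i, P', Q', h, hi⟩,
      fun j hj => Finset.mem_filter.mpr ⟨Finset.mem_univ j, P', Q', h, hj⟩⟩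

/-- The tables related to `M` by `CoreRel W` are the tables that agree with `M` outside one
`W`-heavy block of `M` (the largest one). -/
theorem coreRel_iff_max (W : ℕ) (M : R → C → ℕ) :
    ∃ (P : Finset R) (Q : Finset C), Heavy W M P Q ∧
      ∀ N : R → C → ℕ, CoreRel W M N ↔ ∀ i j, (i ∉ P ∨ j ∉ Q) → N i j = M i j := by
  obtain ⟨P, Q, h, hmax⟩ := exists_max_heavy W M
  refine ⟨P, Q, h, fun N => ⟨?_, fun hN => ⟨P, Q, h, hN⟩⟩⟩
  rintro ⟨P', Q', h', hag⟩ i j hij
  obtain ⟨hP, hQ⟩ := hmax P' Q' h'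
  refine hag i j ?_
  rcases hij with hi | hj
  · exact Or.inl (fun hi' => hi (hP hi'))
  · exact Or.inr (fun hj' => hj (hQ hj'))

end Vale.Agent.Lib.P328.AM
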