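import Vale.Agent.Lib.P328.AM.CoreInd
import Vale.Agent.Lib.P328.AM.CoreApprox
import Vale.Agent.Lib.P328.AM.CoreMax

/-!
# P328 / all margins: the 2 × 2 heat bath with heavy-block resampling, final statements

The Poincare constant `4 W^2 (max m n)^5` of `AM/CoreInd` is at least `1` unless there are no
rows and no columns; in that case there is exactly one table and every statement is trivial.
This file states the mixing bound, the mixing time and the robust mixing time for all margins
and every `W ≥ 1`, with no other hypothesis, and the description of the heavy-block move on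
the state space.
-/

namespace Vale.Agent.Lib.P328.AM

open Finset
open scoped Classical
open Vale.Agent.Lib.P328.CT Vale.Agent.Lib.P335.Bip

universe u

/-- On a state space with at most one point, every power of a matrix with row sums `1` is at
distance zero from the uniform distribution. -/
theorem stoch_subsingleton {X : Type*} [Fintype X] [DecidableEq X] [Subsingleton X]
    (P : Matrix X X ℝ)
    (hP1 : ∀ x, ∑ y, P x y = 1) (x : X) (t : ℕ) :
    ∑ y, |(P ^ t) x y - 1 / (Fintype.card X : ℝ)| = 0 := by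
  have h := pow_row_sum P hP1 t x
  have hcard : Fintype.card X = 1 :=
    Fintype.card_eq_one_iff.mpr ⟨x, fun y => Subsingleton.elim y x⟩
  rw [Fintype.sum_subsingleton _ x] at h ⊢
  rw [h, hcard]
  simp

/-- The constant `4 W^2 (max m n)^5` is at least `1` as soon as there is a row or a column. -/
theorem coreK_ge_one {R C : Type*} [Fintype R] [Fintype C] (W : ℕ) (hW1 : 1 ≤ W)
    (h : 1 ≤ max (Fintype.card R) (Fintype.card C)) :
    (1 : ℝ) ≤ 4 * (W : ℝ) ^ 2 * ((max (Fintype.card R) (Fintype.card C) : ℕ) : ℝ) ^ 5 := by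
  have hWr : (1 : ℝ) ≤ (W : ℝ) := by exact_mod_cast hW1
  have hX : (1 : ℝ) ≤ ((max (Fintype.card R) (Fintype.card C) : ℕ) : ℝ) := by exact_mod_cast h
  have hW2 : (1 : ℝ) ≤ (W : ℝ) ^ 2 := one_le_pow₀ hWr
  have hX5 : (1 : ℝ) ≤ ((max (Fintype.card R) (Fintype.card C) : ℕ) : ℝ) ^ 5 := one_le_pow₀ hX
  nlinarith

/-- Without rows there is at most one table. -/
theorem tab_subsingleton_of_card {R C : Type*} [Fintype R] [Fintype C] (r : R → ℕ) (c : C → ℕ)
    (h : ¬ 1 ≤ max (Fintype.card R) (Fintype.card C)) : Subsingleton (Tab r c) := by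
  have h0 : Fintype.card R = 0 := by
    have h1 := le_max_left (Fintype.card R) (Fintype.card C)
    omega
  have hE : IsEmpty R := Fintype.card_eq_zero_iff.mp h0
  exact ⟨fun a b => Subtype.ext (funext (fun i => (hE.false i).elim))⟩

/-- The rows of the transition matrix of the dynamics have sum `1`. -/
theorem coreKernel_row_sum {R C : Type*} [Fintype R] [Fintype C] {r : R → ℕ} {c : C → ℕ}
    (W : ℕ) (x : Tab r c) :
    ∑ y, heatKernel (coreMoves R C) (coreMoveRel (r := r) (c := c) W) x y = 1 :=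
  heatKernel_row_sum (coreMoves R C) ⟨none, none_mem_coreMoves R C⟩ (coreMoveRel W)
    (fun i _ => (coreMoveRel_equivalence W i).refl) x

/-- Mixing of the 2 × 2 heat bath with heavy-block resampling: all margins, every `W ≥ 1`. -/
theorem core_mixing_all {R C : Type u} [Fintype R] [Fintype C] (r : R → ℕ) (c : C → ℕ)
    (W : ℕ) (hW1 : 1 ≤ W) (x : Tab r c) (t : ℕ) :
    ∑ y, |(heatKernel (coreMoves R C) (coreMoveRel (r := r) (c := c) W) ^ t) x y
          - 1 / (Fintype.card (Tab r c) : ℝ)|
      ≤ Real.sqrt (Fintype.card (Tab r c) : ℝ)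
        * (1 - 1 / (4 * (W : ℝ) ^ 2 * ((max (Fintype.card R) (Fintype.card C) : ℕ) : ℝ) ^ 5
            * (((Fintype.card R).choose 2 : ℝ) * ((Fintype.card C).choose 2 : ℝ) + 1))) ^ t := by
  by_cases h : 1 ≤ max (Fintype.card R) (Fintype.card C)
  · exact pccore_mixing (coreK_ge_one W hW1 h) (pccore_main W hW1 r c) x t
  · have hsub := tab_subsingleton_of_card r c h
    rw [stoch_subsingleton _ (fun y => coreKernel_row_sum W y) x t]
    have hmax : max (Fintype.card R) (Fintype.card C) = 0 := by omega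
    have e : 4 * (W : ℝ) ^ 2 * ((max (Fintype.card R) (Fintype.card C) : ℕ) : ℝ) ^ 5
        * (((Fintype.card R).choose 2 : ℝ) * ((Fintype.card C).choose 2 : ℝ) + 1) = 0 := by
      rw [hmax]
      simp
    rw [e, div_zero, sub_zero, one_pow, mul_one]
    exact Real.sqrt_nonneg _

/-- The mixing time of the 2 × 2 heat bath with heavy-block resampling: all margins, every
`W ≥ 1`. -/
theorem core_mixing_time_all {R C : Type u} [Fintype R] [Fintype C] (r : R → ℕ) (c : C → ℕ)
    (W : ℕ) (hW1 : 1 ≤ W) (ε : ℝ) (hε : 0 < ε) (t : ℕ)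
    (ht : 4 * (W : ℝ) ^ 2 * ((max (Fintype.card R) (Fintype.card C) : ℕ) : ℝ) ^ 5
        * (((Fintype.card R).choose 2 : ℝ) * ((Fintype.card C).choose 2 : ℝ) + 1)
        * ((Fintype.card R : ℝ) / 2 * ∑ j, Real.log ((c j : ℝ) + 1) + Real.log (1 / ε)) ≤ t)
    (x : Tab r c) :
    ∑ y, |(heatKernel (coreMoves R C) (coreMoveRel (r := r) (c := c) W) ^ t) x y
          - 1 / (Fintype.card (Tab r c) : ℝ)|
      ≤ ε := by
  by_cases h : 1 ≤ max (Fintype.card R) (Fintype.card C)
  · exact pccore_mixing_time (coreK_ge_one W hW1 h) (pccore_main W hW1 r c) ε hε t ht x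
  · have hsub := tab_subsingleton_of_card r c h
    rw [stoch_subsingleton _ (fun y => coreKernel_row_sum W y) x t]
    exact le_of_lt hε

/-- The mixing time of the 2 × 2 heat bath with an approximate heavy-block resampling `S`: all
margins, every `W ≥ 1`. -/
theorem core_approx_mixing_time_all {R C : Type u} [Fintype R] [Fintype C] (r : R → ℕ)
    (c : C → ℕ) (W : ℕ) (hW1 : 1 ≤ W) (S : Matrix (Tab r c) (Tab r c) ℝ)
    (hS0 : ∀ x y, 0 ≤ S x y) (hS1 : ∀ x, ∑ y, S x y = 1) (δ : ℝ)
    (hS : ∀ x, ∑ y, |S x y - classKernel (RelCore W) x y| ≤ δ)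
    (ε : ℝ) (hε : 0 < ε) (t : ℕ)
    (ht : 4 * (W : ℝ) ^ 2 * ((max (Fintype.card R) (Fintype.card C) : ℕ) : ℝ) ^ 5
        * (((Fintype.card R).choose 2 : ℝ) * ((Fintype.card C).choose 2 : ℝ) + 1)
        * ((Fintype.card R : ℝ) / 2 * ∑ j, Real.log ((c j : ℝ) + 1) + Real.log (2 / ε)) ≤ t)
    (hδ : (t : ℝ) * δ
        ≤ ε / 2 * (((Fintype.card R).choose 2 : ℝ) * ((Fintype.card C).choose 2 : ℝ) + 1))
    (x : Tab r c) :
    ∑ y, |(approxKernel (coreMoves R C) (coreMoveRel (r := r) (c := c) W) none S ^ t) x y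
          - 1 / (Fintype.card (Tab r c) : ℝ)|
      ≤ ε := by
  by_cases h : 1 ≤ max (Fintype.card R) (Fintype.card C)
  · exact pccore_approx_mixing_time (coreK_ge_one W hW1 h) (pccore_main W hW1 r c) S hS0 hS1 δ
      hS ε hε t ht hδ x
  · have hsub := tab_subsingleton_of_card r c h
    rw [stoch_subsingleton _ (fun y => approxKernel_row_sum (coreMoves R C) (coreMoveRel W) none
      (none_mem_coreMoves R C) (fun i _ => (coreMoveRel_equivalence W i).refl) S hS1 y) x t]
    exact le_of_lt hε

/-- The heavy-block move on the state space: the tables reached from `x` are the tables that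
agree with `x` outside one `W`-heavy block of `x` (the largest one). -/
theorem relCore_iff_max {R C : Type*} [Fintype R] [Fintype C] {r : R → ℕ} {c : C → ℕ} (W : ℕ)
    (x : Tab r c) :
    ∃ (P : Finset R) (Q : Finset C), Heavy W x.1 P Q ∧
      ∀ y : Tab r c, RelCore W x y ↔ ∀ i j, (i ∉ P ∨ j ∉ Q) → y.1 i j = x.1 i j := by
  obtain ⟨P, Q, h, hiff⟩ := coreRel_iff_max W x.1
  exact ⟨P, Q, h, fun y => hiff y.1⟩

end Vale.Agent.Lib.P328.AM
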