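import Vale.Agent.Lib.P328.AM.CoreDefs

/-!
# P328 / all margins: transposition of the heavy-block Poincare inequality

Heavy blocks, `CoreRel`, `coreAvg` and `PCcore` are invariant under the transposition of
tables (`tr` of `Transpose.lean`).
-/

namespace Vale.Agent.Lib.P328.AM

open Finset
open scoped Classical
open Vale.Agent.Lib.P328.CT Vale.Agent.Lib.P335.Bip

variable {R C : Type*} [Fintype R] [Fintype C]

omit [Fintype R] [Fintype C] in
theorem heavy_tr {W : ℕ} {M : R → C → ℕ} {P : Finset R} {Q : Finset C} :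
    Heavy W (tr M) Q P ↔ Heavy W M P Q := by
  constructor
  · intro h
    exact ⟨h.2, h.1⟩
  · intro h
    exact ⟨h.2, h.1⟩

omit [Fintype R] [Fintype C] in
theorem coreRel_tr {W : ℕ} {M N : R → C → ℕ} : CoreRel W (tr M) (tr N) ↔ CoreRel W M N := by
  constructor
  · rintro ⟨Q, P, hH, hag⟩
    exact ⟨P, Q, heavy_tr.mp hH, fun i j hij => hag j i hij.symm⟩
  · rintro ⟨P, Q, hH, hag⟩
    exact ⟨Q, P, heavy_tr.mpr hH, fun j i hji => hag i j hji.symm⟩

/-- Membership in the heavy-block class of the transposed table. -/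
theorem coreTr_mem_coreClass (W : ℕ) (r : R → ℕ) (c : C → ℕ) (M N : R → C → ℕ) :
    tr N ∈ coreClass W c r (tr M) ↔ N ∈ coreClass W r c M := by
  unfold coreClass
  rw [Finset.mem_filter, Finset.mem_filter, tr_mem_tables, coreRel_tr]

/-- Sums over the heavy-block class of the transposed table. -/
theorem coreTr_sum_coreClass (W : ℕ) (r : R → ℕ) (c : C → ℕ) (M : R → C → ℕ)
    (g : (C → R → ℕ) → ℝ) :
    ∑ N ∈ coreClass W c r (tr M), g N = ∑ N ∈ coreClass W r c M, g (tr N) := by
  refine Finset.sum_nbij' (fun N => tr N) (fun N => tr N) ?_ ?_ ?_ ?_ ?_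
  · intro N hN
    exact (coreTr_mem_coreClass W r c M (tr N)).mp hN
  · intro N hN
    exact (coreTr_mem_coreClass W r c M N).mpr hN
  · intro N _
    rfl
  · intro N _
    rfl
  · intro N _
    rfl

/-- The heavy-block class average of the transposed table. -/
theorem coreAvg_tr (W : ℕ) (r : R → ℕ) (c : C → ℕ) (f : (C → R → ℕ) → ℝ) (M : R → C → ℕ) :
    coreAvg W c r f (tr M) = coreAvg W r c (fun M' => f (tr M')) M := by
  have hcard : ((coreClass W c r (tr M)).card : ℝ) = ((coreClass W r c M).card : ℝ) := by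
    have h := coreTr_sum_coreClass W r c M (fun _ => (1 : ℝ))
    rw [Finset.sum_const, Finset.sum_const, nsmul_eq_mul, nsmul_eq_mul, mul_one, mul_one] at h
    exact h
  unfold coreAvg
  rw [coreTr_sum_coreClass W r c M f, hcard]

/-- The Poincare constants of the 2 × 2 heat bath with heavy-block resampling for the margins
`(c, r)` are Poincare constants for the margins `(r, c)`. -/
theorem pccore_transpose {K : ℝ} {W : ℕ} {r : R → ℕ} {c : C → ℕ} (h : PCcore K W c r) :
    PCcore K W r c := by
  intro f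
  have h1 := h (fun N => f (tr N))
  have hsum : ∑ N' ∈ tables c r, f (tr N') = ∑ N ∈ tables r c, f N :=
    sum_tables_tr r c (fun N => f (tr N))
  have hL : ∑ N ∈ tables c r, (f (tr N) - (∑ N' ∈ tables c r, f (tr N'))
        / ((tables c r).card : ℝ)) ^ 2
      = ∑ M ∈ tables r c, (f M - (∑ N ∈ tables r c, f N) / ((tables r c).card : ℝ)) ^ 2 := by
    rw [hsum, card_tables_tr r c]
    exact sum_tables_tr r c
      (fun N => (f (tr N) - (∑ N ∈ tables r c, f N) / ((tables r c).card : ℝ)) ^ 2)
  have hR : ∀ p ∈ (Finset.univ : Finset C).powersetCard 2,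
      ∀ q ∈ (Finset.univ : Finset R).powersetCard 2,
      ∑ N ∈ tables c r, (f (tr N) - boxAvg c r p q (fun N => f (tr N)) N) ^ 2
        = ∑ M ∈ tables r c, (f M - boxAvg r c q p f M) ^ 2 := by
    intro p _ q _
    rw [sum_tables_tr r c
      (fun N => (f (tr N) - boxAvg c r p q (fun N => f (tr N)) N) ^ 2)]
    refine Finset.sum_congr rfl (fun M _ => ?_)
    rw [boxAvg_tr r c q p (fun N => f (tr N)) M]
    rfl
  have hbox : ∑ p ∈ (Finset.univ : Finset C).powersetCard 2,
        ∑ q ∈ (Finset.univ : Finset R).powersetCard 2,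
          ∑ N ∈ tables c r, (f (tr N) - boxAvg c r p q (fun N => f (tr N)) N) ^ 2
      = ∑ q ∈ (Finset.univ : Finset R).powersetCard 2,
        ∑ p ∈ (Finset.univ : Finset C).powersetCard 2,
          ∑ M ∈ tables r c, (f M - boxAvg r c q p f M) ^ 2 := by
    rw [Finset.sum_comm]
    exact Finset.sum_congr rfl (fun q hq => Finset.sum_congr rfl (fun p hp => hR p hp q hq))
  have hC : ∑ N ∈ tables c r, (f (tr N) - coreAvg W c r (fun N => f (tr N)) N) ^ 2
      = ∑ M ∈ tables r c, (f M - coreAvg W r c f M) ^ 2 := by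
    rw [sum_tables_tr r c
      (fun N => (f (tr N) - coreAvg W c r (fun N => f (tr N)) N) ^ 2)]
    refine Finset.sum_congr rfl (fun M _ => ?_)
    rw [coreAvg_tr W r c (fun N => f (tr N)) M]
    rfl
  rw [hL, hbox, hC] at h1
  exact h1

end Vale.Agent.Lib.P328.AM
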