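import Vale.Agent.Lib.P328.AM.CoreStep
import Vale.Agent.Lib.P328.AM.CoreAux
import Vale.Agent.Lib.P328.AM.CoreBase
import Vale.Agent.Lib.P328.AM.CoreTr
import Vale.Agent.Lib.P328.AM.CoreCross

/-!
# P328 / all margins: the Poincare constant of the 2 × 2 heat bath with heavy-block resampling

Induction on the number of rows plus the number of columns: as long as some row or some
column has sum at most `W`, it is peeled (`pccore_row_step`, and its transpose); when every
row sum and every column sum exceeds `W`, the heavy-block term is the whole variance.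
-/

namespace Vale.Agent.Lib.P328.AM

open Finset
open scoped Classical
open Vale.Agent.Lib.P328.CT Vale.Agent.Lib.P335.Bip

universe u

private theorem coreInd_bound (W a b : ℕ) :
    4 * (W : ℝ) ^ 2 * (b : ℝ) ^ 4 * (a : ℝ) ≤ 4 * (W : ℝ) ^ 2 * ((max a b : ℕ) : ℝ) ^ 5 := by
  have ha : (a : ℝ) ≤ ((max a b : ℕ) : ℝ) := by exact_mod_cast le_max_left a b
  have hb : (b : ℝ) ≤ ((max a b : ℕ) : ℝ) := by exact_mod_cast le_max_right a b
  have ha0 : (0 : ℝ) ≤ (a : ℝ) := Nat.cast_nonneg a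
  have hb0 : (0 : ℝ) ≤ (b : ℝ) := Nat.cast_nonneg b
  have hX0 : (0 : ℝ) ≤ ((max a b : ℕ) : ℝ) := Nat.cast_nonneg _
  have hb4 : (b : ℝ) ^ 4 ≤ ((max a b : ℕ) : ℝ) ^ 4 := pow_le_pow_left₀ hb0 hb 4
  have hX4 : (0 : ℝ) ≤ ((max a b : ℕ) : ℝ) ^ 4 := pow_nonneg hX0 4
  have hle : (b : ℝ) ^ 4 * (a : ℝ) ≤ ((max a b : ℕ) : ℝ) ^ 4 * ((max a b : ℕ) : ℝ) :=
    mul_le_mul hb4 ha ha0 hX4
  have hW0 : (0 : ℝ) ≤ 4 * (W : ℝ) ^ 2 := by positivity
  calc 4 * (W : ℝ) ^ 2 * (b : ℝ) ^ 4 * (a : ℝ)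
      = 4 * (W : ℝ) ^ 2 * ((b : ℝ) ^ 4 * (a : ℝ)) := by ring
    _ ≤ 4 * (W : ℝ) ^ 2 * (((max a b : ℕ) : ℝ) ^ 4 * ((max a b : ℕ) : ℝ)) :=
        mul_le_mul_of_nonneg_left hle hW0
    _ = 4 * (W : ℝ) ^ 2 * ((max a b : ℕ) : ℝ) ^ 5 := by ring

private theorem coreInd_mono (W a a' b b' : ℕ) (ha : a ≤ a') (hb : b ≤ b') :
    4 * (W : ℝ) ^ 2 * ((max a b : ℕ) : ℝ) ^ 5 ≤ 4 * (W : ℝ) ^ 2 * ((max a' b' : ℕ) : ℝ) ^ 5 := by
  have hm : ((max a b : ℕ) : ℝ) ≤ ((max a' b' : ℕ) : ℝ) := by
    exact_mod_cast max_le_max ha hb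
  have h0 : (0 : ℝ) ≤ ((max a b : ℕ) : ℝ) := Nat.cast_nonneg _
  have hW0 : (0 : ℝ) ≤ 4 * (W : ℝ) ^ 2 := by positivity
  exact mul_le_mul_of_nonneg_left (pow_le_pow_left₀ h0 hm 5) hW0

private theorem coreInd_one (W a b : ℕ) (hW : 1 ≤ W) (ha : 1 ≤ a) :
    (1 : ℝ) ≤ 4 * (W : ℝ) ^ 2 * ((max a b : ℕ) : ℝ) ^ 5 := by
  have hWr : (1 : ℝ) ≤ (W : ℝ) := by exact_mod_cast hW
  have hX : (1 : ℝ) ≤ ((max a b : ℕ) : ℝ) := by
    have : 1 ≤ max a b := le_trans ha (le_max_left a b)
    exact_mod_cast this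
  have hW2 : (1 : ℝ) ≤ (W : ℝ) ^ 2 := one_le_pow₀ hWr
  have hX5 : (1 : ℝ) ≤ ((max a b : ℕ) : ℝ) ^ 5 := one_le_pow₀ hX
  nlinarith

private theorem coreInd_card_sub {R : Type u} [Fintype R] (m : R) :
    Fintype.card {u : R // u ≠ m} = Fintype.card R - 1 := by
  rw [Fintype.card_subtype_compl, Fintype.card_subtype_eq]

/-- For all margins and every `W ≥ 1`, `4 W^2 (max m n)^5` is a Poincare constant of the
2 × 2 heat bath with heavy-block resampling (`m` rows, `n` columns). -/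
theorem pccore_all (W : ℕ) (hW1 : 1 ≤ W) :
    ∀ (k : ℕ) (R C : Type u) [Fintype R] [Fintype C], Fintype.card R + Fintype.card C = k →
      ∀ (r : R → ℕ) (c : C → ℕ),
        PCcore (4 * (W : ℝ) ^ 2 * ((max (Fintype.card R) (Fintype.card C) : ℕ) : ℝ) ^ 5)
          W r c := by
  intro k
  induction k using Nat.strong_induction_on with
  | _ k ih =>
    intro R C _ _ hk r c
    by_cases htriv : Fintype.card R ≤ 1 ∨ Fintype.card C ≤ 1
    · exact pccore_trivial (by positivity) W r c htriv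
    · push Not at htriv
      obtain ⟨hR2, hC2⟩ := htriv
      by_cases hrow : ∃ m, r m ≤ W
      · obtain ⟨m, hm⟩ := hrow
        refine pccore_row_step m W hm hC2 (crossCT_all R C) _
          (coreInd_bound W (Fintype.card R) (Fintype.card C)) ?_
        intro x
        have hsub := coreInd_card_sub m
        have hlt : Fintype.card {u : R // u ≠ m} + Fintype.card C < k := by omega
        have h := ih _ hlt {u : R // u ≠ m} C rfl (fun u => r u.1) (fun j => c j - x j)
        refine h.mono ?_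
        exact coreInd_mono W _ _ _ _ (by omega) (le_refl _)
      · by_cases hcol : ∃ j, c j ≤ W
        · obtain ⟨j, hj⟩ := hcol
          apply pccore_transpose
          have hmax : max (Fintype.card R) (Fintype.card C)
              = max (Fintype.card C) (Fintype.card R) := max_comm _ _
          rw [hmax]
          refine pccore_row_step j W hj hR2 (crossCT_all C R) _
            (coreInd_bound W (Fintype.card C) (Fintype.card R)) ?_
          intro x
          have hsub := coreInd_card_sub j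
          have hlt : Fintype.card {v : C // v ≠ j} + Fintype.card R < k := by omega
          have h := ih _ hlt {v : C // v ≠ j} R rfl (fun v => c v.1) (fun i => r i - x i)
          refine h.mono ?_
          exact coreInd_mono W _ _ _ _ (by omega) (le_refl _)
        · push Not at hrow hcol
          exact pccore_terminal (coreInd_one W _ _ hW1 (by omega)) W r c hrow hcol

/-- The Poincare inequality of the 2 × 2 heat bath with heavy-block resampling, all margins. -/
theorem pccore_main {R C : Type u} [Fintype R] [Fintype C] (W : ℕ) (hW1 : 1 ≤ W)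
    (r : R → ℕ) (c : C → ℕ) :
    PCcore (4 * (W : ℝ) ^ 2 * ((max (Fintype.card R) (Fintype.card C) : ℕ) : ℝ) ^ 5) W r c :=
  pccore_all W hW1 _ R C rfl r c

/-- The constant `4 W^2 (max m n)^5` is at least `1` when there is at least one row. -/
theorem one_le_coreConst (R C : Type u) [Fintype R] [Fintype C] [Nonempty R] (W : ℕ)
    (hW1 : 1 ≤ W) :
    (1 : ℝ) ≤ 4 * (W : ℝ) ^ 2 * ((max (Fintype.card R) (Fintype.card C) : ℕ) : ℝ) ^ 5 :=
  coreInd_one W _ _ hW1 Fintype.card_pos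

end Vale.Agent.Lib.P328.AM
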