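import Vale.Agent.Lib.P328.AM.CoreDefs
import Vale.Agent.Lib.P328.CT.TwoByTwo

/-!
# P328 / all margins: peeling one row of small sum, with heavy-block resampling

If the row `m` has sum at most `W` and `K ≥ 4 W^2 n^4 m` is a Poincare constant of the
2 × 2 heat bath with heavy-block resampling for all the tables without the row `m`, then `K`
is such a constant for the tables with the row `m`.  The row `m` lies in no heavy block, so
the heavy-block class of a table is the heavy-block class of the table without the row `m`,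
glued with the row `m`; the same holds for the 2 × 2 classes of the pairs of rows different
from `m`.
-/

namespace Vale.Agent.Lib.P328.AM

open Finset
open scoped Classical
open Vale.Agent.Lib.P328.CT Vale.Agent.Lib.P335.Bip

variable {R C : Type*} [Fintype R] [Fintype C]

namespace CoreStep

theorem mem_boxClass_iff {r : R → ℕ} {c : C → ℕ} {q : Finset R} {p : Finset C}
    {M N : R → C → ℕ} :
    N ∈ boxClass r c q p M ↔ N ∈ tables r c ∧ ∀ i j, (i ∉ q ∨ j ∉ p) → N i j = M i j := by
  unfold boxClass
  exact Finset.mem_filter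

theorem mem_coreClass_iff {r : R → ℕ} {c : C → ℕ} {W : ℕ} {M N : R → C → ℕ} :
    N ∈ coreClass W r c M ↔ N ∈ tables r c ∧ ∃ (P : Finset R) (Q : Finset C),
      Heavy W M P Q ∧ ∀ i j, (i ∉ P ∨ j ∉ Q) → N i j = M i j := by
  unfold coreClass
  rw [Finset.mem_filter]
  rfl

/-- Sums over a box class of a glued table, for a set of rows that does not contain `m`. -/
theorem sum_boxClass_glue {r : R → ℕ} {c : C → ℕ} (m : R) (x : C → ℕ)
    (hx : ∑ j, x j = r m) (hle : ∀ j, x j ≤ c j) (q' : Finset {u : R // u ≠ m})
    (p : Finset C) (M' : {u : R // u ≠ m} → C → ℕ) (h : (R → C → ℕ) → ℝ) :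
    ∑ N ∈ boxClass r c (q'.map (Function.Embedding.subtype _)) p (glue m x M'), h N
      = ∑ N' ∈ boxClass (fun u : {u : R // u ≠ m} => r u.1) (fun j => c j - x j) q' p M',
          h (glue m x N') := by
  have hm : m ∉ q'.map (Function.Embedding.subtype _) := by
    intro hmem
    obtain ⟨u, _, hu⟩ := Finset.mem_map.mp hmem
    exact u.2 hu
  symm
  apply Finset.sum_nbij' (fun N' => glue m x N') (fun N => drop m N)
  · intro N' hN'
    rw [mem_boxClass_iff] at hN' ⊢
    refine ⟨(glue_mem_tables m x hx hle N').mpr hN'.1, fun i j hij => ?_⟩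
    by_cases him : i = m
    · subst him
      rw [glue_self, glue_self]
    · rw [glue_ne m x N' i him, glue_ne m x M' i him]
      apply hN'.2
      rcases hij with hi | hj
      · left
        intro hmem
        exact hi (Finset.mem_map.mpr ⟨⟨i, him⟩, hmem, rfl⟩)
      · right
        exact hj
  · intro N hN
    rw [mem_boxClass_iff] at hN ⊢
    have hNm : N m = x := by
      funext j
      rw [hN.2 m j (Or.inl hm), glue_self]
    have h1 : glue m x (drop m N) = N := by
      rw [← hNm]
      exact glue_drop m N
    refine ⟨?_, fun u j huj => ?_⟩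
    · rw [← glue_mem_tables m x hx hle, h1]
      exact hN.1
    · have h2 : u.1 ∉ q'.map (Function.Embedding.subtype _) ∨ j ∉ p := by
        rcases huj with hu | hj
        · left
          intro hmem
          obtain ⟨v, hv, hvu⟩ := Finset.mem_map.mp hmem
          have hvu' : v = u := Subtype.ext hvu
          rw [hvu'] at hv
          exact hu hv
        · right
          exact hj
      have h3 := hN.2 u.1 j h2
      rw [glue_ne m x M' u.1 u.2] at h3
      exact h3
  · intro N' _
    exact drop_glue m x N'
  · intro N hN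
    rw [mem_boxClass_iff] at hN
    have hNm : N m = x := by
      funext j
      rw [hN.2 m j (Or.inl hm), glue_self]
    rw [← hNm]
    exact glue_drop m N
  · intro N' _
    rfl

/-- The box average for a pair of rows different from `m`, at a glued table. -/
theorem boxAvg_glue {r : R → ℕ} {c : C → ℕ} (m : R) (x : C → ℕ)
    (hx : ∑ j, x j = r m) (hle : ∀ j, x j ≤ c j) (q' : Finset {u : R // u ≠ m})
    (p : Finset C) (f : (R → C → ℕ) → ℝ) (M' : {u : R // u ≠ m} → C → ℕ) :
    boxAvg r c (q'.map (Function.Embedding.subtype _)) p f (glue m x M')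
      = boxAvg (fun u : {u : R // u ≠ m} => r u.1) (fun j => c j - x j) q' p
          (fun N' => f (glue m x N')) M' := by
  unfold boxAvg
  rw [sum_boxClass_glue m x hx hle q' p M' f]
  have hcard := sum_boxClass_glue (r := r) (c := c) m x hx hle q' p M' (fun _ => (1 : ℝ))
  rw [Finset.sum_const, Finset.sum_const, nsmul_eq_mul, nsmul_eq_mul, mul_one, mul_one] at hcard
  rw [hcard]

/-- Sums over the core class of a glued table whose row `m` has sum at most `W`: the row `m`
lies in no heavy block, so the core class is the core class of the table without the row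
`m`, glued with the row `m`. -/
theorem sum_coreClass_glue {r : R → ℕ} {c : C → ℕ} (m : R) (W : ℕ) (hmW : r m ≤ W)
    (x : C → ℕ) (hx : ∑ j, x j = r m) (hle : ∀ j, x j ≤ c j)
    (M' : {u : R // u ≠ m} → C → ℕ) (h : (R → C → ℕ) → ℝ) :
    ∑ N ∈ coreClass W r c (glue m x M'), h N
      = ∑ N' ∈ coreClass W (fun u : {u : R // u ≠ m} => r u.1) (fun j => c j - x j) M',
          h (glue m x N') := by
  -- the row `m` is in no heavy block of the glued table
  have hmP : ∀ (P : Finset R) (Q : Finset C), Heavy W (glue m x M') P Q → m ∉ P := by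
    intro P Q hH hm
    have h1 := hH.1 m hm
    rw [glue_self] at h1
    have h2 : ∑ j ∈ Q, x j ≤ ∑ j, x j :=
      Finset.sum_le_sum_of_subset (Finset.subset_univ Q)
    omega
  have hrowm : ∀ N ∈ coreClass W r c (glue m x M'), N m = x := by
    intro N hN
    rw [mem_coreClass_iff] at hN
    obtain ⟨-, P, Q, hH, hag⟩ := hN
    funext j
    rw [hag m j (Or.inl (hmP P Q hH)), glue_self]
  symm
  apply Finset.sum_nbij' (fun N' => glue m x N') (fun N => drop m N)
  · intro N' hN'
    rw [mem_coreClass_iff] at hN' ⊢
    obtain ⟨hN'1, P', Q, hH, hag⟩ := hN'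
    refine ⟨(glue_mem_tables m x hx hle N').mpr hN'1,
      P'.map (Function.Embedding.subtype _), Q, ⟨?_, ?_⟩, ?_⟩
    · intro i hi
      obtain ⟨u, hu, rfl⟩ := Finset.mem_map.mp hi
      have h1 := hH.1 u hu
      have e : ∑ j ∈ Q, glue m x M' ((Function.Embedding.subtype _) u) j = ∑ j ∈ Q, M' u j := by
        refine Finset.sum_congr rfl (fun j _ => ?_)
        show glue m x M' u.1 j = M' u j
        rw [glue_ne m x M' u.1 u.2]
      rw [e]
      exact h1
    · intro j hj
      have h1 := hH.2 j hj
      rw [Finset.sum_map]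
      have e : ∑ u ∈ P', glue m x M' ((Function.Embedding.subtype _) u) j = ∑ u ∈ P', M' u j := by
        refine Finset.sum_congr rfl (fun u _ => ?_)
        show glue m x M' u.1 j = M' u j
        rw [glue_ne m x M' u.1 u.2]
      rw [e]
      exact h1
    · intro i j hij
      by_cases him : i = m
      · subst him
        rw [glue_self, glue_self]
      · rw [glue_ne m x N' i him, glue_ne m x M' i him]
        apply hag
        rcases hij with hi | hj
        · left
          intro hmem
          exact hi (Finset.mem_map.mpr ⟨⟨i, him⟩, hmem, rfl⟩)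
        · right
          exact hj
  · intro N hN
    have hNm := hrowm N hN
    rw [mem_coreClass_iff] at hN ⊢
    obtain ⟨hN1, P, Q, hH, hag⟩ := hN
    have hm := hmP P Q hH
    have h1 : glue m x (drop m N) = N := by
      rw [← hNm]
      exact glue_drop m N
    have hPmap : (P.subtype (fun u : R => u ≠ m)).map (Function.Embedding.subtype _) = P := by
      rw [Finset.subtype_map]
      apply Finset.filter_true_of_mem
      intro i hi him
      exact hm (him ▸ hi)
    refine ⟨?_, P.subtype (fun u : R => u ≠ m), Q, ⟨?_, ?_⟩, ?_⟩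
    · rw [← glue_mem_tables m x hx hle, h1]
      exact hN1
    · intro u hu
      have hu' : u.1 ∈ P := Finset.mem_subtype.mp hu
      have h2 := hH.1 u.1 hu'
      have e : ∑ j ∈ Q, glue m x M' u.1 j = ∑ j ∈ Q, M' u j := by
        refine Finset.sum_congr rfl (fun j _ => ?_)
        rw [glue_ne m x M' u.1 u.2]
      rw [e] at h2
      exact h2
    · intro j hj
      have h2 := hH.2 j hj
      rw [← hPmap, Finset.sum_map] at h2
      have e : ∑ u ∈ P.subtype (fun u : R => u ≠ m),
          glue m x M' ((Function.Embedding.subtype _) u) j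
          = ∑ u ∈ P.subtype (fun u : R => u ≠ m), M' u j := by
        refine Finset.sum_congr rfl (fun u _ => ?_)
        show glue m x M' u.1 j = M' u j
        rw [glue_ne m x M' u.1 u.2]
      rw [e] at h2
      exact h2
    · intro u j huj
      have h2 : u.1 ∉ P ∨ j ∉ Q := by
        rcases huj with hu | hj
        · left
          intro hmem
          exact hu (Finset.mem_subtype.mpr hmem)
        · right
          exact hj
      have h3 := hag u.1 j h2
      rw [glue_ne m x M' u.1 u.2] at h3
      exact h3
  · intro N' _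
    exact drop_glue m x N'
  · intro N hN
    rw [← hrowm N hN]
    exact glue_drop m N
  · intro N' _
    rfl

/-- The core average at a glued table whose row `m` has sum at most `W`. -/
theorem coreAvg_glue {r : R → ℕ} {c : C → ℕ} (m : R) (W : ℕ) (hmW : r m ≤ W) (x : C → ℕ)
    (hx : ∑ j, x j = r m) (hle : ∀ j, x j ≤ c j) (f : (R → C → ℕ) → ℝ)
    (M' : {u : R // u ≠ m} → C → ℕ) :
    coreAvg W r c f (glue m x M')
      = coreAvg W (fun u : {u : R // u ≠ m} => r u.1) (fun j => c j - x j)
          (fun N' => f (glue m x N')) M' := by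
  unfold coreAvg
  rw [sum_coreClass_glue m W hmW x hx hle M' f]
  have hcard := sum_coreClass_glue (r := r) (c := c) m W hmW x hx hle M' (fun _ => (1 : ℝ))
  rw [Finset.sum_const, Finset.sum_const, nsmul_eq_mul, nsmul_eq_mul, mul_one, mul_one] at hcard
  rw [hcard]

end CoreStep

open CoreStep

/-- The inequality of `peel_inner_core` on the tables with a given row `m`. -/
theorem peel_fiber_core {r : R → ℕ} {c : C → ℕ} (m : R) (W : ℕ) (hmW : r m ≤ W) (K : ℝ)
    (x : C → ℕ) (hx : ∑ j, x j = r m) (hle : ∀ j, x j ≤ c j)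
    (hIH : PCcore K W (fun u : {u : R // u ≠ m} => r u.1) (fun j => c j - x j))
    (f : (R → C → ℕ) → ℝ) :
    ∑ M ∈ (tables r c).filter (fun M => M m = x),
        (f M - blockAvg r c (Finset.univ.erase m) f M) ^ 2
      ≤ K * (∑ q ∈ (Finset.univ.erase m).powersetCard 2,
              ∑ p ∈ (Finset.univ : Finset C).powersetCard 2,
                ∑ M ∈ (tables r c).filter (fun M => M m = x), (f M - boxAvg r c q p f M) ^ 2
            + ∑ M ∈ (tables r c).filter (fun M => M m = x), (f M - coreAvg W r c f M) ^ 2) := by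
  rw [sum_fiber_glue m x hx hle
    (fun M => (f M - blockAvg r c (Finset.univ.erase m) f M) ^ 2)]
  rw [sum_pairs_erase m (fun q => ∑ p ∈ (Finset.univ : Finset C).powersetCard 2,
    ∑ M ∈ (tables r c).filter (fun M => M m = x), (f M - boxAvg r c q p f M) ^ 2)]
  have h1 : ∀ M' ∈ tables (fun u : {u : R // u ≠ m} => r u.1) (fun j => c j - x j),
      (f (glue m x M') - blockAvg r c (Finset.univ.erase m) f (glue m x M')) ^ 2
        = (f (glue m x M')
            - (∑ N' ∈ tables (fun u : {u : R // u ≠ m} => r u.1) (fun j => c j - x j),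
                f (glue m x N'))
              / ((tables (fun u : {u : R // u ≠ m} => r u.1) (fun j => c j - x j)).card : ℝ))
            ^ 2 := by
    intro M' _
    rw [blockAvg_erase_glue m x hx hle f M']
  rw [Finset.sum_congr rfl h1]
  have h2 : ∀ q' ∈ (Finset.univ : Finset {u : R // u ≠ m}).powersetCard 2,
      ∑ p ∈ (Finset.univ : Finset C).powersetCard 2,
        ∑ M ∈ (tables r c).filter (fun M => M m = x),
          (f M - boxAvg r c (q'.map (Function.Embedding.subtype _)) p f M) ^ 2
        = ∑ p ∈ (Finset.univ : Finset C).powersetCard 2,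
            ∑ M' ∈ tables (fun u : {u : R // u ≠ m} => r u.1) (fun j => c j - x j),
            (f (glue m x M')
              - boxAvg (fun u : {u : R // u ≠ m} => r u.1) (fun j => c j - x j) q' p
                  (fun N' => f (glue m x N')) M') ^ 2 := by
    intro q' _
    refine Finset.sum_congr rfl (fun p _ => ?_)
    rw [sum_fiber_glue m x hx hle
      (fun M => (f M - boxAvg r c (q'.map (Function.Embedding.subtype _)) p f M) ^ 2)]
    refine Finset.sum_congr rfl (fun M' _ => ?_)
    rw [boxAvg_glue m x hx hle q' p f M']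
  rw [Finset.sum_congr rfl h2]
  have h3 : ∑ M ∈ (tables r c).filter (fun M => M m = x), (f M - coreAvg W r c f M) ^ 2
      = ∑ M' ∈ tables (fun u : {u : R // u ≠ m} => r u.1) (fun j => c j - x j),
          (f (glue m x M')
            - coreAvg W (fun u : {u : R // u ≠ m} => r u.1) (fun j => c j - x j)
                (fun N' => f (glue m x N')) M') ^ 2 := by
    rw [sum_fiber_glue m x hx hle (fun M => (f M - coreAvg W r c f M) ^ 2)]
    refine Finset.sum_congr rfl (fun M' _ => ?_)
    rw [coreAvg_glue m W hmW x hx hle f M']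
  rw [h3]
  exact hIH (fun N' => f (glue m x N'))

/-- The inner step of the peeling of a row `m` with sum at most `W`: the variance of `f`
inside the classes of tables with the same row `m` is controlled by the box terms of the
pairs of rows different from `m` and the core term, with the constant of the tables without
the row `m`. -/
theorem peel_inner_core {r : R → ℕ} {c : C → ℕ} (m : R) (W : ℕ) (hmW : r m ≤ W) (K : ℝ)
    (hIH : ∀ x : C → ℕ,
      PCcore K W (fun u : {u : R // u ≠ m} => r u.1) (fun j => c j - x j))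
    (f : (R → C → ℕ) → ℝ) :
    ∑ M ∈ tables r c, (f M - blockAvg r c (Finset.univ.erase m) f M) ^ 2
      ≤ K * (∑ q ∈ (Finset.univ.erase m).powersetCard 2,
              ∑ p ∈ (Finset.univ : Finset C).powersetCard 2,
                ∑ M ∈ tables r c, (f M - boxAvg r c q p f M) ^ 2
            + ∑ M ∈ tables r c, (f M - coreAvg W r c f M) ^ 2) := by
  have hfib : ∀ h : (R → C → ℕ) → ℝ, ∑ M ∈ tables r c, h M
      = ∑ x ∈ (tables r c).image (fun M => M m),
          ∑ M ∈ (tables r c).filter (fun M => M m = x), h M := by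
    intro h
    exact (Finset.sum_fiberwise_of_maps_to
      (fun M hM => Finset.mem_image_of_mem (fun M => M m) hM) h).symm
  have hbox : ∑ q ∈ (Finset.univ.erase m).powersetCard 2,
        ∑ p ∈ (Finset.univ : Finset C).powersetCard 2,
          ∑ M ∈ tables r c, (f M - boxAvg r c q p f M) ^ 2
      = ∑ x ∈ (tables r c).image (fun M => M m),
          ∑ q ∈ (Finset.univ.erase m).powersetCard 2,
            ∑ p ∈ (Finset.univ : Finset C).powersetCard 2,
              ∑ M ∈ (tables r c).filter (fun M => M m = x),
                (f M - boxAvg r c q p f M) ^ 2 := by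
    rw [Finset.sum_congr rfl (fun q _ => Finset.sum_congr rfl
      (fun p _ => hfib (fun M => (f M - boxAvg r c q p f M) ^ 2)))]
    refine Eq.trans (Finset.sum_congr rfl (fun q _ => Finset.sum_comm)) ?_
    exact Finset.sum_comm
  rw [hfib (fun M => (f M - blockAvg r c (Finset.univ.erase m) f M) ^ 2), hbox,
    hfib (fun M => (f M - coreAvg W r c f M) ^ 2), ← Finset.sum_add_distrib, Finset.mul_sum]
  apply Finset.sum_le_sum
  intro x hx
  obtain ⟨M0, hM0, hM0x⟩ := Finset.mem_image.mp hx
  obtain ⟨hrow, hle⟩ := row_of_mem_tables hM0 m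
  have hM0x' : M0 m = x := hM0x
  rw [hM0x'] at hrow hle
  exact peel_fiber_core m W hmW K x hrow hle (hIH x) f

/-- The row-pair term of two rows is at most the sum of the 2 × 2 terms of these rows. -/
private theorem rowpair_le_boxes_aux {r : R → ℕ} {c : C → ℕ} (hC : 2 ≤ Fintype.card C)
    (a b : R) (hab : a ≠ b) (f : (R → C → ℕ) → ℝ) :
    ∑ M ∈ tables r c, (f M - blockAvg r c {a, b} f M) ^ 2
      ≤ ∑ p ∈ (Finset.univ : Finset C).powersetCard 2,
          ∑ M ∈ tables r c, (f M - boxAvg r c {a, b} p f M) ^ 2 := by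
  have h := two_row_poincare hC a b hab (fun y : Tab r c => f y.1)
  rw [sum_tab_eq ({a, b} : Finset R) f] at h
  have h2 : ∀ p ∈ (Finset.univ : Finset C).powersetCard 2,
      ∑ x : Tab r c, ((fun y : Tab r c => f y.1) x
          - av (RelBox {a, b} p) (fun y : Tab r c => f y.1) x) ^ 2
        = ∑ M ∈ tables r c, (f M - boxAvg r c {a, b} p f M) ^ 2 :=
    fun p _ => sum_tab_box_eq {a, b} p f
  rw [Finset.sum_congr rfl h2] at h
  exact h

/-- **Peeling a row with small entries.** -/
theorem pccore_row_step {r : R → ℕ} {c : C → ℕ} (m : R) (W : ℕ) (hm : r m ≤ W)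
    (hC : 2 ≤ Fintype.card C) (hX : CrossCT R C) (K : ℝ)
    (hK : 4 * (W : ℝ) ^ 2 * (Fintype.card C : ℝ) ^ 4 * (Fintype.card R : ℝ) ≤ K)
    (hIH : ∀ x : C → ℕ, PCcore K W (fun u : {u : R // u ≠ m} => r u.1) (fun j => c j - x j)) :
    PCcore K W r c := by
  intro f
  have hK0 : (0 : ℝ) ≤ 4 * (W : ℝ) ^ 2 * (Fintype.card C : ℝ) ^ 4 * (Fintype.card R : ℝ) := by
    positivity
  have hKn : (0 : ℝ) ≤ K := le_trans hK0 hK
  have hin := peel_inner_core m W hm K hIH f
  have hcr := hX r c m W (fun j => le_trans (min_le_left _ _) hm) f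
  have hbox : ∑ u ∈ (Finset.univ : Finset R).erase m,
        ∑ M ∈ tables r c, (f M - blockAvg r c {u, m} f M) ^ 2
      ≤ ∑ u ∈ (Finset.univ : Finset R).erase m,
          ∑ p ∈ (Finset.univ : Finset C).powersetCard 2,
            ∑ M ∈ tables r c, (f M - boxAvg r c {u, m} p f M) ^ 2 :=
    Finset.sum_le_sum (fun u hu =>
      rowpair_le_boxes_aux hC u m (Finset.ne_of_mem_erase hu) f)
  have hnn : (0 : ℝ) ≤ ∑ u ∈ (Finset.univ : Finset R).erase m,
        ∑ M ∈ tables r c, (f M - blockAvg r c {u, m} f M) ^ 2 :=
    Finset.sum_nonneg (fun u _ => Finset.sum_nonneg (fun M _ => sq_nonneg _))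
  have hcr2 : ∑ M ∈ tables r c, (blockAvg r c (Finset.univ.erase m) f M
        - (∑ N ∈ tables r c, f N) / ((tables r c).card : ℝ)) ^ 2
      ≤ K * ∑ u ∈ (Finset.univ : Finset R).erase m,
          ∑ p ∈ (Finset.univ : Finset C).powersetCard 2,
            ∑ M ∈ tables r c, (f M - boxAvg r c {u, m} p f M) ^ 2 :=
    le_trans hcr (le_trans (mul_le_mul_of_nonneg_right hK hnn)
      (mul_le_mul_of_nonneg_left hbox hKn))
  rw [var_split m f, sum_pairs_split m (fun q => ∑ p ∈ (Finset.univ : Finset C).powersetCard 2,
    ∑ M ∈ tables r c, (f M - boxAvg r c q p f M) ^ 2)]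
  have e : K * (∑ q ∈ (Finset.univ.erase m).powersetCard 2,
          ∑ p ∈ (Finset.univ : Finset C).powersetCard 2,
            ∑ M ∈ tables r c, (f M - boxAvg r c q p f M) ^ 2
        + ∑ u ∈ (Finset.univ : Finset R).erase m,
          ∑ p ∈ (Finset.univ : Finset C).powersetCard 2,
            ∑ M ∈ tables r c, (f M - boxAvg r c {u, m} p f M) ^ 2
        + ∑ M ∈ tables r c, (f M - coreAvg W r c f M) ^ 2)
      = K * (∑ q ∈ (Finset.univ.erase m).powersetCard 2,
          ∑ p ∈ (Finset.univ : Finset C).powersetCard 2,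
            ∑ M ∈ tables r c, (f M - boxAvg r c q p f M) ^ 2
        + ∑ M ∈ tables r c, (f M - coreAvg W r c f M) ^ 2)
      + K * ∑ u ∈ (Finset.univ : Finset R).erase m,
          ∑ p ∈ (Finset.univ : Finset C).powersetCard 2,
            ∑ M ∈ tables r c, (f M - boxAvg r c {u, m} p f M) ^ 2 := by
    ring
  rw [e]
  exact add_le_add hin hcr2

end Vale.Agent.Lib.P328.AM
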