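import Vale.Agent.Lib.P335.Bip.AvMore

/-!
# P328 / all margins: the class average minimizes the sum of squares

For an equivalence relation `r` on a finite type, the class average `av r f` is the best
approximation of `f` among the functions that are constant on the classes; in particular a
finer relation has a smaller sum of squared deviations.
-/

namespace Vale.Agent.Lib.P328.AM

open Finset
open scoped Classical
open Vale.Agent.Lib.P335.Bip

variable {X : Type*} [Fintype X]

/-- The class average is the best approximation by a function constant on the classes. -/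
theorem sum_sub_av_sq_le {r : X → X → Prop} (hr : Equivalence r) (f h : X → ℝ)
    (hh : ∀ x y, r x y → h x = h y) :
    ∑ x, (f x - av r f x) ^ 2 ≤ ∑ x, (f x - h x) ^ 2 := by
  have hinv : ∀ x y, r x y → (av r f x - h x) = (av r f y - h y) := by
    intro x y hxy
    rw [av_congr_of_rel hr f hxy, hh x y hxy]
  have hg : av r (fun x => av r f x - h x) = fun x => av r f x - h x :=
    av_of_invariant hr hinv
  have hcross : ∑ x, (f x - av r f x) * (av r f x - h x) = 0 := by
    have h1 := sum_mul_av hr f (fun x => av r f x - h x)
    rw [hg] at h1
    have h2 : ∑ x, (f x - av r f x) * (av r f x - h x)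
        = ∑ x, f x * (av r f x - h x) - ∑ x, av r f x * (av r f x - h x) := by
      rw [← Finset.sum_sub_distrib]
      exact Finset.sum_congr rfl (fun x _ => by ring)
    rw [h2, h1]
    ring
  have hsplit : ∑ x, (f x - h x) ^ 2
      = ∑ x, (f x - av r f x) ^ 2 + 2 * ∑ x, (f x - av r f x) * (av r f x - h x)
        + ∑ x, (av r f x - h x) ^ 2 := by
    rw [Finset.mul_sum, ← Finset.sum_add_distrib, ← Finset.sum_add_distrib]
    exact Finset.sum_congr rfl (fun x _ => by ring)
  rw [hsplit, hcross]
  have hnn : 0 ≤ ∑ x, (av r f x - h x) ^ 2 := Finset.sum_nonneg (fun x _ => sq_nonneg _)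
  linarith

/-- A finer relation has a smaller sum of squared deviations from the class averages. -/
theorem sum_sub_av_sq_mono {r s : X → X → Prop} (hr : Equivalence r) (hs : Equivalence s)
    (hrs : ∀ x y, r x y → s x y) (f : X → ℝ) :
    ∑ x, (f x - av r f x) ^ 2 ≤ ∑ x, (f x - av s f x) ^ 2 :=
  sum_sub_av_sq_le hr f (av s f) (fun x y hxy => av_congr_of_rel hs f (hrs x y hxy))

end Vale.Agent.Lib.P328.AM
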