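import Vale.Agent.Lib.P328.AM.CoreAvg

/-!
# P328 / all margins: from the heavy-block Poincare constant to mixing

The dynamics picks one of the moves of `coreMoves R C` uniformly at random: a 2 × 2 heat bath
move for a pair of rows and a pair of columns, or the heavy-block move (`none`), which
replaces the table by a uniformly random table of its `RelCore W`-class.  From `PCcore K W r c`
with `K ≥ 1`: the Poincare inequality on the state space, the `ℓ¹` mixing bound and the mixing
time.
-/

namespace Vale.Agent.Lib.P328.AM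

open Finset
open scoped Classical
open Vale.Agent.Lib.P328.CT Vale.Agent.Lib.P335.Bip

variable {R C : Type*} [Fintype R] [Fintype C]

/-- Every move relation is an equivalence relation. -/
theorem coreMoveRel_equivalence {r : R → ℕ} {c : C → ℕ} (W : ℕ)
    (i : Option (Finset R × Finset C)) : Equivalence (coreMoveRel (r := r) (c := c) W i) := by
  cases i with
  | none =>
    show Equivalence (RelCore (r := r) (c := c) W)
    exact relCore_equivalence W
  | some qp =>
    show Equivalence (RelBox (r := r) (c := c) qp.1 qp.2)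
    exact relBox_equivalence qp.1 qp.2

/-- The heavy-block move is not one of the 2 × 2 moves. -/
private theorem none_notMem_boxMoves (R C : Type*) [Fintype R] [Fintype C] :
    (none : Option (Finset R × Finset C)) ∉
      (((Finset.univ : Finset R).powersetCard 2) ×ˢ
        ((Finset.univ : Finset C).powersetCard 2)).map Function.Embedding.some := by
  intro h
  rw [Finset.mem_map] at h
  obtain ⟨a, _, ha⟩ := h
  exact Option.some_ne_none a ha

/-- The number of moves. -/
theorem card_coreMoves (R C : Type*) [Fintype R] [Fintype C] :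
    ((coreMoves R C).card : ℝ)
      = ((Fintype.card R).choose 2 : ℝ) * ((Fintype.card C).choose 2 : ℝ) + 1 := by
  unfold coreMoves
  rw [Finset.card_insert_of_notMem (none_notMem_boxMoves R C), Finset.card_map,
    Finset.card_product, Finset.card_powersetCard, Finset.card_powersetCard, Finset.card_univ,
    Finset.card_univ]
  push_cast
  ring

/-- The Poincare inequality on the state space, in the form used by `heatKernel_mix`. -/
theorem pccore_state {r : R → ℕ} {c : C → ℕ} {K : ℝ} {W : ℕ} (h : PCcore K W r c)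
    (f : Tab r c → ℝ) :
    ∑ y, (f y - (∑ z, f z) / (Fintype.card (Tab r c) : ℝ)) ^ 2
      ≤ K * ∑ i ∈ coreMoves R C, ∑ y, (f y - av (coreMoveRel W i) f y) ^ 2 := by
  obtain ⟨F, rfl⟩ := exists_extension f
  have hF := h F
  have hcard : (Fintype.card (Tab r c) : ℝ) = ((tables r c).card : ℝ) := by
    rw [Fintype.card_coe]
  have hsum : ∑ z : Tab r c, F z.1 = ∑ N ∈ tables r c, F N :=
    Finset.sum_coe_sort (tables r c) F
  have hL : ∑ y : Tab r c, (F y.1 - (∑ z : Tab r c, F z.1) / (Fintype.card (Tab r c) : ℝ)) ^ 2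
      = ∑ M ∈ tables r c, (F M - (∑ N ∈ tables r c, F N) / ((tables r c).card : ℝ)) ^ 2 := by
    rw [hsum, hcard]
    exact Finset.sum_coe_sort (tables r c)
      (fun M => (F M - (∑ N ∈ tables r c, F N) / ((tables r c).card : ℝ)) ^ 2)
  have hnone : ∑ y : Tab r c, ((fun y : Tab r c => F y.1) y
        - av (coreMoveRel W none) (fun y : Tab r c => F y.1) y) ^ 2
      = ∑ M ∈ tables r c, (F M - coreAvg W r c F M) ^ 2 := sum_tab_core_eq W F
  have hsome : ∀ (q : Finset R) (p : Finset C),
      ∑ y : Tab r c, ((fun y : Tab r c => F y.1) y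
        - av (coreMoveRel W (Function.Embedding.some (q, p))) (fun y : Tab r c => F y.1) y) ^ 2
      = ∑ M ∈ tables r c, (F M - boxAvg r c q p F M) ^ 2 := fun q p => sum_tab_box_eq q p F
  rw [hL]
  refine le_trans hF (le_of_eq ?_)
  refine congrArg (fun z => K * z) ?_
  unfold coreMoves
  rw [Finset.sum_insert (none_notMem_boxMoves R C), Finset.sum_map, Finset.sum_product, hnone,
    add_comm]
  refine congrArg (fun z => ∑ M ∈ tables r c, (F M - coreAvg W r c F M) ^ 2 + z) ?_
  refine Finset.sum_congr rfl (fun q _ => ?_)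
  refine Finset.sum_congr rfl (fun p _ => ?_)
  exact (hsome q p).symm

/-- Mixing of the 2 × 2 heat bath with heavy-block resampling from a Poincare constant
`K ≥ 1`. -/
theorem pccore_mixing {r : R → ℕ} {c : C → ℕ} {K : ℝ} {W : ℕ} (hK : 1 ≤ K)
    (h : PCcore K W r c) (x : Tab r c) (t : ℕ) :
    ∑ y, |(heatKernel (coreMoves R C) (coreMoveRel (r := r) (c := c) W) ^ t) x y
          - 1 / (Fintype.card (Tab r c) : ℝ)|
      ≤ Real.sqrt (Fintype.card (Tab r c) : ℝ)
        * (1 - 1 / (K * (((Fintype.card R).choose 2 : ℝ) * ((Fintype.card C).choose 2 : ℝ)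
            + 1))) ^ t := by
  have hne : (coreMoves R C).Nonempty := by
    refine ⟨none, ?_⟩
    unfold coreMoves
    exact Finset.mem_insert_self _ _
  have key := heatKernel_mix (coreMoves R C) hne (coreMoveRel (r := r) (c := c) W)
    (fun i _ => coreMoveRel_equivalence W i) K hK (pccore_state h) x t
  rw [card_coreMoves] at key
  exact key

/-- The mixing time of the 2 × 2 heat bath with heavy-block resampling from a Poincare
constant `K ≥ 1`. -/
theorem pccore_mixing_time {r : R → ℕ} {c : C → ℕ} {K : ℝ} {W : ℕ} (hK : 1 ≤ K)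
    (h : PCcore K W r c) (ε : ℝ) (hε : 0 < ε) (t : ℕ)
    (ht : K * (((Fintype.card R).choose 2 : ℝ) * ((Fintype.card C).choose 2 : ℝ) + 1)
        * ((Fintype.card R : ℝ) / 2 * ∑ j, Real.log ((c j : ℝ) + 1) + Real.log (1 / ε)) ≤ t)
    (x : Tab r c) :
    ∑ y, |(heatKernel (coreMoves R C) (coreMoveRel (r := r) (c := c) W) ^ t) x y
          - 1 / (Fintype.card (Tab r c) : ℝ)|
      ≤ ε := by
  refine le_trans (pccore_mixing hK h x t) ?_
  have hchR : (0 : ℝ) ≤ ((Fintype.card R).choose 2 : ℝ) := Nat.cast_nonneg _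
  have hchC : (0 : ℝ) ≤ ((Fintype.card C).choose 2 : ℝ) := Nat.cast_nonneg _
  have hprod : (1 : ℝ) ≤ ((Fintype.card R).choose 2 : ℝ) * ((Fintype.card C).choose 2 : ℝ)
      + 1 := by
    nlinarith [mul_nonneg hchR hchC]
  have hK1 : (1 : ℝ) ≤ K * (((Fintype.card R).choose 2 : ℝ)
      * ((Fintype.card C).choose 2 : ℝ) + 1) := by
    nlinarith
  exact mix_time_aux r c _ hK1 ε hε t ht

end Vale.Agent.Lib.P328.AM
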