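import Vale.Agent.Lib.P328.Hive.Main

/-!
# Moving one unit of a column margin changes the number of tables by at most the number of rows

`P` is a set of rows, `Q` a set of columns and the cell set is the rectangle `P ×ˢ Q`.
If the signed margins `D` are changed so that the column `a` has to receive one unit more and
the column `b` one unit less, the number of tables grows at most by the factor `P.card`:
move one unit of the column `a` to the column `b` inside a row.
-/

namespace Vale.Agent.Lib.P328.AM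

open Finset
open Vale.Agent.Lib.P328.Hive

variable {R C : Type*} [DecidableEq R] [DecidableEq C]

/-- The table obtained from `B` by moving one unit in the row `u` from the column `a` to the
column `b`. -/
def moveUnit (B : R × C → ℕ) (u : R) (a b : C) : R × C → ℕ :=
  Function.update (Function.update B (u, a) (B (u, a) - 1)) (u, b) (B (u, b) + 1)

theorem moveUnit_apply_a (B : R × C → ℕ) (u : R) {a b : C} (hab : a ≠ b) :
    moveUnit B u a b (u, a) = B (u, a) - 1 := by
  unfold moveUnit
  rw [Function.update_of_ne (by simp [hab]), Function.update_self]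

theorem moveUnit_apply_b (B : R × C → ℕ) (u : R) (a b : C) :
    moveUnit B u a b (u, b) = B (u, b) + 1 := by
  unfold moveUnit
  rw [Function.update_self]

theorem moveUnit_apply_of_ne (B : R × C → ℕ) (u : R) (a b : C) (e : R × C) (h1 : e ≠ (u, a))
    (h2 : e ≠ (u, b)) : moveUnit B u a b e = B e := by
  unfold moveUnit
  rw [Function.update_of_ne h2, Function.update_of_ne h1]

variable [Fintype R] [Fintype C]

/-- The signed margins of a table after moving one unit from the column `a` to the column `b`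
inside a row. -/
theorem dv_moveUnit (B : R × C → ℕ) (u : R) {a b : C} (hab : a ≠ b) (h : 1 ≤ B (u, a)) :
    dv (moveUnit B u a b) = dv B + Pi.single (Sum.inr a) 1 - Pi.single (Sum.inr b) 1 := by
  unfold moveUnit
  rw [dv_update, dv_update,
    Function.update_of_ne (by simp [Ne.symm hab] : (u, b) ≠ (u, a))]
  funext x
  simp only [Pi.add_apply, Pi.sub_apply, Pi.smul_apply, smul_eq_mul, chi]
  push_cast [h]
  ring

theorem moveUnit_mem {P : Finset R} {Q : Finset C} {a b : C} (hb : b ∈ Q) (hab : a ≠ b)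
    {D : R ⊕ C → ℤ} {B : R × C → ℕ} {u : R} (hB : B ∈ Om (P ×ˢ Q) D) (h : 1 ≤ B (u, a)) :
    moveUnit B u a b ∈ Om (P ×ˢ Q) (D + Pi.single (Sum.inr a) 1 - Pi.single (Sum.inr b) 1) := by
  have hua : (u, a) ∈ P ×ˢ Q := by
    by_contra hne
    have := hB.1 (u, a) hne
    omega
  have hu : u ∈ P := (Finset.mem_product.mp hua).1
  refine ⟨?_, ?_⟩
  · intro e he
    have h1 : e ≠ (u, a) := fun h' => he (h' ▸ hua)
    have h2 : e ≠ (u, b) := fun h' => he (h' ▸ Finset.mem_product.mpr ⟨hu, hb⟩)
    rw [moveUnit_apply_of_ne B u a b e h1 h2]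
    exact hB.1 e he
  · rw [dv_moveUnit B u hab h, hB.2]

/-- The number of tables on a rectangle `P ×ˢ Q` after one unit of column margin is moved from
the column `b` to the column `a` is at most `P.card` times the original number. -/
theorem cnt_move_le (P : Finset R) (Q : Finset C) (a b : C) (hb : b ∈ Q) (hab : a ≠ b)
    (D : R ⊕ C → ℤ) (hD : D (Sum.inr a) ≤ 0) :
    cnt (P ×ˢ Q) (D + Pi.single (Sum.inr b) 1 - Pi.single (Sum.inr a) 1)
      ≤ P.card * cnt (P ×ˢ Q) D := by
  classical
  have hex : ∀ B, B ∈ Om (P ×ˢ Q) (D + Pi.single (Sum.inr b) 1 - Pi.single (Sum.inr a) 1) →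
      ∃ u, u ∈ P ∧ 1 ≤ B (u, a) := by
    intro B hB
    have h1 := congrFun hB.2 (Sum.inr a)
    rw [dv_inr] at h1
    simp only [Pi.add_apply, Pi.sub_apply, Pi.single_eq_same,
      Pi.single_eq_of_ne (by simp [hab] : (Sum.inr a : R ⊕ C) ≠ Sum.inr b)] at h1
    have h2 : (0 : ℤ) < ∑ u, (B (u, a) : ℤ) := by omega
    obtain ⟨u, -, hu⟩ := Finset.exists_lt_of_sum_lt (s := Finset.univ)
      (f := fun _ : R => (0 : ℤ)) (g := fun u => (B (u, a) : ℤ)) (by simpa using h2)
    have hu' : 1 ≤ B (u, a) := by
      have : (0 : ℤ) < (B (u, a) : ℤ) := hu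
      omega
    refine ⟨u, ?_, hu'⟩
    by_contra hne
    have := hB.1 (u, a) (fun hmem => hne (Finset.mem_product.mp hmem).1)
    omega
  rcases Set.eq_empty_or_nonempty
      (Om (P ×ˢ Q) (D + Pi.single (Sum.inr b) 1 - Pi.single (Sum.inr a) 1)) with hemp | ⟨B0, hB0⟩
  · have h0 : cnt (P ×ˢ Q) (D + Pi.single (Sum.inr b) 1 - Pi.single (Sum.inr a) 1) = 0 := by
      unfold cnt
      rw [hemp, Set.ncard_empty]
    rw [h0]
    exact Nat.zero_le _
  have : Nonempty R := ⟨(hex B0 hB0).choose⟩
  choose! u hu using hex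
  have hmaps : ∀ B ∈ Om (P ×ˢ Q) (D + Pi.single (Sum.inr b) 1 - Pi.single (Sum.inr a) 1),
      (u B, moveUnit B (u B) a b) ∈ ((↑P : Set R) ×ˢ Om (P ×ˢ Q) D) := by
    intro B hB
    refine ⟨Finset.mem_coe.mpr (hu B hB).1, ?_⟩
    have h := moveUnit_mem hb hab hB (hu B hB).2
    have e : D + Pi.single (Sum.inr b) 1 - Pi.single (Sum.inr a) 1 + Pi.single (Sum.inr a) 1
        - Pi.single (Sum.inr b) 1 = D := by abel
    rwa [e] at h
  have hinj : Set.InjOn (fun B => (u B, moveUnit B (u B) a b))
      (Om (P ×ˢ Q) (D + Pi.single (Sum.inr b) 1 - Pi.single (Sum.inr a) 1)) := by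
    intro B hB B' hB' heq
    simp only [Prod.mk.injEq] at heq
    obtain ⟨h1, h2⟩ := heq
    funext e
    by_cases ha : e = (u B, a)
    · subst ha
      have e1 := congrFun h2 (u B, a)
      rw [moveUnit_apply_a B (u B) hab, h1, moveUnit_apply_a B' (u B') hab] at e1
      have := (hu B hB).2
      have := (hu B' hB').2
      rw [h1] at *
      omega
    · by_cases hb' : e = (u B, b)
      · subst hb'
        have e1 := congrFun h2 (u B, b)
        rw [moveUnit_apply_b, h1, moveUnit_apply_b] at e1
        rw [h1] at *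
        omega
      · have e1 := congrFun h2 e
        rw [moveUnit_apply_of_ne B (u B) a b e ha hb',
          moveUnit_apply_of_ne B' (u B') a b e (h1 ▸ ha) (h1 ▸ hb')] at e1
        exact e1
  have hfin : ((↑P : Set R) ×ˢ Om (P ×ˢ Q) D).Finite :=
    (P.finite_toSet).prod (Om_finite _ D)
  calc cnt (P ×ˢ Q) (D + Pi.single (Sum.inr b) 1 - Pi.single (Sum.inr a) 1)
      ≤ ((↑P : Set R) ×ˢ Om (P ×ˢ Q) D).ncard :=
        Set.ncard_le_ncard_of_injOn _ hmaps hinj hfin
    _ = P.card * cnt (P ×ˢ Q) D := by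
        rw [Set.ncard_prod, Set.ncard_coe_finset]
        rfl

end Vale.Agent.Lib.P328.AM
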