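import Vale.Agent.Lib.P328.AM.Defs

/-!
# P328 / all margins: gluing and transport of couplings of uniform laws

Generic lemmas about `UCpl S S' Rel` (a coupling `κ` of the uniform laws on the finite sets
`S`, `S'`, supported on `Rel`; rows of `κ` sum to `1 / |S|`, columns to `1 / |S'|`):

* `UCpl.mono`, `UCpl.symm`;
* `UCpl.transfer`: transport along bijections of the two sets;
* `UCpl.refl_eq`: the identity coupling;
* `UCpl.glue`: couplings of the fibres of two maps into `ℕ`, mixed by a coupling `ω` of the two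
  laws of the fibre index (written with total mass `|S| * |S'|`, the shape of the output of
  `quantile_coupling`), give a coupling of the whole sets;
* `UCpl.total_mass`, `UCpl.mean_diff`, `UCpl.mean_diff_sq`: the difference of two means through
  a coupling, and its square (Jensen).
-/

namespace Vale.Agent.Lib.P328.AM

open Finset

variable {α β : Type*}

/-- A coupling supported on `Rel` is supported on any weaker relation. -/
theorem UCpl.mono {S S' : Finset α} {Rel Rel' : α → α → Prop}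
    (h : UCpl S S' Rel) (hR : ∀ x ∈ S, ∀ y ∈ S', Rel x y → Rel' x y) : UCpl S S' Rel' := by
  obtain ⟨κ, h0, hrel, h1, h2⟩ := h
  exact ⟨κ, h0, fun x hx y hy hκ => hR x hx y hy (hrel x hx y hy hκ), h1, h2⟩

/-- The two sides of a coupling may be exchanged. -/
theorem UCpl.symm {S S' : Finset α} {Rel : α → α → Prop}
    (h : UCpl S S' Rel) : UCpl S' S (fun y x => Rel x y) := by
  obtain ⟨κ, h0, hrel, h1, h2⟩ := h
  exact ⟨fun y x => κ x y, fun y x => h0 x y, fun y hy x hx hκ => hrel x hx y hy hκ, h2, h1⟩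

/-- **Transport.**  A coupling of `S0`, `S0'` gives a coupling of `S`, `S'` along bijections
`Φ : S → S0`, `Φ' : S' → S0'`. -/
theorem UCpl.transfer {S S' : Finset α} {S0 S0' : Finset β}
    {Rel0 : β → β → Prop} {Rel : α → α → Prop} (Φ Φ' : α → β)
    (hΦ : Set.BijOn Φ S S0) (hΦ' : Set.BijOn Φ' S' S0')
    (hrel : ∀ x ∈ S, ∀ y ∈ S', Rel0 (Φ x) (Φ' y) → Rel x y) (h : UCpl S0 S0' Rel0) :
    UCpl S S' Rel := by
  obtain ⟨κ, h0, hr, h1, h2⟩ := h
  have hc : S.card = S0.card :=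
    Finset.card_nbij Φ (fun x hx => hΦ.mapsTo hx) hΦ.injOn hΦ.surjOn
  have hc' : S'.card = S0'.card :=
    Finset.card_nbij Φ' (fun x hx => hΦ'.mapsTo hx) hΦ'.injOn hΦ'.surjOn
  refine ⟨fun x y => κ (Φ x) (Φ' y), fun x y => h0 _ _, ?_, ?_, ?_⟩
  · intro x hx y hy hκ
    exact hrel x hx y hy (hr _ (hΦ.mapsTo hx) _ (hΦ'.mapsTo hy) hκ)
  · intro x hx
    rw [hc, ← h1 (Φ x) (hΦ.mapsTo hx)]
    exact Finset.sum_nbij Φ' (fun y hy => hΦ'.mapsTo hy) hΦ'.injOn hΦ'.surjOn (fun y _ => rfl)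
  · intro y hy
    rw [hc', ← h2 (Φ' y) (hΦ'.mapsTo hy)]
    exact Finset.sum_nbij Φ (fun x hx => hΦ.mapsTo hx) hΦ.injOn hΦ.surjOn (fun x _ => rfl)

/-- The identity coupling of a finite set with itself. -/
theorem UCpl.refl_eq [DecidableEq α] (S : Finset α) : UCpl S S (fun x y => x = y) := by
  refine ⟨fun x y => if x = y then 1 / (S.card : ℝ) else 0, ?_, ?_, ?_, ?_⟩
  · intro x y
    beta_reduce
    split_ifs
    · positivity
    · exact le_rfl
  · intro x _ y _ hκ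
    by_contra hne
    exact hκ (if_neg hne)
  · intro x hx
    rw [Finset.sum_ite_eq S x, if_pos hx]
  · intro y hy
    rw [Finset.sum_ite_eq' S y, if_pos hy]

/-- **Gluing.**  The sets `S`, `S'` are cut into the fibres of `φ`, `φ'` (values below `B`);
`ω ≥ 0` couples the two laws of the fibre index, with row sums `|fibre s| * |S'|` and column
sums `|fibre t| * |S|`; the fibres over `s`, `t` are coupled whenever `ω s t ≠ 0`.  Then `S`
and `S'` are coupled. -/
theorem UCpl.glue {S S' : Finset α} {Rel : α → α → Prop} (φ φ' : α → ℕ) (B : ℕ)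
    (hS : S.Nonempty) (hS' : S'.Nonempty)
    (hφ : ∀ x ∈ S, φ x < B) (hφ' : ∀ y ∈ S', φ' y < B)
    (ω : ℕ → ℕ → ℝ) (hω : ∀ s t, 0 ≤ ω s t)
    (hrow : ∀ s < B, ∑ t ∈ range B, ω s t
      = ((S.filter (fun x => φ x = s)).card : ℝ) * (S'.card : ℝ))
    (hcol : ∀ t < B, ∑ s ∈ range B, ω s t
      = ((S'.filter (fun y => φ' y = t)).card : ℝ) * (S.card : ℝ))
    (hsub : ∀ s < B, ∀ t < B, ω s t ≠ 0 →
      UCpl (S.filter (fun x => φ x = s)) (S'.filter (fun y => φ' y = t)) Rel) :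
    UCpl S S' Rel := by
  classical
  have hcS : (S.card : ℝ) ≠ 0 := Nat.cast_ne_zero.mpr hS.card_pos.ne'
  have hcS' : (S'.card : ℝ) ≠ 0 := Nat.cast_ne_zero.mpr hS'.card_pos.ne'
  -- the fibre couplings
  have hex : ∀ s t, ∃ K : α → α → ℝ, (∀ x y, 0 ≤ K x y) ∧ (s < B → t < B → ω s t ≠ 0 →
      (∀ x ∈ S.filter (fun x => φ x = s), ∀ y ∈ S'.filter (fun y => φ' y = t),
        K x y ≠ 0 → Rel x y) ∧
      (∀ x ∈ S.filter (fun x => φ x = s), ∑ y ∈ S'.filter (fun y => φ' y = t), K x y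
        = 1 / ((S.filter (fun x => φ x = s)).card : ℝ)) ∧
      (∀ y ∈ S'.filter (fun y => φ' y = t), ∑ x ∈ S.filter (fun x => φ x = s), K x y
        = 1 / ((S'.filter (fun y => φ' y = t)).card : ℝ))) := by
    intro s t
    by_cases h : s < B ∧ t < B ∧ ω s t ≠ 0
    · obtain ⟨K, k0, k1, k2, k3⟩ := hsub s h.1 t h.2.1 h.2.2
      exact ⟨K, k0, fun _ _ _ => ⟨k1, k2, k3⟩⟩
    · exact ⟨fun _ _ => 0, fun _ _ => le_rfl, fun h1 h2 h3 => absurd ⟨h1, h2, h3⟩ h⟩
  choose K hK0 hK using hex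
  have hapos : ∀ x ∈ S, ((S.filter (fun x' => φ x' = φ x)).card : ℝ) ≠ 0 := by
    intro x hx
    have : x ∈ S.filter (fun x' => φ x' = φ x) := Finset.mem_filter.mpr ⟨hx, rfl⟩
    exact Nat.cast_ne_zero.mpr (Finset.card_ne_zero_of_mem this)
  have hbpos : ∀ y ∈ S', ((S'.filter (fun y' => φ' y' = φ' y)).card : ℝ) ≠ 0 := by
    intro y hy
    have : y ∈ S'.filter (fun y' => φ' y' = φ' y) := Finset.mem_filter.mpr ⟨hy, rfl⟩
    exact Nat.cast_ne_zero.mpr (Finset.card_ne_zero_of_mem this)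
  refine ⟨fun x y => ω (φ x) (φ' y) * K (φ x) (φ' y) x y / ((S.card : ℝ) * (S'.card : ℝ)),
    ?_, ?_, ?_, ?_⟩
  · intro x y
    exact div_nonneg (mul_nonneg (hω _ _) (hK0 _ _ _ _))
      (mul_nonneg (Nat.cast_nonneg _) (Nat.cast_nonneg _))
  · intro x hx y hy hκ
    have hω' : ω (φ x) (φ' y) ≠ 0 := by
      intro h0
      apply hκ
      simp [h0]
    have hK' : K (φ x) (φ' y) x y ≠ 0 := by
      intro h0
      apply hκ
      simp [h0]
    exact (hK _ _ (hφ x hx) (hφ' y hy) hω').1 x (Finset.mem_filter.mpr ⟨hx, rfl⟩) y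
      (Finset.mem_filter.mpr ⟨hy, rfl⟩) hK'
  · intro x hx
    have hsx := hφ x hx
    rw [← Finset.sum_fiberwise_of_maps_to (g := φ') (t := range B)
      (fun y hy => Finset.mem_range.mpr (hφ' y hy))]
    have hterm : ∀ t ∈ range B, ∑ y ∈ S' with φ' y = t,
        ω (φ x) (φ' y) * K (φ x) (φ' y) x y / ((S.card : ℝ) * (S'.card : ℝ))
        = ω (φ x) t / (((S.filter (fun x' => φ x' = φ x)).card : ℝ)
            * ((S.card : ℝ) * (S'.card : ℝ))) := by
      intro t ht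
      have e1 : ∑ y ∈ S' with φ' y = t,
          ω (φ x) (φ' y) * K (φ x) (φ' y) x y / ((S.card : ℝ) * (S'.card : ℝ))
          = ω (φ x) t / ((S.card : ℝ) * (S'.card : ℝ))
            * ∑ y ∈ S' with φ' y = t, K (φ x) t x y := by
        rw [Finset.mul_sum]
        refine Finset.sum_congr rfl (fun y hy => ?_)
        rw [(Finset.mem_filter.mp hy).2]
        ring
      rw [e1]
      by_cases hω0 : ω (φ x) t = 0
      · rw [hω0]
        simp
      · rw [(hK _ _ hsx (Finset.mem_range.mp ht) hω0).2.1 x (Finset.mem_filter.mpr ⟨hx, rfl⟩)]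
        field_simp
    rw [Finset.sum_congr rfl hterm, ← Finset.sum_div, hrow _ hsx]
    have := hapos x hx
    field_simp
  · intro y hy
    have hty := hφ' y hy
    rw [← Finset.sum_fiberwise_of_maps_to (g := φ) (t := range B)
      (fun x hx => Finset.mem_range.mpr (hφ x hx))]
    have hterm : ∀ s ∈ range B, ∑ x ∈ S with φ x = s,
        ω (φ x) (φ' y) * K (φ x) (φ' y) x y / ((S.card : ℝ) * (S'.card : ℝ))
        = ω s (φ' y) / (((S'.filter (fun y' => φ' y' = φ' y)).card : ℝ)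
            * ((S.card : ℝ) * (S'.card : ℝ))) := by
      intro s hs
      have e1 : ∑ x ∈ S with φ x = s,
          ω (φ x) (φ' y) * K (φ x) (φ' y) x y / ((S.card : ℝ) * (S'.card : ℝ))
          = ω s (φ' y) / ((S.card : ℝ) * (S'.card : ℝ))
            * ∑ x ∈ S with φ x = s, K s (φ' y) x y := by
        rw [Finset.mul_sum]
        refine Finset.sum_congr rfl (fun x hx => ?_)
        rw [(Finset.mem_filter.mp hx).2]
        ring
      rw [e1]
      by_cases hω0 : ω s (φ' y) = 0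
      · rw [hω0]
        simp
      · rw [(hK _ _ (Finset.mem_range.mp hs) hty hω0).2.2 y (Finset.mem_filter.mpr ⟨hy, rfl⟩)]
        field_simp
    rw [Finset.sum_congr rfl hterm, ← Finset.sum_div, hcol _ hty]
    have := hbpos y hy
    field_simp

/-- The total mass of a coupling is one. -/
theorem UCpl.total_mass {S S' : Finset α} {κ : α → α → ℝ}
    (h1 : ∀ x ∈ S, ∑ y ∈ S', κ x y = 1 / (S.card : ℝ)) (hS : S.Nonempty) :
    ∑ x ∈ S, ∑ y ∈ S', κ x y = 1 := by
  have hc : (S.card : ℝ) ≠ 0 := Nat.cast_ne_zero.mpr hS.card_pos.ne'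
  rw [Finset.sum_congr rfl h1, Finset.sum_const, nsmul_eq_mul]
  field_simp

/-- The difference of the two means through a coupling. -/
theorem UCpl.mean_diff {S S' : Finset α} {κ : α → α → ℝ}
    (h1 : ∀ x ∈ S, ∑ y ∈ S', κ x y = 1 / (S.card : ℝ))
    (h2 : ∀ y ∈ S', ∑ x ∈ S, κ x y = 1 / (S'.card : ℝ)) (F G : α → ℝ) :
    (∑ y ∈ S', G y) / (S'.card : ℝ) - (∑ x ∈ S, F x) / (S.card : ℝ)
      = ∑ x ∈ S, ∑ y ∈ S', κ x y * (G y - F x) := by
  have e1 : ∑ x ∈ S, ∑ y ∈ S', κ x y * G y = (∑ y ∈ S', G y) / (S'.card : ℝ) := by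
    rw [Finset.sum_comm, Finset.sum_div]
    refine Finset.sum_congr rfl (fun y hy => ?_)
    rw [← Finset.sum_mul, h2 y hy]
    ring
  have e2 : ∑ x ∈ S, ∑ y ∈ S', κ x y * F x = (∑ x ∈ S, F x) / (S.card : ℝ) := by
    rw [Finset.sum_div]
    refine Finset.sum_congr rfl (fun x hx => ?_)
    rw [← Finset.sum_mul, h1 x hx]
    ring
  rw [← e1, ← e2, ← Finset.sum_sub_distrib]
  refine Finset.sum_congr rfl (fun x _ => ?_)
  rw [← Finset.sum_sub_distrib]
  refine Finset.sum_congr rfl (fun y _ => ?_)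
  ring

/-- Jensen through a coupling: the squared difference of the two means is at most the mean of
the squared differences under the coupling. -/
theorem UCpl.mean_diff_sq {S S' : Finset α} {κ : α → α → ℝ} (h0 : ∀ x y, 0 ≤ κ x y)
    (h1 : ∀ x ∈ S, ∑ y ∈ S', κ x y = 1 / (S.card : ℝ))
    (h2 : ∀ y ∈ S', ∑ x ∈ S, κ x y = 1 / (S'.card : ℝ)) (hS : S.Nonempty) (F G : α → ℝ) :
    ((∑ y ∈ S', G y) / (S'.card : ℝ) - (∑ x ∈ S, F x) / (S.card : ℝ)) ^ 2
      ≤ ∑ x ∈ S, ∑ y ∈ S', κ x y * (G y - F x) ^ 2 := by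
  rw [UCpl.mean_diff h1 h2 F G]
  have hmass := UCpl.total_mass h1 hS
  have hcs : (∑ x ∈ S, ∑ y ∈ S', κ x y * (G y - F x)) ^ 2
      ≤ (∑ x ∈ S, ∑ y ∈ S', κ x y) * (∑ x ∈ S, ∑ y ∈ S', κ x y * (G y - F x) ^ 2) := by
    rw [← Finset.sum_product', ← Finset.sum_product', ← Finset.sum_product']
    have := Finset.sum_mul_sq_le_sq_mul_sq (S ×ˢ S') (fun p => Real.sqrt (κ p.1 p.2))
      (fun p => Real.sqrt (κ p.1 p.2) * (G p.2 - F p.1))
    have e1 : ∀ p ∈ S ×ˢ S', Real.sqrt (κ p.1 p.2) * (Real.sqrt (κ p.1 p.2) * (G p.2 - F p.1))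
        = κ p.1 p.2 * (G p.2 - F p.1) := by
      intro p _
      rw [← mul_assoc, Real.mul_self_sqrt (h0 _ _)]
    have e2 : ∀ p ∈ S ×ˢ S', Real.sqrt (κ p.1 p.2) ^ 2 = κ p.1 p.2 := by
      intro p _
      exact Real.sq_sqrt (h0 _ _)
    have e3 : ∀ p ∈ S ×ˢ S', (Real.sqrt (κ p.1 p.2) * (G p.2 - F p.1)) ^ 2
        = κ p.1 p.2 * (G p.2 - F p.1) ^ 2 := by
      intro p _
      rw [mul_pow, Real.sq_sqrt (h0 _ _)]
    rw [Finset.sum_congr rfl e1, Finset.sum_congr rfl e2, Finset.sum_congr rfl e3] at this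
    exact this
  rw [hmass, one_mul] at hcs
  exact hcs

end Vale.Agent.Lib.P328.AM
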