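import Vale.Agent.Lib.P328.AM.Defs
import Vale.Agent.Lib.P328.AM.CplGlue
import Vale.Agent.Lib.P328.AM.Restrict

/-!
# P328 (all margins): the coupling step between two adjacent slices of one row

`rowAt m T` is the row `m` of a table, `rowN E D m x` the number of tables of the class with
row `m` equal to `x`, and `mv x j k` the row `x` with one unit moved from column `k` to
column `j`.  The slice `s` of the class consists of its tables with value `s` at the cell
`(m, j0)`.  Main statement `cross_slice`: the squared difference of the means of `g ∘ rowAt m`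
over the slices `t + 1` and `t`, times the smaller of the two slice cardinalities, is at most
the sum over the rows `x` with `x j0 = t` and the columns `k ≠ j0` of
`min (rowN x) (rowN (mv x j0 k)) * (g (mv x j0 k) - g x) ^ 2`.  The star coupling enters as
the hypothesis `hA`.  (All names of this file live in the namespace `AM.CrossSlice`, so that
they do not collide with the definitions of the same names in `AM/OneRow` and
`AM/OneRowSlice`.)
-/

namespace Vale.Agent.Lib.P328.AM.CrossSlice

open Finset
open Vale.Agent.Lib.P328.Hive Vale.Agent.Lib.P328.AM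

/-- A coupling of two uniform laws charges the pairs of prescribed types by at most the
smaller of the two type frequencies. -/
theorem cpl_type_bound {α β : Type*} [DecidableEq β] (S S' : Finset α) (κ : α → α → ℝ)
    (h0 : ∀ x y, 0 ≤ κ x y)
    (h1 : ∀ x ∈ S, ∑ y ∈ S', κ x y = 1 / (S.card : ℝ))
    (h2 : ∀ y ∈ S', ∑ x ∈ S, κ x y = 1 / (S'.card : ℝ))
    (π π' : α → β) (φ : β → β) (c : β → ℝ) (hc : ∀ z, 0 ≤ c z) :
    ∑ x ∈ S, ∑ y ∈ S', (if π x = φ (π' y) then κ x y * c (π' y) else 0)
      ≤ ∑ z ∈ S'.image π', min (((S'.filter (fun y => π' y = z)).card : ℝ) / (S'.card : ℝ))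
          (((S.filter (fun x => π x = φ z)).card : ℝ) / (S.card : ℝ)) * c z := by
  rw [Finset.sum_comm]
  rw [← Finset.sum_fiberwise_of_maps_to (g := π') (t := S'.image π')
    (fun y hy => Finset.mem_image_of_mem _ hy)]
  refine Finset.sum_le_sum (fun z _ => ?_)
  have hrew : ∑ y ∈ S'.filter (fun y => π' y = z),
        ∑ x ∈ S, (if π x = φ (π' y) then κ x y * c (π' y) else 0)
      = (∑ y ∈ S'.filter (fun y => π' y = z), ∑ x ∈ S, (if π x = φ z then κ x y else 0))
          * c z := by
    rw [Finset.sum_mul]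
    refine Finset.sum_congr rfl (fun y hy => ?_)
    rw [Finset.sum_mul]
    refine Finset.sum_congr rfl (fun x _ => ?_)
    rw [(Finset.mem_filter.mp hy).2]
    split_ifs
    · rfl
    · rw [zero_mul]
  rw [hrew]
  refine mul_le_mul_of_nonneg_right (le_min ?_ ?_) (hc z)
  · calc ∑ y ∈ S'.filter (fun y => π' y = z), ∑ x ∈ S, (if π x = φ z then κ x y else 0)
        ≤ ∑ y ∈ S'.filter (fun y => π' y = z), ∑ x ∈ S, κ x y := by
          refine Finset.sum_le_sum (fun y _ => Finset.sum_le_sum (fun x _ => ?_))
          split_ifs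
          · exact le_rfl
          · exact h0 x y
      _ = ∑ y ∈ S'.filter (fun y => π' y = z), 1 / (S'.card : ℝ) :=
          Finset.sum_congr rfl (fun y hy => h2 y (Finset.mem_filter.mp hy).1)
      _ = ((S'.filter (fun y => π' y = z)).card : ℝ) / (S'.card : ℝ) := by
          rw [Finset.sum_const, nsmul_eq_mul]
          ring
  · rw [Finset.sum_comm]
    calc ∑ x ∈ S, ∑ y ∈ S'.filter (fun y => π' y = z), (if π x = φ z then κ x y else 0)
        ≤ ∑ x ∈ S, (if π x = φ z then 1 / (S.card : ℝ) else 0) := by
          refine Finset.sum_le_sum (fun x hx => ?_)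
          split_ifs
          · rw [← h1 x hx]
            exact Finset.sum_le_sum_of_subset_of_nonneg (Finset.filter_subset _ _)
              (fun y _ _ => h0 x y)
          · rw [Finset.sum_const_zero]
      _ = ((S.filter (fun x => π x = φ z)).card : ℝ) / (S.card : ℝ) := by
          rw [← Finset.sum_filter, Finset.sum_const, nsmul_eq_mul]
          ring

variable {R C : Type*} [Fintype R] [Fintype C] [DecidableEq R] [DecidableEq C]

/-- The row `m` of a table. -/
def rowAt (m : R) (T : R × C → ℕ) : C → ℕ := fun j => T (m, j)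

/-- The number of tables of the class whose row `m` is `x`. -/
noncomputable def rowN (E : Finset (R × C)) (D : R ⊕ C → ℤ) (m : R) (x : C → ℕ) : ℕ :=
  ((OmF E D).filter (fun T => rowAt m T = x)).card

/-- The row `x` with one unit moved from column `k` to column `j`. -/
def mv (x : C → ℕ) (j k : C) : C → ℕ :=
  Function.update (Function.update x j (x j + 1)) k (x k - 1)

/-- A sum over the slice `s` of the cell `e` is a sum over the tables on `E.erase e`. -/
theorem sum_slice (E : Finset (R × C)) (D : R ⊕ C → ℤ) (e : R × C) (he : e ∈ E) (s : ℕ)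
    (H : (R × C → ℕ) → ℝ) :
    ∑ T ∈ (OmF E D).filter (fun T => T e = s), H T
      = ∑ A ∈ OmF (E.erase e) (D - (s : ℤ) • chi e), H (A + Pi.single e s) := by
  have hfil : (OmF E D).filter (fun T => T e = s)
      = (OmF E D).filter (fun T => res {e} T = Pi.single e s) := by
    refine Finset.filter_congr (fun T _ => ?_)
    constructor
    · intro h
      funext e'
      by_cases he' : e' = e
      · subst he'
        rw [res_apply_of_mem T (Finset.mem_singleton_self _), Pi.single_eq_same, h]
      · rw [res_apply_of_notMem T (fun hm => he' (Finset.mem_singleton.mp hm)),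
          Pi.single_eq_of_ne he']
    · intro h
      have := congrFun h e
      rwa [res_apply_of_mem T (Finset.mem_singleton_self _), Pi.single_eq_same] at this
  rw [hfil, sum_OmF_filter_res (Finset.singleton_subset_iff.mpr he) D
    (fun e' he' => Pi.single_eq_of_ne (fun h => he' (Finset.mem_singleton.mpr h)) _) H,
    Finset.sdiff_singleton_eq_erase, dv_single]

/-- The cardinality of the slice `s`. -/
theorem card_slice (E : Finset (R × C)) (D : R ⊕ C → ℤ) (e : R × C) (he : e ∈ E) (s : ℕ) :
    (((OmF E D).filter (fun T => T e = s)).card : ℝ)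
      = ((OmF (E.erase e) (D - (s : ℤ) • chi e)).card : ℝ) := by
  have h := sum_slice E D e he s (fun _ => (1 : ℝ))
  rw [Finset.sum_const, Finset.sum_const, nsmul_eq_mul, nsmul_eq_mul, mul_one, mul_one] at h
  exact h

omit [Fintype R] [Fintype C] in
/-- The row `m` of a table with an extra value at the cell `(m, j0)`. -/
theorem rowAt_add_single (m : R) (j0 : C) (A : R × C → ℕ) (hA : A (m, j0) = 0) (s : ℕ) :
    rowAt m (A + Pi.single (m, j0) s) = Function.update (rowAt m A) j0 s := by
  funext j
  unfold rowAt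
  by_cases hj : j = j0
  · subst hj
    rw [Pi.add_apply, Pi.single_eq_same, hA, zero_add, Function.update_self]
  · rw [Pi.add_apply, Pi.single_eq_of_ne (fun h => hj (Prod.mk.inj h).2), add_zero,
      Function.update_of_ne hj]

/-- The number of tables with a given row, counted in the slice of its value at `j0`. -/
theorem rowN_slice (E : Finset (R × C)) (D : R ⊕ C → ℤ) (m : R) (j0 : C) (he : (m, j0) ∈ E)
    (s : ℕ) (z : C → ℕ) (hz : z j0 = s) :
    (rowN E D m z : ℝ)
      = (((OmF (E.erase (m, j0)) (D - (s : ℤ) • chi (m, j0))).filter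
          (fun A => Function.update (rowAt m A) j0 s = z)).card : ℝ) := by
  unfold rowN
  rw [← Finset.sum_boole, ← Finset.sum_boole]
  have h1 : ∑ T ∈ OmF E D, (if rowAt m T = z then (1 : ℝ) else 0)
      = ∑ T ∈ (OmF E D).filter (fun T => T (m, j0) = s),
          (if rowAt m T = z then (1 : ℝ) else 0) := by
    refine (Finset.sum_filter_of_ne (fun T _ hne => ?_)).symm
    by_contra hcon
    apply hne
    rw [if_neg]
    intro hrow
    apply hcon
    have := congrFun hrow j0
    unfold rowAt at this
    rw [this, hz]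
  rw [h1, sum_slice E D (m, j0) he s (fun T => if rowAt m T = z then (1 : ℝ) else 0)]
  refine Finset.sum_congr rfl (fun A hA => ?_)
  have hA0 : A (m, j0) = 0 := (mem_OmF.mp hA).1 (m, j0) (Finset.notMem_erase _ _)
  rw [rowAt_add_single m j0 A hA0 s]

omit [Fintype R] [Fintype C] in
theorem chi_row (m : R) (j : C) : chi (m, j) (Sum.inl m) = 1 := by
  simp [chi]

/-- Two tables related by the star relation at the row `m`, in two classes whose row sums at
`m` differ by one: the row of the first one is the row of the second one with one unit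
removed. -/
theorem star_row_step (E' : Finset (R × C)) (D1 D0 : R ⊕ C → ℤ) (m : R) (j0 : C)
    (hj0 : (m, j0) ∉ E') (hD : D0 (Sum.inl m) = D1 (Sum.inl m) + 1) (t : ℕ)
    {x y : R × C → ℕ} (hx : x ∈ OmF E' D1) (hy : y ∈ OmF E' D0)
    (hrel : StarRel (Sum.inl m) x y) :
    ∃ k, k ≠ j0 ∧ Function.update (rowAt m x) j0 (t + 1)
      = mv (Function.update (rowAt m y) j0 t) j0 k := by
  obtain ⟨e1, he1, _, hrest⟩ := hrel
  have hfst : e1.1 = m := by
    by_contra h
    apply he1
    simp [chi, Ne.symm h]
  have he1eq : e1 = (m, e1.2) := Prod.ext hfst rfl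
  have hsame : ∀ j, j ≠ e1.2 → y (m, j) = x (m, j) := by
    intro j hj
    refine hrest (m, j) ?_ ?_
    · rw [chi_row m j]
      exact one_ne_zero
    · intro h
      rw [he1eq] at h
      exact hj (Prod.mk.inj h).2
  have hxs : ∑ v, (x (m, v) : ℤ) = D1 (Sum.inl m) := by
    rw [← dv_inl, (mem_OmF.mp hx).2]
  have hys : ∑ v, (y (m, v) : ℤ) = D0 (Sum.inl m) := by
    rw [← dv_inl, (mem_OmF.mp hy).2]
  have hdiff : ∑ v, ((y (m, v) : ℤ) - (x (m, v) : ℤ)) = (y (m, e1.2) : ℤ) - (x (m, e1.2) : ℤ) := by
    refine Finset.sum_eq_single e1.2 (fun v _ hv => ?_) (fun h => absurd (Finset.mem_univ _) h)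
    rw [hsame v hv, sub_self]
  rw [Finset.sum_sub_distrib, hxs, hys, hD] at hdiff
  have hk1 : y (m, e1.2) = x (m, e1.2) + 1 := by
    have : (y (m, e1.2) : ℤ) = (x (m, e1.2) : ℤ) + 1 := by linarith
    exact_mod_cast this
  have hy0 : y (m, j0) = 0 := (mem_OmF.mp hy).1 (m, j0) hj0
  have hk : e1.2 ≠ j0 := by
    intro h
    rw [h, hy0] at hk1
    omega
  refine ⟨e1.2, hk, ?_⟩
  funext j
  unfold mv
  by_cases hjk : j = e1.2
  · subst hjk
    rw [Function.update_of_ne hk, Function.update_self, Function.update_of_ne hk]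
    unfold rowAt
    rw [hk1]
    omega
  · rw [Function.update_of_ne hjk]
    by_cases hj : j = j0
    · subst hj
      rw [Function.update_self, Function.update_self, Function.update_self]
    · rw [Function.update_of_ne hj, Function.update_of_ne hj, Function.update_of_ne hj]
      unfold rowAt
      exact (hsame j hjk).symm

/-- Exchange of a sum over a type with a double sum. -/
theorem sum3_comm {α ι : Type*} [Fintype ι] (S S' : Finset α) (f : α → α → ι → ℝ) :
    ∑ x ∈ S, ∑ y ∈ S', ∑ k, f x y k = ∑ k, ∑ x ∈ S, ∑ y ∈ S', f x y k := by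
  calc ∑ x ∈ S, ∑ y ∈ S', ∑ k, f x y k = ∑ x ∈ S, ∑ k, ∑ y ∈ S', f x y k :=
        Finset.sum_congr rfl (fun x _ => Finset.sum_comm)
    _ = ∑ k, ∑ x ∈ S, ∑ y ∈ S', f x y k := Finset.sum_comm

/-- Scaling the two type frequencies by the smaller cardinality. -/
theorem min_mul_min_le (p q a b : ℝ) (hp : 0 < p) (hq : 0 < q) (ha : 0 ≤ a) (hb : 0 ≤ b) :
    min p q * min (a / p) (b / q) ≤ min a b := by
  have hm0 : 0 ≤ min p q := le_min hp.le hq.le
  refine le_min ?_ ?_
  · calc min p q * min (a / p) (b / q) ≤ p * (a / p) :=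
          mul_le_mul (min_le_left _ _) (min_le_left _ _)
            (le_min (div_nonneg ha hp.le) (div_nonneg hb hq.le)) hp.le
      _ = a := by field_simp
  · calc min p q * min (a / p) (b / q) ≤ q * (b / q) :=
          mul_le_mul (min_le_right _ _) (min_le_right _ _)
            (le_min (div_nonneg ha hp.le) (div_nonneg hb hq.le)) hq.le
      _ = b := by field_simp

/-- **The coupling step between the slices `t` and `t + 1` of the cell `(m, j0)`.** -/
theorem cross_slice (hA : ∀ E : Finset (R × C), StarCouplingOn E) (E : Finset (R × C))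
    (D : R ⊕ C → ℤ) (m : R) (j0 : C) (he : (m, j0) ∈ E) (t : ℕ) (g : (C → ℕ) → ℝ) :
    min (((OmF E D).filter (fun T => T (m, j0) = t)).card : ℝ)
        (((OmF E D).filter (fun T => T (m, j0) = t + 1)).card : ℝ)
      * ((∑ T ∈ (OmF E D).filter (fun T => T (m, j0) = t + 1), g (rowAt m T))
            / (((OmF E D).filter (fun T => T (m, j0) = t + 1)).card : ℝ)
          - (∑ T ∈ (OmF E D).filter (fun T => T (m, j0) = t), g (rowAt m T))
            / (((OmF E D).filter (fun T => T (m, j0) = t)).card : ℝ)) ^ 2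
      ≤ ∑ x ∈ ((OmF E D).image (rowAt m)).filter (fun x => x j0 = t),
          ∑ k, (if k = j0 then 0
            else min (rowN E D m x : ℝ) (rowN E D m (mv x j0 k) : ℝ)
              * (g (mv x j0 k) - g x) ^ 2) := by
  have hRHS0 : 0 ≤ ∑ x ∈ ((OmF E D).image (rowAt m)).filter (fun x => x j0 = t),
      ∑ k, (if k = j0 then 0
        else min (rowN E D m x : ℝ) (rowN E D m (mv x j0 k) : ℝ)
          * (g (mv x j0 k) - g x) ^ 2) := by
    refine Finset.sum_nonneg (fun x _ => Finset.sum_nonneg (fun k _ => ?_))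
    split_ifs
    · exact le_rfl
    · exact mul_nonneg (le_min (Nat.cast_nonneg _) (Nat.cast_nonneg _)) (sq_nonneg _)
  obtain ⟨S, hS⟩ : ∃ S, S = OmF (E.erase (m, j0)) (D - ((t + 1 : ℕ) : ℤ) • chi (m, j0)) :=
    ⟨_, rfl⟩
  obtain ⟨S', hS'⟩ : ∃ S', S' = OmF (E.erase (m, j0)) (D - (t : ℤ) • chi (m, j0)) := ⟨_, rfl⟩
  have hj0 : (m, j0) ∉ E.erase (m, j0) := Finset.notMem_erase _ _
  have hx0 : ∀ x ∈ S, x (m, j0) = 0 := by
    intro x hx
    rw [hS] at hx
    exact (mem_OmF.mp hx).1 (m, j0) hj0
  have hy0 : ∀ y ∈ S', y (m, j0) = 0 := by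
    intro y hy
    rw [hS'] at hy
    exact (mem_OmF.mp hy).1 (m, j0) hj0
  have hc1 : (((OmF E D).filter (fun T => T (m, j0) = t + 1)).card : ℝ) = (S.card : ℝ) := by
    rw [hS]
    exact card_slice E D (m, j0) he (t + 1)
  have hc0 : (((OmF E D).filter (fun T => T (m, j0) = t)).card : ℝ) = (S'.card : ℝ) := by
    rw [hS']
    exact card_slice E D (m, j0) he t
  have hs1 : ∑ T ∈ (OmF E D).filter (fun T => T (m, j0) = t + 1), g (rowAt m T)
      = ∑ x ∈ S, g (Function.update (rowAt m x) j0 (t + 1)) := by
    rw [sum_slice E D (m, j0) he (t + 1) (fun T => g (rowAt m T)), ← hS]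
    refine Finset.sum_congr rfl (fun x hx => ?_)
    rw [rowAt_add_single m j0 x (hx0 x hx) (t + 1)]
  have hs0 : ∑ T ∈ (OmF E D).filter (fun T => T (m, j0) = t), g (rowAt m T)
      = ∑ y ∈ S', g (Function.update (rowAt m y) j0 t) := by
    rw [sum_slice E D (m, j0) he t (fun T => g (rowAt m T)), ← hS']
    refine Finset.sum_congr rfl (fun y hy => ?_)
    rw [rowAt_add_single m j0 y (hy0 y hy) t]
  rw [hc1, hc0, hs1, hs0]
  rcases Nat.eq_zero_or_pos S.card with hz1 | hp1
  · rw [hz1]
    have hmin : min (S'.card : ℝ) ((0 : ℕ) : ℝ) = 0 := by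
      rw [Nat.cast_zero]
      exact min_eq_right (Nat.cast_nonneg _)
    rw [hmin, zero_mul]
    exact hRHS0
  rcases Nat.eq_zero_or_pos S'.card with hz0 | hp0
  · rw [hz0]
    have hmin : min ((0 : ℕ) : ℝ) (S.card : ℝ) = 0 := by
      rw [Nat.cast_zero]
      exact min_eq_left (Nat.cast_nonneg _)
    rw [hmin, zero_mul]
    exact hRHS0
  have hp1' : (0 : ℝ) < (S.card : ℝ) := Nat.cast_pos.mpr hp1
  have hp0' : (0 : ℝ) < (S'.card : ℝ) := Nat.cast_pos.mpr hp0
  -- the star coupling of the two classes
  have hmarg : D - ((t + 1 : ℕ) : ℤ) • chi (m, j0) + Pi.single (Sum.inl m) 1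
      - Pi.single (Sum.inr j0) 1 = D - (t : ℤ) • chi (m, j0) := by
    have hχ : chi (m, j0) = Pi.single (Sum.inl m) 1 - Pi.single (Sum.inr j0) 1 := rfl
    rw [Nat.cast_succ, add_smul, one_smul]
    generalize (t : ℤ) • chi (m, j0) = X
    rw [hχ]
    abel
  have hcpl : UCpl S S' (StarRel (Sum.inl m)) := by
    have h := hA (E.erase (m, j0)) (D - ((t + 1 : ℕ) : ℤ) • chi (m, j0)) (Sum.inl m)
      (Sum.inr j0) Sum.inr_ne_inl
    rw [hmarg, ← card_OmF, ← card_OmF, ← hS, ← hS'] at h
    exact h hp1.ne' hp0.ne'
  obtain ⟨κ, h0, hrel, h1, h2⟩ := hcpl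
  have hSne : S.Nonempty := Finset.card_pos.mp hp1
  have hmd := UCpl.mean_diff_sq h0 h1 h2 hSne
    (fun x => g (Function.update (rowAt m x) j0 (t + 1)))
    (fun y => g (Function.update (rowAt m y) j0 t))
  have hDrow : (D - (t : ℤ) • chi (m, j0)) (Sum.inl m)
      = (D - ((t + 1 : ℕ) : ℤ) • chi (m, j0)) (Sum.inl m) + 1 := by
    simp only [Pi.sub_apply, Pi.smul_apply, chi_row, smul_eq_mul]
    push_cast
    ring
  -- pointwise bound of the cost of a coupled pair
  have hpt : ∀ x ∈ S, ∀ y ∈ S',
      κ x y * (g (Function.update (rowAt m y) j0 t)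
          - g (Function.update (rowAt m x) j0 (t + 1))) ^ 2
        ≤ ∑ k, (if k = j0 then 0 else
            (if Function.update (rowAt m x) j0 (t + 1)
                = mv (Function.update (rowAt m y) j0 t) j0 k
              then κ x y * (g (mv (Function.update (rowAt m y) j0 t) j0 k)
                - g (Function.update (rowAt m y) j0 t)) ^ 2 else 0)) := by
    intro x hx y hy
    have hterm0 : ∀ k ∈ (Finset.univ : Finset C), 0 ≤ (if k = j0 then 0 else
        (if Function.update (rowAt m x) j0 (t + 1)
            = mv (Function.update (rowAt m y) j0 t) j0 k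
          then κ x y * (g (mv (Function.update (rowAt m y) j0 t) j0 k)
            - g (Function.update (rowAt m y) j0 t)) ^ 2 else 0)) := by
      intro k _
      split_ifs
      · exact le_rfl
      · exact mul_nonneg (h0 x y) (sq_nonneg _)
      · exact le_rfl
    by_cases hκ : κ x y = 0
    · have hz : κ x y * (g (Function.update (rowAt m y) j0 t)
          - g (Function.update (rowAt m x) j0 (t + 1))) ^ 2 = 0 := by
        rw [hκ, zero_mul]
      rw [hz]
      exact Finset.sum_nonneg hterm0
    · have hst := hrel x hx y hy hκ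
      rw [hS] at hx
      rw [hS'] at hy
      obtain ⟨k, hk, hrow⟩ := star_row_step (E.erase (m, j0)) _ _ m j0 hj0 hDrow t hx hy hst
      refine le_trans (le_of_eq ?_) (Finset.single_le_sum hterm0 (Finset.mem_univ k))
      rw [if_neg hk, if_pos hrow, ← hrow]
      ring
  -- the type bound for each column
  have htype : ∀ k, k ≠ j0 →
      min (S'.card : ℝ) (S.card : ℝ) * ∑ x ∈ S, ∑ y ∈ S',
        (if Function.update (rowAt m x) j0 (t + 1)
            = mv (Function.update (rowAt m y) j0 t) j0 k
          then κ x y * (g (mv (Function.update (rowAt m y) j0 t) j0 k)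
            - g (Function.update (rowAt m y) j0 t)) ^ 2 else 0)
      ≤ ∑ z ∈ ((OmF E D).image (rowAt m)).filter (fun x => x j0 = t),
          min (rowN E D m z : ℝ) (rowN E D m (mv z j0 k) : ℝ) * (g (mv z j0 k) - g z) ^ 2 := by
    intro k hk
    have hb := cpl_type_bound S S' κ h0 h1 h2
      (fun x => Function.update (rowAt m x) j0 (t + 1))
      (fun y => Function.update (rowAt m y) j0 t) (fun z => mv z j0 k)
      (fun z => (g (mv z j0 k) - g z) ^ 2) (fun z => sq_nonneg _)
    have hm0 : 0 ≤ min (S'.card : ℝ) (S.card : ℝ) := le_min hp0'.le hp1'.le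
    refine le_trans (mul_le_mul_of_nonneg_left hb hm0) ?_
    rw [Finset.mul_sum]
    have hsub : S'.image (fun y => Function.update (rowAt m y) j0 t)
        ⊆ ((OmF E D).image (rowAt m)).filter (fun x => x j0 = t) := by
      intro z hz
      obtain ⟨y, hy, rfl⟩ := Finset.mem_image.mp hz
      rw [Finset.mem_filter, Finset.mem_image]
      refine ⟨⟨y + Pi.single (m, j0) t, ?_, rowAt_add_single m j0 y (hy0 y hy) t⟩,
        Function.update_self ..⟩
      rw [hS'] at hy
      rw [mem_OmF] at hy ⊢
      have hy' : y ∈ Om (E \ {(m, j0)}) (D - dv (Pi.single (m, j0) t : R × C → ℕ)) := by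
        rw [Finset.sdiff_singleton_eq_erase, dv_single]
        exact hy
      exact add_mem_Om (Finset.singleton_subset_iff.mpr he)
        (fun e' he' => Pi.single_eq_of_ne (fun h => he' (Finset.mem_singleton.mpr h)) _) hy'
    refine le_trans ?_ (Finset.sum_le_sum_of_subset_of_nonneg hsub (fun z _ _ =>
      mul_nonneg (le_min (Nat.cast_nonneg _) (Nat.cast_nonneg _)) (sq_nonneg _)))
    refine Finset.sum_le_sum (fun z hz => ?_)
    obtain ⟨y, hy, hzy⟩ := Finset.mem_image.mp hz
    have hzt : z j0 = t := by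
      rw [← hzy]
      exact Function.update_self ..
    have hzt1 : mv z j0 k j0 = t + 1 := by
      unfold mv
      rw [Function.update_of_ne (Ne.symm hk), Function.update_self, hzt]
    have ha := rowN_slice E D m j0 he t z hzt
    have hb' := rowN_slice E D m j0 he (t + 1) (mv z j0 k) hzt1
    rw [← hS'] at ha
    rw [← hS] at hb'
    rw [ha, hb', ← mul_assoc]
    refine mul_le_mul_of_nonneg_right ?_ (sq_nonneg _)
    exact min_mul_min_le _ _ _ _ hp0' hp1' (Nat.cast_nonneg _) (Nat.cast_nonneg _)
  -- assembly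
  have hsq : ((∑ x ∈ S, g (Function.update (rowAt m x) j0 (t + 1))) / (S.card : ℝ)
        - (∑ y ∈ S', g (Function.update (rowAt m y) j0 t)) / (S'.card : ℝ)) ^ 2
      = ((∑ y ∈ S', g (Function.update (rowAt m y) j0 t)) / (S'.card : ℝ)
        - (∑ x ∈ S, g (Function.update (rowAt m x) j0 (t + 1))) / (S.card : ℝ)) ^ 2 := by
    ring
  rw [hsq]
  have hm0 : 0 ≤ min (S'.card : ℝ) (S.card : ℝ) := le_min hp0'.le hp1'.le
  calc min (S'.card : ℝ) (S.card : ℝ)
        * ((∑ y ∈ S', g (Function.update (rowAt m y) j0 t)) / (S'.card : ℝ)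
          - (∑ x ∈ S, g (Function.update (rowAt m x) j0 (t + 1))) / (S.card : ℝ)) ^ 2
      ≤ min (S'.card : ℝ) (S.card : ℝ) * ∑ x ∈ S, ∑ y ∈ S',
          κ x y * (g (Function.update (rowAt m y) j0 t)
            - g (Function.update (rowAt m x) j0 (t + 1))) ^ 2 :=
        mul_le_mul_of_nonneg_left hmd hm0
    _ ≤ min (S'.card : ℝ) (S.card : ℝ) * ∑ x ∈ S, ∑ y ∈ S', ∑ k, (if k = j0 then 0 else
            (if Function.update (rowAt m x) j0 (t + 1)
                = mv (Function.update (rowAt m y) j0 t) j0 k
              then κ x y * (g (mv (Function.update (rowAt m y) j0 t) j0 k)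
                - g (Function.update (rowAt m y) j0 t)) ^ 2 else 0)) :=
        mul_le_mul_of_nonneg_left
          (Finset.sum_le_sum (fun x hx => Finset.sum_le_sum (fun y hy => hpt x hx y hy))) hm0
    _ = ∑ k, (if k = j0 then 0 else min (S'.card : ℝ) (S.card : ℝ) * ∑ x ∈ S, ∑ y ∈ S',
            (if Function.update (rowAt m x) j0 (t + 1)
                = mv (Function.update (rowAt m y) j0 t) j0 k
              then κ x y * (g (mv (Function.update (rowAt m y) j0 t) j0 k)
                - g (Function.update (rowAt m y) j0 t)) ^ 2 else 0)) := by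
        rw [sum3_comm S S', Finset.mul_sum]
        refine Finset.sum_congr rfl (fun k _ => ?_)
        by_cases hk : k = j0
        · simp [hk]
        · simp only [if_neg hk]
    _ ≤ ∑ k, (if k = j0 then 0 else
          ∑ z ∈ ((OmF E D).image (rowAt m)).filter (fun x => x j0 = t),
            min (rowN E D m z : ℝ) (rowN E D m (mv z j0 k) : ℝ)
              * (g (mv z j0 k) - g z) ^ 2) := by
        refine Finset.sum_le_sum (fun k _ => ?_)
        by_cases hk : k = j0
        · rw [if_pos hk, if_pos hk]
        · rw [if_neg hk, if_neg hk]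
          exact htype k hk
    _ = ∑ x ∈ ((OmF E D).image (rowAt m)).filter (fun x => x j0 = t),
          ∑ k, (if k = j0 then 0
            else min (rowN E D m x : ℝ) (rowN E D m (mv x j0 k) : ℝ)
              * (g (mv x j0 k) - g x) ^ 2) := by
        rw [Finset.sum_comm]
        refine Finset.sum_congr rfl (fun k _ => ?_)
        by_cases hk : k = j0
        · simp [hk]
        · simp only [if_neg hk]

end Vale.Agent.Lib.P328.AM.CrossSlice
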