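import Vale.Agent.Lib.P328.AM.PeelCT
import Vale.Agent.Lib.P328.CT.TwoByTwo

/-!
# P328 / all margins: from a Poincare constant of the row-pair heat bath to mixing

`PCrow K r c` says that `K` is a Poincare constant of the row-pair heat bath on the tables with
margins `r`, `c`.  From it: the Poincare inequality on the state space `Tab r c`, the `ℓ¹`
mixing bound and the mixing time of the row-pair heat bath, and the same three statements for
the 2 × 2 heat bath (comparison inside each pair of rows, `two_row_poincare`).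
-/

namespace Vale.Agent.Lib.P328.AM

open Finset
open scoped Classical
open Vale.Agent.Lib.P328.CT Vale.Agent.Lib.P335.Bip

variable {R C : Type*} [Fintype R] [Fintype C]

/-- The Poincare inequality on the state space. -/
theorem pcrow_tab {r : R → ℕ} {c : C → ℕ} {K : ℝ} (h : PCrow K r c) (f : Tab r c → ℝ) :
    ∑ x, (f x - av (RelOut (Finset.univ : Finset R)) f x) ^ 2
      ≤ K * ∑ q ∈ (Finset.univ : Finset R).powersetCard 2,
          ∑ x, (f x - av (RelOut q) f x) ^ 2 := by
  let F : (R → C → ℕ) → ℝ := fun M => if hM : M ∈ tables r c then f ⟨M, hM⟩ else 0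
  have hF : (fun y : Tab r c => F y.1) = f := by
    funext y
    show (if hM : y.1 ∈ tables r c then f ⟨y.1, hM⟩ else 0) = f y
    rw [dif_pos y.2]
  have key := h F
  have h3 : ∀ M ∈ tables r c,
      (F M - (∑ N ∈ tables r c, F N) / ((tables r c).card : ℝ)) ^ 2
        = (F M - blockAvg r c (Finset.univ : Finset R) F M) ^ 2 := by
    intro M _
    unfold blockAvg
    rw [blockClass_univ]
  rw [Finset.sum_congr rfl h3, ← sum_tab_eq (Finset.univ : Finset R) F] at key
  have h2 : ∀ q ∈ (Finset.univ : Finset R).powersetCard 2,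
      ∑ M ∈ tables r c, (F M - blockAvg r c q F M) ^ 2
        = ∑ x : Tab r c, ((fun y : Tab r c => F y.1) x
          - av (RelOut q) (fun y : Tab r c => F y.1) x) ^ 2 := fun q _ => (sum_tab_eq q F).symm
  rw [Finset.sum_congr rfl h2, hF] at key
  exact key

/-- Mixing of the row-pair heat bath from a Poincare constant `K ≥ 1`. -/
theorem pcrow_mixing {r : R → ℕ} {c : C → ℕ} {K : ℝ} (hK : 1 ≤ K) (h : PCrow K r c)
    (hR : 2 ≤ Fintype.card R) (x : Tab r c) (t : ℕ) :
    ∑ y, |(heatKernel ((Finset.univ : Finset R).powersetCard 2)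
          (fun q => RelOut (r := r) (c := c) q) ^ t) x y - 1 / (Fintype.card (Tab r c) : ℝ)|
      ≤ Real.sqrt (Fintype.card (Tab r c) : ℝ)
        * (1 - 1 / (K * ((Fintype.card R).choose 2 : ℝ))) ^ t := by
  have hne : ((Finset.univ : Finset R).powersetCard 2).Nonempty := by
    rw [Finset.powersetCard_nonempty, Finset.card_univ]
    exact hR
  have hP : ∀ f : Tab r c → ℝ,
      ∑ y, (f y - (∑ z, f z) / (Fintype.card (Tab r c) : ℝ)) ^ 2
        ≤ K * ∑ q ∈ (Finset.univ : Finset R).powersetCard 2,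
          ∑ y, (f y - av (RelOut q) f y) ^ 2 := by
    intro f
    have h' := pcrow_tab h f
    have h3 : ∀ y ∈ (Finset.univ : Finset (Tab r c)),
        (f y - av (RelOut (Finset.univ : Finset R)) f y) ^ 2
          = (f y - (∑ z, f z) / (Fintype.card (Tab r c) : ℝ)) ^ 2 := by
      intro y _
      rw [av_relOut_univ f y]
    rw [Finset.sum_congr rfl h3] at h'
    exact h'
  have key := heatKernel_mix ((Finset.univ : Finset R).powersetCard 2) hne
    (fun q => RelOut (r := r) (c := c) q) (fun q _ => relOut_equivalence q) K hK hP x t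
  rw [Finset.card_powersetCard, Finset.card_univ] at key
  exact key

/-- The mixing time of the row-pair heat bath from a Poincare constant `K ≥ 1`. -/
theorem pcrow_mixing_time {r : R → ℕ} {c : C → ℕ} {K : ℝ} (hK : 1 ≤ K) (h : PCrow K r c)
    (hR : 2 ≤ Fintype.card R) (ε : ℝ) (hε : 0 < ε) (t : ℕ)
    (ht : K * ((Fintype.card R).choose 2 : ℝ)
      * ((Fintype.card R : ℝ) / 2 * ∑ j, Real.log ((c j : ℝ) + 1) + Real.log (1 / ε)) ≤ t)
    (x : Tab r c) :
    ∑ y, |(heatKernel ((Finset.univ : Finset R).powersetCard 2)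
          (fun q => RelOut (r := r) (c := c) q) ^ t) x y - 1 / (Fintype.card (Tab r c) : ℝ)|
      ≤ ε := by
  refine le_trans (pcrow_mixing hK h hR x t) ?_
  have hch : (1 : ℝ) ≤ ((Fintype.card R).choose 2 : ℝ) := by
    have h1 : 1 ≤ (Fintype.card R).choose 2 := Nat.choose_pos hR
    exact_mod_cast h1
  have hK1 : (1 : ℝ) ≤ K * ((Fintype.card R).choose 2 : ℝ) := by nlinarith
  exact mix_time_aux r c _ hK1 ε hε t ht

/-- The Poincare inequality of the 2 × 2 heat bath, on the state space. -/
theorem pcrow_twobytwo_tab {r : R → ℕ} {c : C → ℕ} {K : ℝ} (hK : 1 ≤ K) (h : PCrow K r c)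
    (hC : 2 ≤ Fintype.card C) (f : Tab r c → ℝ) :
    ∑ x, (f x - av (RelOut (Finset.univ : Finset R)) f x) ^ 2
      ≤ K * ∑ qp ∈ ((Finset.univ : Finset R).powersetCard 2) ×ˢ
              ((Finset.univ : Finset C).powersetCard 2),
            ∑ x, (f x - av (RelBox qp.1 qp.2) f x) ^ 2 := by
  refine le_trans (pcrow_tab h f) ?_
  have hm : (0 : ℝ) ≤ K := by linarith
  refine mul_le_mul_of_nonneg_left ?_ hm
  rw [Finset.sum_product]
  refine Finset.sum_le_sum (fun q hq => ?_)
  obtain ⟨a, b, hab, rfl⟩ := Finset.card_eq_two.mp (Finset.mem_powersetCard.mp hq).2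
  exact two_row_poincare hC a b hab f

/-- The Poincare inequality of the 2 × 2 heat bath for functions on the set of tables. -/
theorem pcrow_twobytwo_tables {r : R → ℕ} {c : C → ℕ} {K : ℝ} (hK : 1 ≤ K) (h : PCrow K r c)
    (hC : 2 ≤ Fintype.card C) (f : (R → C → ℕ) → ℝ) :
    ∑ M ∈ tables r c, (f M - (∑ N ∈ tables r c, f N) / ((tables r c).card : ℝ)) ^ 2
      ≤ K * ∑ q ∈ (Finset.univ : Finset R).powersetCard 2,
            ∑ p ∈ (Finset.univ : Finset C).powersetCard 2,
              ∑ M ∈ tables r c, (f M - boxAvg r c q p f M) ^ 2 := by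
  have h' := pcrow_twobytwo_tab hK h hC (fun y : Tab r c => f y.1)
  rw [sum_tab_eq (Finset.univ : Finset R) f, Finset.sum_product] at h'
  have h2 : ∀ q ∈ (Finset.univ : Finset R).powersetCard 2,
      ∑ p ∈ (Finset.univ : Finset C).powersetCard 2,
        ∑ x : Tab r c, ((fun y : Tab r c => f y.1) x
          - av (RelBox q p) (fun y : Tab r c => f y.1) x) ^ 2
      = ∑ p ∈ (Finset.univ : Finset C).powersetCard 2,
          ∑ M ∈ tables r c, (f M - boxAvg r c q p f M) ^ 2 :=
    fun q _ => Finset.sum_congr rfl (fun p _ => sum_tab_box_eq q p f)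
  rw [Finset.sum_congr rfl h2] at h'
  have h3 : ∀ M ∈ tables r c, (f M - blockAvg r c (Finset.univ : Finset R) f M) ^ 2
      = (f M - (∑ N ∈ tables r c, f N) / ((tables r c).card : ℝ)) ^ 2 := by
    intro M _
    unfold blockAvg
    rw [blockClass_univ]
  rw [Finset.sum_congr rfl h3] at h'
  exact h'

/-- Mixing of the 2 × 2 heat bath from a Poincare constant `K ≥ 1` of the row-pair heat
bath. -/
theorem pcrow_twobytwo_mixing {r : R → ℕ} {c : C → ℕ} {K : ℝ} (hK : 1 ≤ K) (h : PCrow K r c)
    (hR : 2 ≤ Fintype.card R) (hC : 2 ≤ Fintype.card C) (x : Tab r c) (t : ℕ) :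
    ∑ y, |(heatKernel (((Finset.univ : Finset R).powersetCard 2) ×ˢ
            ((Finset.univ : Finset C).powersetCard 2))
          (fun qp => RelBox (r := r) (c := c) qp.1 qp.2) ^ t) x y
          - 1 / (Fintype.card (Tab r c) : ℝ)|
      ≤ Real.sqrt (Fintype.card (Tab r c) : ℝ)
        * (1 - 1 / (K
            * (((Fintype.card R).choose 2 : ℝ) * ((Fintype.card C).choose 2 : ℝ)))) ^ t := by
  have hneR : ((Finset.univ : Finset R).powersetCard 2).Nonempty := by
    rw [Finset.powersetCard_nonempty, Finset.card_univ]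
    exact hR
  have hneC : ((Finset.univ : Finset C).powersetCard 2).Nonempty := by
    rw [Finset.powersetCard_nonempty, Finset.card_univ]
    exact hC
  have hne : (((Finset.univ : Finset R).powersetCard 2) ×ˢ
      ((Finset.univ : Finset C).powersetCard 2)).Nonempty := Finset.Nonempty.product hneR hneC
  have hP : ∀ f : Tab r c → ℝ,
      ∑ y, (f y - (∑ z, f z) / (Fintype.card (Tab r c) : ℝ)) ^ 2
        ≤ K * ∑ qp ∈ ((Finset.univ : Finset R).powersetCard 2) ×ˢ
              ((Finset.univ : Finset C).powersetCard 2),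
            ∑ y, (f y - av (RelBox qp.1 qp.2) f y) ^ 2 := by
    intro f
    have h' := pcrow_twobytwo_tab hK h hC f
    have h3 : ∀ y ∈ (Finset.univ : Finset (Tab r c)),
        (f y - av (RelOut (Finset.univ : Finset R)) f y) ^ 2
          = (f y - (∑ z, f z) / (Fintype.card (Tab r c) : ℝ)) ^ 2 := by
      intro y _
      rw [av_relOut_univ f y]
    rw [Finset.sum_congr rfl h3] at h'
    exact h'
  have key := heatKernel_mix (((Finset.univ : Finset R).powersetCard 2) ×ˢ
      ((Finset.univ : Finset C).powersetCard 2)) hne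
    (fun qp => RelBox (r := r) (c := c) qp.1 qp.2) (fun qp _ => relBox_equivalence _ _)
    K hK hP x t
  rw [Finset.card_product, Finset.card_powersetCard, Finset.card_powersetCard,
    Finset.card_univ, Finset.card_univ, Nat.cast_mul] at key
  exact key

/-- The mixing time of the 2 × 2 heat bath from a Poincare constant `K ≥ 1` of the row-pair
heat bath. -/
theorem pcrow_twobytwo_mixing_time {r : R → ℕ} {c : C → ℕ} {K : ℝ} (hK : 1 ≤ K)
    (h : PCrow K r c) (hR : 2 ≤ Fintype.card R) (hC : 2 ≤ Fintype.card C) (ε : ℝ) (hε : 0 < ε)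
    (t : ℕ)
    (ht : K * (((Fintype.card R).choose 2 : ℝ) * ((Fintype.card C).choose 2 : ℝ))
        * ((Fintype.card R : ℝ) / 2 * ∑ j, Real.log ((c j : ℝ) + 1) + Real.log (1 / ε)) ≤ t)
    (x : Tab r c) :
    ∑ y, |(heatKernel (((Finset.univ : Finset R).powersetCard 2) ×ˢ
            ((Finset.univ : Finset C).powersetCard 2))
          (fun qp => RelBox (r := r) (c := c) qp.1 qp.2) ^ t) x y
          - 1 / (Fintype.card (Tab r c) : ℝ)|
      ≤ ε := by
  refine le_trans (pcrow_twobytwo_mixing hK h hR hC x t) ?_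
  have hch : (1 : ℝ) ≤ ((Fintype.card R).choose 2 : ℝ) := by
    have h1 : 1 ≤ (Fintype.card R).choose 2 := Nat.choose_pos hR
    exact_mod_cast h1
  have hchC : (1 : ℝ) ≤ ((Fintype.card C).choose 2 : ℝ) := by
    have h1 : 1 ≤ (Fintype.card C).choose 2 := Nat.choose_pos hC
    exact_mod_cast h1
  have hprod : (1 : ℝ) ≤ ((Fintype.card R).choose 2 : ℝ) * ((Fintype.card C).choose 2 : ℝ) := by
    nlinarith
  have hK1 : (1 : ℝ) ≤ K
      * (((Fintype.card R).choose 2 : ℝ) * ((Fintype.card C).choose 2 : ℝ)) := by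
    nlinarith
  exact mix_time_aux r c _ hK1 ε hε t ht

end Vale.Agent.Lib.P328.AM
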