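import Vale.Agent.Lib.P328.AM.Top
import Vale.Agent.Lib.P328.AM.Wrap
import Vale.Agent.Lib.P328.AM.Bridge
import Vale.Agent.Lib.P328.AM.PeelAux
import Vale.Agent.Lib.P328.AM.OneRowProof
import Vale.Agent.Lib.P328.AM.PColProof
import Vale.Agent.Lib.P328.AM.Cross

/-!
# P328 / all margins: the Poincare constant of the row-pair heat bath

Two rows `u₁ ≠ u₂` are arbitrary; every entry of every other row is forced to be at most `W`
by its row sum or by its column sum (`min (r i) (c j) ≤ W`).  Then `4 W^2 n^4 m` is a Poincare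
constant of the row-pair heat bath (`n` columns, `m` rows).
-/

namespace Vale.Agent.Lib.P328.AM

open Finset
open scoped Classical
open Vale.Agent.Lib.P328.CT Vale.Agent.Lib.P335.Bip

universe u v

/-- The cross bound for all row types. -/
theorem crossCT_all (R : Type u) (C : Type v) [Fintype R] [Fintype C] : CrossCT R C :=
  crossCT_of_peel
    (peel_of_cross oneRowStatement (fun S' u hu D F => cross_bound pColStatement S' u hu D F))

/-- The Poincare constant of the row-pair heat bath. -/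
theorem allmargins_pcrow {R : Type u} {C : Type v} [Fintype R] [Fintype C] [Nonempty C]
    (r : R → ℕ) (c : C → ℕ) (u₁ u₂ : R) (hu : u₁ ≠ u₂) (W : ℕ) (hW1 : 1 ≤ W)
    (hW : ∀ i, i ≠ u₁ → i ≠ u₂ → ∀ j, min (r i) (c j) ≤ W) :
    PCrow (4 * (W : ℝ) ^ 2 * (Fintype.card C : ℝ) ^ 4 * (Fintype.card R : ℝ)) r c :=
  pcrow_all (fun R' _ => crossCT_all R' C) W hW1 (Fintype.card R) R rfl r c u₁ u₂ hu hW

/-- The constant is at least one. -/
theorem allmargins_const_ge {R : Type u} {C : Type v} [Fintype R] [Fintype C] [Nonempty C]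
    (u₁ : R) (W : ℕ) (hW1 : 1 ≤ W) :
    (1 : ℝ) ≤ 4 * (W : ℝ) ^ 2 * (Fintype.card C : ℝ) ^ 4 * (Fintype.card R : ℝ) := by
  have hWr : (1 : ℝ) ≤ (W : ℝ) := by exact_mod_cast hW1
  have hNr : (1 : ℝ) ≤ (Fintype.card C : ℝ) := by
    have : 1 ≤ Fintype.card C := Fintype.card_pos
    exact_mod_cast this
  have hW2 : (1 : ℝ) ≤ (W : ℝ) ^ 2 := one_le_pow₀ hWr
  have hN4 : (1 : ℝ) ≤ (Fintype.card C : ℝ) ^ 4 := one_le_pow₀ hNr
  have hWN : (1 : ℝ) ≤ (W : ℝ) ^ 2 * (Fintype.card C : ℝ) ^ 4 := by nlinarith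
  have hR : (1 : ℝ) ≤ (Fintype.card R : ℝ) := by
    have : 1 ≤ Fintype.card R := Fintype.card_pos_iff.mpr ⟨u₁⟩
    exact_mod_cast this
  nlinarith

/-- There are at least two rows. -/
theorem two_le_card_rows {R : Type u} [Fintype R] (u₁ u₂ : R) (hu : u₁ ≠ u₂) :
    2 ≤ Fintype.card R := by
  have h2 : ({u₁, u₂} : Finset R).card ≤ Fintype.card R := Finset.card_le_univ _
  rw [Finset.card_pair hu] at h2
  exact h2

end Vale.Agent.Lib.P328.AM
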