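import Vale.Agent.Lib.P328.AM.PeelDefs

/-!
# P328 / all margins: the induction over the rows (part (D2))

`hive_induction` derives the row-pair Poincare inequality `HiveStatement` for all row sets
containing the two distinguished rows from the peeling inequality `PeelStatement`.  The row
`u` of a table on the rows `insert u S'` is split off (`Restrict.sum_OmF_res` for the cells of
the row `u`): the variance is the sum of the variances inside the fibres of the row `u`
(tables on the rows `S'`, induction hypothesis) and the variance of the fibre means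
(`PeelStatement`).
-/

namespace Vale.Agent.Lib.P328.AM

open Finset
open Vale.Agent.Lib.P328.Hive

variable {R C : Type*} [Fintype R] [Fintype C] [DecidableEq R] [DecidableEq C]

namespace HiveInd

/-- The sum of the squared deviations from a constant `b` is the sum of the squared
deviations from the mean plus the number of points times the squared distance from the mean
to `b`. -/
theorem var_shift {α : Type*} (S : Finset α) (f : α → ℝ) (b : ℝ) :
    ∑ x ∈ S, (f x - b) ^ 2
      = ∑ x ∈ S, (f x - (∑ y ∈ S, f y) / (S.card : ℝ)) ^ 2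
        + ∑ _x ∈ S, ((∑ y ∈ S, f y) / (S.card : ℝ) - b) ^ 2 := by
  rcases Finset.eq_empty_or_nonempty S with h | h
  · subst h
    simp
  have hN : (S.card : ℝ) ≠ 0 := by exact_mod_cast (Finset.card_pos.mpr h).ne'
  have h0 : ∑ x ∈ S, (f x - (∑ y ∈ S, f y) / (S.card : ℝ)) = 0 := by
    rw [Finset.sum_sub_distrib, Finset.sum_const, nsmul_eq_mul]
    field_simp
    ring
  have h1 : ∀ x ∈ S, (f x - b) ^ 2
      = (f x - (∑ y ∈ S, f y) / (S.card : ℝ)) ^ 2 + ((∑ y ∈ S, f y) / (S.card : ℝ) - b) ^ 2
        + 2 * ((∑ y ∈ S, f y) / (S.card : ℝ) - b) * (f x - (∑ y ∈ S, f y) / (S.card : ℝ)) :=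
    fun x _ => by ring
  rw [Finset.sum_congr rfl h1, Finset.sum_add_distrib, Finset.sum_add_distrib,
    ← Finset.mul_sum, h0, mul_zero, add_zero]

/-- If all cells of `E` lie in the rows of `q`, the class of a table is the whole set. -/
theorem hClass_of_rows {E : Finset (R × C)} {D : R ⊕ C → ℤ} {q : Finset R}
    (hE : ∀ e ∈ E, e.1 ∈ q) {T : R × C → ℕ} (hT : T ∈ OmF E D) :
    hClass E D q T = OmF E D := by
  unfold hClass
  apply Finset.filter_true_of_mem
  intro T' hT' e he
  have heE : e ∉ E := fun h => he (hE e h)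
  rw [(mem_OmF.mp hT').1 e heE, (mem_OmF.mp hT).1 e heE]

theorem hAvg_of_rows {E : Finset (R × C)} {D : R ⊕ C → ℤ} {q : Finset R}
    (hE : ∀ e ∈ E, e.1 ∈ q) (F : (R × C → ℕ) → ℝ) {T : R × C → ℕ} (hT : T ∈ OmF E D) :
    hAvg E D q F T = (∑ T' ∈ OmF E D, F T') / ((OmF E D).card : ℝ) := by
  unfold hAvg
  rw [hClass_of_rows hE hT]

/-- The class of `A + σ` (values `σ` on the cell set `Su`, whose rows are not in `q`) is the
class of `A` among the tables on `E \ Su`, shifted by `σ`. -/
theorem sum_hClass_add {E Su : Finset (R × C)} (hSE : Su ⊆ E) (D : R ⊕ C → ℤ)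
    {σ : R × C → ℕ} (hσ : ∀ e, e ∉ Su → σ e = 0) {q : Finset R} (hq : ∀ e ∈ Su, e.1 ∉ q)
    {A : R × C → ℕ} (hA : A ∈ OmF (E \ Su) (D - dv σ)) (G : (R × C → ℕ) → ℝ) :
    ∑ T' ∈ hClass E D q (A + σ), G T'
      = ∑ A' ∈ hClass (E \ Su) (D - dv σ) q A, G (A' + σ) := by
  have hA0 : ∀ e, e ∈ Su → A e = 0 := fun e he =>
    (mem_OmF.mp hA).1 e (fun h => (Finset.mem_sdiff.mp h).2 he)
  have hres : ∀ T' ∈ hClass E D q (A + σ), res Su T' = σ := by
    intro T' hT'
    unfold hClass at hT'
    rw [Finset.mem_filter] at hT'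
    funext e
    by_cases he : e ∈ Su
    · rw [res_apply_of_mem _ he, hT'.2 e (hq e he), Pi.add_apply, hA0 e he, zero_add]
    · rw [res_apply_of_notMem _ he, hσ e he]
  refine Finset.sum_nbij' (fun T' => res (E \ Su) T') (fun A' => A' + σ) ?_ ?_ ?_ ?_ ?_
  · intro T' hT'
    have hr := hres T' hT'
    unfold hClass at hT' ⊢
    rw [Finset.mem_filter] at hT' ⊢
    refine ⟨?_, ?_⟩
    · rw [mem_OmF]
      have h := res_sdiff_mem_Om Su (mem_OmF.mp hT'.1)
      rwa [hr] at h
    · intro e he
      by_cases heE : e ∈ E \ Su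
      · rw [res_apply_of_mem _ heE, hT'.2 e he, Pi.add_apply,
          hσ e (Finset.mem_sdiff.mp heE).2, add_zero]
      · rw [res_apply_of_notMem _ heE, (mem_OmF.mp hA).1 e heE]
  · intro A' hA'
    unfold hClass at hA' ⊢
    rw [Finset.mem_filter] at hA' ⊢
    refine ⟨mem_OmF.mpr (add_mem_Om hSE hσ (mem_OmF.mp hA'.1)), ?_⟩
    intro e he
    rw [Pi.add_apply, Pi.add_apply, hA'.2 e he]
  · intro T' hT'
    have hr := hres T' hT'
    unfold hClass at hT'
    rw [Finset.mem_filter] at hT'
    show res (E \ Su) T' + σ = T'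
    rw [← hr]
    exact res_sdiff_add_res (mem_OmF.mp hT'.1).1
  · intro A' hA'
    unfold hClass at hA'
    rw [Finset.mem_filter] at hA'
    exact res_sdiff_add (mem_OmF.mp hA'.1).1 hσ
  · intro T' hT'
    have hr := hres T' hT'
    unfold hClass at hT'
    rw [Finset.mem_filter] at hT'
    show G T' = G (res (E \ Su) T' + σ)
    rw [← hr, res_sdiff_add_res (mem_OmF.mp hT'.1).1]

theorem hAvg_add {E Su : Finset (R × C)} (hSE : Su ⊆ E) (D : R ⊕ C → ℤ)
    {σ : R × C → ℕ} (hσ : ∀ e, e ∉ Su → σ e = 0) {q : Finset R} (hq : ∀ e ∈ Su, e.1 ∉ q)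
    {A : R × C → ℕ} (hA : A ∈ OmF (E \ Su) (D - dv σ)) (F : (R × C → ℕ) → ℝ) :
    hAvg E D q F (A + σ) = hAvg (E \ Su) (D - dv σ) q (fun A' => F (A' + σ)) A := by
  unfold hAvg
  rw [sum_hClass_add hSE D hσ hq hA F]
  have hc := sum_hClass_add hSE D hσ hq hA (fun _ => (1 : ℝ))
  rw [Finset.sum_const, Finset.sum_const, nsmul_eq_mul, nsmul_eq_mul, mul_one, mul_one] at hc
  rw [hc]

/-- Disintegration of `hVar` along the values on a cell set `Su` whose rows are not in
`q`. -/
theorem hVar_disint {E Su : Finset (R × C)} (hSE : Su ⊆ E) (D : R ⊕ C → ℤ) {q : Finset R}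
    (hq : ∀ e ∈ Su, e.1 ∉ q) (F : (R × C → ℕ) → ℝ) :
    hVar E D q F
      = ∑ σ ∈ (OmF E D).image (res Su),
          hVar (E \ Su) (D - dv σ) q (fun A => F (A + σ)) := by
  unfold hVar
  rw [sum_OmF_res hSE D]
  apply Finset.sum_congr rfl
  intro σ hσ
  obtain ⟨T0, -, rfl⟩ := Finset.mem_image.mp hσ
  apply Finset.sum_congr rfl
  intro A hA
  rw [hAvg_add hSE D (fun e he => res_apply_of_notMem T0 he) hq hA F]

omit [Fintype R] in
theorem rows_sdiff (S' : Finset R) (u : R) (hu : u ∉ S') :
    (insert u S' ×ˢ (Finset.univ : Finset C)) \ (({u} : Finset R) ×ˢ (Finset.univ : Finset C))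
      = S' ×ˢ (Finset.univ : Finset C) := by
  ext e
  simp only [Finset.mem_sdiff, Finset.mem_product, Finset.mem_insert, Finset.mem_singleton,
    Finset.mem_univ, and_true]
  constructor
  · rintro ⟨h1 | h1, h2⟩
    · exact absurd h1 h2
    · exact h1
  · intro h
    exact ⟨Or.inr h, fun h2 => hu (h2 ▸ h)⟩

omit [Fintype R] [DecidableEq C] in
theorem rows_subset (S' : Finset R) (u : R) :
    (({u} : Finset R) ×ˢ (Finset.univ : Finset C)) ⊆ insert u S' ×ˢ (Finset.univ : Finset C) := by
  intro e he
  rw [Finset.mem_product, Finset.mem_singleton] at he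
  rw [Finset.mem_product]
  exact ⟨Finset.mem_insert.mpr (Or.inl he.1), he.2⟩

/-- Splitting off the row `u`: the variance on the rows `insert u S'` is the sum of the
variances given the row `u` and the variance of the conditional means. -/
theorem hVar_pyth (S' : Finset R) (u : R) (hu : u ∉ S') (D : R ⊕ C → ℤ)
    (F : (R × C → ℕ) → ℝ) :
    hVar (insert u S' ×ˢ (Finset.univ : Finset C)) D (insert u S') F
      = hVar (insert u S' ×ˢ (Finset.univ : Finset C)) D S' F
        + ∑ T ∈ OmF (insert u S' ×ˢ (Finset.univ : Finset C)) D,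
            (hAvg (insert u S' ×ˢ (Finset.univ : Finset C)) D S' F T
              - hAvg (insert u S' ×ˢ (Finset.univ : Finset C)) D (insert u S') F T) ^ 2 := by
  have hSE := rows_subset (C := C) S' u
  have hq : ∀ e ∈ (({u} : Finset R) ×ˢ (Finset.univ : Finset C)), e.1 ∉ S' := by
    intro e he
    rw [Finset.mem_product, Finset.mem_singleton] at he
    rw [he.1]
    exact hu
  have hE : ∀ e ∈ insert u S' ×ˢ (Finset.univ : Finset C), e.1 ∈ insert u S' :=
    fun e he => (Finset.mem_product.mp he).1
  have hE' : ∀ e ∈ (insert u S' ×ˢ (Finset.univ : Finset C))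
      \ (({u} : Finset R) ×ˢ (Finset.univ : Finset C)), e.1 ∈ S' := by
    intro e he
    rw [rows_sdiff S' u hu] at he
    exact (Finset.mem_product.mp he).1
  have hL := sum_OmF_res hSE D (fun T => (F T
    - hAvg (insert u S' ×ˢ (Finset.univ : Finset C)) D (insert u S') F T) ^ 2)
  have hR := sum_OmF_res hSE D (fun T =>
    (F T - hAvg (insert u S' ×ˢ (Finset.univ : Finset C)) D S' F T) ^ 2
      + (hAvg (insert u S' ×ˢ (Finset.univ : Finset C)) D S' F T
          - hAvg (insert u S' ×ˢ (Finset.univ : Finset C)) D (insert u S') F T) ^ 2)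
  unfold hVar
  rw [← Finset.sum_add_distrib]
  refine hL.trans (Eq.trans ?_ hR.symm)
  apply Finset.sum_congr rfl
  intro σ hσ
  obtain ⟨T0, -, rfl⟩ := Finset.mem_image.mp hσ
  have hσ0 : ∀ e, e ∉ (({u} : Finset R) ×ˢ (Finset.univ : Finset C)) →
      res (({u} : Finset R) ×ˢ (Finset.univ : Finset C)) T0 e = 0 :=
    fun e he => res_apply_of_notMem T0 he
  have hfull : ∀ A ∈ OmF ((insert u S' ×ˢ (Finset.univ : Finset C))
      \ (({u} : Finset R) ×ˢ (Finset.univ : Finset C)))
        (D - dv (res (({u} : Finset R) ×ˢ (Finset.univ : Finset C)) T0)),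
      hAvg (insert u S' ×ˢ (Finset.univ : Finset C)) D (insert u S') F
          (A + res (({u} : Finset R) ×ˢ (Finset.univ : Finset C)) T0)
        = (∑ T' ∈ OmF (insert u S' ×ˢ (Finset.univ : Finset C)) D, F T')
          / ((OmF (insert u S' ×ˢ (Finset.univ : Finset C)) D).card : ℝ) :=
    fun A hA => hAvg_of_rows hE F (mem_OmF.mpr (add_mem_Om hSE hσ0 (mem_OmF.mp hA)))
  have hrow : ∀ A ∈ OmF ((insert u S' ×ˢ (Finset.univ : Finset C))
      \ (({u} : Finset R) ×ˢ (Finset.univ : Finset C)))
        (D - dv (res (({u} : Finset R) ×ˢ (Finset.univ : Finset C)) T0)),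
      hAvg (insert u S' ×ˢ (Finset.univ : Finset C)) D S' F
          (A + res (({u} : Finset R) ×ˢ (Finset.univ : Finset C)) T0)
        = (∑ A' ∈ OmF ((insert u S' ×ˢ (Finset.univ : Finset C))
              \ (({u} : Finset R) ×ˢ (Finset.univ : Finset C)))
              (D - dv (res (({u} : Finset R) ×ˢ (Finset.univ : Finset C)) T0)),
            F (A' + res (({u} : Finset R) ×ˢ (Finset.univ : Finset C)) T0))
          / ((OmF ((insert u S' ×ˢ (Finset.univ : Finset C))
              \ (({u} : Finset R) ×ˢ (Finset.univ : Finset C)))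
              (D - dv (res (({u} : Finset R) ×ˢ (Finset.univ : Finset C)) T0))).card : ℝ) := by
    intro A hA
    rw [hAvg_add hSE D hσ0 hq hA F, hAvg_of_rows hE' _ hA]
  have h1 : ∀ A ∈ OmF ((insert u S' ×ˢ (Finset.univ : Finset C))
      \ (({u} : Finset R) ×ˢ (Finset.univ : Finset C)))
        (D - dv (res (({u} : Finset R) ×ˢ (Finset.univ : Finset C)) T0)),
      (F (A + res (({u} : Finset R) ×ˢ (Finset.univ : Finset C)) T0)
        - hAvg (insert u S' ×ˢ (Finset.univ : Finset C)) D (insert u S') F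
          (A + res (({u} : Finset R) ×ˢ (Finset.univ : Finset C)) T0)) ^ 2
      = (F (A + res (({u} : Finset R) ×ˢ (Finset.univ : Finset C)) T0)
        - (∑ T' ∈ OmF (insert u S' ×ˢ (Finset.univ : Finset C)) D, F T')
          / ((OmF (insert u S' ×ˢ (Finset.univ : Finset C)) D).card : ℝ)) ^ 2 := by
    intro A hA
    rw [hfull A hA]
  have h2 : ∀ A ∈ OmF ((insert u S' ×ˢ (Finset.univ : Finset C))
      \ (({u} : Finset R) ×ˢ (Finset.univ : Finset C)))
        (D - dv (res (({u} : Finset R) ×ˢ (Finset.univ : Finset C)) T0)),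
      (F (A + res (({u} : Finset R) ×ˢ (Finset.univ : Finset C)) T0)
          - hAvg (insert u S' ×ˢ (Finset.univ : Finset C)) D S' F
            (A + res (({u} : Finset R) ×ˢ (Finset.univ : Finset C)) T0)) ^ 2
        + (hAvg (insert u S' ×ˢ (Finset.univ : Finset C)) D S' F
            (A + res (({u} : Finset R) ×ˢ (Finset.univ : Finset C)) T0)
          - hAvg (insert u S' ×ˢ (Finset.univ : Finset C)) D (insert u S') F
            (A + res (({u} : Finset R) ×ˢ (Finset.univ : Finset C)) T0)) ^ 2
      = (F (A + res (({u} : Finset R) ×ˢ (Finset.univ : Finset C)) T0)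
          - (∑ A' ∈ OmF ((insert u S' ×ˢ (Finset.univ : Finset C))
              \ (({u} : Finset R) ×ˢ (Finset.univ : Finset C)))
              (D - dv (res (({u} : Finset R) ×ˢ (Finset.univ : Finset C)) T0)),
            F (A' + res (({u} : Finset R) ×ˢ (Finset.univ : Finset C)) T0))
          / ((OmF ((insert u S' ×ˢ (Finset.univ : Finset C))
              \ (({u} : Finset R) ×ˢ (Finset.univ : Finset C)))
              (D - dv (res (({u} : Finset R) ×ˢ (Finset.univ : Finset C)) T0))).card : ℝ)) ^ 2
        + ((∑ A' ∈ OmF ((insert u S' ×ˢ (Finset.univ : Finset C))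
              \ (({u} : Finset R) ×ˢ (Finset.univ : Finset C)))
              (D - dv (res (({u} : Finset R) ×ˢ (Finset.univ : Finset C)) T0)),
            F (A' + res (({u} : Finset R) ×ˢ (Finset.univ : Finset C)) T0))
          / ((OmF ((insert u S' ×ˢ (Finset.univ : Finset C))
              \ (({u} : Finset R) ×ˢ (Finset.univ : Finset C)))
              (D - dv (res (({u} : Finset R) ×ˢ (Finset.univ : Finset C)) T0))).card : ℝ)
          - (∑ T' ∈ OmF (insert u S' ×ˢ (Finset.univ : Finset C)) D, F T')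
            / ((OmF (insert u S' ×ˢ (Finset.univ : Finset C)) D).card : ℝ)) ^ 2 := by
    intro A hA
    rw [hfull A hA, hrow A hA]
  rw [Finset.sum_congr rfl h1, Finset.sum_congr rfl h2, Finset.sum_add_distrib]
  exact var_shift _ (fun A => F (A + res (({u} : Finset R) ×ˢ (Finset.univ : Finset C)) T0)) _

omit [Fintype R] [Fintype C] [DecidableEq C] in
/-- The pairs of `insert u S'` are the pairs of `S'` and the pairs `{u, v}` with `v ∈ S'`. -/
theorem sum_pairs_insert (S' : Finset R) (u : R) (hu : u ∉ S') (h : Finset R → ℝ) :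
    ∑ q ∈ (insert u S').powersetCard 2, h q
      = ∑ q ∈ S'.powersetCard 2, h q + ∑ v ∈ S', h {u, v} := by
  have hdisj : Disjoint (S'.powersetCard 2) ((S'.powersetCard 1).image (insert u)) := by
    rw [Finset.disjoint_left]
    intro q hq hq'
    obtain ⟨t, -, rfl⟩ := Finset.mem_image.mp hq'
    exact hu ((Finset.mem_powersetCard.mp hq).1 (Finset.mem_insert_self u t))
  have hinj : ∀ t ∈ S'.powersetCard 1, ∀ t' ∈ S'.powersetCard 1,
      insert u t = insert u t' → t = t' := by
    intro t ht t' ht' htt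
    have h1 : u ∉ t := fun h1 => hu ((Finset.mem_powersetCard.mp ht).1 h1)
    have h2 : u ∉ t' := fun h2 => hu ((Finset.mem_powersetCard.mp ht').1 h2)
    rw [← Finset.erase_insert h1, ← Finset.erase_insert h2, htt]
  rw [Finset.powersetCard_succ_insert hu, Finset.sum_union hdisj, Finset.sum_image hinj,
    Finset.powersetCard_one, Finset.sum_map]
  rfl

/-- The induction step: the row `u` is split off. -/
theorem hive_step (K : ℝ) (S' : Finset R) (u : R) (hu : u ∉ S')
    (D : R ⊕ C → ℤ) (F : (R × C → ℕ) → ℝ)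
    (hIH : ∀ σ : R × C → ℕ,
      hVar (S' ×ˢ (Finset.univ : Finset C)) (D - dv σ) S' (fun A => F (A + σ))
        ≤ K * ∑ q ∈ S'.powersetCard 2,
            hVar (S' ×ˢ (Finset.univ : Finset C)) (D - dv σ) q (fun A => F (A + σ)))
    (hB : ∑ T ∈ OmF (insert u S' ×ˢ (Finset.univ : Finset C)) D,
          (hAvg (insert u S' ×ˢ (Finset.univ : Finset C)) D S' F T
            - hAvg (insert u S' ×ˢ (Finset.univ : Finset C)) D (insert u S') F T) ^ 2
        ≤ K * ∑ v ∈ S', hVar (insert u S' ×ˢ (Finset.univ : Finset C)) D {u, v} F) :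
    hVar (insert u S' ×ˢ (Finset.univ : Finset C)) D (insert u S') F
      ≤ K * ∑ q ∈ (insert u S').powersetCard 2,
          hVar (insert u S' ×ˢ (Finset.univ : Finset C)) D q F := by
  have hSE := rows_subset (C := C) S' u
  have hq : ∀ q ∈ S'.powersetCard 2,
      ∀ e ∈ (({u} : Finset R) ×ˢ (Finset.univ : Finset C)), e.1 ∉ q := by
    intro q hq e he
    rw [Finset.mem_product, Finset.mem_singleton] at he
    rw [he.1]
    exact fun h => hu ((Finset.mem_powersetCard.mp hq).1 h)
  have hq' : ∀ e ∈ (({u} : Finset R) ×ˢ (Finset.univ : Finset C)), e.1 ∉ S' := by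
    intro e he
    rw [Finset.mem_product, Finset.mem_singleton] at he
    rw [he.1]
    exact hu
  have hin : hVar (insert u S' ×ˢ (Finset.univ : Finset C)) D S' F
      ≤ K * ∑ q ∈ S'.powersetCard 2,
          hVar (insert u S' ×ˢ (Finset.univ : Finset C)) D q F := by
    rw [hVar_disint hSE D hq' F,
      Finset.sum_congr rfl (fun q hq2 => hVar_disint hSE D (hq q hq2) F), Finset.sum_comm,
      Finset.mul_sum]
    apply Finset.sum_le_sum
    intro σ _
    rw [rows_sdiff S' u hu]
    exact hIH σ
  rw [hVar_pyth S' u hu D F, sum_pairs_insert S' u hu, mul_add]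
  exact add_le_add hin hB

end HiveInd

open HiveInd in
/-- Part (D2): the row-pair Poincare inequality for all row sets containing the two
distinguished rows follows from the peeling inequality. -/
theorem hive_induction (hPeel : PeelStatement R C) : HiveStatement R C := by
  intro hC u₁ u₂ hu W hW
  have hK : (1 : ℝ) ≤ 4 * (W : ℝ) ^ 2 * (Fintype.card C : ℝ) ^ 4 * (Fintype.card R : ℝ) := by
    have h1 : (1 : ℝ) ≤ (W : ℝ) := by exact_mod_cast hW
    have h2 : (1 : ℝ) ≤ (Fintype.card C : ℝ) := by exact_mod_cast hC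
    have h3 : (1 : ℝ) ≤ (Fintype.card R : ℝ) := by
      have h0 : 0 < Fintype.card R := Fintype.card_pos_iff.mpr ⟨u₁⟩
      exact_mod_cast h0
    have h4 : (1 : ℝ) ≤ (W : ℝ) ^ 2 := one_le_pow₀ h1
    have h5 : (1 : ℝ) ≤ (Fintype.card C : ℝ) ^ 4 := one_le_pow₀ h2
    have h6 := one_le_mul_of_one_le_of_one_le (one_le_mul_of_one_le_of_one_le h4 h5) h3
    linarith
  have key : ∀ n : ℕ, ∀ S : Finset R, S.card = n → u₁ ∈ S → u₂ ∈ S → ∀ D : R ⊕ C → ℤ,
      (∀ i ∈ S, i ≠ u₁ → i ≠ u₂ → ∀ j, min (D (Sum.inl i)) (-D (Sum.inr j)) ≤ (W : ℤ)) →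
      ∀ F : (R × C → ℕ) → ℝ,
      hVar (S ×ˢ (Finset.univ : Finset C)) D S F
        ≤ 4 * (W : ℝ) ^ 2 * (Fintype.card C : ℝ) ^ 4 * (Fintype.card R : ℝ)
            * ∑ q ∈ S.powersetCard 2, hVar (S ×ˢ (Finset.univ : Finset C)) D q F := by
    intro n
    induction n with
    | zero =>
      intro S hS h1
      rw [Finset.card_eq_zero] at hS
      rw [hS] at h1
      exact absurd h1 (Finset.notMem_empty _)
    | succ n ih =>
      intro S hS h1 h2 D hD F
      by_cases hex : ∃ u ∈ S, u ≠ u₁ ∧ u ≠ u₂
      · obtain ⟨u, huS, hu1, hu2⟩ := hex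
        obtain ⟨S', hS'eq⟩ : ∃ S', S' = S.erase u := ⟨_, rfl⟩
        have hu' : u ∉ S' := by
          rw [hS'eq]
          exact Finset.notMem_erase u S
        have hSins : S = insert u S' := by
          rw [hS'eq]
          exact (Finset.insert_erase huS).symm
        have hcard : S'.card = n := by
          rw [hS'eq, Finset.card_erase_of_mem huS, hS]
          rfl
        have h1' : u₁ ∈ S' := by
          rw [hS'eq]
          exact Finset.mem_erase.mpr ⟨Ne.symm hu1, h1⟩
        have h2' : u₂ ∈ S' := by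
          rw [hS'eq]
          exact Finset.mem_erase.mpr ⟨Ne.symm hu2, h2⟩
        have hDu : ∀ j, min (D (Sum.inl u)) (-D (Sum.inr j)) ≤ (W : ℤ) := hD u huS hu1 hu2
        rw [hSins]
        apply hive_step _ S' u hu' D F
        · intro σ
          apply ih S' hcard h1' h2'
          intro i hi hi1 hi2 j
          have hi' : i ∈ S := by
            rw [hSins]
            exact Finset.mem_insert_of_mem hi
          have h0 : (0 : ℤ) ≤ dv σ (Sum.inl i) := by
            rw [dv_inl]
            exact Finset.sum_nonneg (fun v _ => Int.natCast_nonneg _)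
          have h0' : dv σ (Sum.inr j) ≤ 0 := by
            rw [dv_inr, neg_nonpos]
            exact Finset.sum_nonneg (fun v _ => Int.natCast_nonneg _)
          have h3 := hD i hi' hi1 hi2 j
          rw [Pi.sub_apply, Pi.sub_apply]
          refine le_trans (min_le_min ?_ ?_) h3
          · linarith
          · linarith
        · exact hPeel S' u hu' W D hDu F
      · have hS2 : S = {u₁, u₂} := by
          apply Finset.Subset.antisymm
          · intro i hi
            by_contra hne
            rw [Finset.mem_insert, Finset.mem_singleton] at hne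
            exact hex ⟨i, hi, fun h => hne (Or.inl h), fun h => hne (Or.inr h)⟩
          · intro i hi
            rw [Finset.mem_insert, Finset.mem_singleton] at hi
            rcases hi with rfl | rfl
            · exact h1
            · exact h2
        have hc2 : S.card = 2 := by
          rw [hS2]
          exact Finset.card_pair hu
        have hps : S.powersetCard 2 = {S} := by
          rw [← hc2]
          exact Finset.powersetCard_self S
        rw [hps, Finset.sum_singleton]
        have hnn : 0 ≤ hVar (S ×ˢ (Finset.univ : Finset C)) D S F := by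
          unfold hVar
          exact Finset.sum_nonneg (fun T _ => sq_nonneg _)
        nlinarith
  intro S h1 h2 D hD F
  exact key S.card S rfl h1 h2 D hD F

end Vale.Agent.Lib.P328.AM
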