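import Mathlib

/-!
# P328: the monotone coupling of two weight sequences on an integer interval

Two families of nonnegative weights `f`, `g` on `{0, ..., B - 1}`.  If `g / f` is nondecreasing
and `g (· + 1) / f` is nonincreasing (both in cross-multiplied form, for all pairs), then there
is a nonnegative matrix `w` supported on the pairs `(s, s)` and `(s, s + 1)` whose row sums are
`f s * ∑ g` and whose column sums are `g t * ∑ f`: after division by `(∑ f) * (∑ g)` this is a
coupling of the two normalised laws in which the second point is the first one or the first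
one plus one.
-/

namespace Vale.Agent.Lib.P328.AM

open Finset

/-- A likelihood-ratio ordering gives the ordering of the distribution functions. -/
theorem cdf_of_lr (N : ℕ) (p q : ℕ → ℝ)
    (hlr : ∀ i j, i < j → j ≤ N → p i * q j ≤ p j * q i) (t : ℕ) (ht : t ≤ N) :
    (∑ i ∈ range (t + 1), p i) * (∑ j ∈ range (N + 1), q j)
      ≤ (∑ i ∈ range (t + 1), q i) * (∑ j ∈ range (N + 1), p j) := by
  have hsplit : ∀ f : ℕ → ℝ, ∑ j ∈ range (N + 1), f j
      = ∑ j ∈ range (t + 1), f j + ∑ j ∈ Ico (t + 1) (N + 1), f j := by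
    intro f
    exact (Finset.sum_range_add_sum_Ico f (by omega : t + 1 ≤ N + 1)).symm
  have hcross : (∑ i ∈ range (t + 1), p i) * (∑ j ∈ Ico (t + 1) (N + 1), q j)
      ≤ (∑ i ∈ range (t + 1), q i) * (∑ j ∈ Ico (t + 1) (N + 1), p j) := by
    rw [Finset.sum_mul_sum, Finset.sum_mul_sum]
    refine Finset.sum_le_sum (fun i hi => Finset.sum_le_sum (fun j hj => ?_))
    have hi' := Finset.mem_range.mp hi
    have hj' := Finset.mem_Ico.mp hj
    rw [mul_comm (q i) (p j)]
    exact hlr i j (by omega) (by omega)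
  rw [hsplit q, hsplit p]
  nlinarith [hcross]

/-- A shifted likelihood-ratio ordering gives the shifted ordering of the distribution
functions. -/
theorem cdf_of_lr_shift (N : ℕ) (p q : ℕ → ℝ) (hp : ∀ i, 0 ≤ p i) (hq : ∀ i, 0 ≤ q i)
    (hlr : ∀ i j, i + 1 < j → j ≤ N → q i * p j ≤ p (i + 1) * q (j - 1)) (t : ℕ)
    (ht : t < N) :
    (∑ i ∈ range (t + 1), q i) * (∑ j ∈ range (N + 1), p j)
      ≤ (∑ i ∈ range (t + 2), p i) * (∑ j ∈ range (N + 1), q j) := by
  have hsplitp : ∑ j ∈ range (N + 1), p j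
      = ∑ j ∈ range (t + 2), p j + ∑ j ∈ Ico (t + 2) (N + 1), p j :=
    (Finset.sum_range_add_sum_Ico p (by omega : t + 2 ≤ N + 1)).symm
  have hsplitq : ∑ j ∈ range (N + 1), q j
      = ∑ j ∈ range (t + 1), q j + ∑ j ∈ Ico (t + 1) (N + 1), q j :=
    (Finset.sum_range_add_sum_Ico q (by omega : t + 1 ≤ N + 1)).symm
  have hA : ∑ i ∈ range (t + 1), p (i + 1) ≤ ∑ i ∈ range (t + 2), p i := by
    rw [Finset.sum_range_succ' p (t + 1)]
    linarith [hp 0]
  have hB : ∑ j ∈ Ico (t + 2) (N + 1), q (j - 1) ≤ ∑ j ∈ Ico (t + 1) (N + 1), q j := by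
    have e : ∑ j ∈ Ico (t + 2) (N + 1), q (j - 1) = ∑ j ∈ Ico (t + 1) N, q j := by
      rw [← Finset.sum_Ico_add' (fun j => q (j - 1)) (t + 1) N 1]
      refine Finset.sum_congr rfl (fun j _ => ?_)
      rw [Nat.add_sub_cancel]
    rw [e]
    refine Finset.sum_le_sum_of_subset_of_nonneg ?_ (fun j _ _ => hq j)
    intro j hj
    rw [Finset.mem_Ico] at hj ⊢
    omega
  have hcross : (∑ i ∈ range (t + 1), q i) * (∑ j ∈ Ico (t + 2) (N + 1), p j)
      ≤ (∑ i ∈ range (t + 1), p (i + 1)) * (∑ j ∈ Ico (t + 2) (N + 1), q (j - 1)) := by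
    rw [Finset.sum_mul_sum, Finset.sum_mul_sum]
    refine Finset.sum_le_sum (fun i hi => Finset.sum_le_sum (fun j hj => ?_))
    have hi' := Finset.mem_range.mp hi
    have hj' := Finset.mem_Ico.mp hj
    exact hlr i j (by omega) (by omega)
  have hA0 : 0 ≤ ∑ i ∈ range (t + 1), p (i + 1) := Finset.sum_nonneg (fun i _ => hp _)
  have hB0 : 0 ≤ ∑ j ∈ Ico (t + 1) (N + 1), q j := Finset.sum_nonneg (fun j _ => hq _)
  have hprod : (∑ i ∈ range (t + 1), p (i + 1)) * (∑ j ∈ Ico (t + 2) (N + 1), q (j - 1))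
      ≤ (∑ i ∈ range (t + 2), p i) * (∑ j ∈ Ico (t + 1) (N + 1), q j) :=
    le_trans (mul_le_mul_of_nonneg_left hB hA0) (mul_le_mul_of_nonneg_right hA hB0)
  rw [hsplitp, hsplitq]
  nlinarith [hcross, hprod]

/-- Cumulative sums are constant beyond the support. -/
theorem sum_range_of_vanish (B : ℕ) (f : ℕ → ℝ) (hfB : ∀ t, B ≤ t → f t = 0) (n : ℕ)
    (hn : B ≤ n) : ∑ i ∈ range n, f i = ∑ i ∈ range B, f i := by
  rw [← Finset.sum_range_add_sum_Ico f hn]
  have h0 : ∑ i ∈ Ico B n, f i = 0 :=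
    Finset.sum_eq_zero (fun i hi => hfB i (Finset.mem_Ico.mp hi).1)
  rw [h0, add_zero]

/-- The interlacing of the cumulative sums: `g` is stochastically above `f`. -/
theorem psum_le (B : ℕ) (f g : ℕ → ℝ)
    (hfB : ∀ t, B ≤ t → f t = 0) (hgB : ∀ t, B ≤ t → g t = 0)
    (ha : ∀ s t, s ≤ t → f t * g s ≤ f s * g t) (n : ℕ) :
    (∑ i ∈ range n, g i) * (∑ i ∈ range B, f i)
      ≤ (∑ i ∈ range n, f i) * (∑ i ∈ range B, g i) := by
  rcases Nat.lt_or_ge n B with h | h
  · rcases Nat.eq_zero_or_pos n with h0 | h0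
    · subst h0
      simp
    · obtain ⟨N, rfl⟩ : ∃ N, B = N + 1 := ⟨B - 1, by omega⟩
      obtain ⟨t, rfl⟩ : ∃ t, n = t + 1 := ⟨n - 1, by omega⟩
      refine cdf_of_lr N g f (fun i j hij _ => ?_) t (by omega)
      have := ha i j (le_of_lt hij)
      linarith
  · rw [sum_range_of_vanish B f hfB n h, sum_range_of_vanish B g hgB n h]
    exact le_of_eq (mul_comm _ _)

/-- The interlacing of the cumulative sums: `g` is stochastically below `f` shifted by one. -/
theorem psum_shift_le (B : ℕ) (f g : ℕ → ℝ) (hf : ∀ t, 0 ≤ f t) (hg : ∀ t, 0 ≤ g t)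
    (hfB : ∀ t, B ≤ t → f t = 0) (hgB : ∀ t, B ≤ t → g t = 0)
    (hb : ∀ s t, s ≤ t → g (t + 1) * f s ≤ g (s + 1) * f t) (n : ℕ) :
    (∑ i ∈ range n, f i) * (∑ i ∈ range B, g i)
      ≤ (∑ i ∈ range (n + 1), g i) * (∑ i ∈ range B, f i) := by
  rcases Nat.eq_zero_or_pos n with h0 | h0
  · subst h0
    simp only [Finset.range_zero, Finset.sum_empty, zero_mul]
    exact mul_nonneg (Finset.sum_nonneg (fun i _ => hg i)) (Finset.sum_nonneg (fun i _ => hf i))
  rcases Nat.lt_or_ge n B with h | h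
  · obtain ⟨N, rfl⟩ : ∃ N, B = N + 1 := ⟨B - 1, by omega⟩
    obtain ⟨t, rfl⟩ : ∃ t, n = t + 1 := ⟨n - 1, by omega⟩
    refine cdf_of_lr_shift N g f hg hf (fun i j hij _ => ?_) t (by omega)
    have := hb i (j - 1) (by omega)
    rw [Nat.sub_add_cancel (by omega : 1 ≤ j)] at this
    linarith
  · rw [sum_range_of_vanish B f hfB n h, sum_range_of_vanish B g hgB (n + 1) (by omega)]
    exact le_of_eq (mul_comm _ _)

/-- **The monotone coupling.**  `s` is the point of the first law (weights `f`), `t` the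
point of the second law (weights `g`); `w s t` vanishes unless `t = s` or `t = s + 1`. -/
theorem quantile_coupling (B : ℕ) (f g : ℕ → ℝ) (hf : ∀ t, 0 ≤ f t) (hg : ∀ t, 0 ≤ g t)
    (hfB : ∀ t, B ≤ t → f t = 0) (hgB : ∀ t, B ≤ t → g t = 0)
    (ha : ∀ s t, s ≤ t → f t * g s ≤ f s * g t)
    (hb : ∀ s t, s ≤ t → g (t + 1) * f s ≤ g (s + 1) * f t) :
    ∃ w : ℕ → ℕ → ℝ, (∀ s t, 0 ≤ w s t) ∧ (∀ s t, w s t ≠ 0 → t = s ∨ t = s + 1) ∧
      (∀ s, ∑ t ∈ range B, w s t = f s * ∑ i ∈ range B, g i) ∧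
      (∀ t, ∑ s ∈ range B, w s t = g t * ∑ i ∈ range B, f i) := by
  obtain ⟨ZF, hZF⟩ : ∃ ZF : ℝ, ZF = ∑ i ∈ range B, f i := ⟨_, rfl⟩
  obtain ⟨ZG, hZG⟩ : ∃ ZG : ℝ, ZG = ∑ i ∈ range B, g i := ⟨_, rfl⟩
  obtain ⟨SF, hSF⟩ : ∃ SF : ℕ → ℝ, SF = fun n => ∑ i ∈ range n, f i := ⟨_, rfl⟩
  obtain ⟨SG, hSG⟩ : ∃ SG : ℕ → ℝ, SG = fun n => ∑ i ∈ range n, g i := ⟨_, rfl⟩
  have h1 : ∀ n, SG n * ZF ≤ SF n * ZG := by
    intro n
    rw [hSG, hSF, hZF, hZG]
    exact psum_le B f g hfB hgB ha n
  have h2 : ∀ n, SF n * ZG ≤ SG (n + 1) * ZF := by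
    intro n
    rw [hSG, hSF, hZF, hZG]
    exact psum_shift_le B f g hf hg hfB hgB hb n
  have hSFs : ∀ n, SF (n + 1) = SF n + f n := by
    intro n
    rw [hSF]
    exact Finset.sum_range_succ f n
  have hSGs : ∀ n, SG (n + 1) = SG n + g n := by
    intro n
    rw [hSG]
    exact Finset.sum_range_succ g n
  have hSF0 : SF 0 = 0 := by rw [hSF]; simp
  have hSG0 : SG 0 = 0 := by rw [hSG]; simp
  have hSFB : ∀ n, B ≤ n → SF n = ZF := by
    intro n hn
    rw [hSF, hZF]
    exact sum_range_of_vanish B f hfB n hn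
  have hSGB : ∀ n, B ≤ n → SG n = ZG := by
    intro n hn
    rw [hSG, hZG]
    exact sum_range_of_vanish B g hgB n hn
  refine ⟨fun s t => (if t = s then SG (s + 1) * ZF - SF s * ZG else 0)
      + (if t = s + 1 then SF (s + 1) * ZG - SG (s + 1) * ZF else 0), ?_, ?_, ?_, ?_⟩
  · intro s t
    refine add_nonneg ?_ ?_
    · split_ifs
      · linarith [h2 s]
      · exact le_rfl
    · split_ifs
      · linarith [h1 (s + 1)]
      · exact le_rfl
  · intro s t hne
    by_contra hcon
    have hts : ¬ t = s := fun h => hcon (Or.inl h)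
    have hts' : ¬ t = s + 1 := fun h => hcon (Or.inr h)
    apply hne
    simp only [if_neg hts, if_neg hts', add_zero]
  · intro s
    rw [Finset.sum_add_distrib, Finset.sum_ite_eq' (range B) s,
      Finset.sum_ite_eq' (range B) (s + 1)]
    simp only [Finset.mem_range]
    rw [← hZG]
    by_cases hs : s < B
    · rw [if_pos hs]
      by_cases hs1 : s + 1 < B
      · rw [if_pos hs1, hSFs s]
        ring
      · rw [if_neg hs1, hSGB (s + 1) (by omega)]
        have e1 : SF (s + 1) = ZF := hSFB (s + 1) (by omega)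
        rw [hSFs s] at e1
        have e2 : f s = ZF - SF s := by linarith
        rw [e2]
        ring
    · have hs1 : ¬ s + 1 < B := by omega
      rw [if_neg hs, if_neg hs1, hfB s (by omega)]
      ring
  · intro t
    rw [Finset.sum_add_distrib, Finset.sum_ite_eq (range B) t]
    simp only [Finset.mem_range]
    rw [← hZF]
    rcases Nat.eq_zero_or_pos t with h0 | h0
    · subst h0
      have hz : ∑ x ∈ range B, (if 0 = x + 1 then SF (x + 1) * ZG - SG (x + 1) * ZF else 0)
          = 0 := by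
        apply Finset.sum_eq_zero
        intro x _
        rw [if_neg (by omega)]
      rw [hz, add_zero]
      by_cases hB : 0 < B
      · rw [if_pos hB, hSGs 0, hSG0, hSF0]
        ring
      · rw [if_neg hB, hgB 0 (by omega)]
        ring
    · obtain ⟨t', rfl⟩ : ∃ t', t = t' + 1 := ⟨t - 1, by omega⟩
      have hz : ∑ x ∈ range B, (if t' + 1 = x + 1 then SF (x + 1) * ZG - SG (x + 1) * ZF else 0)
          = if t' < B then SF (t' + 1) * ZG - SG (t' + 1) * ZF else 0 := by
        have hcongr : ∀ x ∈ range B,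
            (if t' + 1 = x + 1 then SF (x + 1) * ZG - SG (x + 1) * ZF else 0)
              = (if t' = x then SF (x + 1) * ZG - SG (x + 1) * ZF else 0) := by
          intro x _
          by_cases hx : t' = x
          · rw [if_pos hx, if_pos (by omega)]
          · rw [if_neg hx, if_neg (by omega)]
        rw [Finset.sum_congr rfl hcongr, Finset.sum_ite_eq (range B) t']
        simp only [Finset.mem_range]
      rw [hz]
      by_cases ht1 : t' + 1 < B
      · rw [if_pos ht1, if_pos (by omega : t' < B), hSGs (t' + 1)]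
        ring
      · rw [if_neg ht1, hgB (t' + 1) (by omega)]
        by_cases ht : t' < B
        · rw [if_pos ht, hSFB (t' + 1) (by omega), hSGB (t' + 1) (by omega)]
          ring
        · rw [if_neg ht]
          ring

/-- **Order form of the coupling.**  If `b t ≤ a s` for all coupled pairs in the supports,
then the `g`-mean of `b` is at most the `f`-mean of `a` (cross-multiplied). -/
theorem quantile_order (B : ℕ) (f g a b : ℕ → ℝ) (hf : ∀ t, 0 ≤ f t) (hg : ∀ t, 0 ≤ g t)
    (hfB : ∀ t, B ≤ t → f t = 0) (hgB : ∀ t, B ≤ t → g t = 0)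
    (ha : ∀ s t, s ≤ t → f t * g s ≤ f s * g t)
    (hb : ∀ s t, s ≤ t → g (t + 1) * f s ≤ g (s + 1) * f t)
    (hab : ∀ s t, (t = s ∨ t = s + 1) → 0 < f s → 0 < g t → b t ≤ a s) :
    (∑ t ∈ range B, g t * b t) * (∑ i ∈ range B, f i)
      ≤ (∑ s ∈ range B, f s * a s) * (∑ i ∈ range B, g i) := by
  obtain ⟨w, hw0, hwsupp, hrow, hcol⟩ := quantile_coupling B f g hf hg hfB hgB ha hb
  have hZF0 : 0 ≤ ∑ i ∈ range B, f i := Finset.sum_nonneg (fun i _ => hf i)
  have hZG0 : 0 ≤ ∑ i ∈ range B, g i := Finset.sum_nonneg (fun i _ => hg i)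
  have hL : (∑ t ∈ range B, g t * b t) * (∑ i ∈ range B, f i)
      = ∑ s ∈ range B, ∑ t ∈ range B, w s t * b t := by
    rw [Finset.sum_comm, Finset.sum_mul]
    refine Finset.sum_congr rfl (fun t _ => ?_)
    rw [← Finset.sum_mul, hcol t]
    ring
  have hR : (∑ s ∈ range B, f s * a s) * (∑ i ∈ range B, g i)
      = ∑ s ∈ range B, ∑ t ∈ range B, w s t * a s := by
    rw [Finset.sum_mul]
    refine Finset.sum_congr rfl (fun s _ => ?_)
    rw [← Finset.sum_mul, hrow s]
    ring
  rw [hL, hR]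
  refine Finset.sum_le_sum (fun s hs => Finset.sum_le_sum (fun t ht => ?_))
  rcases (hw0 s t).eq_or_lt with h0 | h0
  · rw [← h0, zero_mul, zero_mul]
  · refine mul_le_mul_of_nonneg_left ?_ (hw0 s t)
    have hfs : 0 < f s := by
      rcases (hf s).eq_or_lt with hz | hz
      · exfalso
        have hsum : ∑ t ∈ range B, w s t = 0 := by rw [hrow s, ← hz, zero_mul]
        have := (Finset.sum_eq_zero_iff_of_nonneg (fun t _ => hw0 s t)).mp hsum t ht
        linarith
      · exact hz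
    have hgt : 0 < g t := by
      rcases (hg t).eq_or_lt with hz | hz
      · exfalso
        have hsum : ∑ s ∈ range B, w s t = 0 := by rw [hcol t, ← hz, zero_mul]
        have := (Finset.sum_eq_zero_iff_of_nonneg (fun s _ => hw0 s t)).mp hsum s hs
        linarith
      · exact hz
    exact hab s t (hwsupp s t (ne_of_gt h0)) hfs hgt

end Vale.Agent.Lib.P328.AM
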