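import Mathlib

/-!
# A nearest-neighbour Poincare inequality on an interval of naturals

`w : ℕ → ℝ` is a nonnegative weight with the midpoint property
`w s * w t ≤ w ((s + t) / 2) * w ((s + t + 1) / 2)` for `s ≤ t ≤ L`
(this is what one call of the table-count midpoint inequality gives for the weights
`t ↦ cnt (E.erase e) (D - t • chi e)`).  Then `w` is quasi-concave on `[0, L]` and

`∑_{s,t ≤ L} w s * w t * (h s - h t)^2 ≤ 2 L^2 (∑_{s ≤ L} w s) ∑_{i < L} min (w i) (w (i+1)) (h (i+1) - h i)^2`.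
-/

namespace Vale.Agent.Lib.P328.AM

open Finset

/-- The midpoint property gives quasi-concavity: between `s` and `t` the weight is at least
`min (w s) (w t)` (in particular there are no internal zeros). -/
theorem quasi_of_mid (L : ℕ) (w : ℕ → ℝ) (hw : ∀ s, 0 ≤ w s)
    (hmid : ∀ s t, s ≤ t → t ≤ L → w s * w t ≤ w ((s + t) / 2) * w ((s + t + 1) / 2)) :
    ∀ n s t, t ≤ L → s ≤ t → t - s ≤ n → ∀ i, s ≤ i → i ≤ t → min (w s) (w t) ≤ w i := by
  intro n
  induction n with
  | zero =>
    intro s t _ hst hn i hsi hit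
    have hi : i = s := by omega
    rw [hi]
    exact min_le_left _ _
  | succ n ih =>
    intro s t htL hst hn i hsi hit
    by_cases hlt : t - s ≤ n
    · exact ih s t htL hst hlt i hsi hit
    by_cases h1 : t - s = 1
    · have hi : i = s ∨ i = t := by omega
      rcases hi with hi | hi
      · rw [hi]; exact min_le_left _ _
      · rw [hi]; exact min_le_right _ _
    have hm := hmid s t hst htL
    obtain ⟨a, ha⟩ : ∃ a, a = (s + t) / 2 := ⟨_, rfl⟩
    obtain ⟨b, hb⟩ : ∃ b, b = (s + t + 1) / 2 := ⟨_, rfl⟩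
    rw [← ha, ← hb] at hm
    have hsa : s < a := by omega
    have hbt : b < t := by omega
    have hab : a = b ∨ b = a + 1 := by omega
    have key : min (w s) (w t) ≤ w a ∧ min (w s) (w t) ≤ w b := by
      rcases hab with hab | hab
      · rw [← hab] at hm ⊢
        have hA : min (w s) (w t) ≤ w a := by
          by_contra hc
          rw [not_le] at hc
          have h2 := lt_min_iff.mp hc
          have h0 := hw a
          nlinarith [mul_pos (sub_pos.mpr h2.1) (sub_pos.mpr h2.2),
            mul_nonneg h0 (sub_pos.mpr h2.1).le, mul_nonneg h0 (sub_pos.mpr h2.2).le]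
        exact ⟨hA, hA⟩
      · have e1 := ih s b (by omega) (by omega) (by omega) a (by omega) (by omega)
        have e2 := ih a t htL (by omega) (by omega) b (by omega) (by omega)
        have hA : min (w s) (w t) ≤ w a := by
          by_contra hc
          rw [not_le] at hc
          have h2 := lt_min_iff.mp hc
          have hba : w b ≤ w a := by
            rcases min_le_iff.mp e1 with h | h
            · linarith [h2.1]
            · exact h
          have hab' : w a ≤ w b := by
            rcases min_le_iff.mp e2 with h | h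
            · exact h
            · linarith [h2.2]
          have heq : w b = w a := le_antisymm hba hab'
          rw [heq] at hm
          have h0 := hw a
          nlinarith [mul_pos (sub_pos.mpr h2.1) (sub_pos.mpr h2.2),
            mul_nonneg h0 (sub_pos.mpr h2.1).le, mul_nonneg h0 (sub_pos.mpr h2.2).le]
        refine ⟨hA, ?_⟩
        by_contra hc
        rw [not_le] at hc
        have h2 := lt_min_iff.mp hc
        rcases min_le_iff.mp e2 with h | h
        · linarith [hA, h, hc]
        · linarith [h2.2]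
    by_cases hia : i ≤ a
    · have e := ih s a (by omega) (by omega) (by omega) i hsi hia
      exact le_trans (le_min (min_le_left _ _) key.1) e
    · have e := ih b t htL (by omega) (by omega) i (by omega) hit
      exact le_trans (le_min key.2 (min_le_right _ _)) e

theorem tele (h : ℕ → ℝ) (s t : ℕ) (hst : s ≤ t) :
    h t - h s = ∑ i ∈ Ico s t, (h (i + 1) - h i) := by
  induction t, hst using Nat.le_induction with
  | base => simp
  | succ t hst ih => rw [Finset.sum_Ico_succ_top hst, ← ih]; ring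

theorem pair_bound (L : ℕ) (w h : ℕ → ℝ) (hw : ∀ s, 0 ≤ w s)
    (hq : ∀ s t, t ≤ L → s ≤ t → ∀ i, s ≤ i → i ≤ t → min (w s) (w t) ≤ w i)
    (s t : ℕ) (hst : s ≤ t) (htL : t ≤ L) :
    w s * w t * (h t - h s) ^ 2
      ≤ ∑ i ∈ Ico s t,
          (L : ℝ) * (w s + w t) * (min (w i) (w (i + 1)) * (h (i + 1) - h i) ^ 2) := by
  rw [tele h s t hst]
  have cs : (∑ i ∈ Ico s t, (h (i + 1) - h i)) ^ 2
      ≤ ((Ico s t).card : ℝ) * ∑ i ∈ Ico s t, (h (i + 1) - h i) ^ 2 :=
    sq_sum_le_card_mul_sum_sq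
  have hcard : ((Ico s t).card : ℝ) ≤ L := by
    rw [Nat.card_Ico]
    exact_mod_cast (by omega : t - s ≤ L)
  have hsum_nonneg : 0 ≤ ∑ i ∈ Ico s t, (h (i + 1) - h i) ^ 2 :=
    Finset.sum_nonneg (fun i _ => sq_nonneg _)
  have h0 : 0 ≤ w s * w t := mul_nonneg (hw s) (hw t)
  have step1 : w s * w t * (∑ i ∈ Ico s t, (h (i + 1) - h i)) ^ 2
      ≤ ∑ i ∈ Ico s t, (L : ℝ) * (w s * w t * (h (i + 1) - h i) ^ 2) := by
    rw [← Finset.mul_sum, ← Finset.mul_sum]
    calc w s * w t * (∑ i ∈ Ico s t, (h (i + 1) - h i)) ^ 2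
        ≤ w s * w t * (((Ico s t).card : ℝ) * ∑ i ∈ Ico s t, (h (i + 1) - h i) ^ 2) :=
          mul_le_mul_of_nonneg_left cs h0
      _ ≤ w s * w t * ((L : ℝ) * ∑ i ∈ Ico s t, (h (i + 1) - h i) ^ 2) := by
          apply mul_le_mul_of_nonneg_left _ h0
          exact mul_le_mul_of_nonneg_right hcard hsum_nonneg
      _ = (L : ℝ) * (w s * w t * ∑ i ∈ Ico s t, (h (i + 1) - h i) ^ 2) := by ring
  refine le_trans step1 ?_
  apply Finset.sum_le_sum
  intro i hi
  rw [Finset.mem_Ico] at hi
  have q1 := hq s t htL hst i hi.1 (by omega)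
  have q2 := hq s t htL hst (i + 1) (by omega) (by omega)
  have hmin : min (w s) (w t) ≤ min (w i) (w (i + 1)) := le_min q1 q2
  have hprod : w s * w t ≤ (w s + w t) * min (w i) (w (i + 1)) := by
    rcases le_total (w s) (w t) with hle | hle
    · rw [min_eq_left hle] at hmin
      nlinarith [hw s, hw t, mul_le_mul_of_nonneg_right hmin (hw t),
        mul_nonneg (hw s) (le_trans (hw s) hmin)]
    · rw [min_eq_right hle] at hmin
      nlinarith [hw s, hw t, mul_le_mul_of_nonneg_left hmin (hw s),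
        mul_nonneg (hw t) (le_trans (hw t) hmin)]
  have hL : (0 : ℝ) ≤ L := Nat.cast_nonneg L
  calc (L : ℝ) * (w s * w t * (h (i + 1) - h i) ^ 2)
      ≤ (L : ℝ) * ((w s + w t) * min (w i) (w (i + 1)) * (h (i + 1) - h i) ^ 2) :=
        mul_le_mul_of_nonneg_left (mul_le_mul_of_nonneg_right hprod (sq_nonneg _)) hL
    _ = (L : ℝ) * (w s + w t) * (min (w i) (w (i + 1)) * (h (i + 1) - h i) ^ 2) := by ring

theorem count_bound (L i s : ℕ) (hs : s ∈ range (L + 1)) :
    ((range (L + 1)).filter (fun t => (s ≤ i ∧ i < t) ∨ (t ≤ i ∧ i < s))).card ≤ L := by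
  have hsub : (range (L + 1)).filter (fun t => (s ≤ i ∧ i < t) ∨ (t ≤ i ∧ i < s))
      ⊆ (range (L + 1)).erase s := by
    intro t ht
    rw [Finset.mem_filter] at ht
    rw [Finset.mem_erase]
    refine ⟨?_, ht.1⟩
    rcases ht.2 with h | h <;> omega
  have h := Finset.card_le_card hsub
  rw [Finset.card_erase_of_mem hs, Finset.card_range] at h
  simpa using h

theorem weight_bound (L i : ℕ) (w : ℕ → ℝ) (hw : ∀ s, 0 ≤ w s) :
    ∑ s ∈ range (L + 1), ∑ t ∈ range (L + 1),
        (if (s ≤ i ∧ i < t) ∨ (t ≤ i ∧ i < s) then w s + w t else 0)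
      ≤ 2 * (L : ℝ) * ∑ s ∈ range (L + 1), w s := by
  have h1 : ∑ s ∈ range (L + 1), ∑ t ∈ range (L + 1),
        (if (s ≤ i ∧ i < t) ∨ (t ≤ i ∧ i < s) then w s else 0)
      ≤ (L : ℝ) * ∑ s ∈ range (L + 1), w s := by
    rw [Finset.mul_sum]
    apply Finset.sum_le_sum
    intro s hs
    rw [← Finset.sum_filter, Finset.sum_const, nsmul_eq_mul]
    apply mul_le_mul_of_nonneg_right _ (hw s)
    exact_mod_cast count_bound L i s hs
  have h2 : ∑ s ∈ range (L + 1), ∑ t ∈ range (L + 1),
        (if (s ≤ i ∧ i < t) ∨ (t ≤ i ∧ i < s) then w t else 0)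
      ≤ (L : ℝ) * ∑ s ∈ range (L + 1), w s := by
    rw [Finset.sum_comm, Finset.mul_sum]
    apply Finset.sum_le_sum
    intro t ht
    rw [← Finset.sum_filter, Finset.sum_const, nsmul_eq_mul]
    apply mul_le_mul_of_nonneg_right _ (hw t)
    have hc := count_bound L i t ht
    have heq : (range (L + 1)).filter (fun s => (s ≤ i ∧ i < t) ∨ (t ≤ i ∧ i < s))
        = (range (L + 1)).filter (fun s => (t ≤ i ∧ i < s) ∨ (s ≤ i ∧ i < t)) := by
      apply Finset.filter_congr
      intro s _
      exact or_comm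
    rw [heq]
    exact_mod_cast hc
  have hsplit : ∑ s ∈ range (L + 1), ∑ t ∈ range (L + 1),
        (if (s ≤ i ∧ i < t) ∨ (t ≤ i ∧ i < s) then w s + w t else 0)
      = ∑ s ∈ range (L + 1), ∑ t ∈ range (L + 1),
          (if (s ≤ i ∧ i < t) ∨ (t ≤ i ∧ i < s) then w s else 0)
        + ∑ s ∈ range (L + 1), ∑ t ∈ range (L + 1),
          (if (s ≤ i ∧ i < t) ∨ (t ≤ i ∧ i < s) then w t else 0) := by
    rw [← Finset.sum_add_distrib]
    apply Finset.sum_congr rfl
    intro s _
    rw [← Finset.sum_add_distrib]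
    apply Finset.sum_congr rfl
    intro t _
    split_ifs <;> simp
  rw [hsplit]
  linarith

/-- Nearest-neighbour Poincare inequality (pair form) for a nonnegative weight with the
midpoint property on `{0, ..., L}`. -/
theorem unimodal_nn_poincare (L : ℕ) (w h : ℕ → ℝ) (hw : ∀ s, 0 ≤ w s)
    (hmid : ∀ s t, s ≤ t → t ≤ L → w s * w t ≤ w ((s + t) / 2) * w ((s + t + 1) / 2)) :
    ∑ s ∈ range (L + 1), ∑ t ∈ range (L + 1), w s * w t * (h s - h t) ^ 2
      ≤ 2 * (L : ℝ) ^ 2 * (∑ s ∈ range (L + 1), w s)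
          * ∑ i ∈ range L, min (w i) (w (i + 1)) * (h (i + 1) - h i) ^ 2 := by
  have hq : ∀ s t, t ≤ L → s ≤ t → ∀ i, s ≤ i → i ≤ t → min (w s) (w t) ≤ w i :=
    fun s t htL hst i hsi hit => quasi_of_mid L w hw hmid (t - s) s t htL hst le_rfl i hsi hit
  have hg0 : ∀ i, 0 ≤ min (w i) (w (i + 1)) * (h (i + 1) - h i) ^ 2 :=
    fun i => mul_nonneg (le_min (hw i) (hw (i + 1))) (sq_nonneg _)
  have hpt : ∀ s ∈ range (L + 1), ∀ t ∈ range (L + 1),
      w s * w t * (h s - h t) ^ 2
        ≤ ∑ i ∈ range L, (if (s ≤ i ∧ i < t) ∨ (t ≤ i ∧ i < s)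
            then (L : ℝ) * (w s + w t) * (min (w i) (w (i + 1)) * (h (i + 1) - h i) ^ 2)
            else 0) := by
    intro s hs t ht
    rw [Finset.mem_range] at hs ht
    rcases le_total s t with hst | hst
    · have hb := pair_bound L w h hw hq s t hst (by omega)
      have e1 : w s * w t * (h s - h t) ^ 2 = w s * w t * (h t - h s) ^ 2 := by ring
      rw [e1]
      refine le_trans hb ?_
      have hsub : Ico s t ⊆ range L := by
        intro i hi
        rw [Finset.mem_Ico] at hi
        rw [Finset.mem_range]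
        omega
      calc ∑ i ∈ Ico s t,
              (L : ℝ) * (w s + w t) * (min (w i) (w (i + 1)) * (h (i + 1) - h i) ^ 2)
          = ∑ i ∈ Ico s t, (if (s ≤ i ∧ i < t) ∨ (t ≤ i ∧ i < s)
              then (L : ℝ) * (w s + w t) * (min (w i) (w (i + 1)) * (h (i + 1) - h i) ^ 2)
              else 0) := by
            apply Finset.sum_congr rfl
            intro i hi
            rw [Finset.mem_Ico] at hi
            rw [if_pos (Or.inl hi)]
        _ ≤ ∑ i ∈ range L, (if (s ≤ i ∧ i < t) ∨ (t ≤ i ∧ i < s)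
              then (L : ℝ) * (w s + w t) * (min (w i) (w (i + 1)) * (h (i + 1) - h i) ^ 2)
              else 0) := by
            apply Finset.sum_le_sum_of_subset_of_nonneg hsub
            intro i _ _
            split_ifs
            · exact mul_nonneg (mul_nonneg (Nat.cast_nonneg L) (add_nonneg (hw s) (hw t)))
                (hg0 i)
            · exact le_rfl
    · have hb := pair_bound L w h hw hq t s hst (by omega)
      have e1 : w s * w t * (h s - h t) ^ 2 = w t * w s * (h s - h t) ^ 2 := by ring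
      rw [e1]
      refine le_trans hb ?_
      have hsub : Ico t s ⊆ range L := by
        intro i hi
        rw [Finset.mem_Ico] at hi
        rw [Finset.mem_range]
        omega
      calc ∑ i ∈ Ico t s,
              (L : ℝ) * (w t + w s) * (min (w i) (w (i + 1)) * (h (i + 1) - h i) ^ 2)
          = ∑ i ∈ Ico t s, (if (s ≤ i ∧ i < t) ∨ (t ≤ i ∧ i < s)
              then (L : ℝ) * (w s + w t) * (min (w i) (w (i + 1)) * (h (i + 1) - h i) ^ 2)
              else 0) := by
            apply Finset.sum_congr rfl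
            intro i hi
            rw [Finset.mem_Ico] at hi
            rw [if_pos (Or.inr hi), add_comm (w t) (w s)]
        _ ≤ ∑ i ∈ range L, (if (s ≤ i ∧ i < t) ∨ (t ≤ i ∧ i < s)
              then (L : ℝ) * (w s + w t) * (min (w i) (w (i + 1)) * (h (i + 1) - h i) ^ 2)
              else 0) := by
            apply Finset.sum_le_sum_of_subset_of_nonneg hsub
            intro i _ _
            split_ifs
            · exact mul_nonneg (mul_nonneg (Nat.cast_nonneg L) (add_nonneg (hw s) (hw t)))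
                (hg0 i)
            · exact le_rfl
  calc ∑ s ∈ range (L + 1), ∑ t ∈ range (L + 1), w s * w t * (h s - h t) ^ 2
      ≤ ∑ s ∈ range (L + 1), ∑ t ∈ range (L + 1), ∑ i ∈ range L,
          (if (s ≤ i ∧ i < t) ∨ (t ≤ i ∧ i < s)
            then (L : ℝ) * (w s + w t) * (min (w i) (w (i + 1)) * (h (i + 1) - h i) ^ 2)
            else 0) :=
        Finset.sum_le_sum (fun s hs => Finset.sum_le_sum (fun t ht => hpt s hs t ht))
    _ = ∑ i ∈ range L, ∑ s ∈ range (L + 1), ∑ t ∈ range (L + 1),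
          (if (s ≤ i ∧ i < t) ∨ (t ≤ i ∧ i < s)
            then (L : ℝ) * (w s + w t) * (min (w i) (w (i + 1)) * (h (i + 1) - h i) ^ 2)
            else 0) := by
        refine (Finset.sum_congr rfl (fun s _ => Finset.sum_comm)).trans ?_
        exact Finset.sum_comm
    _ = ∑ i ∈ range L, (L : ℝ) * (min (w i) (w (i + 1)) * (h (i + 1) - h i) ^ 2)
          * ∑ s ∈ range (L + 1), ∑ t ∈ range (L + 1),
              (if (s ≤ i ∧ i < t) ∨ (t ≤ i ∧ i < s) then w s + w t else 0) := by
        apply Finset.sum_congr rfl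
        intro i _
        rw [Finset.mul_sum]
        apply Finset.sum_congr rfl
        intro s _
        rw [Finset.mul_sum]
        apply Finset.sum_congr rfl
        intro t _
        split_ifs <;> ring
    _ ≤ ∑ i ∈ range L, (L : ℝ) * (min (w i) (w (i + 1)) * (h (i + 1) - h i) ^ 2)
          * (2 * (L : ℝ) * ∑ s ∈ range (L + 1), w s) := by
        apply Finset.sum_le_sum
        intro i _
        exact mul_le_mul_of_nonneg_left (weight_bound L i w hw)
          (mul_nonneg (Nat.cast_nonneg L) (hg0 i))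
    _ = 2 * (L : ℝ) ^ 2 * (∑ s ∈ range (L + 1), w s)
          * ∑ i ∈ range L, min (w i) (w (i + 1)) * (h (i + 1) - h i) ^ 2 := by
        rw [Finset.mul_sum (range L)
          (fun i => min (w i) (w (i + 1)) * (h (i + 1) - h i) ^ 2)
          (2 * (L : ℝ) ^ 2 * ∑ s ∈ range (L + 1), w s)]
        apply Finset.sum_congr rfl
        intro i _
        ring

/-- The pair sum equals twice the total weight times the weighted variance. -/
theorem pair_sum_eq_var (I : Finset ℕ) (w h : ℕ → ℝ) (hW : (∑ s ∈ I, w s) ≠ 0) :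
    ∑ s ∈ I, ∑ t ∈ I, w s * w t * (h s - h t) ^ 2
      = 2 * (∑ s ∈ I, w s)
          * ∑ s ∈ I, w s * (h s - (∑ t ∈ I, w t * h t) / (∑ t ∈ I, w t)) ^ 2 := by
  have e1 : ∑ s ∈ I, ∑ t ∈ I, w s * w t * (h s - h t) ^ 2
      = 2 * (∑ s ∈ I, w s) * (∑ s ∈ I, w s * h s ^ 2) - 2 * (∑ s ∈ I, w s * h s) ^ 2 := by
    have e : ∀ s t, w s * w t * (h s - h t) ^ 2
        = (w s * h s ^ 2) * w t - 2 * ((w s * h s) * (w t * h t)) + w s * (w t * h t ^ 2) := by
      intro s t
      ring
    simp only [e, Finset.sum_add_distrib, Finset.sum_sub_distrib, ← Finset.mul_sum,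
      ← Finset.sum_mul]
    ring
  have e2 : ∑ s ∈ I, w s * (h s - (∑ t ∈ I, w t * h t) / (∑ t ∈ I, w t)) ^ 2
      = (∑ s ∈ I, w s * h s ^ 2) - (∑ s ∈ I, w s * h s) ^ 2 / (∑ s ∈ I, w s) := by
    have e : ∀ s, w s * (h s - (∑ t ∈ I, w t * h t) / (∑ t ∈ I, w t)) ^ 2
        = w s * h s ^ 2 - 2 * ((∑ t ∈ I, w t * h t) / (∑ t ∈ I, w t)) * (w s * h s)
          + ((∑ t ∈ I, w t * h t) / (∑ t ∈ I, w t)) ^ 2 * w s := by
      intro s
      ring
    simp only [e, Finset.sum_add_distrib, Finset.sum_sub_distrib, ← Finset.mul_sum]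
    field_simp
    ring
  rw [e1, e2]
  field_simp

/-- Nearest-neighbour Poincare inequality (variance form). -/
theorem unimodal_nn_var (L : ℕ) (w h : ℕ → ℝ) (hw : ∀ s, 0 ≤ w s)
    (hmid : ∀ s t, s ≤ t → t ≤ L → w s * w t ≤ w ((s + t) / 2) * w ((s + t + 1) / 2))
    (hW : 0 < ∑ s ∈ range (L + 1), w s) :
    ∑ s ∈ range (L + 1),
        w s * (h s - (∑ t ∈ range (L + 1), w t * h t) / (∑ t ∈ range (L + 1), w t)) ^ 2
      ≤ (L : ℝ) ^ 2 * ∑ i ∈ range L, min (w i) (w (i + 1)) * (h (i + 1) - h i) ^ 2 := by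
  have key := unimodal_nn_poincare L w h hw hmid
  rw [pair_sum_eq_var (range (L + 1)) w h hW.ne'] at key
  have h2 : 2 * (∑ s ∈ range (L + 1), w s)
        * ∑ s ∈ range (L + 1),
            w s * (h s - (∑ t ∈ range (L + 1), w t * h t) / (∑ t ∈ range (L + 1), w t)) ^ 2
      ≤ 2 * (∑ s ∈ range (L + 1), w s)
        * ((L : ℝ) ^ 2 * ∑ i ∈ range L, min (w i) (w (i + 1)) * (h (i + 1) - h i) ^ 2) := by
    refine le_trans key (le_of_eq ?_)
    ring
  exact le_of_mul_le_mul_left h2 (by positivity)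

end Vale.Agent.Lib.P328.AM
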