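import Vale.Agent.Lib.P328.AM.Restrict
import Vale.Agent.Lib.P328.AM.CplGlue
import Vale.Agent.Lib.P328.AM.FiberLR
import Vale.Agent.Lib.P328.AM.Unimodal1D

/-!
# P328 (all margins): nearest-neighbour Poincare inequality for the law of one row

`m` is a row, `E` a cell set and `D` a signed margin vector (both arbitrary).  `rowAt m T` is
the row `m` of the table `T`, `rowN E D m x` the number of tables of `OmF E D` whose row `m` is
`x`, and `mv x j k` is the row `x` with one unit moved from column `k` to column `j`.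
`rowEnergy E D m g` is the sum over the tables `T` of the class, and over the ordered pairs of
distinct columns `j`, `k` that have a cell of `E` in row `m`, of
`min (N x) (N x') / N x * (g x' - g x)^2` with `x` the row `m` of `T` and `x' = mv x j k`
(so each row `x` is counted with total weight `N x`).

`one_row_poincare`: if every class has the star coupling, then the sum over the class of the
squared deviations of `g (rowAt m T)` from its mean is at most `L^2 * rowEnergy E D m g`, where
`L` bounds the entries of row `m`.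
-/

namespace Vale.Agent.Lib.P328.AM

open Finset
open Vale.Agent.Lib.P328.Hive

variable {R C : Type*} [Fintype R] [Fintype C] [DecidableEq R] [DecidableEq C]

/-- The row `m` of a table. -/
def rowAt (m : R) (T : R × C → ℕ) : C → ℕ := fun j => T (m, j)

/-- The row `x` with one unit moved from column `k` to column `j`. -/
def mv (x : C → ℕ) (j k : C) : C → ℕ :=
  Function.update (Function.update x j (x j + 1)) k (x k - 1)

/-- The number of tables of the class whose row `m` is `x`. -/
noncomputable def rowN (E : Finset (R × C)) (D : R ⊕ C → ℤ) (m : R) (x : C → ℕ) : ℝ :=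
  (((OmF E D).filter (fun T => rowAt m T = x)).card : ℝ)

/-- The columns that have a cell of `E` in row `m`. -/
def starCols (E : Finset (R × C)) (m : R) : Finset C :=
  Finset.univ.filter (fun j => (m, j) ∈ E)

/-- The nearest-neighbour energy of a function of the row `m`. -/
noncomputable def rowEnergy (E : Finset (R × C)) (D : R ⊕ C → ℤ) (m : R)
    (g : (C → ℕ) → ℝ) : ℝ :=
  ∑ T ∈ OmF E D, ∑ j ∈ starCols E m, ∑ k ∈ starCols E m,
    if j = k then 0 else
      min (rowN E D m (rowAt m T)) (rowN E D m (mv (rowAt m T) j k)) / rowN E D m (rowAt m T)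
        * (g (mv (rowAt m T) j k) - g (rowAt m T)) ^ 2

theorem rowN_nonneg (E : Finset (R × C)) (D : R ⊕ C → ℤ) (m : R) (x : C → ℕ) :
    0 ≤ rowN E D m x := Nat.cast_nonneg _

theorem rowEnergy_nonneg (E : Finset (R × C)) (D : R ⊕ C → ℤ) (m : R) (g : (C → ℕ) → ℝ) :
    0 ≤ rowEnergy E D m g := by
  unfold rowEnergy
  refine Finset.sum_nonneg (fun T _ => Finset.sum_nonneg (fun j _ =>
    Finset.sum_nonneg (fun k _ => ?_)))
  split_ifs
  · exact le_rfl
  · exact mul_nonneg (div_nonneg (le_min (rowN_nonneg _ _ _ _) (rowN_nonneg _ _ _ _))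
      (rowN_nonneg _ _ _ _)) (sq_nonneg _)

/-! ### Slices along one cell -/

/-- A sum over the tables with value `t` at the cell `e` is a sum over the tables on
`E.erase e`. -/
theorem sum_slice {E : Finset (R × C)} (D : R ⊕ C → ℤ) {e : R × C} (he : e ∈ E) (t : ℕ)
    (Φ : (R × C → ℕ) → ℝ) :
    ∑ T ∈ (OmF E D).filter (fun T => T e = t), Φ T
      = ∑ A ∈ OmF (E.erase e) (D - (t : ℤ) • chi e), Φ (A + Pi.single e t) := by
  have hσ : ∀ e', e' ∉ ({e} : Finset (R × C)) → (Pi.single e t : R × C → ℕ) e' = 0 := by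
    intro e' he'
    rw [Finset.mem_singleton] at he'
    exact Pi.single_eq_of_ne he' _
  have h := sum_OmF_filter_res (E := E) (S := {e}) (Finset.singleton_subset_iff.mpr he) D hσ Φ
  rw [dv_single, Finset.sdiff_singleton_eq_erase] at h
  rw [← h]
  apply Finset.sum_congr _ (fun _ _ => rfl)
  apply Finset.filter_congr
  intro T _
  constructor
  · intro hT
    funext e'
    by_cases he' : e' = e
    · subst he'
      rw [res_apply_of_mem T (Finset.mem_singleton_self _), Pi.single_eq_same, hT]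
    · rw [res_apply_of_notMem T (by rwa [Finset.mem_singleton]), Pi.single_eq_of_ne he']
  · intro hT
    have := congrFun hT e
    rwa [res_apply_of_mem T (Finset.mem_singleton_self _), Pi.single_eq_same] at this

/-- Decomposition of a sum over the class along the value of the cell `e`. -/
theorem sum_by_slices {E : Finset (R × C)} (D : R ⊕ C → ℤ) {e : R × C} (he : e ∈ E) (L : ℕ)
    (hL : ∀ T ∈ OmF E D, T e ≤ L) (Φ : (R × C → ℕ) → ℝ) :
    ∑ T ∈ OmF E D, Φ T
      = ∑ t ∈ range (L + 1), ∑ A ∈ OmF (E.erase e) (D - (t : ℤ) • chi e),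
          Φ (A + Pi.single e t) := by
  rw [← Finset.sum_fiberwise_of_maps_to (g := fun T => T e) (t := range (L + 1))
    (fun T hT => Finset.mem_range.mpr (Nat.lt_succ_of_le (hL T hT)))]
  exact Finset.sum_congr rfl (fun t _ => sum_slice D he t Φ)

theorem slice_zero {E : Finset (R × C)} {D' : R ⊕ C → ℤ} {e : R × C} {A : R × C → ℕ}
    (hA : A ∈ OmF (E.erase e) D') : A e = 0 :=
  (mem_OmF.mp hA).1 e (Finset.notMem_erase e E)

theorem slice_lift {E : Finset (R × C)} {D : R ⊕ C → ℤ} {e : R × C} (he : e ∈ E) {t : ℕ}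
    {A : R × C → ℕ} (hA : A ∈ OmF (E.erase e) (D - (t : ℤ) • chi e)) :
    A + Pi.single e t ∈ OmF E D := by
  rw [mem_OmF] at hA ⊢
  have hσ : ∀ e', e' ∉ ({e} : Finset (R × C)) → (Pi.single e t : R × C → ℕ) e' = 0 := by
    intro e' he'
    rw [Finset.mem_singleton] at he'
    exact Pi.single_eq_of_ne he' _
  refine add_mem_Om (S := {e}) (Finset.singleton_subset_iff.mpr he) hσ ?_
  rw [dv_single, Finset.sdiff_singleton_eq_erase]
  exact hA

theorem rowAt_lift {E : Finset (R × C)} {D' : R ⊕ C → ℤ} (m : R) (n : C) (t : ℕ)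
    {A : R × C → ℕ} (hA : A ∈ OmF (E.erase (m, n)) D') :
    rowAt m (A + Pi.single (m, n) t) = Function.update (rowAt m A) n t := by
  funext j
  unfold rowAt
  by_cases hj : j = n
  · subst hj
    rw [Function.update_self, Pi.add_apply, Pi.single_eq_same, slice_zero hA, zero_add]
  · rw [Function.update_of_ne hj, Pi.add_apply, Pi.single_eq_of_ne, add_zero]
    intro h
    exact hj (Prod.mk.inj h).2

/-- The number of tables with row `x` is the number of tables of the slice `t = x n` with the
corresponding row. -/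
theorem rowN_slice {E : Finset (R × C)} (D : R ⊕ C → ℤ) (m : R) (n : C) (he : (m, n) ∈ E)
    (t : ℕ) (x : C → ℕ) (hx : x n = t) :
    rowN E D m x = (((OmF (E.erase (m, n)) (D - (t : ℤ) • chi (m, n))).filter
      (fun A => Function.update (rowAt m A) n t = x)).card : ℝ) := by
  unfold rowN
  rw [← Finset.sum_boole, ← Finset.sum_boole]
  have h1 : ∑ T ∈ OmF E D, (if rowAt m T = x then (1 : ℝ) else 0)
      = ∑ T ∈ (OmF E D).filter (fun T => T (m, n) = t),
          (if rowAt m T = x then (1 : ℝ) else 0) := by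
    symm
    apply Finset.sum_filter_of_ne
    intro T _ hT
    by_contra hne
    apply hT
    rw [if_neg]
    intro hrow
    apply hne
    rw [← hx, ← hrow]
    rfl
  rw [h1, sum_slice D he t]
  apply Finset.sum_congr rfl
  intro A hA
  rw [rowAt_lift m n t hA]

/-- Rows of the slice `t` and rows of the class. -/
theorem rowN_slice' {E : Finset (R × C)} (D : R ⊕ C → ℤ) (m : R) (n : C) (he : (m, n) ∈ E)
    (t : ℕ) (x' : C → ℕ) (hx' : x' n = 0) :
    rowN E D m (Function.update x' n t)
      = rowN (E.erase (m, n)) (D - (t : ℤ) • chi (m, n)) m x' := by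
  rw [rowN_slice D m n he t (Function.update x' n t) (Function.update_self ..)]
  unfold rowN
  congr 2
  apply Finset.filter_congr
  intro A hA
  constructor
  · intro h
    funext j
    by_cases hj : j = n
    · subst hj
      rw [hx']
      exact slice_zero hA
    · have := congrFun h j
      rwa [Function.update_of_ne hj, Function.update_of_ne hj] at this
  · intro h
    rw [h]

/-! ### Abstract comparison lemmas -/

/-- Grouping a sum along the fibres of a map. -/
theorem fiberwise_le {α β : Type*} [DecidableEq β] (S : Finset α) (ρ : α → β) (a : α → ℝ)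
    (w ψ : β → ℝ) (hψ : ∀ b, 0 ≤ ψ b)
    (h : ∀ x₀ ∈ S, ∑ x ∈ S.filter (fun x => ρ x = ρ x₀), a x ≤ w (ρ x₀)) :
    ∑ x ∈ S, ψ (ρ x) * a x
      ≤ ∑ x ∈ S, w (ρ x) / ((S.filter (fun y => ρ y = ρ x)).card : ℝ) * ψ (ρ x) := by
  rw [← Finset.sum_fiberwise_of_maps_to (g := ρ) (t := S.image ρ)
      (fun x hx => Finset.mem_image_of_mem _ hx) (f := fun x => ψ (ρ x) * a x),
    ← Finset.sum_fiberwise_of_maps_to (g := ρ) (t := S.image ρ)
      (fun x hx => Finset.mem_image_of_mem _ hx)
      (f := fun x => w (ρ x) / ((S.filter (fun y => ρ y = ρ x)).card : ℝ) * ψ (ρ x))]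
  apply Finset.sum_le_sum
  intro b hb
  obtain ⟨x₀, hx₀, rfl⟩ := Finset.mem_image.mp hb
  have e1 : ∑ x ∈ S.filter (fun x => ρ x = ρ x₀), ψ (ρ x) * a x
      = ψ (ρ x₀) * ∑ x ∈ S.filter (fun x => ρ x = ρ x₀), a x := by
    rw [Finset.mul_sum]
    apply Finset.sum_congr rfl
    intro x hx
    rw [(Finset.mem_filter.mp hx).2]
  have e2 : ∑ x ∈ S.filter (fun x => ρ x = ρ x₀),
        w (ρ x) / ((S.filter (fun y => ρ y = ρ x)).card : ℝ) * ψ (ρ x)
      = w (ρ x₀) * ψ (ρ x₀) := by
    have hc : ((S.filter (fun y => ρ y = ρ x₀)).card : ℝ) ≠ 0 := by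
      apply Nat.cast_ne_zero.mpr
      apply Finset.card_ne_zero.mpr
      exact ⟨x₀, Finset.mem_filter.mpr ⟨hx₀, rfl⟩⟩
    have e : ∀ x ∈ S.filter (fun x => ρ x = ρ x₀),
        w (ρ x) / ((S.filter (fun y => ρ y = ρ x)).card : ℝ) * ψ (ρ x)
          = w (ρ x₀) / ((S.filter (fun y => ρ y = ρ x₀)).card : ℝ) * ψ (ρ x₀) := by
      intro x hx
      rw [(Finset.mem_filter.mp hx).2]
    rw [Finset.sum_congr rfl e, Finset.sum_const, nsmul_eq_mul]
    field_simp
  rw [e1, e2, mul_comm (w (ρ x₀))]
  exact mul_le_mul_of_nonneg_left (h x₀ hx₀) (hψ _)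

/-- The squared difference of the means of `g` over two coupled sets, times the smaller
cardinality, is at most the energy of the moves seen by the coupling. -/
theorem cross_abstract {α β ι : Type*} [DecidableEq β] (Sp Sm : Finset α) (κ : α → α → ℝ)
    (h0 : ∀ x y, 0 ≤ κ x y)
    (h1 : ∀ x ∈ Sp, ∑ y ∈ Sm, κ x y = 1 / (Sp.card : ℝ))
    (h2 : ∀ y ∈ Sm, ∑ x ∈ Sp, κ x y = 1 / (Sm.card : ℝ))
    (ρp ρm : α → β) (J : Finset ι) (μ : β → ι → β) (g : β → ℝ)
    (hsupp : ∀ x ∈ Sp, ∀ y ∈ Sm, κ x y ≠ 0 → ∃ j ∈ J, ρm y = μ (ρp x) j) :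
    min (Sm.card : ℝ) (Sp.card : ℝ)
        * ((∑ y ∈ Sm, g (ρm y)) / (Sm.card : ℝ) - (∑ x ∈ Sp, g (ρp x)) / (Sp.card : ℝ)) ^ 2
      ≤ ∑ x ∈ Sp, ∑ j ∈ J,
          min (((Sp.filter (fun a => ρp a = ρp x)).card : ℝ))
              (((Sm.filter (fun b => ρm b = μ (ρp x) j)).card : ℝ))
            / ((Sp.filter (fun a => ρp a = ρp x)).card : ℝ)
            * (g (μ (ρp x) j) - g (ρp x)) ^ 2 := by
  have hR : 0 ≤ ∑ x ∈ Sp, ∑ j ∈ J,
          min (((Sp.filter (fun a => ρp a = ρp x)).card : ℝ))
              (((Sm.filter (fun b => ρm b = μ (ρp x) j)).card : ℝ))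
            / ((Sp.filter (fun a => ρp a = ρp x)).card : ℝ)
            * (g (μ (ρp x) j) - g (ρp x)) ^ 2 :=
    Finset.sum_nonneg (fun x _ => Finset.sum_nonneg (fun j _ =>
      mul_nonneg (div_nonneg (le_min (Nat.cast_nonneg _) (Nat.cast_nonneg _))
        (Nat.cast_nonneg _)) (sq_nonneg _)))
  rcases Sp.eq_empty_or_nonempty with hSp | hSp
  · subst hSp
    simp
  rcases Sm.eq_empty_or_nonempty with hSm | hSm
  · refine le_trans (le_of_eq ?_) hR
    subst hSm
    simp
  have hnp : (0 : ℝ) < (Sp.card : ℝ) := Nat.cast_pos.mpr hSp.card_pos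
  have hnm : (0 : ℝ) < (Sm.card : ℝ) := Nat.cast_pos.mpr hSm.card_pos
  have hmin0 : (0 : ℝ) ≤ min (Sm.card : ℝ) (Sp.card : ℝ) := le_min hnm.le hnp.le
  have J1 := UCpl.mean_diff_sq h0 h1 h2 hSp (fun x => g (ρp x)) (fun y => g (ρm y))
  have J2 : ∑ x ∈ Sp, ∑ y ∈ Sm, κ x y * (g (ρm y) - g (ρp x)) ^ 2
      ≤ ∑ x ∈ Sp, ∑ j ∈ J, (g (μ (ρp x) j) - g (ρp x)) ^ 2
          * ∑ y ∈ Sm.filter (fun y => ρm y = μ (ρp x) j), κ x y := by
    apply Finset.sum_le_sum
    intro x hx
    have hpt : ∀ y ∈ Sm, κ x y * (g (ρm y) - g (ρp x)) ^ 2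
        ≤ ∑ j ∈ J, (if ρm y = μ (ρp x) j
            then (g (μ (ρp x) j) - g (ρp x)) ^ 2 * κ x y else 0) := by
      intro y hy
      have hnn : ∀ j ∈ J, 0 ≤ (if ρm y = μ (ρp x) j
            then (g (μ (ρp x) j) - g (ρp x)) ^ 2 * κ x y else 0) := by
        intro j _
        split_ifs
        · exact mul_nonneg (sq_nonneg _) (h0 x y)
        · exact le_rfl
      by_cases hk : κ x y = 0
      · refine le_trans (le_of_eq ?_) (Finset.sum_nonneg hnn)
        rw [hk, zero_mul]
      · obtain ⟨j, hj, hjeq⟩ := hsupp x hx y hy hk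
        refine le_trans (le_of_eq ?_) (Finset.single_le_sum hnn hj)
        rw [if_pos hjeq, hjeq, mul_comm]
    calc ∑ y ∈ Sm, κ x y * (g (ρm y) - g (ρp x)) ^ 2
        ≤ ∑ y ∈ Sm, ∑ j ∈ J, (if ρm y = μ (ρp x) j
            then (g (μ (ρp x) j) - g (ρp x)) ^ 2 * κ x y else 0) := Finset.sum_le_sum hpt
      _ = ∑ j ∈ J, ∑ y ∈ Sm, (if ρm y = μ (ρp x) j
            then (g (μ (ρp x) j) - g (ρp x)) ^ 2 * κ x y else 0) := Finset.sum_comm
      _ = ∑ j ∈ J, (g (μ (ρp x) j) - g (ρp x)) ^ 2
            * ∑ y ∈ Sm.filter (fun y => ρm y = μ (ρp x) j), κ x y := by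
          apply Finset.sum_congr rfl
          intro j _
          rw [← Finset.sum_filter, Finset.mul_sum]
  have J3 : ∀ j ∈ J, ∑ x ∈ Sp, (g (μ (ρp x) j) - g (ρp x)) ^ 2
        * (min (Sm.card : ℝ) (Sp.card : ℝ)
            * ∑ y ∈ Sm.filter (fun y => ρm y = μ (ρp x) j), κ x y)
      ≤ ∑ x ∈ Sp, min (((Sp.filter (fun a => ρp a = ρp x)).card : ℝ))
              (((Sm.filter (fun b => ρm b = μ (ρp x) j)).card : ℝ))
            / ((Sp.filter (fun a => ρp a = ρp x)).card : ℝ)
            * (g (μ (ρp x) j) - g (ρp x)) ^ 2 := by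
    intro j _
    refine fiberwise_le Sp ρp
      (fun x => min (Sm.card : ℝ) (Sp.card : ℝ)
            * ∑ y ∈ Sm.filter (fun y => ρm y = μ (ρp x) j), κ x y)
      (fun b => min (((Sp.filter (fun a => ρp a = b)).card : ℝ))
              (((Sm.filter (fun y => ρm y = μ b j)).card : ℝ)))
      (fun b => (g (μ b j) - g b) ^ 2) (fun b => sq_nonneg _) ?_
    intro x₀ hx₀
    have e : ∑ x ∈ Sp.filter (fun x => ρp x = ρp x₀), min (Sm.card : ℝ) (Sp.card : ℝ)
          * ∑ y ∈ Sm.filter (fun y => ρm y = μ (ρp x) j), κ x y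
        = min (Sm.card : ℝ) (Sp.card : ℝ) * ∑ x ∈ Sp.filter (fun x => ρp x = ρp x₀),
            ∑ y ∈ Sm.filter (fun y => ρm y = μ (ρp x₀) j), κ x y := by
      rw [Finset.mul_sum]
      apply Finset.sum_congr rfl
      intro x hx
      rw [(Finset.mem_filter.mp hx).2]
    rw [e]
    have hK0 : 0 ≤ ∑ x ∈ Sp.filter (fun x => ρp x = ρp x₀),
            ∑ y ∈ Sm.filter (fun y => ρm y = μ (ρp x₀) j), κ x y :=
      Finset.sum_nonneg (fun x _ => Finset.sum_nonneg (fun y _ => h0 x y))
    have ha : ∑ x ∈ Sp.filter (fun x => ρp x = ρp x₀),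
            ∑ y ∈ Sm.filter (fun y => ρm y = μ (ρp x₀) j), κ x y
        ≤ ((Sp.filter (fun a => ρp a = ρp x₀)).card : ℝ) / (Sp.card : ℝ) := by
      have : ∀ x ∈ Sp.filter (fun x => ρp x = ρp x₀),
          ∑ y ∈ Sm.filter (fun y => ρm y = μ (ρp x₀) j), κ x y ≤ 1 / (Sp.card : ℝ) := by
        intro x hx
        rw [← h1 x (Finset.mem_filter.mp hx).1]
        exact Finset.sum_le_sum_of_subset_of_nonneg (Finset.filter_subset _ _)
          (fun y _ _ => h0 x y)
      refine le_trans (Finset.sum_le_sum this) (le_of_eq ?_)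
      rw [Finset.sum_const, nsmul_eq_mul]
      ring
    have hb : ∑ x ∈ Sp.filter (fun x => ρp x = ρp x₀),
            ∑ y ∈ Sm.filter (fun y => ρm y = μ (ρp x₀) j), κ x y
        ≤ ((Sm.filter (fun y => ρm y = μ (ρp x₀) j)).card : ℝ) / (Sm.card : ℝ) := by
      rw [Finset.sum_comm]
      have : ∀ y ∈ Sm.filter (fun y => ρm y = μ (ρp x₀) j),
          ∑ x ∈ Sp.filter (fun x => ρp x = ρp x₀), κ x y ≤ 1 / (Sm.card : ℝ) := by
        intro y hy
        rw [← h2 y (Finset.mem_filter.mp hy).1]
        exact Finset.sum_le_sum_of_subset_of_nonneg (Finset.filter_subset _ _)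
          (fun x _ _ => h0 x y)
      refine le_trans (Finset.sum_le_sum this) (le_of_eq ?_)
      rw [Finset.sum_const, nsmul_eq_mul]
      ring
    apply le_min
    · calc min (Sm.card : ℝ) (Sp.card : ℝ) * ∑ x ∈ Sp.filter (fun x => ρp x = ρp x₀),
              ∑ y ∈ Sm.filter (fun y => ρm y = μ (ρp x₀) j), κ x y
          ≤ (Sp.card : ℝ) * (((Sp.filter (fun a => ρp a = ρp x₀)).card : ℝ) / (Sp.card : ℝ)) :=
            mul_le_mul (min_le_right _ _) ha hK0 hnp.le
        _ = ((Sp.filter (fun a => ρp a = ρp x₀)).card : ℝ) := by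
            field_simp
    · calc min (Sm.card : ℝ) (Sp.card : ℝ) * ∑ x ∈ Sp.filter (fun x => ρp x = ρp x₀),
              ∑ y ∈ Sm.filter (fun y => ρm y = μ (ρp x₀) j), κ x y
          ≤ (Sm.card : ℝ)
              * (((Sm.filter (fun y => ρm y = μ (ρp x₀) j)).card : ℝ) / (Sm.card : ℝ)) :=
            mul_le_mul (min_le_left _ _) hb hK0 hnm.le
        _ = ((Sm.filter (fun y => ρm y = μ (ρp x₀) j)).card : ℝ) := by
            field_simp
  calc min (Sm.card : ℝ) (Sp.card : ℝ)
        * ((∑ y ∈ Sm, g (ρm y)) / (Sm.card : ℝ) - (∑ x ∈ Sp, g (ρp x)) / (Sp.card : ℝ)) ^ 2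
      ≤ min (Sm.card : ℝ) (Sp.card : ℝ)
          * ∑ x ∈ Sp, ∑ j ∈ J, (g (μ (ρp x) j) - g (ρp x)) ^ 2
            * ∑ y ∈ Sm.filter (fun y => ρm y = μ (ρp x) j), κ x y :=
        mul_le_mul_of_nonneg_left (le_trans J1 J2) hmin0
    _ = ∑ j ∈ J, ∑ x ∈ Sp, (g (μ (ρp x) j) - g (ρp x)) ^ 2
          * (min (Sm.card : ℝ) (Sp.card : ℝ)
              * ∑ y ∈ Sm.filter (fun y => ρm y = μ (ρp x) j), κ x y) := by
        rw [Finset.mul_sum]
        conv_rhs => rw [Finset.sum_comm]
        apply Finset.sum_congr rfl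
        intro x _
        rw [Finset.mul_sum]
        apply Finset.sum_congr rfl
        intro j _
        ring
    _ ≤ ∑ j ∈ J, ∑ x ∈ Sp, min (((Sp.filter (fun a => ρp a = ρp x)).card : ℝ))
              (((Sm.filter (fun b => ρm b = μ (ρp x) j)).card : ℝ))
            / ((Sp.filter (fun a => ρp a = ρp x)).card : ℝ)
            * (g (μ (ρp x) j) - g (ρp x)) ^ 2 := Finset.sum_le_sum J3
    _ = ∑ x ∈ Sp, ∑ j ∈ J,
          min (((Sp.filter (fun a => ρp a = ρp x)).card : ℝ))
              (((Sm.filter (fun b => ρm b = μ (ρp x) j)).card : ℝ))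
            / ((Sp.filter (fun a => ρp a = ρp x)).card : ℝ)
            * (g (μ (ρp x) j) - g (ρp x)) ^ 2 := Finset.sum_comm

/-! ### The coupling of two adjacent slices -/

omit [Fintype R] [Fintype C] in
theorem chi_inl_same (m : R) (j : C) : chi (m, j) (Sum.inl m) = 1 := by
  unfold chi
  simp

omit [Fintype R] [Fintype C] in
theorem chi_inl_ne {e : R × C} {m : R} (h : e.1 ≠ m) : chi e (Sum.inl m) = 0 := by
  unfold chi
  simp [Ne.symm h]

/-- Under the star relation at the row `m`, between two classes whose row sums at `m` differ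
by one, the rows `m` differ by one unit in one column. -/
theorem star_rows {E' : Finset (R × C)} {D₁ D₂ : R ⊕ C → ℤ} (m : R) (n : C)
    (hn : (m, n) ∉ E') (hD : D₂ (Sum.inl m) = D₁ (Sum.inl m) + 1)
    {A A' : R × C → ℕ} (hA : A ∈ OmF E' D₁) (hA' : A' ∈ OmF E' D₂)
    (hrel : StarRel (Sum.inl m) A A') :
    ∃ j ∈ starCols E' m, j ≠ n ∧
      rowAt m A' = Function.update (rowAt m A) j (rowAt m A j + 1) := by
  obtain ⟨e₀, hchi, -, hrest⟩ := hrel
  have he₀ : e₀.1 = m := by
    by_contra h
    exact hchi (chi_inl_ne h)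
  obtain ⟨u, j⟩ := e₀
  simp only at he₀
  subst he₀
  have hrest' : ∀ v, v ≠ j → A' (u, v) = A (u, v) := by
    intro v hv
    apply hrest (u, v)
    · rw [chi_inl_same]
      exact one_ne_zero
    · intro h
      exact hv (Prod.mk.inj h).2
  have hsumA := dv_inl A u
  have hsumA' := dv_inl A' u
  rw [(mem_OmF.mp hA).2] at hsumA
  rw [(mem_OmF.mp hA').2] at hsumA'
  rw [← Finset.add_sum_erase Finset.univ _ (Finset.mem_univ j)] at hsumA hsumA'
  have herase : ∑ v ∈ Finset.univ.erase j, (A' (u, v) : ℤ)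
      = ∑ v ∈ Finset.univ.erase j, (A (u, v) : ℤ) := by
    apply Finset.sum_congr rfl
    intro v hv
    rw [hrest' v (Finset.ne_of_mem_erase hv)]
  have hj1 : A' (u, j) = A (u, j) + 1 := by
    have : (A' (u, j) : ℤ) = A (u, j) + 1 := by linarith
    exact_mod_cast this
  have hjn : j ≠ n := by
    intro h
    subst h
    have := (mem_OmF.mp hA').1 (u, j) hn
    omega
  have hjE : (u, j) ∈ E' := by
    by_contra h
    have := (mem_OmF.mp hA').1 (u, j) h
    omega
  refine ⟨j, ?_, hjn, ?_⟩
  · unfold starCols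
    rw [Finset.mem_filter]
    exact ⟨Finset.mem_univ _, hjE⟩
  · funext v
    unfold rowAt
    by_cases hv : v = j
    · subst hv
      rw [Function.update_self, hj1]
    · rw [Function.update_of_ne hv, hrest' v hv]

omit [Fintype C] in
theorem mv_apply_snd (x : C → ℕ) (j k : C) : mv x j k k = x k - 1 := by
  unfold mv
  rw [Function.update_self]

omit [Fintype C] in
theorem mv_apply_other (x : C → ℕ) {j k n : C} (hj : j ≠ n) (hk : k ≠ n) :
    mv x j k n = x n := by
  unfold mv
  rw [Function.update_of_ne (Ne.symm hk), Function.update_of_ne (Ne.symm hj)]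

omit [Fintype C] in
theorem mv_update_comm (x : C → ℕ) {j k n : C} (t : ℕ) (hj : j ≠ n) (hk : k ≠ n) :
    mv (Function.update x n t) j k = Function.update (mv x j k) n t := by
  funext v
  unfold mv
  rw [Function.update_of_ne hj, Function.update_of_ne hk]
  by_cases hvn : v = n
  · subst hvn
    rw [Function.update_self, Function.update_of_ne (Ne.symm hk),
      Function.update_of_ne (Ne.symm hj), Function.update_self]
  · rw [Function.update_of_ne hvn]
    by_cases hvk : v = k
    · subst hvk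
      rw [Function.update_self, Function.update_self]
    · rw [Function.update_of_ne hvk, Function.update_of_ne hvk]
      by_cases hvj : v = j
      · subst hvj
        rw [Function.update_self, Function.update_self]
      · rw [Function.update_of_ne hvj, Function.update_of_ne hvj, Function.update_of_ne hvn]

/-- The energy of the moves between the slice `t` and the slice `t - 1` of the cell `(m, n)`. -/
noncomputable def crossE (E : Finset (R × C)) (D : R ⊕ C → ℤ) (m : R) (n : C)
    (g : (C → ℕ) → ℝ) (t : ℕ) : ℝ :=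
  ∑ A ∈ OmF (E.erase (m, n)) (D - (t : ℤ) • chi (m, n)), ∑ j ∈ starCols (E.erase (m, n)) m,
    min (rowN E D m (Function.update (rowAt m A) n t))
        (rowN E D m (mv (Function.update (rowAt m A) n t) j n))
      / rowN E D m (Function.update (rowAt m A) n t)
      * (g (mv (Function.update (rowAt m A) n t) j n) - g (Function.update (rowAt m A) n t)) ^ 2

theorem crossE_nonneg (E : Finset (R × C)) (D : R ⊕ C → ℤ) (m : R) (n : C)
    (g : (C → ℕ) → ℝ) (t : ℕ) : 0 ≤ crossE E D m n g t := by
  unfold crossE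
  exact Finset.sum_nonneg (fun A _ => Finset.sum_nonneg (fun j _ =>
    mul_nonneg (div_nonneg (le_min (rowN_nonneg _ _ _ _) (rowN_nonneg _ _ _ _))
      (rowN_nonneg _ _ _ _)) (sq_nonneg _)))

/-- The slice means at `s` and `s + 1` are compared through the star coupling. -/
theorem cross_tables (hstar : ∀ E : Finset (R × C), StarCouplingOn E) {E : Finset (R × C)}
    (D : R ⊕ C → ℤ) (m : R) (n : C) (he : (m, n) ∈ E) (s : ℕ) (g : (C → ℕ) → ℝ) :
    min (((OmF (E.erase (m, n)) (D - (s : ℤ) • chi (m, n))).card : ℝ))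
        (((OmF (E.erase (m, n)) (D - ((s + 1 : ℕ) : ℤ) • chi (m, n))).card : ℝ))
      * ((∑ A ∈ OmF (E.erase (m, n)) (D - (s : ℤ) • chi (m, n)),
              g (Function.update (rowAt m A) n s))
            / ((OmF (E.erase (m, n)) (D - (s : ℤ) • chi (m, n))).card : ℝ)
          - (∑ A ∈ OmF (E.erase (m, n)) (D - ((s + 1 : ℕ) : ℤ) • chi (m, n)),
              g (Function.update (rowAt m A) n (s + 1)))
            / ((OmF (E.erase (m, n)) (D - ((s + 1 : ℕ) : ℤ) • chi (m, n))).card : ℝ)) ^ 2
      ≤ crossE E D m n g (s + 1) := by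
  have hR := crossE_nonneg E D m n g (s + 1)
  by_cases hp : cnt (E.erase (m, n)) (D - ((s + 1 : ℕ) : ℤ) • chi (m, n)) = 0
  · refine le_trans (le_of_eq ?_) hR
    have hz : (((OmF (E.erase (m, n)) (D - ((s + 1 : ℕ) : ℤ) • chi (m, n))).card : ℝ)) = 0 := by
      rw [card_OmF, hp]
      simp
    rw [hz, min_eq_right (Nat.cast_nonneg _), zero_mul]
  by_cases hm : cnt (E.erase (m, n)) (D - (s : ℤ) • chi (m, n)) = 0
  · refine le_trans (le_of_eq ?_) hR
    have hz : (((OmF (E.erase (m, n)) (D - (s : ℤ) • chi (m, n))).card : ℝ)) = 0 := by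
      rw [card_OmF, hm]
      simp
    rw [hz, min_eq_left (Nat.cast_nonneg _), zero_mul]
  have hD : D - ((s + 1 : ℕ) : ℤ) • chi (m, n) + Pi.single (Sum.inl m) 1
      - Pi.single (Sum.inr n) 1 = D - (s : ℤ) • chi (m, n) := by
    funext v
    unfold chi
    simp only [Pi.add_apply, Pi.sub_apply, Pi.smul_apply, smul_eq_mul]
    push_cast
    ring
  have hU := hstar (E.erase (m, n)) (D - ((s + 1 : ℕ) : ℤ) • chi (m, n)) (Sum.inl m)
    (Sum.inr n) (by simp) hp (by rw [hD]; exact hm)
  rw [hD] at hU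
  obtain ⟨κ, h0, hrel, h1, h2⟩ := hU
  have hDm : (D - (s : ℤ) • chi (m, n)) (Sum.inl m)
      = (D - ((s + 1 : ℕ) : ℤ) • chi (m, n)) (Sum.inl m) + 1 := by
    simp only [Pi.sub_apply, Pi.smul_apply, smul_eq_mul, chi_inl_same]
    push_cast
    ring
  have hsupp : ∀ A ∈ OmF (E.erase (m, n)) (D - ((s + 1 : ℕ) : ℤ) • chi (m, n)),
      ∀ A' ∈ OmF (E.erase (m, n)) (D - (s : ℤ) • chi (m, n)), κ A A' ≠ 0 →
      ∃ j ∈ starCols (E.erase (m, n)) m,
        Function.update (rowAt m A') n s
          = mv (Function.update (rowAt m A) n (s + 1)) j n := by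
    intro A hA A' hA' hk
    obtain ⟨j, hj, hjn, hrow⟩ := star_rows m n (Finset.notMem_erase _ _) hDm hA hA'
      (hrel A hA A' hA' hk)
    refine ⟨j, hj, ?_⟩
    rw [hrow]
    funext v
    unfold mv
    rw [Function.update_self, Function.update_of_ne hjn]
    by_cases hvn : v = n
    · subst hvn
      rw [Function.update_self, Function.update_self]
      rfl
    · rw [Function.update_of_ne hvn, Function.update_of_ne hvn]
      by_cases hvj : v = j
      · subst hvj
        rw [Function.update_self, Function.update_self]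
      · rw [Function.update_of_ne hvj, Function.update_of_ne hvj, Function.update_of_ne hvn]
  have key := cross_abstract (OmF (E.erase (m, n)) (D - ((s + 1 : ℕ) : ℤ) • chi (m, n)))
    (OmF (E.erase (m, n)) (D - (s : ℤ) • chi (m, n))) κ h0 h1 h2
    (fun A => Function.update (rowAt m A) n (s + 1)) (fun A => Function.update (rowAt m A) n s)
    (starCols (E.erase (m, n)) m) (fun x j => mv x j n) g hsupp
  refine le_trans key (le_of_eq ?_)
  unfold crossE
  apply Finset.sum_congr rfl
  intro A hA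
  apply Finset.sum_congr rfl
  intro j hj
  rw [← rowN_slice D m n he (s + 1) (Function.update (rowAt m A) n (s + 1))
      (Function.update_self ..),
    ← rowN_slice D m n he s (mv (Function.update (rowAt m A) n (s + 1)) j n)
      (by rw [mv_apply_snd, Function.update_self]; rfl)]

/-! ### The energy along the slices -/

omit [Fintype R] in
theorem starCols_erase (E : Finset (R × C)) (m : R) (n : C) :
    starCols (E.erase (m, n)) m = (starCols E m).erase n := by
  ext j
  unfold starCols
  simp only [Finset.mem_filter, Finset.mem_univ, true_and, Finset.mem_erase]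
  constructor
  · rintro ⟨h1, h2⟩
    refine ⟨?_, h2⟩
    intro h
    exact h1 (by rw [h])
  · rintro ⟨h1, h2⟩
    refine ⟨?_, h2⟩
    intro h
    exact h1 (Prod.mk.inj h).2

omit [Fintype R] in
theorem mem_starCols {E : Finset (R × C)} {m : R} {n : C} : n ∈ starCols E m ↔ (m, n) ∈ E := by
  unfold starCols
  simp

/-- The energy of the class dominates the energies of the slices plus the energies of the
moves between adjacent slices. -/
theorem energy_slices {E : Finset (R × C)} (D : R ⊕ C → ℤ) (m : R) (n : C) (he : (m, n) ∈ E)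
    (L : ℕ) (hL : ∀ T ∈ OmF E D, T (m, n) ≤ L) (g : (C → ℕ) → ℝ) :
    ∑ t ∈ range (L + 1),
        (rowEnergy (E.erase (m, n)) (D - (t : ℤ) • chi (m, n)) m
            (fun x => g (Function.update x n t)) + crossE E D m n g t)
      ≤ rowEnergy E D m g := by
  have hR : rowEnergy E D m g
      = ∑ t ∈ range (L + 1), ∑ A ∈ OmF (E.erase (m, n)) (D - (t : ℤ) • chi (m, n)),
          ∑ j ∈ starCols E m, ∑ k ∈ starCols E m,
            if j = k then 0 else
              min (rowN E D m (rowAt m (A + Pi.single (m, n) t)))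
                  (rowN E D m (mv (rowAt m (A + Pi.single (m, n) t)) j k))
                / rowN E D m (rowAt m (A + Pi.single (m, n) t))
                * (g (mv (rowAt m (A + Pi.single (m, n) t)) j k)
                    - g (rowAt m (A + Pi.single (m, n) t))) ^ 2 := by
    unfold rowEnergy
    exact sum_by_slices D he L hL _
  rw [hR]
  apply Finset.sum_le_sum
  intro t _
  unfold rowEnergy crossE
  rw [← Finset.sum_add_distrib]
  apply Finset.sum_le_sum
  intro A hA
  rw [rowAt_lift m n t hA, starCols_erase, ← Finset.sum_add_distrib]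
  have hnJ : n ∈ starCols E m := mem_starCols.mpr he
  have hx0 : rowAt m A n = 0 := slice_zero hA
  refine le_trans (Finset.sum_le_sum (fun j hj => ?_))
    (Finset.sum_le_sum_of_subset_of_nonneg (Finset.erase_subset n _) (fun j _ _ =>
      Finset.sum_nonneg (fun k _ => ?_)))
  · rw [← Finset.add_sum_erase (starCols E m) _ hnJ, add_comm]
    have hjn : j ≠ n := Finset.ne_of_mem_erase hj
    apply add_le_add
    · rw [if_neg hjn]
    · apply le_of_eq
      apply Finset.sum_congr rfl
      intro k hk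
      have hkn : k ≠ n := Finset.ne_of_mem_erase hk
      by_cases hjk : j = k
      · rw [if_pos hjk, if_pos hjk]
      · rw [if_neg hjk, if_neg hjk, mv_update_comm (rowAt m A) t hjn hkn,
          rowN_slice' D m n he t (rowAt m A) hx0,
          rowN_slice' D m n he t (mv (rowAt m A) j k)
            (by rw [mv_apply_other (rowAt m A) hjn hkn]; exact hx0)]
  · split_ifs
    · exact le_rfl
    · exact mul_nonneg (div_nonneg (le_min (rowN_nonneg _ _ _ _) (rowN_nonneg _ _ _ _))
        (rowN_nonneg _ _ _ _)) (sq_nonneg _)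

/-- Decomposition of a sum of squared deviations around the mean of a finite set. -/
theorem sum_sq_sub_const {α : Type*} (I : Finset α) (F : α → ℝ) (c : ℝ) :
    ∑ a ∈ I, (F a - c) ^ 2
      = ∑ a ∈ I, (F a - (∑ b ∈ I, F b) / (I.card : ℝ)) ^ 2
        + (I.card : ℝ) * ((∑ b ∈ I, F b) / (I.card : ℝ) - c) ^ 2 := by
  rcases I.eq_empty_or_nonempty with h | h
  · subst h
    simp
  have hc : (I.card : ℝ) ≠ 0 := Nat.cast_ne_zero.mpr h.card_pos.ne'
  obtain ⟨μ, hμ⟩ : ∃ μ, μ = (∑ b ∈ I, F b) / (I.card : ℝ) := ⟨_, rfl⟩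
  rw [← hμ]
  have e : ∀ a ∈ I, (F a - c) ^ 2
      = (F a - μ) ^ 2 + (2 * (μ - c) * (F a - μ) + (μ - c) ^ 2) := fun a _ => by ring
  have hsum : ∑ b ∈ I, F b = (I.card : ℝ) * μ := by
    rw [hμ]
    field_simp
  rw [Finset.sum_congr rfl e, Finset.sum_add_distrib, Finset.sum_add_distrib, ← Finset.mul_sum,
    Finset.sum_sub_distrib, Finset.sum_const, Finset.sum_const, nsmul_eq_mul, nsmul_eq_mul, hsum]
  ring

/-! ### The one-row inequality -/

theorem one_row_poincare_aux (hstar : ∀ E : Finset (R × C), StarCouplingOn E) (m : R) (L : ℕ) :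
    ∀ (k : ℕ) (E : Finset (R × C)) (D : R ⊕ C → ℤ), (starCols E m).card = k →
      (∀ T ∈ OmF E D, ∀ j, T (m, j) ≤ L) → ∀ g : (C → ℕ) → ℝ,
      ∑ T ∈ OmF E D,
          (g (rowAt m T) - (∑ T' ∈ OmF E D, g (rowAt m T')) / ((OmF E D).card : ℝ)) ^ 2
        ≤ (L : ℝ) ^ 2 * rowEnergy E D m g := by
  intro k
  induction k with
  | zero =>
    intro E D hk hL g
    have hR := rowEnergy_nonneg E D m g
    have hrow : ∀ T ∈ OmF E D, rowAt m T = 0 := by
      intro T hT
      funext j
      have hj : (m, j) ∉ E := by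
        intro h
        have h2 : j ∈ starCols E m := mem_starCols.mpr h
        rw [Finset.card_eq_zero.mp hk] at h2
        exact absurd h2 (Finset.notMem_empty j)
      exact (mem_OmF.mp hT).1 (m, j) hj
    have hz : ∑ T ∈ OmF E D,
        (g (rowAt m T) - (∑ T' ∈ OmF E D, g (rowAt m T')) / ((OmF E D).card : ℝ)) ^ 2 = 0 := by
      apply Finset.sum_eq_zero
      intro T hT
      have hne : ((OmF E D).card : ℝ) ≠ 0 :=
        Nat.cast_ne_zero.mpr (Finset.card_ne_zero.mpr ⟨T, hT⟩)
      have hs : ∑ T' ∈ OmF E D, g (rowAt m T') = ((OmF E D).card : ℝ) * g 0 := by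
        rw [Finset.sum_congr rfl (fun T' hT' => by rw [hrow T' hT']), Finset.sum_const,
          nsmul_eq_mul]
      rw [hs, hrow T hT, mul_div_cancel_left₀ _ hne, sub_self]
      ring
    rw [hz]
    exact mul_nonneg (sq_nonneg _) hR
  | succ k ih =>
    intro E D hk hL g
    rcases (OmF E D).eq_empty_or_nonempty with hemp | hnonemp
    · rw [hemp, Finset.sum_empty]
      exact mul_nonneg (sq_nonneg _) (rowEnergy_nonneg E D m g)
    have hne : (starCols E m).Nonempty := Finset.card_pos.mp (by omega)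
    obtain ⟨n, hn⟩ := hne
    have he : (m, n) ∈ E := mem_starCols.mp hn
    have hLn : ∀ T ∈ OmF E D, T (m, n) ≤ L := fun T hT => hL T hT n
    -- notation
    obtain ⟨Gbar, hGbar⟩ : ∃ Gbar, Gbar = (∑ T' ∈ OmF E D, g (rowAt m T')) / ((OmF E D).card : ℝ) :=
      ⟨_, rfl⟩
    rw [← hGbar]
    obtain ⟨nt, hnt⟩ : ∃ nt : ℕ → ℝ, nt = fun t : ℕ =>
        (((OmF (E.erase (m, n)) (D - (t : ℤ) • chi (m, n))).card : ℝ)) := ⟨_, rfl⟩
    obtain ⟨ht, hht⟩ : ∃ ht : ℕ → ℝ, ht = fun t : ℕ =>
        (∑ A ∈ OmF (E.erase (m, n)) (D - (t : ℤ) • chi (m, n)),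
          g (Function.update (rowAt m A) n t)) / nt t := ⟨_, rfl⟩
    -- (1), (2): decomposition along the slices
    have hV : ∑ T ∈ OmF E D, (g (rowAt m T) - Gbar) ^ 2
        = ∑ t ∈ range (L + 1),
            (∑ A ∈ OmF (E.erase (m, n)) (D - (t : ℤ) • chi (m, n)),
                (g (Function.update (rowAt m A) n t) - ht t) ^ 2
              + nt t * (ht t - Gbar) ^ 2) := by
      rw [sum_by_slices D he L hLn (fun T => (g (rowAt m T) - Gbar) ^ 2)]
      apply Finset.sum_congr rfl
      intro t _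
      have e1 : ∑ A ∈ OmF (E.erase (m, n)) (D - (t : ℤ) • chi (m, n)),
            (g (rowAt m (A + Pi.single (m, n) t)) - Gbar) ^ 2
          = ∑ A ∈ OmF (E.erase (m, n)) (D - (t : ℤ) • chi (m, n)),
            (g (Function.update (rowAt m A) n t) - Gbar) ^ 2 := by
        apply Finset.sum_congr rfl
        intro A hA
        rw [rowAt_lift m n t hA]
      rw [e1, sum_sq_sub_const (OmF (E.erase (m, n)) (D - (t : ℤ) • chi (m, n)))
        (fun A => g (Function.update (rowAt m A) n t)) Gbar, hht, hnt]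
    -- (3): the slices, by induction
    have hk' : (starCols (E.erase (m, n)) m).card = k := by
      rw [starCols_erase, Finset.card_erase_of_mem hn, hk]
      rfl
    have hIH : ∀ t ∈ range (L + 1),
        ∑ A ∈ OmF (E.erase (m, n)) (D - (t : ℤ) • chi (m, n)),
            (g (Function.update (rowAt m A) n t) - ht t) ^ 2
          ≤ (L : ℝ) ^ 2 * rowEnergy (E.erase (m, n)) (D - (t : ℤ) • chi (m, n)) m
              (fun x => g (Function.update x n t)) := by
      intro t _
      have hL' : ∀ A ∈ OmF (E.erase (m, n)) (D - (t : ℤ) • chi (m, n)), ∀ j, A (m, j) ≤ L := by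
        intro A hA j
        have h1 := hL _ (slice_lift he hA) j
        rw [Pi.add_apply] at h1
        omega
      have h := ih (E.erase (m, n)) (D - (t : ℤ) • chi (m, n)) hk' hL'
        (fun x => g (Function.update x n t))
      rw [hht, hnt]
      exact h
    -- (4): the slice means, one-dimensional inequality
    have hnt0 : ∀ t, 0 ≤ nt t := by
      intro t
      rw [hnt]
      exact Nat.cast_nonneg _
    have hmid : ∀ s t, s ≤ t → t ≤ L → nt s * nt t ≤ nt ((s + t) / 2) * nt ((s + t + 1) / 2) := by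
      intro s t _ _
      have h := fiber_mid (E.erase (m, n)) (m, n) D s t
      unfold fib at h
      rw [hnt]
      simp only [card_OmF]
      exact_mod_cast h
    have hcard : ((OmF E D).card : ℝ) = ∑ t ∈ range (L + 1), nt t := by
      have h := sum_by_slices D he L hLn (fun _ => (1 : ℝ))
      rw [Finset.sum_const, nsmul_eq_mul, mul_one] at h
      rw [h, hnt]
      apply Finset.sum_congr rfl
      intro t _
      rw [Finset.sum_const, nsmul_eq_mul, mul_one]
    have hsumG : ∑ T' ∈ OmF E D, g (rowAt m T') = ∑ t ∈ range (L + 1), nt t * ht t := by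
      rw [sum_by_slices D he L hLn (fun T => g (rowAt m T))]
      apply Finset.sum_congr rfl
      intro t _
      have e1 : ∑ A ∈ OmF (E.erase (m, n)) (D - (t : ℤ) • chi (m, n)),
            g (rowAt m (A + Pi.single (m, n) t))
          = ∑ A ∈ OmF (E.erase (m, n)) (D - (t : ℤ) • chi (m, n)),
            g (Function.update (rowAt m A) n t) := by
        apply Finset.sum_congr rfl
        intro A hA
        rw [rowAt_lift m n t hA]
      rw [e1, hht]
      by_cases h0 : nt t = 0
      · have hemp' : OmF (E.erase (m, n)) (D - (t : ℤ) • chi (m, n)) = ∅ := by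
          rw [hnt] at h0
          have h0' : (((OmF (E.erase (m, n)) (D - (t : ℤ) • chi (m, n))).card : ℝ)) = 0 := h0
          exact Finset.card_eq_zero.mp (by exact_mod_cast h0')
        rw [h0, zero_mul, hemp', Finset.sum_empty]
      · rw [mul_div_cancel₀ _ h0]
    have hW : 0 < ∑ t ∈ range (L + 1), nt t := by
      rw [← hcard]
      exact Nat.cast_pos.mpr hnonemp.card_pos
    have h1d := unimodal_nn_var L nt ht hnt0 hmid hW
    rw [← hsumG, ← hcard, ← hGbar] at h1d
    -- (5): adjacent slices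
    have hcross : ∀ s ∈ range L,
        min (nt s) (nt (s + 1)) * (ht (s + 1) - ht s) ^ 2 ≤ crossE E D m n g (s + 1) := by
      intro s _
      have h := cross_tables hstar D m n he s g
      have e : (ht (s + 1) - ht s) ^ 2 = (ht s - ht (s + 1)) ^ 2 := by ring
      rw [e, hht, hnt]
      exact h
    -- (6): energies
    have hen := energy_slices D m n he L hLn g
    have hcr : ∑ s ∈ range L, crossE E D m n g (s + 1)
        ≤ ∑ t ∈ range (L + 1), crossE E D m n g t := by
      rw [Finset.sum_range_succ' (fun t => crossE E D m n g t) L]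
      linarith [crossE_nonneg E D m n g 0]
    have hL2 : (0 : ℝ) ≤ (L : ℝ) ^ 2 := sq_nonneg _
    calc ∑ T ∈ OmF E D, (g (rowAt m T) - Gbar) ^ 2
        = ∑ t ∈ range (L + 1),
            ∑ A ∈ OmF (E.erase (m, n)) (D - (t : ℤ) • chi (m, n)),
                (g (Function.update (rowAt m A) n t) - ht t) ^ 2
          + ∑ t ∈ range (L + 1), nt t * (ht t - Gbar) ^ 2 := by
          rw [hV, Finset.sum_add_distrib]
      _ ≤ ∑ t ∈ range (L + 1), (L : ℝ) ^ 2
              * rowEnergy (E.erase (m, n)) (D - (t : ℤ) • chi (m, n)) m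
                (fun x => g (Function.update x n t))
          + (L : ℝ) ^ 2 * ∑ s ∈ range L, min (nt s) (nt (s + 1)) * (ht (s + 1) - ht s) ^ 2 :=
          add_le_add (Finset.sum_le_sum hIH) h1d
      _ ≤ ∑ t ∈ range (L + 1), (L : ℝ) ^ 2
              * rowEnergy (E.erase (m, n)) (D - (t : ℤ) • chi (m, n)) m
                (fun x => g (Function.update x n t))
          + (L : ℝ) ^ 2 * ∑ t ∈ range (L + 1), crossE E D m n g t := by
          apply add_le_add le_rfl
          exact mul_le_mul_of_nonneg_left (le_trans (Finset.sum_le_sum hcross) hcr) hL2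
      _ = (L : ℝ) ^ 2 * ∑ t ∈ range (L + 1),
            (rowEnergy (E.erase (m, n)) (D - (t : ℤ) • chi (m, n)) m
                (fun x => g (Function.update x n t)) + crossE E D m n g t) := by
          rw [Finset.sum_add_distrib, mul_add, Finset.mul_sum, Finset.mul_sum]
      _ ≤ (L : ℝ) ^ 2 * rowEnergy E D m g := mul_le_mul_of_nonneg_left hen hL2

/-- **One-row nearest-neighbour Poincare inequality.**  Given the star coupling for every cell
set, for every class `OmF E D`, every row `m` whose entries are at most `L` on the class and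
every function `g` of the row `m`: the sum over the class of the squared deviations of
`g (rowAt m T)` from its mean is at most `L^2` times the nearest-neighbour energy. -/
theorem one_row_poincare (hstar : ∀ E : Finset (R × C), StarCouplingOn E)
    (E : Finset (R × C)) (D : R ⊕ C → ℤ) (m : R) (L : ℕ)
    (hL : ∀ T ∈ OmF E D, ∀ j, T (m, j) ≤ L) (g : (C → ℕ) → ℝ) :
    ∑ T ∈ OmF E D,
        (g (rowAt m T) - (∑ T' ∈ OmF E D, g (rowAt m T')) / ((OmF E D).card : ℝ)) ^ 2
      ≤ (L : ℝ) ^ 2 * rowEnergy E D m g :=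
  one_row_poincare_aux hstar m L _ E D rfl hL g

end Vale.Agent.Lib.P328.AM
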