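import Vale.Agent.Lib.P328.AM.Restrict

/-!
# P328 / all margins: the star coupling at the level of the values on the star

`star E w` is the set of the cells of `E` at the vertex `w`.  From a coupling of the uniform
laws of two classes of tables that is supported on `StarRel w` (the tables differ on the star
of `w` in exactly one cell, by one unit) we extract a coupling of the laws of the values on
the star: `ω σ e` is the probability that the star of the first table (the class `Dlo`, whose
star carries one unit less) is `σ` and the star of the second one is `σ + Pi.single e 1`.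
The law of the star values in `Om E D` is `σ ↦ cnt (E \ star E w) (D - dv σ) / cnt E D`
(see `Restrict.fiberS_ncard`).
-/

namespace Vale.Agent.Lib.P328.AM

open Finset
open Vale.Agent.Lib.P328.Hive

variable {R C : Type*} [Fintype R] [Fintype C] [DecidableEq R] [DecidableEq C]

/-- The cells of `E` at the vertex `w`. -/
def star (E : Finset (R × C)) (w : R ⊕ C) : Finset (R × C) := E.filter (fun e => chi e w ≠ 0)

omit [Fintype R] [Fintype C] in
theorem mem_star {E : Finset (R × C)} {w : R ⊕ C} {e : R × C} :
    e ∈ star E w ↔ e ∈ E ∧ chi e w ≠ 0 := Finset.mem_filter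

omit [Fintype R] [Fintype C] in
theorem star_subset (E : Finset (R × C)) (w : R ⊕ C) : star E w ⊆ E := Finset.filter_subset _ _

theorem dv_apply (T : R × C → ℕ) (w : R ⊕ C) : dv T w = ∑ e, (T e : ℤ) * chi e w := by
  unfold dv
  rw [Finset.sum_apply]
  rfl

/-- If two tables agree on the cells at `w` other than `e`, their margins at `w` differ by the
difference of the values at `e`. -/
theorem dv_diff_of_star {T T' : R × C → ℕ} {w : R ⊕ C} {e : R × C}
    (h : ∀ e', chi e' w ≠ 0 → e' ≠ e → T' e' = T e') :
    dv T' w - dv T w = ((T' e : ℤ) - (T e : ℤ)) * chi e w := by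
  rw [dv_apply, dv_apply, ← Finset.sum_sub_distrib, Finset.sum_eq_single e]
  · ring
  · intro e' _ hne
    by_cases hc : chi e' w = 0
    · rw [hc]
      ring
    · rw [h e' hc hne]
      ring
  · intro h'
    exact absurd (Finset.mem_univ e) h'

/-- Two tables of the classes `Dlo`, `Dhi` that are related by `StarRel w`: the star of the
second one is the star of the first one plus one unit at a cell of the star. -/
theorem res_star_of_rel {E : Finset (R × C)} {w : R ⊕ C} {Dlo Dhi : R ⊕ C → ℤ}
    (hsgn : ∀ e, chi e w ≠ 0 → chi e w * (Dhi w - Dlo w) = 1)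
    {x y : R × C → ℕ} (hx : x ∈ Om E Dlo) (hy : y ∈ Om E Dhi)
    (hrel : StarRel w x y ∨ StarRel w y x) :
    ∃ e ∈ star E w, res (star E w) y = res (star E w) x + Pi.single e 1 := by
  obtain ⟨e, hce, hor, hoth⟩ : ∃ e : R × C, chi e w ≠ 0 ∧ (y e = x e + 1 ∨ x e = y e + 1) ∧
      ∀ e' : R × C, chi e' w ≠ 0 → e' ≠ e → y e' = x e' := by
    rcases hrel with ⟨e, h1, h2, h3⟩ | ⟨e, h1, h2, h3⟩
    · exact ⟨e, h1, h2, h3⟩
    · exact ⟨e, h1, h2.symm, fun e' he' hne => (h3 e' he' hne).symm⟩
  have hd := dv_diff_of_star (T := x) (T' := y) (w := w) (e := e) hoth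
  rw [hx.2, hy.2] at hd
  have hs := hsgn e hce
  have hye : y e = x e + 1 := by
    rcases hor with h | h
    · exact h
    · exfalso
      rw [hd, h] at hs
      push_cast at hs
      nlinarith [sq_nonneg (chi e w)]
  have heE : e ∈ E := by
    by_contra hne
    have := hy.1 e hne
    omega
  have heS : e ∈ star E w := mem_star.mpr ⟨heE, hce⟩
  refine ⟨e, heS, ?_⟩
  funext e'
  rw [Pi.add_apply]
  by_cases he' : e' ∈ star E w
  · rw [res_apply_of_mem y he', res_apply_of_mem x he']
    by_cases hee : e' = e
    · subst hee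
      rw [Pi.single_eq_same, hye]
    · rw [Pi.single_eq_of_ne hee, add_zero]
      exact hoth e' (mem_star.mp he').2 hee
  · rw [res_apply_of_notMem y he', res_apply_of_notMem x he']
    have hee : e' ≠ e := fun h => he' (h ▸ heS)
    rw [Pi.single_eq_of_ne hee]
    rfl

omit [Fintype R] [Fintype C] in
private theorem single_add_inj {σ : R × C → ℕ} {e e2 : R × C}
    (h : σ + Pi.single e 1 = σ + Pi.single e2 1) : e = e2 := by
  by_contra hne
  have h1 := congrFun h e
  rw [Pi.add_apply, Pi.add_apply, Pi.single_eq_same, Pi.single_eq_of_ne hne] at h1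
  omega

omit [Fintype R] [Fintype C] in
private theorem sub_single_add {σ : R × C → ℕ} {e : R × C} (h : σ e ≠ 0) :
    σ - Pi.single e 1 + Pi.single e 1 = σ := by
  funext e'
  rw [Pi.add_apply, Pi.sub_apply]
  by_cases hee : e' = e
  · subst hee
    rw [Pi.single_eq_same]
    omega
  · rw [Pi.single_eq_of_ne hee]
    omega

/-- **The star coupling at the level of the star values.**  `Dhi` is the class whose star at
`w` carries one unit more than the star of the class `Dlo`. -/
theorem star_marginal (E : Finset (R × C)) (w q : R ⊕ C) (Dlo Dhi : R ⊕ C → ℤ)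
    (hcase : (∃ u, w = Sum.inl u ∧ Dhi = Dlo + Pi.single w 1 - Pi.single q 1) ∨
      (∃ a, w = Sum.inr a ∧ Dlo = Dhi + Pi.single w 1 - Pi.single q 1))
    (hA : StarCouplingOn E) (hq : q ≠ w) (hlo : cnt E Dlo ≠ 0) (hhi : cnt E Dhi ≠ 0) :
    ∃ ω : (R × C → ℕ) → (R × C) → ℝ, (∀ σ e, 0 ≤ ω σ e) ∧
      (∀ σ, (∀ e, e ∉ star E w → σ e = 0) →
        ∑ e ∈ star E w, ω σ e
          = (cnt (E \ star E w) (Dlo - dv σ) : ℝ) / (cnt E Dlo : ℝ)) ∧
      (∀ σ, (∀ e, e ∉ star E w → σ e = 0) →
        ∑ e ∈ star E w, (if σ e = 0 then 0 else ω (σ - Pi.single e 1) e)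
          = (cnt (E \ star E w) (Dhi - dv σ) : ℝ) / (cnt E Dhi : ℝ)) := by
  classical
  have hsgn : ∀ e, chi e w ≠ 0 → chi e w * (Dhi w - Dlo w) = 1 := by
    rcases hcase with ⟨u, rfl, hD⟩ | ⟨a, rfl, hD⟩
    · intro e he
      have h1 : Dhi (Sum.inl u) - Dlo (Sum.inl u) = 1 := by
        rw [hD]
        simp [Pi.single_eq_of_ne (Ne.symm hq)]
      have h2 : chi e (Sum.inl u) = 1 := by
        unfold chi at he ⊢
        by_cases hu : u = e.1
        · subst hu
          simp
        · exfalso
          apply he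
          simp [hu]
      rw [h1, h2]
      norm_num
    · intro e he
      have h1 : Dhi (Sum.inr a) - Dlo (Sum.inr a) = -1 := by
        rw [hD]
        simp [Pi.single_eq_of_ne (Ne.symm hq)]
      have h2 : chi e (Sum.inr a) = -1 := by
        unfold chi at he ⊢
        by_cases ha : a = e.2
        · subst ha
          simp
        · exfalso
          apply he
          simp [ha]
      rw [h1, h2]
      norm_num
  obtain ⟨κ, hκ0, hκrel, hκrow, hκcol⟩ : ∃ κ : (R × C → ℕ) → (R × C → ℕ) → ℝ,
      (∀ x y, 0 ≤ κ x y) ∧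
      (∀ x ∈ OmF E Dlo, ∀ y ∈ OmF E Dhi, κ x y ≠ 0 → (StarRel w x y ∨ StarRel w y x)) ∧
      (∀ x ∈ OmF E Dlo, ∑ y ∈ OmF E Dhi, κ x y = 1 / ((OmF E Dlo).card : ℝ)) ∧
      (∀ y ∈ OmF E Dhi, ∑ x ∈ OmF E Dlo, κ x y = 1 / ((OmF E Dhi).card : ℝ)) := by
    rcases hcase with ⟨u, rfl, hD⟩ | ⟨a, rfl, hD⟩
    · have h := hA Dlo (Sum.inl u) q hq hlo (by rw [← hD]; exact hhi)
      rw [← hD] at h
      obtain ⟨κ, h0, h1, h2, h3⟩ := h
      exact ⟨κ, h0, fun x hx y hy hne => Or.inl (h1 x hx y hy hne), h2, h3⟩
    · have h := hA Dhi (Sum.inr a) q hq hhi (by rw [← hD]; exact hlo)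
      rw [← hD] at h
      obtain ⟨κ, h0, h1, h2, h3⟩ := h
      exact ⟨fun x y => κ y x, fun x y => h0 y x,
        fun x hx y hy hne => Or.inr (h1 y hy x hx hne), h3, h2⟩
  have hSE : star E w ⊆ E := star_subset E w
  refine ⟨fun σ e => ∑ x ∈ (OmF E Dlo).filter (fun x => res (star E w) x = σ),
      ∑ y ∈ (OmF E Dhi).filter (fun y => res (star E w) y = σ + Pi.single e 1), κ x y,
    fun σ e => Finset.sum_nonneg (fun x _ => Finset.sum_nonneg (fun y _ => hκ0 x y)), ?_, ?_⟩
  · intro σ hσ
    rw [Finset.sum_comm]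
    have hx : ∀ x ∈ (OmF E Dlo).filter (fun x => res (star E w) x = σ),
        ∑ e ∈ star E w,
          ∑ y ∈ (OmF E Dhi).filter (fun y => res (star E w) y = σ + Pi.single e 1), κ x y
          = 1 / ((OmF E Dlo).card : ℝ) := by
      intro x hx
      rw [Finset.mem_filter] at hx
      rw [← hκrow x hx.1]
      have hf : ∀ e ∈ star E w,
          ∑ y ∈ (OmF E Dhi).filter (fun y => res (star E w) y = σ + Pi.single e 1), κ x y
            = ∑ y ∈ OmF E Dhi, if res (star E w) y = σ + Pi.single e 1 then κ x y else 0 :=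
        fun e _ => Finset.sum_filter _ _
      rw [Finset.sum_congr rfl hf, Finset.sum_comm]
      refine Finset.sum_congr rfl (fun y hy => ?_)
      by_cases h0 : κ x y = 0
      · simp [h0]
      · obtain ⟨e, heS, he⟩ := res_star_of_rel hsgn (mem_OmF.mp hx.1) (mem_OmF.mp hy)
          (hκrel x hx.1 y hy h0)
        rw [Finset.sum_eq_single_of_mem e heS]
        · rw [if_pos (by rw [he, hx.2])]
        · intro e2 _ hne
          rw [if_neg]
          intro h2
          rw [he, hx.2] at h2
          exact hne (single_add_inj h2).symm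
    rw [Finset.sum_congr rfl hx, Finset.sum_const, nsmul_eq_mul,
      card_OmF_filter_res hSE Dlo hσ, card_OmF]
    ring
  · intro σ hσ
    have hy : ∀ y ∈ (OmF E Dhi).filter (fun y => res (star E w) y = σ),
        ∑ e ∈ star E w, (if σ e = 0 then 0 else
          ∑ x ∈ (OmF E Dlo).filter (fun x => res (star E w) x = σ - Pi.single e 1), κ x y)
          = 1 / ((OmF E Dhi).card : ℝ) := by
      intro y hy
      rw [Finset.mem_filter] at hy
      rw [← hκcol y hy.1]
      have hf : ∀ e ∈ star E w, (if σ e = 0 then 0 else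
          ∑ x ∈ (OmF E Dlo).filter (fun x => res (star E w) x = σ - Pi.single e 1), κ x y)
            = ∑ x ∈ OmF E Dlo,
              if σ e ≠ 0 ∧ res (star E w) x = σ - Pi.single e 1 then κ x y else 0 := by
        intro e _
        by_cases h0 : σ e = 0
        · simp [h0]
        · rw [if_neg h0, Finset.sum_filter]
          refine Finset.sum_congr rfl (fun x _ => ?_)
          simp [h0]
      rw [Finset.sum_congr rfl hf, Finset.sum_comm]
      refine Finset.sum_congr rfl (fun x hx => ?_)
      by_cases h0 : κ x y = 0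
      · simp [h0]
      · obtain ⟨e, heS, he⟩ := res_star_of_rel hsgn (mem_OmF.mp hx) (mem_OmF.mp hy.1)
          (hκrel x hx y hy.1 h0)
        rw [hy.2] at he
        have hσe : σ e ≠ 0 := by
          have := congrFun he e
          rw [Pi.add_apply, Pi.single_eq_same] at this
          omega
        have hxe : res (star E w) x = σ - Pi.single e 1 := by
          rw [he]
          funext e'
          rw [Pi.sub_apply, Pi.add_apply]
          omega
        rw [Finset.sum_eq_single_of_mem e heS]
        · rw [if_pos ⟨hσe, hxe⟩]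
        · intro e2 _ hne
          rw [if_neg]
          rintro ⟨h2, h3⟩
          have h4 : σ - Pi.single e 1 + Pi.single e 1 = σ - Pi.single e2 1 + Pi.single e 1 := by
            rw [← hxe, ← h3]
          rw [sub_single_add hσe] at h4
          have h5 := congrFun h4 e2
          rw [Pi.add_apply, Pi.sub_apply, Pi.single_eq_same, Pi.single_eq_of_ne hne] at h5
          omega
    have hswap : ∑ e ∈ star E w, (if σ e = 0 then 0 else
        ∑ x ∈ (OmF E Dlo).filter (fun x => res (star E w) x = σ - Pi.single e 1),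
          ∑ y ∈ (OmF E Dhi).filter
            (fun y => res (star E w) y = σ - Pi.single e 1 + Pi.single e 1), κ x y)
        = ∑ y ∈ (OmF E Dhi).filter (fun y => res (star E w) y = σ),
          ∑ e ∈ star E w, (if σ e = 0 then 0 else
            ∑ x ∈ (OmF E Dlo).filter (fun x => res (star E w) x = σ - Pi.single e 1),
              κ x y) := by
      rw [Finset.sum_comm]
      refine Finset.sum_congr rfl (fun e _ => ?_)
      by_cases h0 : σ e = 0
      · simp [h0]
      · rw [if_neg h0, sub_single_add h0, Finset.sum_comm]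
        refine Finset.sum_congr rfl (fun y _ => ?_)
        rw [if_neg h0]
    rw [hswap, Finset.sum_congr rfl hy, Finset.sum_const, nsmul_eq_mul,
      card_OmF_filter_res hSE Dhi hσ, card_OmF]
    ring

end Vale.Agent.Lib.P328.AM
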