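import Vale.Agent.Lib.P328.AM.StarCoupling
import Vale.Agent.Lib.P328.AM.StarMarg
import Vale.Agent.Lib.P328.AM.PeelDefs

/-!
# P328 / all margins: the slice step of the one-row Poincare inequality

`rowOf m T` is the row `m` of a table and `rowCnt E D m x` the number of tables of `OmF E D` with
row `m` equal to `x` (both from `AM/PeelDefs`).  `slice_step`: if the class `X'` has one unit more than the class `X` in
the row `m` (and the other change of the margins is at any other vertex `q`), then for all
functions `G`, `G'` of the row `m`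

`min |X| |X'| * (mean_{X'} G' - mean_X G)^2
   ≤ ∑_x ∑_k min (rowCnt X x) (rowCnt X' (x + e_k)) * (G' (x + e_k) - G x)^2`,

`x` over the rows `m` of the tables of `X`.  Proof: the star coupling at the row `m`, Jensen, and
grouping the coupling weights by the two rows.
-/

namespace Vale.Agent.Lib.P328.AM

open Finset Vale.Agent.Lib.P328.Hive

variable {R C : Type*} [Fintype R] [Fintype C] [DecidableEq R] [DecidableEq C]

/-- Two tables related by the star relation at the row `m`, the second with one more unit in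
that row: the second row is the first plus one unit in one column. -/
theorem row_of_starRel {E0 : Finset (R × C)} {X X' : R ⊕ C → ℤ} {m : R}
    (hX' : X' (Sum.inl m) = X (Sum.inl m) + 1) {T T' : R × C → ℕ}
    (hT : T ∈ Om E0 X) (hT' : T' ∈ Om E0 X') (hrel : StarRel (Sum.inl m) T T') :
    ∃ k, rowOf m T' = Function.update (rowOf m T) k (rowOf m T k + 1) := by
  obtain ⟨e, hce, hor, hoth⟩ := hrel
  have he1 : m = e.1 := by
    rw [chi_ne_zero_iff] at hce
    rcases hce with h | h
    · exact Sum.inl.inj h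
    · exact absurd h (by simp)
  have hchi : chi e (Sum.inl m) = 1 := by
    rw [chi_inl, if_pos he1]
  have hd := dv_diff_of_star (T := T) (T' := T') (w := Sum.inl m) (e := e) hoth
  rw [hT.2, hT'.2, hX', hchi] at hd
  have hval : T' e = T e + 1 := by
    rcases hor with h | h
    · exact h
    · exfalso
      rw [h] at hd
      push_cast at hd
      linarith
  refine ⟨e.2, ?_⟩
  funext j
  unfold rowOf
  by_cases hj : j = e.2
  · subst hj
    rw [Function.update_self]
    have : (m, e.2) = e := Prod.ext he1 rfl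
    rw [this]
    exact hval
  · rw [Function.update_of_ne hj]
    apply hoth
    · rw [chi_inl]
      simp
    · intro h
      apply hj
      rw [← h]

/-- The slice step: two classes that differ by one unit in the row `m`. -/
theorem slice_step (E0 : Finset (R × C)) (X : R ⊕ C → ℤ) (m : R) (q : R ⊕ C)
    (hq : q ≠ Sum.inl m) (h1 : cnt E0 X ≠ 0)
    (h2 : cnt E0 (X + Pi.single (Sum.inl m) 1 - Pi.single q 1) ≠ 0)
    (G G' : (C → ℕ) → ℝ) :
    ((min (cnt E0 X) (cnt E0 (X + Pi.single (Sum.inl m) 1 - Pi.single q 1)) : ℕ) : ℝ) *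
      ((∑ T' ∈ OmF E0 (X + Pi.single (Sum.inl m) 1 - Pi.single q 1), G' (rowOf m T')) /
          ((OmF E0 (X + Pi.single (Sum.inl m) 1 - Pi.single q 1)).card : ℝ) -
        (∑ T ∈ OmF E0 X, G (rowOf m T)) / ((OmF E0 X).card : ℝ)) ^ 2
      ≤ ∑ x ∈ (OmF E0 X).image (rowOf m), ∑ k,
          ((min (rowCnt E0 X m x)
              (rowCnt E0 (X + Pi.single (Sum.inl m) 1 - Pi.single q 1) m
                (Function.update x k (x k + 1))) : ℕ) : ℝ) *
            (G' (Function.update x k (x k + 1)) - G x) ^ 2 := by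
  classical
  set X' : R ⊕ C → ℤ := X + Pi.single (Sum.inl m) 1 - Pi.single q 1 with hX'def
  have hX'm : X' (Sum.inl m) = X (Sum.inl m) + 1 := by
    rw [hX'def]
    simp [Pi.single_eq_of_ne (Ne.symm hq)]
  obtain ⟨κ, h0, hrel, hrow, hcol⟩ := star_coupling' E0 X (Sum.inl m) q hq h1 h2
  rw [← hX'def] at hrel hrow hcol
  set S := OmF E0 X with hS
  set S' := OmF E0 X' with hS'
  have hSne : S.Nonempty := by
    rw [← Finset.card_pos, hS, card_OmF]
    exact Nat.pos_of_ne_zero h1
  have hS'ne : S'.Nonempty := by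
    rw [← Finset.card_pos, hS', card_OmF]
    exact Nat.pos_of_ne_zero h2
  have hcS : (0 : ℝ) < (S.card : ℝ) := by exact_mod_cast hSne.card_pos
  have hcS' : (0 : ℝ) < (S'.card : ℝ) := by exact_mod_cast hS'ne.card_pos
  -- Jensen
  have hJ := UCpl.mean_diff_sq h0 hrow hcol hSne (fun T => G (rowOf m T))
    (fun T' => G' (rowOf m T'))
  -- the grouped weights
  let K : (C → ℕ) → C → ℝ := fun x k =>
    ∑ T ∈ S.filter (fun T => rowOf m T = x),
      ∑ T' ∈ S'.filter (fun T' => rowOf m T' = Function.update x k (x k + 1)), κ T T'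
  have hK0 : ∀ x k, 0 ≤ K x k := fun x k =>
    Finset.sum_nonneg (fun T _ => Finset.sum_nonneg (fun T' _ => h0 T T'))
  -- pointwise: every coupled pair is counted in its group
  have key : ∀ T ∈ S, ∑ T' ∈ S', κ T T' * (G' (rowOf m T') - G (rowOf m T)) ^ 2
      ≤ ∑ k, ∑ T' ∈ S'.filter (fun T' => rowOf m T' =
            Function.update (rowOf m T) k (rowOf m T k + 1)),
          κ T T' * (G' (Function.update (rowOf m T) k (rowOf m T k + 1)) - G (rowOf m T)) ^ 2 := by
    intro T hT
    have hf : ∀ k : C, ∑ T' ∈ S'.filter (fun T' => rowOf m T' =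
            Function.update (rowOf m T) k (rowOf m T k + 1)),
          κ T T' * (G' (Function.update (rowOf m T) k (rowOf m T k + 1)) - G (rowOf m T)) ^ 2
        = ∑ T' ∈ S', if rowOf m T' = Function.update (rowOf m T) k (rowOf m T k + 1) then
            κ T T' * (G' (Function.update (rowOf m T) k (rowOf m T k + 1)) - G (rowOf m T)) ^ 2
            else 0 := fun k => Finset.sum_filter _ _
    rw [Finset.sum_congr rfl (fun k _ => hf k), Finset.sum_comm]
    refine Finset.sum_le_sum (fun T' hT' => ?_)
    have hnn : ∀ k ∈ (Finset.univ : Finset C),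
        0 ≤ (if rowOf m T' = Function.update (rowOf m T) k (rowOf m T k + 1) then
          κ T T' * (G' (Function.update (rowOf m T) k (rowOf m T k + 1)) - G (rowOf m T)) ^ 2
          else 0) := by
      intro k _
      split_ifs
      · exact mul_nonneg (h0 T T') (sq_nonneg _)
      · exact le_refl 0
    by_cases hκ : κ T T' = 0
    · exact le_trans (le_of_eq (by rw [hκ, zero_mul])) (Finset.sum_nonneg hnn)
    · obtain ⟨k0, hk0⟩ := row_of_starRel hX'm (mem_OmF.mp hT) (mem_OmF.mp hT')
        (hrel T hT T' hT' hκ)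
      refine le_trans (le_of_eq ?_) (Finset.single_le_sum hnn (Finset.mem_univ k0))
      rw [if_pos hk0, ← hk0]
  -- regroup by the row of the first table
  have step2 : ∑ T ∈ S, ∑ k, ∑ T' ∈ S'.filter (fun T' => rowOf m T' =
            Function.update (rowOf m T) k (rowOf m T k + 1)),
          κ T T' * (G' (Function.update (rowOf m T) k (rowOf m T k + 1)) - G (rowOf m T)) ^ 2
      = ∑ x ∈ S.image (rowOf m), ∑ k, K x k * (G' (Function.update x k (x k + 1)) - G x) ^ 2 := by
    rw [← Finset.sum_fiberwise_of_maps_to (g := rowOf m) (t := S.image (rowOf m))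
      (fun T hT => Finset.mem_image_of_mem _ hT)]
    refine Finset.sum_congr rfl (fun x _ => ?_)
    have hx : ∀ T ∈ S.filter (fun T => rowOf m T = x), ∑ k, ∑ T' ∈ S'.filter (fun T' =>
            rowOf m T' = Function.update (rowOf m T) k (rowOf m T k + 1)),
          κ T T' * (G' (Function.update (rowOf m T) k (rowOf m T k + 1)) - G (rowOf m T)) ^ 2
        = ∑ k, ∑ T' ∈ S'.filter (fun T' => rowOf m T' = Function.update x k (x k + 1)),
          κ T T' * (G' (Function.update x k (x k + 1)) - G x) ^ 2 := by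
      intro T hT
      rw [(Finset.mem_filter.mp hT).2]
    rw [Finset.sum_congr rfl hx, Finset.sum_comm]
    refine Finset.sum_congr rfl (fun k _ => ?_)
    show _ = (∑ T ∈ S.filter (fun T => rowOf m T = x),
      ∑ T' ∈ S'.filter (fun T' => rowOf m T' = Function.update x k (x k + 1)), κ T T') *
        (G' (Function.update x k (x k + 1)) - G x) ^ 2
    rw [Finset.sum_mul]
    refine Finset.sum_congr rfl (fun T _ => ?_)
    rw [Finset.sum_mul]
  -- the grouped weights are small
  have hKa : ∀ x k, (S.card : ℝ) * K x k ≤ (rowCnt E0 X m x : ℝ) := by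
    intro x k
    have hle : K x k ≤ ∑ T ∈ S.filter (fun T => rowOf m T = x), 1 / (S.card : ℝ) := by
      refine Finset.sum_le_sum (fun T hT => ?_)
      rw [← hrow T (Finset.mem_filter.mp hT).1]
      exact Finset.sum_le_sum_of_subset_of_nonneg (Finset.filter_subset _ _)
        (fun T' _ _ => h0 T T')
    rw [Finset.sum_const, nsmul_eq_mul] at hle
    have : (S.card : ℝ) * K x k ≤ (S.card : ℝ) *
        (((S.filter (fun T => rowOf m T = x)).card : ℝ) * (1 / (S.card : ℝ))) :=
      mul_le_mul_of_nonneg_left hle hcS.le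
    refine le_trans this (le_of_eq ?_)
    unfold rowCnt
    rw [← hS]
    field_simp
  have hKb : ∀ x k, (S'.card : ℝ) * K x k
      ≤ (rowCnt E0 X' m (Function.update x k (x k + 1)) : ℝ) := by
    intro x k
    have hle : K x k ≤ ∑ T' ∈ S'.filter (fun T' => rowOf m T' = Function.update x k (x k + 1)),
        1 / (S'.card : ℝ) := by
      show (∑ T ∈ S.filter (fun T => rowOf m T = x),
        ∑ T' ∈ S'.filter (fun T' => rowOf m T' = Function.update x k (x k + 1)), κ T T') ≤ _
      rw [Finset.sum_comm]
      refine Finset.sum_le_sum (fun T' hT' => ?_)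
      rw [← hcol T' (Finset.mem_filter.mp hT').1]
      exact Finset.sum_le_sum_of_subset_of_nonneg (Finset.filter_subset _ _)
        (fun T _ _ => h0 T T')
    rw [Finset.sum_const, nsmul_eq_mul] at hle
    have : (S'.card : ℝ) * K x k ≤ (S'.card : ℝ) *
        (((S'.filter (fun T' => rowOf m T' = Function.update x k (x k + 1))).card : ℝ) *
          (1 / (S'.card : ℝ))) :=
      mul_le_mul_of_nonneg_left hle hcS'.le
    refine le_trans this (le_of_eq ?_)
    unfold rowCnt
    rw [← hS']
    field_simp
  have hKmin : ∀ x k, ((min (cnt E0 X) (cnt E0 X') : ℕ) : ℝ) * K x k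
      ≤ ((min (rowCnt E0 X m x) (rowCnt E0 X' m (Function.update x k (x k + 1))) : ℕ) : ℝ) := by
    intro x k
    rw [Nat.cast_min, Nat.cast_min, ← card_OmF E0 X, ← card_OmF E0 X']
    refine le_min ?_ ?_
    · exact le_trans (mul_le_mul_of_nonneg_right (min_le_left _ _) (hK0 x k)) (hKa x k)
    · exact le_trans (mul_le_mul_of_nonneg_right (min_le_right _ _) (hK0 x k)) (hKb x k)
  -- assemble
  have hmin0 : (0 : ℝ) ≤ ((min (cnt E0 X) (cnt E0 X') : ℕ) : ℝ) := Nat.cast_nonneg _
  calc ((min (cnt E0 X) (cnt E0 X') : ℕ) : ℝ) *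
        ((∑ T' ∈ S', G' (rowOf m T')) / (S'.card : ℝ) -
          (∑ T ∈ S, G (rowOf m T)) / (S.card : ℝ)) ^ 2
      ≤ ((min (cnt E0 X) (cnt E0 X') : ℕ) : ℝ) *
          ∑ T ∈ S, ∑ T' ∈ S', κ T T' * (G' (rowOf m T') - G (rowOf m T)) ^ 2 :=
        mul_le_mul_of_nonneg_left hJ hmin0
    _ ≤ ((min (cnt E0 X) (cnt E0 X') : ℕ) : ℝ) *
          ∑ x ∈ S.image (rowOf m), ∑ k,
            K x k * (G' (Function.update x k (x k + 1)) - G x) ^ 2 := by
        refine mul_le_mul_of_nonneg_left ?_ hmin0
        rw [← step2]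
        exact Finset.sum_le_sum key
    _ = ∑ x ∈ S.image (rowOf m), ∑ k, (((min (cnt E0 X) (cnt E0 X') : ℕ) : ℝ) * K x k) *
            (G' (Function.update x k (x k + 1)) - G x) ^ 2 := by
        rw [Finset.mul_sum]
        refine Finset.sum_congr rfl (fun x _ => ?_)
        rw [Finset.mul_sum]
        refine Finset.sum_congr rfl (fun k _ => ?_)
        ring
    _ ≤ ∑ x ∈ S.image (rowOf m), ∑ k,
          ((min (rowCnt E0 X m x) (rowCnt E0 X' m (Function.update x k (x k + 1))) : ℕ) : ℝ) *
            (G' (Function.update x k (x k + 1)) - G x) ^ 2 :=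
        Finset.sum_le_sum (fun x _ => Finset.sum_le_sum (fun k _ =>
          mul_le_mul_of_nonneg_right (hKmin x k) (sq_nonneg _)))

end Vale.Agent.Lib.P328.AM
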