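import Vale.Agent.Lib.P328.AM.PDefs

/-!
# P328 (all margins): the coupling of two root-adjacent classes along a column

The uniform laws on the classes `Cl P Q D0 a` and `Cl P Q D0 b` have a coupling in which the
second table has, in the column `a`, exactly one unit more than the first, in one row.
-/

namespace Vale.Agent.Lib.P328.AM

open Finset Vale.Agent.Lib.P328.Hive

variable {R C : Type*} [Fintype R] [Fintype C] [DecidableEq R] [DecidableEq C]

omit [Fintype R] [Fintype C] in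
/-- A cell meets the column vertex `a` exactly when it lies in the column `a`. -/
private lemma cplCol_chi_ne (e : R × C) (a : C) : chi e (Sum.inr a) ≠ 0 ↔ e.2 = a := by
  unfold chi
  rw [Pi.sub_apply, Pi.single_apply, Pi.single_apply, if_neg (by simp)]
  constructor
  · intro h
    by_contra hne
    apply h
    rw [if_neg (fun h' => hne (Sum.inr.inj h').symm), sub_zero]
  · intro h
    rw [if_pos (by rw [h])]
    norm_num

/-- The star coupling at the column `a`, for the classes `Cl P Q D0 a` and `Cl P Q D0 b`. -/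
theorem cpl_col (hstar : ∀ E : Finset (R × C), StarCouplingOn E) (P : Finset R)
    (Q : Finset C) (D0 : R ⊕ C → ℤ) (a b : C) (hab : a ≠ b)
    (hA : (Cl P Q D0 a).Nonempty) (hB : (Cl P Q D0 b).Nonempty) :
    UCpl (Cl P Q D0 a) (Cl P Q D0 b)
      (fun T T' => ∃ u ∈ P, T' (u, a) = T (u, a) + 1 ∧ ∀ v, v ≠ u → T' (v, a) = T (v, a)) := by
  have hD : D0 + Pi.single (Sum.inr b) 1 + Pi.single (Sum.inr a) 1 - Pi.single (Sum.inr b) 1
      = D0 + Pi.single (Sum.inr a) (1 : ℤ) := by abel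
  have hne : (Sum.inr b : R ⊕ C) ≠ Sum.inr a := fun h => hab (Sum.inr.inj h).symm
  have hcB : cnt (P ×ˢ Q) (D0 + Pi.single (Sum.inr b) 1) ≠ 0 := by
    rw [← card_OmF]
    exact hB.card_pos.ne'
  have hcA : cnt (P ×ˢ Q)
      (D0 + Pi.single (Sum.inr b) 1 + Pi.single (Sum.inr a) 1 - Pi.single (Sum.inr b) 1) ≠ 0 := by
    rw [hD, ← card_OmF]
    exact hA.card_pos.ne'
  have h1 := hstar (P ×ˢ Q) (D0 + Pi.single (Sum.inr b) 1) (Sum.inr a) (Sum.inr b) hne hcB hcA
  rw [hD] at h1
  have h2 : UCpl (Cl P Q D0 a) (Cl P Q D0 b) (fun y x => StarRel (Sum.inr a) x y) := h1.symm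
  refine h2.mono ?_
  intro T hT T' hT' hrel
  rw [mem_Cl] at hT hT'
  obtain ⟨e, he, -, hrest⟩ := hrel
  rw [cplCol_chi_ne] at he
  have hrest' : ∀ v, v ≠ e.1 → T' (v, a) = T (v, a) := by
    intro v hv
    refine (hrest (v, a) ((cplCol_chi_ne _ _).mpr rfl) ?_).symm
    intro h
    exact hv (congrArg Prod.fst h)
  have hsT : dv T (Sum.inr a) = D0 (Sum.inr a) + 1 := by
    rw [hT.2]
    simp
  have hsT' : dv T' (Sum.inr a) = D0 (Sum.inr a) := by
    rw [hT'.2]
    simp [hab]
  rw [dv_inr] at hsT hsT'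
  have hsum : ∑ v, (T' (v, a) : ℤ) = ∑ v, (T (v, a) : ℤ) + 1 := by linarith
  have hu : (T' (e.1, a) : ℤ) = (T (e.1, a) : ℤ) + 1 := by
    rw [← Finset.add_sum_erase Finset.univ (fun v => (T' (v, a) : ℤ)) (Finset.mem_univ e.1),
      ← Finset.add_sum_erase Finset.univ (fun v => (T (v, a) : ℤ)) (Finset.mem_univ e.1)] at hsum
    have herase : ∑ v ∈ Finset.univ.erase e.1, (T' (v, a) : ℤ)
        = ∑ v ∈ Finset.univ.erase e.1, (T (v, a) : ℤ) := by
      apply Finset.sum_congr rfl
      intro v hv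
      rw [hrest' v (Finset.ne_of_mem_erase hv)]
    linarith
  have hu' : T' (e.1, a) = T (e.1, a) + 1 := by exact_mod_cast hu
  refine ⟨e.1, ?_, hu', hrest'⟩
  by_contra huP
  have h0 : T' (e.1, a) = 0 :=
    hT'.1 (e.1, a) (fun hmem => huP (Finset.mem_product.mp hmem).1)
  omega

end Vale.Agent.Lib.P328.AM
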