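import Vale.Agent.Lib.P328.AM.PDefs

/-!
# P328 (all margins): the coupling of two column slices along a row

Let `T` be a table of the class `Cl P Q D0 a` and `T'` a table of the class `Cl P Q D0 b`
whose column `a` is that of `T` with one more unit in the row `u`.  The uniform laws on the
tables of the two classes with these columns `a` have a coupling in which the second table
agrees, on the column `a` and on the row `u`, with the first table after one unit of the
row `u` is moved from some column `k ≠ a` to the column `a`.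
-/

namespace Vale.Agent.Lib.P328.AM

open Finset Vale.Agent.Lib.P328.Hive

variable {R C : Type*} [Fintype R] [Fintype C] [DecidableEq R] [DecidableEq C]

/-- Restriction to the complement of `S` is a bijection from the tables on `E` with the values
of `G` on `S` onto the tables on `E \ S` with the remaining margins. -/
private theorem cplRow_bij {E S : Finset (R × C)} (hSE : S ⊆ E) (D : R ⊕ C → ℤ)
    (G : R × C → ℕ) :
    Set.BijOn (res (E \ S))
      (((OmF E D).filter (fun A => res S A = res S G) : Finset (R × C → ℕ)) :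
        Set (R × C → ℕ))
      ((OmF (E \ S) (D - dv (res S G)) : Finset (R × C → ℕ)) : Set (R × C → ℕ)) := by
  have hσ : ∀ e, e ∉ S → res S G e = 0 := fun e he => res_apply_of_notMem G he
  refine ⟨?_, ?_, ?_⟩
  · intro A hA
    rw [Finset.mem_coe, Finset.mem_filter, mem_OmF] at hA
    rw [Finset.mem_coe, mem_OmF]
    have := res_sdiff_mem_Om S hA.1
    rwa [hA.2] at this
  · intro A hA A' hA' h
    rw [Finset.mem_coe, Finset.mem_filter, mem_OmF] at hA hA'
    calc A = res (E \ S) A + res S A := (res_sdiff_add_res hA.1.1).symm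
      _ = res (E \ S) A' + res S A' := by rw [h, hA.2, hA'.2]
      _ = A' := res_sdiff_add_res hA'.1.1
  · intro B hB
    rw [Finset.mem_coe, mem_OmF] at hB
    refine ⟨B + res S G, ?_, res_sdiff_add hB.1 hσ⟩
    rw [Finset.mem_coe, Finset.mem_filter, mem_OmF]
    exact ⟨add_mem_Om hSE hσ hB, res_add (fun e he => hB.1 e
      (fun h => (Finset.mem_sdiff.mp h).2 he)) hσ⟩

/-- The star coupling at the row `u`, for the slices of two classes with prescribed columns
`a`. -/
theorem cpl_row (hstar : ∀ E : Finset (R × C), StarCouplingOn E) (P : Finset R)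
    (Q : Finset C) (D0 : R ⊕ C → ℤ) (a b : C) (ha : a ∈ Q) (hab : a ≠ b) (T T' : R × C → ℕ)
    (hT : T ∈ Cl P Q D0 a) (hT' : T' ∈ Cl P Q D0 b) (u : R) (hu : u ∈ P)
    (h1 : T' (u, a) = T (u, a) + 1) (h2 : ∀ v, v ≠ u → T' (v, a) = T (v, a)) :
    UCpl (ClOn P Q D0 a (colS P a) T) (ClOn P Q D0 b (colS P a) T')
      (fun Z Z' => ∃ k ∈ Q.erase a, 1 ≤ Z (u, k) ∧
        res (frameS P Q a u) Z' = res (frameS P Q a u) (moveUnit Z u k a)) := by
  have _hab := hab
  rw [mem_Cl] at hT hT'
  obtain ⟨E, hE⟩ : ∃ E : Finset (R × C), E = P ×ˢ Q := ⟨_, rfl⟩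
  obtain ⟨S, hS⟩ : ∃ S : Finset (R × C), S = colS P a := ⟨_, rfl⟩
  obtain ⟨Da, hDa⟩ : ∃ Da : R ⊕ C → ℤ, Da = D0 + Pi.single (Sum.inr a) 1 := ⟨_, rfl⟩
  obtain ⟨Db, hDb⟩ : ∃ Db : R ⊕ C → ℤ, Db = D0 + Pi.single (Sum.inr b) 1 := ⟨_, rfl⟩
  have hCa : ClOn P Q D0 a (colS P a) T
      = (OmF E Da).filter (fun A => res S A = res S T) := by
    rw [hE, hDa, hS]
    rfl
  have hCb : ClOn P Q D0 b (colS P a) T'
      = (OmF E Db).filter (fun A => res S A = res S T') := by
    rw [hE, hDb, hS]
    rfl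
  rw [hCa, hCb]
  rw [← hE, ← hDa] at hT
  rw [← hE, ← hDb] at hT'
  have hmemS : ∀ e : R × C, e ∈ S ↔ e.1 ∈ P ∧ e.2 = a := by
    intro e
    rw [hS]
    unfold colS
    rw [Finset.mem_product, Finset.mem_singleton]
  have hSE : S ⊆ E := by
    intro e he
    rw [hE, Finset.mem_product]
    obtain ⟨he1, he2⟩ := (hmemS e).mp he
    exact ⟨he1, he2 ▸ ha⟩
  have huaS : (u, a) ∈ S := (hmemS (u, a)).mpr ⟨hu, rfl⟩
  have hmemES : ∀ e : R × C, e ∈ E \ S ↔ (e.1 ∈ P ∧ e.2 ∈ Q) ∧ e.2 ≠ a := by
    intro e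
    rw [Finset.mem_sdiff, hmemS, hE, Finset.mem_product]
    tauto
  -- the prescribed columns differ by one unit in the cell of the row `u`
  have hσ : res S T' = res S T + Pi.single (u, a) 1 := by
    funext e
    rw [Pi.add_apply]
    by_cases he : e ∈ S
    · rw [res_apply_of_mem T' he, res_apply_of_mem T he]
      have hc : e.2 = a := ((hmemS e).mp he).2
      by_cases hv : e.1 = u
      · have he' : e = (u, a) := Prod.ext hv hc
        rw [he', Pi.single_eq_same, h1]
      · have he' : e = (e.1, a) := Prod.ext rfl hc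
        have hne : e ≠ (u, a) := fun h => hv (congrArg Prod.fst h)
        rw [Pi.single_eq_of_ne hne, add_zero, he']
        exact h2 e.1 hv
    · rw [res_apply_of_notMem T' he, res_apply_of_notMem T he,
        Pi.single_eq_of_ne (fun h : e = (u, a) => he (h ▸ huaS)), add_zero]
  have hdv : dv (res S T') = dv (res S T) + chi (u, a) := by
    rw [hσ, dv_add, dv_single]
    simp
  have hmarg : Db - dv (res S T') + Pi.single (Sum.inl u) 1 - Pi.single (Sum.inr b) 1
      = Da - dv (res S T) := by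
    rw [hdv, hDa, hDb]
    simp only [chi]
    abel
  have hm : res (E \ S) T ∈ Om (E \ S) (Da - dv (res S T)) := res_sdiff_mem_Om S hT
  have hm' : res (E \ S) T' ∈ Om (E \ S) (Db - dv (res S T')) := res_sdiff_mem_Om S hT'
  have hc' : cnt (E \ S) (Db - dv (res S T')) ≠ 0 := by
    rw [← card_OmF]
    exact Finset.card_ne_zero_of_mem (mem_OmF.mpr hm')
  have hc : cnt (E \ S)
      (Db - dv (res S T') + Pi.single (Sum.inl u) 1 - Pi.single (Sum.inr b) 1) ≠ 0 := by
    rw [hmarg, ← card_OmF]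
    exact Finset.card_ne_zero_of_mem (mem_OmF.mpr hm)
  have hcpl0 := hstar (E \ S) (Db - dv (res S T')) (Sum.inl u) (Sum.inr b) (by simp) hc' hc
  rw [hmarg] at hcpl0
  have hcpl := hcpl0.symm
  refine UCpl.transfer (res (E \ S)) (res (E \ S)) (cplRow_bij hSE Da T)
    (cplRow_bij hSE Db T') ?_ hcpl
  intro Z hZ Z' hZ' hrel
  rw [Finset.mem_filter, mem_OmF] at hZ hZ'
  obtain ⟨e, he, hdiff, hsame⟩ := hrel
  have hchi : ∀ e : R × C, chi e (Sum.inl u) ≠ 0 ↔ e.1 = u := by
    intro e
    simp [chi, Pi.single_apply, eq_comm]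
  have hZS : ∀ e ∈ S, Z e = T e := by
    intro e he
    have := congrFun hZ.2 e
    rwa [res_apply_of_mem Z he, res_apply_of_mem T he] at this
  have hZ'S : ∀ e ∈ S, Z' e = T' e := by
    intro e he
    have := congrFun hZ'.2 e
    rwa [res_apply_of_mem Z' he, res_apply_of_mem T' he] at this
  have hρ : ∀ X : R × C → ℕ, (∀ e, e ∉ E → X e = 0) → ∀ v : C, v ≠ a →
      res (E \ S) X (u, v) = X (u, v) := by
    intro X hX v hv
    by_cases hvQ : v ∈ Q
    · exact res_apply_of_mem X ((hmemES (u, v)).mpr ⟨⟨hu, hvQ⟩, hv⟩)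
    · rw [res_apply_of_notMem X (fun h => hvQ ((hmemES (u, v)).mp h).1.2)]
      refine (hX (u, v) (fun h => hvQ ?_)).symm
      rw [hE] at h
      exact (Finset.mem_product.mp h).2
  obtain ⟨eu, k⟩ := e
  obtain rfl : u = eu := ((hchi (eu, k)).mp he).symm
  have hkmem : (u, k) ∈ E \ S := by
    by_contra hn
    rw [res_apply_of_notMem Z hn, res_apply_of_notMem Z' hn] at hdiff
    omega
  have hkQ : k ∈ Q := ((hmemES (u, k)).mp hkmem).1.2
  have hka : k ≠ a := ((hmemES (u, k)).mp hkmem).2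
  rw [res_apply_of_mem Z hkmem, res_apply_of_mem Z' hkmem] at hdiff
  have hagree : ∀ v : C, v ≠ k → v ≠ a → Z (u, v) = Z' (u, v) := by
    intro v hvk hva
    have := hsame (u, v) ((hchi (u, v)).mpr rfl) (fun h => hvk (congrArg Prod.snd h))
    rwa [hρ Z hZ.1.1 v hva, hρ Z' hZ'.1.1 v hva] at this
  have hrowZ : ∑ v, (Z (u, v) : ℤ) = D0 (Sum.inl u) := by
    rw [← dv_inl, hZ.1.2, hDa, Pi.add_apply, Pi.single_eq_of_ne (by simp), add_zero]
  have hrowZ' : ∑ v, (Z' (u, v) : ℤ) = D0 (Sum.inl u) := by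
    rw [← dv_inl, hZ'.1.2, hDb, Pi.add_apply, Pi.single_eq_of_ne (by simp), add_zero]
  have hsum : ∑ v, ((Z (u, v) : ℤ) - (Z' (u, v) : ℤ))
      = ((Z (u, a) : ℤ) - (Z' (u, a) : ℤ)) + ((Z (u, k) : ℤ) - (Z' (u, k) : ℤ)) := by
    refine Fintype.sum_eq_add a k (Ne.symm hka) (fun v hv => ?_)
    rw [hagree v hv.2 hv.1, sub_self]
  rw [Finset.sum_sub_distrib, hrowZ, hrowZ', sub_self] at hsum
  have hZa : Z (u, a) = T (u, a) := hZS _ huaS
  have hZ'a : Z' (u, a) = T (u, a) + 1 := (hZ'S _ huaS).trans h1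
  have hk1 : Z (u, k) = Z' (u, k) + 1 := by
    rw [hZa, hZ'a] at hsum
    push_cast at hsum
    omega
  refine ⟨k, Finset.mem_erase.mpr ⟨hka, hkQ⟩, by omega, ?_⟩
  funext e
  by_cases he : e ∈ frameS P Q a u
  · rw [res_apply_of_mem Z' he, res_apply_of_mem _ he]
    by_cases hea : e = (u, a)
    · rw [hea, moveUnit_apply_b, hZa, hZ'a]
    · by_cases hek : e = (u, k)
      · rw [hek, moveUnit_apply_a Z u hka]
        omega
      · rw [moveUnit_apply_of_ne Z u k a e hek hea]
        unfold frameS at he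
        rw [Finset.mem_union, Finset.mem_product, Finset.mem_product, Finset.mem_singleton,
          Finset.mem_singleton] at he
        rcases he with ⟨hp, hc⟩ | ⟨hr, _⟩
        · have hv : e.1 ≠ u := fun h => hea (Prod.ext h hc)
          have heS : e ∈ S := (hmemS e).mpr ⟨hp, hc⟩
          have he' : e = (e.1, a) := Prod.ext rfl hc
          rw [hZ'S e heS, hZS e heS, he']
          exact h2 e.1 hv
        · have he' : e = (u, e.2) := Prod.ext hr rfl
          have hva : e.2 ≠ a := fun h => hea (Prod.ext hr h)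
          have hvk : e.2 ≠ k := fun h => hek (Prod.ext hr h)
          rw [he']
          exact (hagree e.2 hvk hva).symm
  · rw [res_apply_of_notMem Z' he, res_apply_of_notMem _ he]

end Vale.Agent.Lib.P328.AM
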