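import Vale.Agent.Lib.P328.AM.Defs
import Vale.Agent.Lib.P328.AM.Restrict
import Vale.Agent.Lib.P328.AM.CountMove
import Vale.Agent.Lib.P328.AM.CplGlue

/-!
# P328 (all margins): definitions for the key lemma on root-adjacent classes

`P` is a set of rows, `Q` a set of columns, the cell set is the rectangle `P ×ˢ Q`, and `D0` is
a signed margin vector.  `Cl P Q D0 l` is the class of tables on the rectangle with signed
margins `D0 + single (inr l) 1`, that is, with one unit less in the column `l`.  Moving one unit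
inside a row from the column `l'` to the column `l` maps `Cl P Q D0 l` to `Cl P Q D0 l'`; the
sum of the squared differences of a function `F` over all such moves is `edgeSum P Q D0 F`.
The key lemma `KeyPOn P K` bounds the squared difference of the means of `F` over two classes
by `K / card` times `edgeSum`.
-/

namespace Vale.Agent.Lib.P328.AM

open Finset Vale.Agent.Lib.P328.Hive

/-- The mean of a function over a finite set. -/
noncomputable def avg {α : Type*} (S : Finset α) (F : α → ℝ) : ℝ :=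
  (∑ x ∈ S, F x) / (S.card : ℝ)

variable {R C : Type*} [Fintype R] [Fintype C] [DecidableEq R] [DecidableEq C]

/-- The tables on the rectangle `P ×ˢ Q` with signed margins `D0 + single (inr l) 1`. -/
noncomputable def Cl (P : Finset R) (Q : Finset C) (D0 : R ⊕ C → ℤ) (l : C) :
    Finset (R × C → ℕ) :=
  OmF (P ×ˢ Q) (D0 + Pi.single (Sum.inr l) 1)

/-- The tables of `Cl P Q D0 l` that agree with the table `G` on the cell set `S`. -/
noncomputable def ClOn (P : Finset R) (Q : Finset C) (D0 : R ⊕ C → ℤ) (l : C)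
    (S : Finset (R × C)) (G : R × C → ℕ) : Finset (R × C → ℕ) :=
  (Cl P Q D0 l).filter (fun A => res S A = res S G)

/-- The cells of the column `a`. -/
def colS (P : Finset R) (a : C) : Finset (R × C) := P ×ˢ {a}

/-- The cells of the column `a` and of the row `u`. -/
def frameS (P : Finset R) (Q : Finset C) (a : C) (u : R) : Finset (R × C) :=
  P ×ˢ {a} ∪ {u} ×ˢ Q

/-- The sum of the squared differences of `F` over all moves of one unit inside a row. -/
noncomputable def edgeSum (P : Finset R) (Q : Finset C) (D0 : R ⊕ C → ℤ)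
    (F : (R × C → ℕ) → ℝ) : ℝ :=
  ∑ l ∈ Q, ∑ A ∈ Cl P Q D0 l, ∑ u ∈ P, ∑ l' ∈ Q,
    if l' ≠ l ∧ 1 ≤ A (u, l') then (F (moveUnit A u l' l) - F A) ^ 2 else 0

/-- The squared differences of `F` over the moves of one unit of the table `T` into the
column `a`. -/
noncomputable def hX (P : Finset R) (Q : Finset C) (a : C) (F : (R × C → ℕ) → ℝ)
    (T : R × C → ℕ) : ℝ :=
  ∑ u ∈ P, ∑ k ∈ Q.erase a, if 1 ≤ T (u, k) then (F (moveUnit T u k a) - F T) ^ 2 else 0

/-- The sum of the squared differences of `F` over the moves, inside the rows of `P'` and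
between columns other than `a`, of the tables that agree with `G` on `S`. -/
noncomputable def sliceEdge (P : Finset R) (Q : Finset C) (D0 : R ⊕ C → ℤ) (a : C)
    (P' : Finset R) (S : Finset (R × C)) (G : R × C → ℕ) (F : (R × C → ℕ) → ℝ) : ℝ :=
  ∑ l ∈ Q.erase a, ∑ A ∈ ClOn P Q D0 l S G, ∑ u ∈ P', ∑ l' ∈ Q.erase a,
    if l' ≠ l ∧ 1 ≤ A (u, l') then (F (moveUnit A u l' l) - F A) ^ 2 else 0

/-- The key lemma for the row set `P` (all column sets in the column type `C`) with the
constant `K`. -/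
def KeyPOn (C : Type*) [Fintype C] [DecidableEq C] (P : Finset R) (K : ℝ) : Prop :=
  ∀ (Q : Finset C) (D0 : R ⊕ C → ℤ) (a b : C), a ∈ Q → b ∈ Q → a ≠ b →
    (Cl P Q D0 a).Nonempty → (Cl P Q D0 b).Nonempty → ∀ F : (R × C → ℕ) → ℝ,
      (avg (Cl P Q D0 b) F - avg (Cl P Q D0 a) F) ^ 2
        ≤ K / ((Cl P Q D0 b).card : ℝ) * edgeSum P Q D0 F

theorem mem_Cl {P : Finset R} {Q : Finset C} {D0 : R ⊕ C → ℤ} {l : C} {T : R × C → ℕ} :
    T ∈ Cl P Q D0 l ↔ T ∈ Om (P ×ˢ Q) (D0 + Pi.single (Sum.inr l) 1) := mem_OmF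

theorem mem_ClOn {P : Finset R} {Q : Finset C} {D0 : R ⊕ C → ℤ} {l : C}
    {S : Finset (R × C)} {G T : R × C → ℕ} :
    T ∈ ClOn P Q D0 l S G ↔ T ∈ Cl P Q D0 l ∧ res S T = res S G := by
  unfold ClOn
  exact Finset.mem_filter

theorem self_mem_ClOn {P : Finset R} {Q : Finset C} {D0 : R ⊕ C → ℤ} {l : C}
    (S : Finset (R × C)) {G : R × C → ℕ} (hG : G ∈ Cl P Q D0 l) : G ∈ ClOn P Q D0 l S G :=
  mem_ClOn.mpr ⟨hG, rfl⟩

/-- The class `ClOn` depends on `G` only through its restriction to `S`. -/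
theorem ClOn_congr (P : Finset R) (Q : Finset C) (D0 : R ⊕ C → ℤ) (l : C)
    {S : Finset (R × C)} {G G' : R × C → ℕ} (h : res S G = res S G') :
    ClOn P Q D0 l S G = ClOn P Q D0 l S G' := by
  unfold ClOn
  rw [h]

theorem sliceEdge_congr (P : Finset R) (Q : Finset C) (D0 : R ⊕ C → ℤ) (a : C)
    (P' : Finset R) {S : Finset (R × C)} {G G' : R × C → ℕ} (h : res S G = res S G')
    (F : (R × C → ℕ) → ℝ) :
    sliceEdge P Q D0 a P' S G F = sliceEdge P Q D0 a P' S G' F := by
  unfold sliceEdge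
  refine Finset.sum_congr rfl (fun l _ => ?_)
  rw [ClOn_congr P Q D0 l h]

omit [Fintype R] [Fintype C] in
theorem res_empty (T : R × C → ℕ) : res (∅ : Finset (R × C)) T = 0 := by
  funext e
  exact res_apply_of_notMem T (Finset.notMem_empty e)

theorem ClOn_empty (P : Finset R) (Q : Finset C) (D0 : R ⊕ C → ℤ) (l : C) (G : R × C → ℕ) :
    ClOn P Q D0 l ∅ G = Cl P Q D0 l := by
  unfold ClOn
  refine Finset.filter_true_of_mem (fun A _ => ?_)
  rw [res_empty, res_empty]

omit [Fintype R] [Fintype C] in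
/-- Agreement on a cell set implies agreement on a smaller cell set. -/
theorem res_eq_of_subset {S0 S : Finset (R × C)} (h : S0 ⊆ S) {A G : R × C → ℕ}
    (hAG : res S A = res S G) : res S0 A = res S0 G := by
  funext e
  by_cases he : e ∈ S0
  · have := congrFun hAG e
    rw [res_apply_of_mem A (h he), res_apply_of_mem G (h he)] at this
    rw [res_apply_of_mem A he, res_apply_of_mem G he, this]
  · rw [res_apply_of_notMem A he, res_apply_of_notMem G he]

/-- The tables of `ClOn … S0 G0` that agree with `Z` on a larger cell set `S`. -/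
theorem ClOn_filter (P : Finset R) (Q : Finset C) (D0 : R ⊕ C → ℤ) (l : C)
    {S0 S : Finset (R × C)} (h : S0 ⊆ S) {G0 Z : R × C → ℕ} (hZ : res S0 Z = res S0 G0) :
    (ClOn P Q D0 l S0 G0).filter (fun A => res S A = res S Z) = ClOn P Q D0 l S Z := by
  ext A
  rw [Finset.mem_filter, mem_ClOn, mem_ClOn]
  constructor
  · rintro ⟨⟨h1, -⟩, h2⟩
    exact ⟨h1, h2⟩
  · rintro ⟨h1, h2⟩
    exact ⟨⟨h1, (res_eq_of_subset h h2).trans hZ⟩, h2⟩

theorem avg_congr {α : Type*} {S : Finset α} {F G : α → ℝ} (h : ∀ x ∈ S, F x = G x) :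
    avg S F = avg S G := by
  unfold avg
  rw [Finset.sum_congr rfl h]

theorem avg_const {α : Type*} {S : Finset α} (hS : S.Nonempty) (c : ℝ) :
    avg S (fun _ => c) = c := by
  unfold avg
  have hc : (S.card : ℝ) ≠ 0 := Nat.cast_ne_zero.mpr hS.card_pos.ne'
  rw [Finset.sum_const, nsmul_eq_mul]
  field_simp

theorem avg_mul_left {α : Type*} (S : Finset α) (c : ℝ) (F : α → ℝ) :
    avg S (fun x => c * F x) = c * avg S F := by
  unfold avg
  rw [← Finset.mul_sum, mul_div_assoc]

theorem avg_sub {α : Type*} (S : Finset α) (F G : α → ℝ) :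
    avg S (fun x => F x - G x) = avg S F - avg S G := by
  unfold avg
  rw [Finset.sum_sub_distrib, sub_div]

theorem avg_le_avg {α : Type*} {S : Finset α} {F G : α → ℝ} (h : ∀ x ∈ S, F x ≤ G x) :
    avg S F ≤ avg S G := by
  unfold avg
  exact div_le_div_of_nonneg_right (Finset.sum_le_sum h) (Nat.cast_nonneg _)

theorem avg_nonneg {α : Type*} {S : Finset α} {F : α → ℝ} (h : ∀ x ∈ S, 0 ≤ F x) :
    0 ≤ avg S F := by
  unfold avg
  exact div_nonneg (Finset.sum_nonneg h) (Nat.cast_nonneg _)

/-- Jensen: the square of a mean is at most the mean of the squares. -/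
theorem avg_sq_le {α : Type*} (S : Finset α) (F : α → ℝ) :
    (avg S F) ^ 2 ≤ avg S (fun x => F x ^ 2) := by
  unfold avg
  rcases S.eq_empty_or_nonempty with rfl | hS
  · simp
  have hc : (0 : ℝ) < (S.card : ℝ) := Nat.cast_pos.mpr hS.card_pos
  have h := sq_sum_le_card_mul_sum_sq (s := S) (f := F)
  rw [div_pow, div_le_div_iff₀ (by positivity) hc]
  nlinarith [h]

end Vale.Agent.Lib.P328.AM
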