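import Vale.Agent.Lib.P328.AM.PDefs

/-!
# P328 (all margins): the two parts of the energy

The energy of the moves into the column `a` from the tables of the class of `a`, and the
energy of the moves between columns other than `a`, are disjoint parts of `edgeSum`.
-/

namespace Vale.Agent.Lib.P328.AM

open Finset Vale.Agent.Lib.P328.Hive

variable {R C : Type*} [Fintype R] [Fintype C] [DecidableEq R] [DecidableEq C]

/-- The two parts of the energy are together at most the whole energy. -/
theorem edge_split (P : Finset R) (Q : Finset C) (D0 : R ⊕ C → ℤ) (a : C) (ha : a ∈ Q)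
    (F : (R × C → ℕ) → ℝ) :
    ∑ A ∈ Cl P Q D0 a, hX P Q a F A + sliceEdge P Q D0 a P ∅ 0 F ≤ edgeSum P Q D0 F := by
  unfold edgeSum
  rw [← Finset.add_sum_erase Q _ ha]
  have hnn : ∀ (l : C) (A : R × C → ℕ) (u : R) (l' : C),
      (0 : ℝ) ≤ if l' ≠ l ∧ 1 ≤ A (u, l') then (F (moveUnit A u l' l) - F A) ^ 2 else 0 := by
    intro l A u l'
    split_ifs
    · exact sq_nonneg _
    · exact le_refl _
  refine add_le_add ?_ ?_
  · refine Finset.sum_le_sum (fun A _ => ?_)
    unfold hX
    refine Finset.sum_le_sum (fun u _ => ?_)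
    have hcongr : ∑ k ∈ Q.erase a,
          (if 1 ≤ A (u, k) then (F (moveUnit A u k a) - F A) ^ 2 else 0)
        = ∑ k ∈ Q.erase a,
          (if k ≠ a ∧ 1 ≤ A (u, k) then (F (moveUnit A u k a) - F A) ^ 2 else 0) := by
      refine Finset.sum_congr rfl (fun k hk => ?_)
      have hka : k ≠ a := Finset.ne_of_mem_erase hk
      by_cases h1 : 1 ≤ A (u, k)
      · rw [if_pos h1, if_pos ⟨hka, h1⟩]
      · rw [if_neg h1, if_neg (fun h => h1 h.2)]
    rw [hcongr]
    exact Finset.sum_le_sum_of_subset_of_nonneg (Finset.erase_subset a Q)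
      (fun k _ _ => hnn a A u k)
  · unfold sliceEdge
    refine Finset.sum_le_sum (fun l _ => ?_)
    rw [ClOn_empty]
    refine Finset.sum_le_sum (fun A _ => ?_)
    refine Finset.sum_le_sum (fun u _ => ?_)
    exact Finset.sum_le_sum_of_subset_of_nonneg (Finset.erase_subset a Q)
      (fun k _ _ => hnn l A u k)

end Vale.Agent.Lib.P328.AM
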