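import Vale.Agent.Lib.P328.AM.PDefs

/-!
# P328 (all margins): the key lemma on frame slices, from the key lemma with one row less

The tables of a class `Cl P Q D0 l` (with `l ≠ a`) with prescribed values on the column `a`
and the row `u` correspond to the tables of a class on the rectangle
`(P.erase u) ×ˢ (Q.erase a)`; the key lemma for the row set `P.erase u` gives the key lemma
for these slices, with the moves inside rows other than `u` and between columns other than `a`.
-/

namespace Vale.Agent.Lib.P328.AM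

open Finset Vale.Agent.Lib.P328.Hive

variable {R C : Type*} [Fintype R] [Fintype C] [DecidableEq R] [DecidableEq C]

omit [Fintype R] [Fintype C] in
/-- Moving one unit commutes with adding a table that vanishes on the two cells involved. -/
private theorem moveUnit_add (A σ : R × C → ℕ) (u : R) {a b : C} (hab : a ≠ b)
    (h1 : σ (u, a) = 0) (h2 : σ (u, b) = 0) :
    moveUnit (A + σ) u a b = moveUnit A u a b + σ := by
  funext e
  rw [Pi.add_apply]
  by_cases hea : e = (u, a)
  · subst hea
    rw [moveUnit_apply_a _ u hab, moveUnit_apply_a _ u hab, Pi.add_apply, h1]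
    rfl
  · by_cases heb : e = (u, b)
    · subst heb
      rw [moveUnit_apply_b, moveUnit_apply_b, Pi.add_apply, h2]
    · rw [moveUnit_apply_of_ne _ u a b e hea heb, moveUnit_apply_of_ne _ u a b e hea heb,
        Pi.add_apply]

/-- The key lemma on frame slices. -/
theorem frame_transfer (P : Finset R) (Q : Finset C) (D0 : R ⊕ C → ℤ) (a : C) (ha : a ∈ Q)
    (u : R) (hu : u ∈ P) (K : ℝ) (IH : KeyPOn C (P.erase u) K) (k b : C)
    (hk : k ∈ Q.erase a) (hb : b ∈ Q.erase a) (hkb : k ≠ b) (G : R × C → ℕ)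
    (hZ : (ClOn P Q D0 k (frameS P Q a u) G).Nonempty)
    (hY : (ClOn P Q D0 b (frameS P Q a u) G).Nonempty) (F : (R × C → ℕ) → ℝ) :
    (avg (ClOn P Q D0 b (frameS P Q a u) G) F - avg (ClOn P Q D0 k (frameS P Q a u) G) F) ^ 2
      ≤ K / ((ClOn P Q D0 b (frameS P Q a u) G).card : ℝ)
          * sliceEdge P Q D0 a (P.erase u) (frameS P Q a u) G F := by
  have hSE : frameS P Q a u ⊆ P ×ˢ Q := by
    intro e he
    unfold frameS at he
    rw [Finset.mem_union, Finset.mem_product, Finset.mem_product, Finset.mem_singleton,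
      Finset.mem_singleton] at he
    rw [Finset.mem_product]
    rcases he with ⟨h1, h2⟩ | ⟨h1, h2⟩
    · exact ⟨h1, h2 ▸ ha⟩
    · exact ⟨h1 ▸ hu, h2⟩
  have hσ : ∀ e, e ∉ frameS P Q a u → res (frameS P Q a u) G e = 0 :=
    fun e he => res_apply_of_notMem G he
  have hE : (P ×ˢ Q) \ frameS P Q a u = (P.erase u) ×ˢ (Q.erase a) := by
    ext e
    unfold frameS
    simp only [Finset.mem_sdiff, Finset.mem_product, Finset.mem_union, Finset.mem_singleton,
      Finset.mem_erase]
    tauto
  have hnotS : ∀ u' ∈ P.erase u, ∀ l ∈ Q.erase a, (u', l) ∉ frameS P Q a u := by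
    intro u' hu' l hl hmem
    unfold frameS at hmem
    rw [Finset.mem_union, Finset.mem_product, Finset.mem_product, Finset.mem_singleton,
      Finset.mem_singleton] at hmem
    rcases hmem with ⟨_, h2⟩ | ⟨h1, _⟩
    · exact (Finset.mem_erase.mp hl).1 h2
    · exact (Finset.mem_erase.mp hu').1 h1
  have hsum : ∀ (l : C) (H : (R × C → ℕ) → ℝ),
      ∑ T ∈ ClOn P Q D0 l (frameS P Q a u) G, H T
        = ∑ A ∈ Cl (P.erase u) (Q.erase a) (D0 - dv (res (frameS P Q a u) G)) l,
            H (A + res (frameS P Q a u) G) := by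
    intro l H
    have h := sum_OmF_filter_res hSE (D0 + Pi.single (Sum.inr l) 1) hσ H
    have e : D0 + Pi.single (Sum.inr l) 1 - dv (res (frameS P Q a u) G)
        = D0 - dv (res (frameS P Q a u) G) + Pi.single (Sum.inr l) 1 := by abel
    rw [hE, e] at h
    exact h
  have hcard : ∀ l : C, ((ClOn P Q D0 l (frameS P Q a u) G).card : ℝ)
      = ((Cl (P.erase u) (Q.erase a) (D0 - dv (res (frameS P Q a u) G)) l).card : ℝ) := by
    intro l
    have h := hsum l (fun _ => (1 : ℝ))
    rw [Finset.sum_const, Finset.sum_const, nsmul_eq_mul, nsmul_eq_mul, mul_one, mul_one] at h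
    exact h
  have havg : ∀ l : C, avg (ClOn P Q D0 l (frameS P Q a u) G) F
      = avg (Cl (P.erase u) (Q.erase a) (D0 - dv (res (frameS P Q a u) G)) l)
          (fun A => F (A + res (frameS P Q a u) G)) := by
    intro l
    unfold avg
    rw [hsum l F, hcard l]
  have hne : ∀ l : C, (ClOn P Q D0 l (frameS P Q a u) G).Nonempty →
      (Cl (P.erase u) (Q.erase a) (D0 - dv (res (frameS P Q a u) G)) l).Nonempty := by
    intro l h
    have h1 : (0 : ℝ) < ((ClOn P Q D0 l (frameS P Q a u) G).card : ℝ) :=
      Nat.cast_pos.mpr h.card_pos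
    rw [hcard l] at h1
    exact Finset.card_pos.mp (Nat.cast_pos.mp h1)
  have hedge : edgeSum (P.erase u) (Q.erase a) (D0 - dv (res (frameS P Q a u) G))
      (fun A => F (A + res (frameS P Q a u) G))
        = sliceEdge P Q D0 a (P.erase u) (frameS P Q a u) G F := by
    unfold edgeSum sliceEdge
    refine Finset.sum_congr rfl (fun l hl => ?_)
    rw [hsum l (fun T => ∑ u' ∈ P.erase u, ∑ l' ∈ Q.erase a,
      if l' ≠ l ∧ 1 ≤ T (u', l') then (F (moveUnit T u' l' l) - F T) ^ 2 else 0)]
    refine Finset.sum_congr rfl (fun A _ => ?_)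
    refine Finset.sum_congr rfl (fun u' hu' => ?_)
    refine Finset.sum_congr rfl (fun l' hl' => ?_)
    have h1 : res (frameS P Q a u) G (u', l') = 0 := hσ _ (hnotS u' hu' l' hl')
    have h2 : res (frameS P Q a u) G (u', l) = 0 := hσ _ (hnotS u' hu' l hl)
    rw [Pi.add_apply, h1, add_zero]
    by_cases hc : l' ≠ l ∧ 1 ≤ A (u', l')
    · rw [if_pos hc, if_pos hc, moveUnit_add A _ u' hc.1 h1 h2]
    · rw [if_neg hc, if_neg hc]
  have hmain := IH (Q.erase a) (D0 - dv (res (frameS P Q a u) G)) k b hk hb hkb (hne k hZ)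
    (hne b hY) (fun A => F (A + res (frameS P Q a u) G))
  rw [havg b, havg k, hcard b, ← hedge]
  exact hmain

end Vale.Agent.Lib.P328.AM
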