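import Vale.Agent.Lib.P328.AM.PMove
import Vale.Agent.Lib.P328.AM.PFrame

/-!
# P328 (all margins): the bound for one coupled pair of frame slices

For a table `Z` of the class of `a` and a table `Z'` of the class of `b` that agrees, on the
column `a` and the row `u`, with `Z` after one unit of the row `u` is moved from the column
`k` to the column `a`: the squared difference of the means of `F` over the two frame slices
is bounded by the mean squared difference of `F` along that move and the key lemma with one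
row less.
-/

namespace Vale.Agent.Lib.P328.AM

open Finset Vale.Agent.Lib.P328.Hive

variable {R C : Type*} [Fintype R] [Fintype C] [DecidableEq R] [DecidableEq C]

/-- The slice edge sum is nonnegative. -/
private lemma sliceEdge_nonneg (P : Finset R) (Q : Finset C) (D0 : R ⊕ C → ℤ) (a : C)
    (P' : Finset R) (S : Finset (R × C)) (G : R × C → ℕ) (F : (R × C → ℕ) → ℝ) :
    0 ≤ sliceEdge P Q D0 a P' S G F := by
  unfold sliceEdge
  refine Finset.sum_nonneg (fun l _ => Finset.sum_nonneg (fun A _ =>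
    Finset.sum_nonneg (fun v _ => Finset.sum_nonneg (fun l' _ => ?_))))
  split_ifs
  · exact sq_nonneg _
  · exact le_refl _

/-- The weighted inequality for the square of a sum. -/
private lemma sq_add_le (p x y : ℝ) (hp : 0 < p) :
    (x + y) ^ 2 ≤ (1 + p) * x ^ 2 + (1 + 1 / p) * y ^ 2 := by
  have h1 : 0 ≤ (p * x - y) ^ 2 / p := div_nonneg (sq_nonneg _) hp.le
  have h2 : (1 + p) * x ^ 2 + (1 + 1 / p) * y ^ 2 - (x + y) ^ 2 = (p * x - y) ^ 2 / p := by
    field_simp
    ring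
  linarith

/-- The bound for one coupled pair of frame slices. -/
theorem inner_bound (P : Finset R) (Q : Finset C) (D0 : R ⊕ C → ℤ) (a b : C) (ha : a ∈ Q)
    (hb : b ∈ Q) (hab : a ≠ b) (u : R) (hu : u ∈ P) (K : ℝ) (hK : 0 ≤ K)
    (IH : KeyPOn C (P.erase u) K) (Z Z' : R × C → ℕ) (hZ : Z ∈ Cl P Q D0 a)
    (hZ' : Z' ∈ Cl P Q D0 b) (k : C) (hk : k ∈ Q.erase a) (hZk : 1 ≤ Z (u, k))
    (hfr : res (frameS P Q a u) Z' = res (frameS P Q a u) (moveUnit Z u k a))
    (F : (R × C → ℕ) → ℝ) :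
    (avg (ClOn P Q D0 b (frameS P Q a u) Z') F - avg (ClOn P Q D0 a (frameS P Q a u) Z) F) ^ 2
      ≤ (1 + (P.card : ℝ)) * avg (ClOn P Q D0 a (frameS P Q a u) Z)
            (fun T => (F (moveUnit T u k a) - F T) ^ 2)
        + (1 + 1 / (P.card : ℝ)) * (K / ((ClOn P Q D0 b (frameS P Q a u) Z').card : ℝ)
            * sliceEdge P Q D0 a (P.erase u) (frameS P Q a u) Z' F) := by
  have hka : k ≠ a := (Finset.mem_erase.mp hk).1
  have hp : (0 : ℝ) < (P.card : ℝ) := Nat.cast_pos.mpr (Finset.card_pos.mpr ⟨u, hu⟩)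
  have hmove := move_avg P Q D0 a ha u hu k hk Z hZ hZk F
  have hft := frame_transfer P Q D0 a ha u hu K IH k b hk
    (Finset.mem_erase.mpr ⟨hab.symm, hb⟩)
  obtain ⟨S, hS⟩ : ∃ S, S = frameS P Q a u := ⟨_, rfl⟩
  rw [← hS] at hfr hmove hft ⊢
  have hW : ClOn P Q D0 k S Z' = ClOn P Q D0 k S (moveUnit Z u k a) := ClOn_congr P Q D0 k hfr
  have hx : avg (ClOn P Q D0 k S Z') F - avg (ClOn P Q D0 a S Z) F
      = avg (ClOn P Q D0 a S Z) (fun T => F (moveUnit T u k a) - F T) := by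
    rw [hW, hmove, avg_sub]
  have hx2 : (avg (ClOn P Q D0 k S Z') F - avg (ClOn P Q D0 a S Z) F) ^ 2
      ≤ avg (ClOn P Q D0 a S Z) (fun T => (F (moveUnit T u k a) - F T) ^ 2) := by
    rw [hx]
    exact avg_sq_le _ _
  have hB : 0 ≤ K / ((ClOn P Q D0 b S Z').card : ℝ)
      * sliceEdge P Q D0 a (P.erase u) S Z' F :=
    mul_nonneg (div_nonneg hK (Nat.cast_nonneg _)) (sliceEdge_nonneg _ _ _ _ _ _ _ _)
  have hy2 : (avg (ClOn P Q D0 b S Z') F - avg (ClOn P Q D0 k S Z') F) ^ 2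
      ≤ K / ((ClOn P Q D0 b S Z').card : ℝ) * sliceEdge P Q D0 a (P.erase u) S Z' F := by
    by_cases hkb : k = b
    · subst hkb
      rw [sub_self, zero_pow (two_ne_zero)]
      exact hB
    · have hWne : (ClOn P Q D0 k S Z').Nonempty :=
        ⟨moveUnit Z u k a,
          mem_ClOn.mpr ⟨moveUnit_mem_Cl P Q D0 a ha u k hka Z hZ hZk, hfr.symm⟩⟩
      have hYne : (ClOn P Q D0 b S Z').Nonempty := ⟨Z', self_mem_ClOn S hZ'⟩
      exact hft hkb Z' hWne hYne F
  have hsq := sq_add_le (P.card : ℝ)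
    (avg (ClOn P Q D0 k S Z') F - avg (ClOn P Q D0 a S Z) F)
    (avg (ClOn P Q D0 b S Z') F - avg (ClOn P Q D0 k S Z') F) hp
  have e : avg (ClOn P Q D0 b S Z') F - avg (ClOn P Q D0 a S Z) F
      = (avg (ClOn P Q D0 k S Z') F - avg (ClOn P Q D0 a S Z) F)
        + (avg (ClOn P Q D0 b S Z') F - avg (ClOn P Q D0 k S Z') F) := by ring
  rw [e]
  have h1 : 0 ≤ 1 + (P.card : ℝ) := by positivity
  have h2 : 0 ≤ 1 + 1 / (P.card : ℝ) := by positivity
  have h3 := mul_le_mul_of_nonneg_left hx2 h1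
  have h4 := mul_le_mul_of_nonneg_left hy2 h2
  linarith

end Vale.Agent.Lib.P328.AM
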