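import Vale.Agent.Lib.P328.AM.PDefs

/-!
# P328 (all margins): mixing a transport inequality along a coupling

If the uniform laws on two finite sets `S`, `S'` are coupled, and for every coupled pair
`(x, y)` the squared difference of the means of `F` over the fibres of a statistic `φ`
through `y` and `x` is at most the sum of the fibre means of `h` and `h'`, then the
squared difference of the means of `F` over `S'` and `S` is at most the sum of the means
of `h` and `h'`.
-/

namespace Vale.Agent.Lib.P328.AM

open Finset Vale.Agent.Lib.P328.Hive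

/-- Tower property: summing the fibre means over a finite set gives the sum. -/
private theorem mix_tower {α β : Type*} [DecidableEq β] (T : Finset α) (φ : α → β)
    (G : α → ℝ) :
    ∑ x ∈ T, avg (T.filter (fun z => φ z = φ x)) G = ∑ x ∈ T, G x := by
  have hL := Finset.sum_fiberwise_of_maps_to (g := φ) (t := T.image φ)
    (fun x hx => Finset.mem_image_of_mem φ hx)
    (fun x => avg (T.filter (fun z => φ z = φ x)) G)
  have hR := Finset.sum_fiberwise_of_maps_to (g := φ) (t := T.image φ)
    (fun x hx => Finset.mem_image_of_mem φ hx) G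
  rw [← hL, ← hR]
  refine Finset.sum_congr rfl (fun j _ => ?_)
  have e1 : ∑ x ∈ T with φ x = j, avg (T.filter (fun z => φ z = φ x)) G
      = ∑ x ∈ T with φ x = j, avg (T.filter (fun z => φ z = j)) G := by
    refine Finset.sum_congr rfl (fun x hx => ?_)
    rw [(Finset.mem_filter.mp hx).2]
  rw [e1, Finset.sum_const, nsmul_eq_mul]
  unfold avg
  by_cases hc : ((T.filter (fun z => φ z = j)).card : ℝ) = 0
  · have hempty : T.filter (fun z => φ z = j) = ∅ := by
      rw [← Finset.card_eq_zero]
      exact_mod_cast hc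
    rw [hempty]
    simp
  · field_simp

/-- Mixing along a coupling of the uniform laws on `S` and `S'`. -/
theorem mix_sq {α β : Type*} [DecidableEq β] {S S' : Finset α} {Rel : α → α → Prop}
    (hc : UCpl S S' Rel) (hS : S.Nonempty) (hS' : S'.Nonempty) (φ : α → β) (F h h' : α → ℝ)
    (hpair : ∀ x ∈ S, ∀ y ∈ S', Rel x y →
      (avg (S'.filter (fun z => φ z = φ y)) F - avg (S.filter (fun z => φ z = φ x)) F) ^ 2
        ≤ avg (S.filter (fun z => φ z = φ x)) h + avg (S'.filter (fun z => φ z = φ y)) h') :
    (avg S' F - avg S F) ^ 2 ≤ avg S h + avg S' h' := by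
  obtain ⟨κ, h0, hrel, h1, h2⟩ := hc
  have _hne := hS'
  have hm : (avg S' F - avg S F) ^ 2 ≤ ∑ x ∈ S, ∑ y ∈ S', κ x y *
      (avg (S'.filter (fun z => φ z = φ y)) F
        - avg (S.filter (fun z => φ z = φ x)) F) ^ 2 := by
    have hj := UCpl.mean_diff_sq h0 h1 h2 hS
      (fun x => avg (S.filter (fun z => φ z = φ x)) F)
      (fun y => avg (S'.filter (fun z => φ z = φ y)) F)
    rw [mix_tower S' φ F, mix_tower S φ F] at hj
    exact hj
  have hstep : ∑ x ∈ S, ∑ y ∈ S', κ x y *
      (avg (S'.filter (fun z => φ z = φ y)) F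
        - avg (S.filter (fun z => φ z = φ x)) F) ^ 2
      ≤ ∑ x ∈ S, ∑ y ∈ S', κ x y *
        (avg (S'.filter (fun z => φ z = φ y)) h'
          - -avg (S.filter (fun z => φ z = φ x)) h) := by
    refine Finset.sum_le_sum (fun x hx => Finset.sum_le_sum (fun y hy => ?_))
    by_cases hk : κ x y = 0
    · rw [hk, zero_mul, zero_mul]
    · have hp := hpair x hx y hy (hrel x hx y hy hk)
      refine mul_le_mul_of_nonneg_left ?_ (h0 x y)
      linarith
  have he := UCpl.mean_diff h1 h2 (fun x => -avg (S.filter (fun z => φ z = φ x)) h)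
    (fun y => avg (S'.filter (fun z => φ z = φ y)) h')
  rw [← he, Finset.sum_neg_distrib, mix_tower S' φ h', mix_tower S φ h] at hstep
  have hfin : avg S h + avg S' h'
      = (∑ y ∈ S', h' y) / (S'.card : ℝ) - (-∑ x ∈ S, h x) / (S.card : ℝ) := by
    unfold avg
    ring
  rw [hfin]
  exact hm.trans hstep

end Vale.Agent.Lib.P328.AM
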