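import Vale.Agent.Lib.P328.AM.PDefs

/-!
# P328 (all margins): moving one unit maps a frame slice of one class onto a frame slice of
another class

Moving one unit of the row `u` from the column `k` to the column `a` is a bijection from the
tables of `Cl P Q D0 a` that agree with `Z` on the column `a` and the row `u` onto the tables
of `Cl P Q D0 k` that agree there with the moved table.
-/

namespace Vale.Agent.Lib.P328.AM

open Finset Vale.Agent.Lib.P328.Hive

variable {R C : Type*} [Fintype R] [Fintype C] [DecidableEq R] [DecidableEq C]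

omit [Fintype R] [Fintype C] in
/-- Moving a unit back gives the original table. -/
private theorem moveUnit_moveUnit (T : R × C → ℕ) (u : R) {x y : C} (hxy : x ≠ y)
    (h : 1 ≤ T (u, x)) : moveUnit (moveUnit T u x y) u y x = T := by
  funext e
  by_cases h1 : e = (u, x)
  · subst h1
    rw [moveUnit_apply_b, moveUnit_apply_a T u hxy]
    omega
  · by_cases h2 : e = (u, y)
    · subst h2
      rw [moveUnit_apply_a _ u (Ne.symm hxy), moveUnit_apply_b]
      omega
    · rw [moveUnit_apply_of_ne _ u y x e h2 h1, moveUnit_apply_of_ne T u x y e h1 h2]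

omit [Fintype R] [Fintype C] in
/-- Tables that agree on a cell set containing the two cells of a move still agree there after
the move. -/
private theorem res_moveUnit_congr {S : Finset (R × C)} {T Z : R × C → ℕ} (u : R) (x y : C)
    (h : res S T = res S Z) (hx : (u, x) ∈ S) (hy : (u, y) ∈ S) :
    res S (moveUnit T u x y) = res S (moveUnit Z u x y) := by
  have hTe : ∀ e ∈ S, T e = Z e := by
    intro e he
    have h1 := congrFun h e
    rwa [res_apply_of_mem T he, res_apply_of_mem Z he] at h1
  funext e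
  by_cases he : e ∈ S
  · rw [res_apply_of_mem _ he, res_apply_of_mem _ he]
    unfold moveUnit
    rw [Function.update_apply, Function.update_apply, Function.update_apply,
      Function.update_apply, hTe _ hx, hTe _ hy, hTe e he]
  · rw [res_apply_of_notMem _ he, res_apply_of_notMem _ he]

/-- The moved table lies in the class of the column `k`. -/
theorem moveUnit_mem_Cl (P : Finset R) (Q : Finset C) (D0 : R ⊕ C → ℤ) (a : C) (ha : a ∈ Q)
    (u : R) (k : C) (hka : k ≠ a) (Z : R × C → ℕ) (hZ : Z ∈ Cl P Q D0 a)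
    (hZk : 1 ≤ Z (u, k)) : moveUnit Z u k a ∈ Cl P Q D0 k := by
  rw [mem_Cl]
  have h := moveUnit_mem ha hka (mem_Cl.mp hZ) hZk
  have e : D0 + Pi.single (Sum.inr a) (1 : ℤ) + Pi.single (Sum.inr k) (1 : ℤ)
      - Pi.single (Sum.inr a) (1 : ℤ) = D0 + Pi.single (Sum.inr k) (1 : ℤ) := by
    abel
  rw [e] at h
  exact h

/-- The mean of `F` over the frame slice of the class of `k` through the moved table is the
mean of `F ∘ move` over the frame slice of the class of `a` through `Z`. -/
theorem move_avg (P : Finset R) (Q : Finset C) (D0 : R ⊕ C → ℤ) (a : C) (ha : a ∈ Q) (u : R)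
    (hu : u ∈ P) (k : C) (hk : k ∈ Q.erase a) (Z : R × C → ℕ) (hZ : Z ∈ Cl P Q D0 a)
    (hZk : 1 ≤ Z (u, k)) (F : (R × C → ℕ) → ℝ) :
    avg (ClOn P Q D0 k (frameS P Q a u) (moveUnit Z u k a)) F
      = avg (ClOn P Q D0 a (frameS P Q a u) Z) (fun T => F (moveUnit T u k a)) := by
  -- the membership of `Z` in its class is not needed for the bijection
  have _ := hZ
  have hka : k ≠ a := Finset.ne_of_mem_erase hk
  have hkQ : k ∈ Q := Finset.mem_of_mem_erase hk
  have hfk : (u, k) ∈ frameS P Q a u := by
    unfold frameS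
    exact Finset.mem_union_right _ (Finset.mem_product.mpr ⟨Finset.mem_singleton_self u, hkQ⟩)
  have hfa : (u, a) ∈ frameS P Q a u := by
    unfold frameS
    exact Finset.mem_union_left _ (Finset.mem_product.mpr ⟨hu, Finset.mem_singleton_self a⟩)
  -- values on the frame
  have hval : ∀ {T G : R × C → ℕ}, res (frameS P Q a u) T = res (frameS P Q a u) G →
      ∀ e ∈ frameS P Q a u, T e = G e := by
    intro T G h e he
    have h1 := congrFun h e
    rwa [res_apply_of_mem T he, res_apply_of_mem G he] at h1
  -- the forward map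
  have hi : ∀ T ∈ ClOn P Q D0 a (frameS P Q a u) Z,
      moveUnit T u k a ∈ ClOn P Q D0 k (frameS P Q a u) (moveUnit Z u k a) := by
    intro T hT
    obtain ⟨hT1, hT2⟩ := mem_ClOn.mp hT
    have hTk : 1 ≤ T (u, k) := by
      rw [hval hT2 _ hfk]
      exact hZk
    exact mem_ClOn.mpr ⟨moveUnit_mem_Cl P Q D0 a ha u k hka T hT1 hTk,
      res_moveUnit_congr u k a hT2 hfk hfa⟩
  -- the backward map
  have hback : ∀ T' ∈ ClOn P Q D0 k (frameS P Q a u) (moveUnit Z u k a), 1 ≤ T' (u, a) := by
    intro T' hT'
    obtain ⟨-, hT2⟩ := mem_ClOn.mp hT'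
    rw [hval hT2 _ hfa, moveUnit_apply_b]
    omega
  have hj : ∀ T' ∈ ClOn P Q D0 k (frameS P Q a u) (moveUnit Z u k a),
      moveUnit T' u a k ∈ ClOn P Q D0 a (frameS P Q a u) Z := by
    intro T' hT'
    obtain ⟨hT1, hT2⟩ := mem_ClOn.mp hT'
    refine mem_ClOn.mpr ⟨moveUnit_mem_Cl P Q D0 k hkQ u a (Ne.symm hka) T' hT1
      (hback T' hT'), ?_⟩
    have h1 := res_moveUnit_congr u a k hT2 hfa hfk
    rw [moveUnit_moveUnit Z u hka hZk] at h1
    exact h1
  have hleft : ∀ T ∈ ClOn P Q D0 a (frameS P Q a u) Z,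
      moveUnit (moveUnit T u k a) u a k = T := by
    intro T hT
    obtain ⟨-, hT2⟩ := mem_ClOn.mp hT
    refine moveUnit_moveUnit T u hka ?_
    rw [hval hT2 _ hfk]
    exact hZk
  have hright : ∀ T' ∈ ClOn P Q D0 k (frameS P Q a u) (moveUnit Z u k a),
      moveUnit (moveUnit T' u a k) u k a = T' := fun T' hT' =>
    moveUnit_moveUnit T' u (Ne.symm hka) (hback T' hT')
  unfold avg
  rw [Finset.sum_nbij' (fun T => moveUnit T u k a) (fun T' => moveUnit T' u a k) hi hj hleft
      hright (fun _ _ => rfl),
    Finset.card_nbij' (fun T => moveUnit T u k a) (fun T' => moveUnit T' u a k) hi hj hleft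
      hright]

end Vale.Agent.Lib.P328.AM
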