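import Vale.Agent.Lib.P328.CT.Final

/-!
# P328, all margins: peeling one row off a contingency table

`PCrow K r c` says that the row-pair heat bath on the tables with row sums `r` and column sums
`c` has Poincare constant at most `K` (sums over the tables, no normalisation).  For a row `m`
the variance of `f` splits into the variance inside the classes of tables with the same row `m`
and the variance of the class means (`var_split`), and the first part is controlled by the
Poincare constants of the tables without the row `m` (`peel_inner`).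
-/

namespace Vale.Agent.Lib.P328.AM

open Finset
open scoped Classical
open Vale.Agent.Lib.P328.CT Vale.Agent.Lib.P335.Bip

variable {R C : Type*} [Fintype R] [Fintype C]

/-- The row-pair heat bath on the tables with margins `r`, `c` has Poincare constant at most
`K`: the sum of the squared deviations of `f` from its mean is at most `K` times the sum, over
all pairs `q` of rows and all tables `M`, of the squared deviation of `f M` from the average of
`f` over the tables that agree with `M` outside the two rows of `q`. -/
def PCrow (K : ℝ) (r : R → ℕ) (c : C → ℕ) : Prop :=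
  ∀ f : (R → C → ℕ) → ℝ,
    ∑ M ∈ tables r c, (f M - (∑ N ∈ tables r c, f N) / ((tables r c).card : ℝ)) ^ 2
      ≤ K * ∑ q ∈ (Finset.univ : Finset R).powersetCard 2,
          ∑ M ∈ tables r c, (f M - blockAvg r c q f M) ^ 2

/-- Sums over the state space are sums over the set of tables. -/
theorem sum_tab_coe {r : R → ℕ} {c : C → ℕ} (g : (R → C → ℕ) → ℝ) :
    ∑ x : Tab r c, g x.1 = ∑ M ∈ tables r c, g M :=
  Finset.sum_coe_sort (tables r c) g

/-- The variance around any centre splits into the variance inside the classes and the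
variance of the class means. -/
theorem var_split_gen {r : R → ℕ} {c : C → ℕ} (S : Finset R) (f : (R → C → ℕ) → ℝ) (μ : ℝ) :
    ∑ M ∈ tables r c, (f M - μ) ^ 2
      = ∑ M ∈ tables r c, (f M - blockAvg r c S f M) ^ 2
        + ∑ M ∈ tables r c, (blockAvg r c S f M - μ) ^ 2 := by
  have hr := relOut_equivalence (r := r) (c := c) S
  set F : Tab r c → ℝ := fun y => f y.1 with hF
  have h1 := sum_sub_av_sq hr F
  have h2 := sum_av_sq hr F
  have h3 := sum_av hr F
  have e1 : ∑ M ∈ tables r c, (f M - μ) ^ 2 = ∑ x : Tab r c, (F x - μ) ^ 2 :=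
    (sum_tab_coe (fun M => (f M - μ) ^ 2)).symm
  have e2 : ∑ M ∈ tables r c, (f M - blockAvg r c S f M) ^ 2
      = ∑ x : Tab r c, (F x - av (RelOut S) F x) ^ 2 := (sum_tab_eq S f).symm
  have e3 : ∑ M ∈ tables r c, (blockAvg r c S f M - μ) ^ 2
      = ∑ x : Tab r c, (av (RelOut S) F x - μ) ^ 2 := by
    rw [← sum_tab_coe (fun M => (blockAvg r c S f M - μ) ^ 2)]
    refine Finset.sum_congr rfl (fun x _ => ?_)
    rw [av_relOut_eq_blockAvg S f x]
  rw [e1, e2, e3, h1]
  have e4 : ∑ x : Tab r c, (av (RelOut S) F x - μ) ^ 2
      = ∑ x : Tab r c, av (RelOut S) F x ^ 2 - 2 * μ * ∑ x : Tab r c, av (RelOut S) F x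
        + ∑ x : Tab r c, μ ^ 2 := by
    rw [Finset.mul_sum, ← Finset.sum_sub_distrib, ← Finset.sum_add_distrib]
    exact Finset.sum_congr rfl (fun x _ => by ring)
  have e5 : ∑ x : Tab r c, (F x - μ) ^ 2
      = ∑ x : Tab r c, F x ^ 2 - 2 * μ * ∑ x : Tab r c, F x + ∑ x : Tab r c, μ ^ 2 := by
    rw [Finset.mul_sum, ← Finset.sum_sub_distrib, ← Finset.sum_add_distrib]
    exact Finset.sum_congr rfl (fun x _ => by ring)
  rw [e4, e5, h2, h3]
  ring

/-- The variance of `f` is the variance inside the classes of tables with the same row `m`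
plus the variance of the class means. -/
theorem var_split {r : R → ℕ} {c : C → ℕ} (m : R) (f : (R → C → ℕ) → ℝ) :
    ∑ M ∈ tables r c, (f M - (∑ N ∈ tables r c, f N) / ((tables r c).card : ℝ)) ^ 2
      = ∑ M ∈ tables r c, (f M - blockAvg r c (Finset.univ.erase m) f M) ^ 2
        + ∑ M ∈ tables r c, (blockAvg r c (Finset.univ.erase m) f M
            - (∑ N ∈ tables r c, f N) / ((tables r c).card : ℝ)) ^ 2 :=
  var_split_gen (Finset.univ.erase m) f _

/-- The table with row `x` at `m` and the rows of `M'` elsewhere. -/
noncomputable def glue (m : R) (x : C → ℕ) (M' : {u : R // u ≠ m} → C → ℕ) : R → C → ℕ :=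
  fun i => if h : i = m then x else M' ⟨i, h⟩

/-- The rows of a table other than `m`. -/
def drop (m : R) (M : R → C → ℕ) : {u : R // u ≠ m} → C → ℕ := fun u => M u.1

omit [Fintype R] [Fintype C] in
theorem glue_self (m : R) (x : C → ℕ) (M' : {u : R // u ≠ m} → C → ℕ) : glue m x M' m = x := by
  unfold glue
  rw [dif_pos rfl]

omit [Fintype R] [Fintype C] in
theorem glue_ne (m : R) (x : C → ℕ) (M' : {u : R // u ≠ m} → C → ℕ) (i : R) (h : i ≠ m) :
    glue m x M' i = M' ⟨i, h⟩ := by
  unfold glue
  rw [dif_neg h]

omit [Fintype R] [Fintype C] in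
theorem drop_glue (m : R) (x : C → ℕ) (M' : {u : R // u ≠ m} → C → ℕ) :
    drop m (glue m x M') = M' := by
  funext u
  unfold drop
  rw [glue_ne m x M' u.1 u.2]

omit [Fintype R] [Fintype C] in
theorem glue_drop (m : R) (M : R → C → ℕ) : glue m (M m) (drop m M) = M := by
  funext i
  by_cases h : i = m
  · subst h
    rw [glue_self]
  · rw [glue_ne m _ _ i h]
    rfl

/-- A sum over all rows is the term of the row `m` plus the sum over the other rows. -/
theorem sum_rows_split (m : R) (g : R → ℕ) :
    ∑ i, g i = g m + ∑ u : {u : R // u ≠ m}, g u.1 := by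
  rw [← Finset.add_sum_erase Finset.univ g (Finset.mem_univ m)]
  congr 1
  exact Finset.sum_subtype (Finset.univ.erase m) (fun i => by simp) g

/-- Gluing a row with the right sum and entries below the column sums to a table without the
row `m` gives a table, and conversely. -/
theorem glue_mem_tables {r : R → ℕ} {c : C → ℕ} (m : R) (x : C → ℕ) (hx : ∑ j, x j = r m)
    (hle : ∀ j, x j ≤ c j) (M' : {u : R // u ≠ m} → C → ℕ) :
    glue m x M' ∈ tables r c ↔
      M' ∈ tables (fun u : {u : R // u ≠ m} => r u.1) (fun j => c j - x j) := by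
  rw [mem_tables, mem_tables]
  constructor
  · rintro ⟨h1, h2⟩
    refine ⟨fun u => ?_, fun j => ?_⟩
    · have h := h1 u.1
      rw [glue_ne m x M' u.1 u.2] at h
      exact h
    · have h := h2 j
      rw [sum_rows_split m (fun i => glue m x M' i j), glue_self] at h
      have e : ∑ u : {u : R // u ≠ m}, glue m x M' u.1 j = ∑ u : {u : R // u ≠ m}, M' u j :=
        Finset.sum_congr rfl (fun u _ => by rw [glue_ne m x M' u.1 u.2])
      rw [e] at h
      omega
  · rintro ⟨h1, h2⟩
    refine ⟨fun i => ?_, fun j => ?_⟩
    · by_cases h : i = m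
      · subst h
        rw [glue_self]
        exact hx
      · rw [glue_ne m x M' i h]
        exact h1 ⟨i, h⟩
    · rw [sum_rows_split m (fun i => glue m x M' i j), glue_self]
      have e : ∑ u : {u : R // u ≠ m}, glue m x M' u.1 j = ∑ u : {u : R // u ≠ m}, M' u j :=
        Finset.sum_congr rfl (fun u _ => by rw [glue_ne m x M' u.1 u.2])
      rw [e, h2 j]
      have := hle j
      omega

/-- The row `m` of a table has the right sum and entries below the column sums. -/
theorem row_of_mem_tables {r : R → ℕ} {c : C → ℕ} {M : R → C → ℕ} (hM : M ∈ tables r c)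
    (m : R) : (∑ j, M m j = r m) ∧ ∀ j, M m j ≤ c j := by
  rw [mem_tables] at hM
  refine ⟨hM.1 m, fun j => ?_⟩
  rw [← hM.2 j]
  exact Finset.single_le_sum (f := fun i => M i j) (fun _ _ => Nat.zero_le _) (Finset.mem_univ m)

/-- A sum over the tables with row `m` equal to `x` is a sum over the tables without the
row `m`. -/
theorem sum_fiber_glue {r : R → ℕ} {c : C → ℕ} (m : R) (x : C → ℕ) (hx : ∑ j, x j = r m)
    (hle : ∀ j, x j ≤ c j) (h : (R → C → ℕ) → ℝ) :
    ∑ M ∈ (tables r c).filter (fun M => M m = x), h M
      = ∑ M' ∈ tables (fun u : {u : R // u ≠ m} => r u.1) (fun j => c j - x j),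
          h (glue m x M') := by
  symm
  apply Finset.sum_nbij' (fun M' => glue m x M') (fun M => drop m M)
  · intro M' hM'
    rw [Finset.mem_filter]
    exact ⟨(glue_mem_tables m x hx hle M').mpr hM', glue_self m x M'⟩
  · intro M hM
    rw [Finset.mem_filter] at hM
    have h1 : glue m x (drop m M) = M := by
      rw [← hM.2]
      exact glue_drop m M
    rw [← glue_mem_tables m x hx hle, h1]
    exact hM.1
  · intro M' _
    exact drop_glue m x M'
  · intro M hM
    rw [Finset.mem_filter] at hM
    rw [← hM.2]
    exact glue_drop m M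
  · intro M' _
    rfl

/-- The block class of all rows except `m` consists of the tables with the same row `m`. -/
theorem blockClass_erase (r : R → ℕ) (c : C → ℕ) (m : R) (M : R → C → ℕ) :
    blockClass r c (Finset.univ.erase m) M = (tables r c).filter (fun N => N m = M m) := by
  unfold blockClass
  apply Finset.filter_congr
  intro N _
  constructor
  · intro h
    exact h m (by simp)
  · intro h i hi
    have him : i = m := by
      by_contra hne
      exact hi (Finset.mem_erase.mpr ⟨hne, Finset.mem_univ i⟩)
    rw [him]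
    exact h

/-- The block average over all rows except `m`, at a glued table, is the mean over the tables
without the row `m`. -/
theorem blockAvg_erase_glue {r : R → ℕ} {c : C → ℕ} (m : R) (x : C → ℕ)
    (hx : ∑ j, x j = r m) (hle : ∀ j, x j ≤ c j) (f : (R → C → ℕ) → ℝ)
    (M' : {u : R // u ≠ m} → C → ℕ) :
    blockAvg r c (Finset.univ.erase m) f (glue m x M')
      = (∑ N' ∈ tables (fun u : {u : R // u ≠ m} => r u.1) (fun j => c j - x j),
          f (glue m x N'))
        / ((tables (fun u : {u : R // u ≠ m} => r u.1) (fun j => c j - x j)).card : ℝ) := by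
  unfold blockAvg
  rw [blockClass_erase, glue_self, sum_fiber_glue m x hx hle f]
  have hcard := sum_fiber_glue (r := r) (c := c) m x hx hle (fun _ => (1 : ℝ))
  rw [Finset.sum_const, Finset.sum_const, nsmul_eq_mul, nsmul_eq_mul, mul_one, mul_one] at hcard
  rw [hcard]

/-- Membership in a block class. -/
theorem mem_blockClass_iff {r : R → ℕ} {c : C → ℕ} {S : Finset R} {M N : R → C → ℕ} :
    N ∈ blockClass r c S M ↔ N ∈ tables r c ∧ ∀ i, i ∉ S → N i = M i := by
  unfold blockClass
  exact Finset.mem_filter

/-- Sums over a block class of a glued table, for a set of rows that does not contain `m`. -/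
theorem sum_blockClass_glue {r : R → ℕ} {c : C → ℕ} (m : R) (x : C → ℕ)
    (hx : ∑ j, x j = r m) (hle : ∀ j, x j ≤ c j) (q' : Finset {u : R // u ≠ m})
    (M' : {u : R // u ≠ m} → C → ℕ) (h : (R → C → ℕ) → ℝ) :
    ∑ N ∈ blockClass r c (q'.map (Function.Embedding.subtype _)) (glue m x M'), h N
      = ∑ N' ∈ blockClass (fun u : {u : R // u ≠ m} => r u.1) (fun j => c j - x j) q' M',
          h (glue m x N') := by
  have hm : m ∉ q'.map (Function.Embedding.subtype _) := by
    intro hmem
    obtain ⟨u, _, hu⟩ := Finset.mem_map.mp hmem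
    exact u.2 hu
  symm
  apply Finset.sum_nbij' (fun N' => glue m x N') (fun N => drop m N)
  · intro N' hN'
    rw [mem_blockClass_iff] at hN' ⊢
    refine ⟨(glue_mem_tables m x hx hle N').mpr hN'.1, fun i hi => ?_⟩
    by_cases him : i = m
    · subst him
      rw [glue_self, glue_self]
    · rw [glue_ne m x N' i him, glue_ne m x M' i him]
      apply hN'.2
      intro hmem
      exact hi (Finset.mem_map.mpr ⟨⟨i, him⟩, hmem, rfl⟩)
  · intro N hN
    rw [mem_blockClass_iff] at hN ⊢
    have hNm : N m = x := by
      rw [hN.2 m hm, glue_self]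
    have h1 : glue m x (drop m N) = N := by
      rw [← hNm]
      exact glue_drop m N
    refine ⟨?_, fun u hu => ?_⟩
    · rw [← glue_mem_tables m x hx hle, h1]
      exact hN.1
    · have h2 : u.1 ∉ q'.map (Function.Embedding.subtype _) := by
        intro hmem
        obtain ⟨v, hv, hvu⟩ := Finset.mem_map.mp hmem
        have hvu' : v = u := Subtype.ext hvu
        rw [hvu'] at hv
        exact hu hv
      have h3 := hN.2 u.1 h2
      rw [glue_ne m x M' u.1 u.2] at h3
      exact h3
  · intro N' _
    exact drop_glue m x N'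
  · intro N hN
    rw [mem_blockClass_iff] at hN
    have hNm : N m = x := by
      rw [hN.2 m hm, glue_self]
    rw [← hNm]
    exact glue_drop m N
  · intro N' _
    rfl

/-- The block average for a pair of rows different from `m`, at a glued table. -/
theorem blockAvg_glue {r : R → ℕ} {c : C → ℕ} (m : R) (x : C → ℕ)
    (hx : ∑ j, x j = r m) (hle : ∀ j, x j ≤ c j) (q' : Finset {u : R // u ≠ m})
    (f : (R → C → ℕ) → ℝ) (M' : {u : R // u ≠ m} → C → ℕ) :
    blockAvg r c (q'.map (Function.Embedding.subtype _)) f (glue m x M')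
      = blockAvg (fun u : {u : R // u ≠ m} => r u.1) (fun j => c j - x j) q'
          (fun N' => f (glue m x N')) M' := by
  unfold blockAvg
  rw [sum_blockClass_glue m x hx hle q' M' f]
  have hcard := sum_blockClass_glue (r := r) (c := c) m x hx hle q' M' (fun _ => (1 : ℝ))
  rw [Finset.sum_const, Finset.sum_const, nsmul_eq_mul, nsmul_eq_mul, mul_one, mul_one] at hcard
  rw [hcard]

/-- The pairs of rows different from `m` are the pairs of elements of the subtype. -/
theorem sum_pairs_erase (m : R) (G : Finset R → ℝ) :
    ∑ q ∈ (Finset.univ.erase m).powersetCard 2, G q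
      = ∑ q' ∈ (Finset.univ : Finset {u : R // u ≠ m}).powersetCard 2,
          G (q'.map (Function.Embedding.subtype _)) := by
  have hmap : (Finset.univ : Finset {u : R // u ≠ m}).map (Function.Embedding.subtype _)
      = Finset.univ.erase m := by
    ext i
    rw [Finset.mem_map, Finset.mem_erase]
    constructor
    · rintro ⟨u, _, rfl⟩
      exact ⟨u.2, Finset.mem_univ _⟩
    · rintro ⟨hi, _⟩
      exact ⟨⟨i, hi⟩, Finset.mem_univ _, rfl⟩
  rw [← hmap, Finset.powersetCard_map, Finset.sum_map]
  rfl

/-- The inequality of `peel_inner` on the tables with a given row `m`. -/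
theorem peel_fiber {r : R → ℕ} {c : C → ℕ} (m : R) (K : ℝ) (x : C → ℕ)
    (hx : ∑ j, x j = r m) (hle : ∀ j, x j ≤ c j)
    (hIH : PCrow K (fun u : {u : R // u ≠ m} => r u.1) (fun j => c j - x j))
    (f : (R → C → ℕ) → ℝ) :
    ∑ M ∈ (tables r c).filter (fun M => M m = x),
        (f M - blockAvg r c (Finset.univ.erase m) f M) ^ 2
      ≤ K * ∑ q ∈ (Finset.univ.erase m).powersetCard 2,
          ∑ M ∈ (tables r c).filter (fun M => M m = x), (f M - blockAvg r c q f M) ^ 2 := by
  rw [sum_fiber_glue m x hx hle
    (fun M => (f M - blockAvg r c (Finset.univ.erase m) f M) ^ 2)]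
  rw [sum_pairs_erase m (fun q => ∑ M ∈ (tables r c).filter (fun M => M m = x),
    (f M - blockAvg r c q f M) ^ 2)]
  have h1 : ∀ M' ∈ tables (fun u : {u : R // u ≠ m} => r u.1) (fun j => c j - x j),
      (f (glue m x M') - blockAvg r c (Finset.univ.erase m) f (glue m x M')) ^ 2
        = (f (glue m x M')
            - (∑ N' ∈ tables (fun u : {u : R // u ≠ m} => r u.1) (fun j => c j - x j),
                f (glue m x N'))
              / ((tables (fun u : {u : R // u ≠ m} => r u.1) (fun j => c j - x j)).card : ℝ))
            ^ 2 := by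
    intro M' _
    rw [blockAvg_erase_glue m x hx hle f M']
  rw [Finset.sum_congr rfl h1]
  have h2 : ∀ q' ∈ (Finset.univ : Finset {u : R // u ≠ m}).powersetCard 2,
      ∑ M ∈ (tables r c).filter (fun M => M m = x),
          (f M - blockAvg r c (q'.map (Function.Embedding.subtype _)) f M) ^ 2
        = ∑ M' ∈ tables (fun u : {u : R // u ≠ m} => r u.1) (fun j => c j - x j),
            (f (glue m x M')
              - blockAvg (fun u : {u : R // u ≠ m} => r u.1) (fun j => c j - x j) q'
                  (fun N' => f (glue m x N')) M') ^ 2 := by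
    intro q' _
    rw [sum_fiber_glue m x hx hle
      (fun M => (f M - blockAvg r c (q'.map (Function.Embedding.subtype _)) f M) ^ 2)]
    refine Finset.sum_congr rfl (fun M' _ => ?_)
    rw [blockAvg_glue m x hx hle q' f M']
  rw [Finset.sum_congr rfl h2]
  exact hIH (fun N' => f (glue m x N'))

/-- The variance inside the classes of tables with the same row `m` is controlled by the
row-pair terms for the pairs of rows different from `m`, with the Poincare constant of the
tables without the row `m`. -/
theorem peel_inner {r : R → ℕ} {c : C → ℕ} (m : R) (K : ℝ)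
    (hIH : ∀ x : C → ℕ, PCrow K (fun u : {u : R // u ≠ m} => r u.1) (fun j => c j - x j))
    (f : (R → C → ℕ) → ℝ) :
    ∑ M ∈ tables r c, (f M - blockAvg r c (Finset.univ.erase m) f M) ^ 2
      ≤ K * ∑ q ∈ (Finset.univ.erase m).powersetCard 2,
          ∑ M ∈ tables r c, (f M - blockAvg r c q f M) ^ 2 := by
  have hfib : ∀ h : (R → C → ℕ) → ℝ, ∑ M ∈ tables r c, h M
      = ∑ x ∈ (tables r c).image (fun M => M m),
          ∑ M ∈ (tables r c).filter (fun M => M m = x), h M := by
    intro h
    exact (Finset.sum_fiberwise_of_maps_to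
      (fun M hM => Finset.mem_image_of_mem (fun M => M m) hM) h).symm
  rw [hfib, Finset.sum_congr rfl (fun q _ => hfib (fun M => (f M - blockAvg r c q f M) ^ 2)),
    Finset.sum_comm, Finset.mul_sum]
  apply Finset.sum_le_sum
  intro x hx
  obtain ⟨M0, hM0, hM0x⟩ := Finset.mem_image.mp hx
  obtain ⟨hrow, hle⟩ := row_of_mem_tables hM0 m
  have hM0x' : M0 m = x := hM0x
  rw [hM0x'] at hrow hle
  exact peel_fiber m K x hrow hle (hIH x) f

end Vale.Agent.Lib.P328.AM
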