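import Vale.Agent.Lib.P328.AM.OneRowProof

/-!
# P328 (all margins): the one-row energy as a sum over the rows that occur

`rowEnergy_le` bounds the table-indexed energy `rowEnergy` of `AM/OneRow` by the sum, over the
rows `x` of the class and the ordered pairs of distinct columns, of
`min (N x) (N x') * (g x' - g x)^2`, in the vocabulary of `AM/PeelDefs`
(`rowOf`, `rowCnt`, `mvRow`).  `one_row_rows` is the resulting form of the one-row inequality.
-/

namespace Vale.Agent.Lib.P328.AM

open Finset
open Vale.Agent.Lib.P328.Hive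

variable {R C : Type*} [Fintype R] [Fintype C] [DecidableEq R] [DecidableEq C]

theorem rowEnergy_le (E : Finset (R × C)) (D : R ⊕ C → ℤ) (m : R) (g : (C → ℕ) → ℝ) :
    rowEnergy E D m g
      ≤ ∑ x ∈ (OmF E D).image (rowOf m), ∑ j, ∑ k,
          (if j = k then 0 else
            min (rowCnt E D m x : ℝ) (rowCnt E D m (mvRow x j k) : ℝ)
              * (g (mvRow x j k) - g x) ^ 2) :=
  rowEnergy_le_rows E D m g

/-- The one-row inequality in variance form with the row-indexed energy. -/
theorem one_row_rows (E : Finset (R × C)) (D : R ⊕ C → ℤ) (m : R) (L : ℕ)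
    (hL : ∀ T ∈ OmF E D, ∀ j, T (m, j) ≤ L) (g : (C → ℕ) → ℝ) :
    ∑ T ∈ OmF E D,
        (g (rowOf m T) - (∑ T' ∈ OmF E D, g (rowOf m T')) / ((OmF E D).card : ℝ)) ^ 2
      ≤ (L : ℝ) ^ 2 * ∑ x ∈ (OmF E D).image (rowOf m), ∑ j, ∑ k,
          (if j = k then 0 else
            min (rowCnt E D m x : ℝ) (rowCnt E D m (mvRow x j k) : ℝ)
              * (g (mvRow x j k) - g x) ^ 2) :=
  le_trans (one_row_poincare star_coupling E D m L hL g)
    (mul_le_mul_of_nonneg_left (rowEnergy_le E D m g) (sq_nonneg _))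

end Vale.Agent.Lib.P328.AM
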