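import Vale.Agent.Lib.P328.AM.Defs
import Vale.Agent.Lib.P328.AM.FiberLR
import Vale.Agent.Lib.P328.AM.OneDim
import Vale.Agent.Lib.P328.AM.CplGlue

/-!
# P328 (all margins): the star coupling, inductive step

If the margins of two nonempty classes on the cell set `E` differ by `single w 1 - single q 1`
and `E` has a cell `e` at `q` that is not at `w`, the value of `e` is revealed first: the two
laws of that value are coupled at distance at most one (likelihood ratio order from the
midpoint inequality), and the two conditional classes on `E.erase e` are again of the same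
kind, so the coupling for `E.erase e` can be glued along the fibres of the value of `e`.
-/

namespace Vale.Agent.Lib.P328.AM

open Finset Vale.Agent.Lib.P328.Hive

variable {R C : Type*} [Fintype R] [Fintype C] [DecidableEq R] [DecidableEq C]

/-- The fibre of the value of a cell is in bijection with the tables on the other cells. -/
theorem fiber_bijOn (E : Finset (R × C)) (D : R ⊕ C → ℤ) (e : R × C) (he : e ∈ E) (t : ℕ) :
    Set.BijOn (fun T : R × C → ℕ => Function.update T e 0)
      (↑((OmF E D).filter (fun T => T e = t)) : Set (R × C → ℕ))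
      (↑(OmF (E.erase e) (D - (t : ℤ) • chi e)) : Set (R × C → ℕ)) := by
  refine ⟨?_, ?_, ?_⟩
  · intro T hT
    rw [Finset.mem_coe, Finset.mem_filter, mem_OmF] at hT
    obtain ⟨⟨hs, hd⟩, hTe⟩ := hT
    rw [Finset.mem_coe, mem_OmF]
    show Function.update T e 0 ∈ Om (E.erase e) (D - (t : ℤ) • chi e)
    refine ⟨?_, ?_⟩
    · intro e' he'
      by_cases h : e' = e
      · subst h
        exact Function.update_self ..
      · rw [Function.update_of_ne h]
        apply hs
        intro hmem
        exact he' (Finset.mem_erase.mpr ⟨h, hmem⟩)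
    · rw [dv_update, hd, hTe]
      simp only [Nat.cast_zero, zero_sub, neg_smul]
      abel
  · intro T hT T' hT' heq
    rw [Finset.mem_coe, Finset.mem_filter] at hT hT'
    funext e'
    by_cases h : e' = e
    · subst h
      rw [hT.2, hT'.2]
    · have := congrFun heq e'
      simp only at this
      rwa [Function.update_of_ne h, Function.update_of_ne h] at this
  · intro T' hT'
    rw [Finset.mem_coe, mem_OmF] at hT'
    obtain ⟨hs, hd⟩ := hT'
    have hT'e : T' e = 0 := hs e (Finset.notMem_erase e E)
    refine ⟨Function.update T' e t, ?_, ?_⟩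
    · rw [Finset.mem_coe, Finset.mem_filter, mem_OmF]
      refine ⟨⟨?_, ?_⟩, Function.update_self ..⟩
      · intro e' he'
        have h : e' ≠ e := fun h => he' (h ▸ he)
        rw [Function.update_of_ne h]
        apply hs
        intro hmem
        exact he' (Finset.mem_of_mem_erase hmem)
      · rw [dv_update, hd, hT'e]
        simp only [Nat.cast_zero, sub_zero]
        abel
    · show Function.update (Function.update T' e t) e 0 = T'
      rw [Function.update_idem, ← hT'e]
      exact Function.update_eq_self e T'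

/-- The number of tables with a given value at a cell. -/
theorem card_fiber (E : Finset (R × C)) (D : R ⊕ C → ℤ) (e : R × C) (he : e ∈ E) (t : ℕ) :
    ((OmF E D).filter (fun T => T e = t)).card = fib (E.erase e) e D t := by
  have h := fiber_bijOn E D e he t
  unfold fib
  rw [← card_OmF]
  exact Finset.card_nbij (fun T : R × C → ℕ => Function.update T e 0) h.mapsTo h.injOn h.surjOn

/-- The value of a cell is at most the margin of its row. -/
theorem fib_eq_zero (E : Finset (R × C)) (D : R ⊕ C → ℤ) (e : R × C) (he : e ∈ E) (t : ℕ)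
    (ht : D (Sum.inl e.1) < t) : fib (E.erase e) e D t = 0 := by
  rw [← card_fiber E D e he t, Finset.card_eq_zero, Finset.filter_eq_empty_iff]
  intro T hT hTe
  have h := entry_le (mem_OmF.mp hT) e
  omega

omit [Fintype R] [Fintype C] in
/-- Changing a cell that is not at `w` does not change the relation `StarRel w`. -/
theorem starRel_update (w : R ⊕ C) (e : R × C) (hew : chi e w = 0) (T T' : R × C → ℕ)
    (h : StarRel w (Function.update T e 0) (Function.update T' e 0)) : StarRel w T T' := by
  obtain ⟨e1, he1, hval, hrest⟩ := h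
  have hne : e1 ≠ e := by
    rintro rfl
    exact he1 hew
  refine ⟨e1, he1, ?_, ?_⟩
  · rwa [Function.update_of_ne hne, Function.update_of_ne hne] at hval
  · intro e' he' hne'
    have hne2 : e' ≠ e := by
      rintro rfl
      exact he' hew
    have := hrest e' he' hne'
    rwa [Function.update_of_ne hne2, Function.update_of_ne hne2] at this

/-- Gluing step: a coupling of the two laws of the value of the cell `e`, whose support
consists of pairs of values for which the conditional classes are again root-adjacent at `w`. -/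
theorem step_core (E : Finset (R × C)) (e : R × C) (he : e ∈ E) (w : R ⊕ C)
    (hew : chi e w = 0) (IH : StarCouplingOn (E.erase e)) (D D' : R ⊕ C → ℤ)
    (h1 : cnt E D ≠ 0) (h2 : cnt E D' ≠ 0) (B : ℕ) (hB : D (Sum.inl e.1) < B)
    (hB' : D' (Sum.inl e.1) < B) (ω : ℕ → ℕ → ℝ) (hω : ∀ s t, 0 ≤ ω s t)
    (hrow : ∀ s < B, ∑ t ∈ range B, ω s t = (fib (E.erase e) e D s : ℝ) * (cnt E D' : ℝ))
    (hcol : ∀ t < B, ∑ s ∈ range B, ω s t = (fib (E.erase e) e D' t : ℝ) * (cnt E D : ℝ))
    (hsupp : ∀ s < B, ∀ t < B, ω s t ≠ 0 → ∃ q' : R ⊕ C, q' ≠ w ∧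
      D' - (t : ℤ) • chi e = D - (s : ℤ) • chi e + Pi.single w 1 - Pi.single q' 1) :
    UCpl (OmF E D) (OmF E D') (StarRel w) := by
  classical
  have hS : (OmF E D).Nonempty := by
    rw [← Finset.card_pos, card_OmF]
    exact Nat.pos_of_ne_zero h1
  have hS' : (OmF E D').Nonempty := by
    rw [← Finset.card_pos, card_OmF]
    exact Nat.pos_of_ne_zero h2
  refine UCpl.glue (fun T : R × C → ℕ => T e) (fun T : R × C → ℕ => T e) B hS hS' ?_ ?_ ω hω
    ?_ ?_ ?_
  · intro T hT
    have h := entry_le (mem_OmF.mp hT) e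
    show T e < B
    omega
  · intro T hT
    have h := entry_le (mem_OmF.mp hT) e
    show T e < B
    omega
  · intro s hs
    rw [hrow s hs, card_fiber E D e he s, card_OmF]
  · intro t ht
    rw [hcol t ht, card_fiber E D' e he t, card_OmF]
  · intro s hs t ht hne
    obtain ⟨q', hq', hmarg⟩ := hsupp s hs t ht hne
    have hfs : fib (E.erase e) e D s ≠ 0 := by
      intro h0
      have hsum := hrow s hs
      rw [h0, Nat.cast_zero, zero_mul] at hsum
      exact hne ((Finset.sum_eq_zero_iff_of_nonneg (fun t _ => hω s t)).mp hsum t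
        (Finset.mem_range.mpr ht))
    have hgt : fib (E.erase e) e D' t ≠ 0 := by
      intro h0
      have hsum := hcol t ht
      rw [h0, Nat.cast_zero, zero_mul] at hsum
      exact hne ((Finset.sum_eq_zero_iff_of_nonneg (fun s _ => hω s t)).mp hsum s
        (Finset.mem_range.mpr hs))
    have hgt' : cnt (E.erase e) (D - (s : ℤ) • chi e + Pi.single w 1 - Pi.single q' 1) ≠ 0 := by
      rw [← hmarg]
      exact hgt
    have hc := IH (D - (s : ℤ) • chi e) w q' hq' hfs hgt'
    rw [← hmarg] at hc
    exact UCpl.transfer (fun T : R × C → ℕ => Function.update T e 0)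
      (fun T : R × C → ℕ => Function.update T e 0)
      (fiber_bijOn E D e he s) (fiber_bijOn E D' e he t)
      (fun x _ y _ h => starRel_update w e hew x y h) hc

omit [Fintype R] [Fintype C] in
/-- A cell is only at its row and at its column. -/
theorem chi_ne_zero (e : R × C) (v : R ⊕ C) (h : chi e v ≠ 0) :
    v = Sum.inl e.1 ∨ v = Sum.inr e.2 := by
  by_contra hcon
  push Not at hcon
  apply h
  rw [chi, Pi.sub_apply, Pi.single_eq_of_ne hcon.1, Pi.single_eq_of_ne hcon.2, sub_zero]

omit [Fintype R] [Fintype C] in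
theorem ne_inl_of_chi (e : R × C) (w : R ⊕ C) (hew : chi e w = 0) : Sum.inl e.1 ≠ w := by
  intro h
  rw [← h] at hew
  simp [chi] at hew

omit [Fintype R] [Fintype C] in
theorem ne_inr_of_chi (e : R × C) (w : R ⊕ C) (hew : chi e w = 0) : Sum.inr e.2 ≠ w := by
  intro h
  rw [← h] at hew
  simp [chi] at hew

/-- Inductive step, the second vertex is the column of the revealed cell. -/
theorem star_step_col (E : Finset (R × C)) (e : R × C) (he : e ∈ E) (w : R ⊕ C)
    (hew : chi e w = 0) (IH : StarCouplingOn (E.erase e)) (D : R ⊕ C → ℤ)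
    (h1 : cnt E D ≠ 0) (h2 : cnt E (D + Pi.single w 1 - Pi.single (Sum.inr e.2) 1) ≠ 0) :
    UCpl (OmF E D) (OmF E (D + Pi.single w 1 - Pi.single (Sum.inr e.2) 1)) (StarRel w) := by
  classical
  obtain ⟨D', hD'⟩ : ∃ D' : R ⊕ C → ℤ, D' = D + Pi.single w 1 - Pi.single (Sum.inr e.2) 1 :=
    ⟨_, rfl⟩
  rw [← hD'] at h2 ⊢
  obtain ⟨B, hB, hB'⟩ : ∃ B : ℕ, D (Sum.inl e.1) < B ∧ D' (Sum.inl e.1) < B := by
    refine ⟨(D (Sum.inl e.1)).toNat + (D' (Sum.inl e.1)).toNat + 1, ?_, ?_⟩ <;> omega
  have hX1 : D' - D - chi e = Pi.single w 1 - Pi.single (Sum.inl e.1) 1 := by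
    rw [hD']
    unfold chi
    abel
  have hX2 : D' - D = Pi.single w 1 - Pi.single (Sum.inr e.2) 1 := by
    rw [hD']
    abel
  have hne1 := ne_inl_of_chi e w hew
  have hne2 := ne_inr_of_chi e w hew
  obtain ⟨ω, hω, hsupp, hrow, hcol⟩ := quantile_coupling B
    (fun t => (fib (E.erase e) e D t : ℝ)) (fun t => (fib (E.erase e) e D' t : ℝ))
    (fun t => Nat.cast_nonneg _) (fun t => Nat.cast_nonneg _)
    (fun t ht => by
      have h0 := fib_eq_zero E D e he t (by omega)
      simp only [h0, Nat.cast_zero])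
    (fun t ht => by
      have h0 := fib_eq_zero E D' e he t (by omega)
      simp only [h0, Nat.cast_zero])
    (fun s t hst => by
      exact_mod_cast fiber_tp2_a (E.erase e) e D D' w (Sum.inl e.1) w (Sum.inr e.2) hX1 hX2 hst)
    (fun s t hst => by
      exact_mod_cast fiber_tp2_b (E.erase e) e D D' w (Sum.inl e.1) w (Sum.inr e.2) hX1 hX2 hst)
  have hsumf : ∑ i ∈ range B, (fib (E.erase e) e D i : ℝ) = (cnt E D : ℝ) := by
    rw [cnt_rec E D e he B hB]
    push_cast
    rfl
  have hsumg : ∑ i ∈ range B, (fib (E.erase e) e D' i : ℝ) = (cnt E D' : ℝ) := by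
    rw [cnt_rec E D' e he B hB']
    push_cast
    rfl
  refine step_core E e he w hew IH D D' h1 h2 B hB hB' ω hω ?_ ?_ ?_
  · intro s _
    rw [hrow s, hsumg]
  · intro t _
    rw [hcol t, hsumf]
  · intro s _ t _ hne
    rcases hsupp s t hne with h | h
    · subst h
      refine ⟨Sum.inr e.2, hne2, ?_⟩
      rw [hD']
      abel
    · subst h
      refine ⟨Sum.inl e.1, hne1, ?_⟩
      rw [hD']
      funext v
      simp only [Pi.sub_apply, Pi.add_apply, Pi.smul_apply, smul_eq_mul, chi]
      push_cast
      ring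

/-- Inductive step, the second vertex is the row of the revealed cell. -/
theorem star_step_row (E : Finset (R × C)) (e : R × C) (he : e ∈ E) (w : R ⊕ C)
    (hew : chi e w = 0) (IH : StarCouplingOn (E.erase e)) (D : R ⊕ C → ℤ)
    (h1 : cnt E D ≠ 0) (h2 : cnt E (D + Pi.single w 1 - Pi.single (Sum.inl e.1) 1) ≠ 0) :
    UCpl (OmF E D) (OmF E (D + Pi.single w 1 - Pi.single (Sum.inl e.1) 1)) (StarRel w) := by
  classical
  obtain ⟨D', hD'⟩ : ∃ D' : R ⊕ C → ℤ, D' = D + Pi.single w 1 - Pi.single (Sum.inl e.1) 1 :=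
    ⟨_, rfl⟩
  rw [← hD'] at h2 ⊢
  obtain ⟨B, hB, hB'⟩ : ∃ B : ℕ, D (Sum.inl e.1) < B ∧ D' (Sum.inl e.1) < B := by
    refine ⟨(D (Sum.inl e.1)).toNat + (D' (Sum.inl e.1)).toNat + 1, ?_, ?_⟩ <;> omega
  have hX1 : D - D' - chi e = Pi.single (Sum.inr e.2) 1 - Pi.single w 1 := by
    rw [hD']
    unfold chi
    abel
  have hX2 : D - D' = Pi.single (Sum.inl e.1) 1 - Pi.single w 1 := by
    rw [hD']
    abel
  have hne1 := ne_inl_of_chi e w hew
  have hne2 := ne_inr_of_chi e w hew
  obtain ⟨ω, hω, hsupp, hrow, hcol⟩ := quantile_coupling B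
    (fun t => (fib (E.erase e) e D' t : ℝ)) (fun t => (fib (E.erase e) e D t : ℝ))
    (fun t => Nat.cast_nonneg _) (fun t => Nat.cast_nonneg _)
    (fun t ht => by
      have h0 := fib_eq_zero E D' e he t (by omega)
      simp only [h0, Nat.cast_zero])
    (fun t ht => by
      have h0 := fib_eq_zero E D e he t (by omega)
      simp only [h0, Nat.cast_zero])
    (fun s t hst => by
      exact_mod_cast fiber_tp2_a (E.erase e) e D' D (Sum.inr e.2) w (Sum.inl e.1) w hX1 hX2 hst)
    (fun s t hst => by
      exact_mod_cast fiber_tp2_b (E.erase e) e D' D (Sum.inr e.2) w (Sum.inl e.1) w hX1 hX2 hst)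
  have hsumf : ∑ i ∈ range B, (fib (E.erase e) e D i : ℝ) = (cnt E D : ℝ) := by
    rw [cnt_rec E D e he B hB]
    push_cast
    rfl
  have hsumg : ∑ i ∈ range B, (fib (E.erase e) e D' i : ℝ) = (cnt E D' : ℝ) := by
    rw [cnt_rec E D' e he B hB']
    push_cast
    rfl
  refine step_core E e he w hew IH D D' h1 h2 B hB hB' (fun s t => ω t s) (fun s t => hω t s)
    ?_ ?_ ?_
  · intro s _
    show ∑ t ∈ range B, ω t s = _
    rw [hcol s, hsumg]
  · intro t _
    show ∑ s ∈ range B, ω t s = _
    rw [hrow t, hsumf]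
  · intro s _ t _ hne
    rcases hsupp t s hne with h | h
    · subst h
      refine ⟨Sum.inl e.1, hne1, ?_⟩
      rw [hD']
      abel
    · subst h
      refine ⟨Sum.inr e.2, hne2, ?_⟩
      rw [hD']
      funext v
      simp only [Pi.sub_apply, Pi.add_apply, Pi.smul_apply, smul_eq_mul, chi]
      push_cast
      ring

/-- The star coupling for every cell set, given the terminal case (all cells at `q` are
at `w`). -/
theorem star_coupling_of_terminal
    (hterm : ∀ (E : Finset (R × C)) (D : R ⊕ C → ℤ) (w q : R ⊕ C), q ≠ w → cnt E D ≠ 0 →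
      cnt E (D + Pi.single w 1 - Pi.single q 1) ≠ 0 →
      (∀ e ∈ E, chi e q ≠ 0 → chi e w ≠ 0) →
      UCpl (OmF E D) (OmF E (D + Pi.single w 1 - Pi.single q 1)) (StarRel w)) :
    ∀ (n : ℕ) (E : Finset (R × C)), E.card = n → StarCouplingOn E := by
  intro n
  induction n with
  | zero =>
    intro E hE D w q hqw h1 h2
    refine hterm E D w q hqw h1 h2 ?_
    intro e he
    rw [Finset.card_eq_zero.mp hE] at he
    exact absurd he (Finset.notMem_empty e)
  | succ n ih =>
    intro E hE D w q hqw h1 h2
    by_cases hcase : ∃ e ∈ E, chi e q ≠ 0 ∧ chi e w = 0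
    · obtain ⟨e, he, heq, hew⟩ := hcase
      have IH : StarCouplingOn (E.erase e) :=
        ih (E.erase e) (by rw [Finset.card_erase_of_mem he, hE]; rfl)
      rcases chi_ne_zero e q heq with h | h
      · subst h
        exact star_step_row E e he w hew IH D h1 h2
      · subst h
        exact star_step_col E e he w hew IH D h1 h2
    · push Not at hcase
      exact hterm E D w q hqw h1 h2 hcase

end Vale.Agent.Lib.P328.AM
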