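import Vale.Agent.Lib.P328.AM.PeelDefs
import Vale.Agent.Lib.P328.Poly.KlLemmas

/-!
# P328 / all margins: the energy of the unit switches through one row

`sw T u w l l'` is the table `T` after a unit switch on the rows `u`, `w` and the columns
`l`, `l'`: the row `w` moves one unit from the column `l'` to the column `l` and the row `u`
moves one unit from the column `l` to the column `l'`.  The switch keeps the margins and the
rows outside `{u, w}`, so the squared increments of a function `F` along all switches of a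
given type are bounded by four times the row-pair energy `hVar E D {u, w} F`.
-/

namespace Vale.Agent.Lib.P328.AM

open Finset
open Vale.Agent.Lib.P328.Hive

variable {R C : Type*} [Fintype R] [Fintype C] [DecidableEq R] [DecidableEq C]

/-- The unit switch on the rows `u`, `w` and the columns `l`, `l'`. -/
def sw (T : R × C → ℕ) (u w : R) (l l' : C) : R × C → ℕ :=
  Poly.move (Poly.move T w l l') u l' l

omit [Fintype R] [Fintype C] in
theorem sw_of_row_ne (T : R × C → ℕ) (u w : R) (l l' : C) (e : R × C) (h1 : e.1 ≠ u)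
    (h2 : e.1 ≠ w) : sw T u w l l' e = T e := by
  unfold sw
  have a1 : e ≠ (u, l') := fun h => h1 (by rw [h])
  have a2 : e ≠ (u, l) := fun h => h1 (by rw [h])
  have a3 : e ≠ (w, l) := fun h => h2 (by rw [h])
  have a4 : e ≠ (w, l') := fun h => h2 (by rw [h])
  rw [Poly.move_of_ne _ u l' l e a1 a2, Poly.move_of_ne _ w l l' e a3 a4]

omit [Fintype R] [Fintype C] in
theorem sw_of_not_cell (T : R × C → ℕ) (u w : R) (l l' : C) (e : R × C) (a1 : e ≠ (u, l'))
    (a2 : e ≠ (u, l)) (a3 : e ≠ (w, l)) (a4 : e ≠ (w, l')) : sw T u w l l' e = T e := by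
  unfold sw
  rw [Poly.move_of_ne _ u l' l e a1 a2, Poly.move_of_ne _ w l l' e a3 a4]

omit [Fintype R] [Fintype C] in
theorem move_row_pos (T : R × C → ℕ) {u w : R} (huw : u ≠ w) (l l' : C) :
    Poly.move T w l l' (u, l) = T (u, l) := by
  have a3 : (u, l) ≠ (w, l) := fun h => huw (Prod.ext_iff.mp h).1
  have a4 : (u, l) ≠ (w, l') := fun h => huw (Prod.ext_iff.mp h).1
  exact Poly.move_of_ne _ w l l' _ a3 a4

theorem dv_sw (T : R × C → ℕ) {u w : R} (huw : u ≠ w) {l l' : C} (hl : l ≠ l')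
    (h1 : 1 ≤ T (u, l)) (h2 : 1 ≤ T (w, l')) : dv (sw T u w l l') = dv T := by
  unfold sw
  have hpos : 1 ≤ Poly.move T w l l' (u, l) := by
    rw [move_row_pos T huw l l']
    exact h1
  rw [Poly.dv_move _ u (Ne.symm hl) hpos, Poly.dv_move _ w hl h2]
  abel

omit [Fintype R] [Fintype C] in
/-- The switch is undone by the opposite switch. -/
theorem sw_inv (T : R × C → ℕ) {u w : R} (huw : u ≠ w) {l l' : C} (hl : l ≠ l')
    (h1 : 1 ≤ T (u, l)) (h2 : 1 ≤ T (w, l')) :
    Poly.move (Poly.move (sw T u w l l') u l l') w l' l = T := by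
  unfold sw
  have hpos : 1 ≤ Poly.move T w l l' (u, l) := by
    rw [move_row_pos T huw l l']
    exact h1
  rw [Poly.move_move _ u (Ne.symm hl) hpos, Poly.move_move _ w hl h2]

theorem sw_mem {E : Finset (R × C)} {D : R ⊕ C → ℤ} {T : R × C → ℕ} (hT : T ∈ OmF E D)
    {u w : R} (huw : u ≠ w) {l l' : C} (hl : l ≠ l')
    (hE : (u, l) ∈ E ∧ (u, l') ∈ E ∧ (w, l) ∈ E ∧ (w, l') ∈ E)
    (h1 : 1 ≤ T (u, l)) (h2 : 1 ≤ T (w, l')) : sw T u w l l' ∈ OmF E D := by
  rw [mem_OmF] at hT ⊢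
  refine ⟨?_, ?_⟩
  · intro e he
    have a1 : e ≠ (u, l') := fun h => he (h ▸ hE.2.1)
    have a2 : e ≠ (u, l) := fun h => he (h ▸ hE.1)
    have a3 : e ≠ (w, l) := fun h => he (h ▸ hE.2.2.1)
    have a4 : e ≠ (w, l') := fun h => he (h ▸ hE.2.2.2)
    rw [sw_of_not_cell T u w l l' e a1 a2 a3 a4]
    exact hT.1 e he
  · rw [dv_sw T huw hl h1 h2]
    exact hT.2

theorem hClass_sw (E : Finset (R × C)) (D : R ⊕ C → ℤ) (T : R × C → ℕ) (u w : R) (l l' : C) :
    hClass E D {u, w} (sw T u w l l') = hClass E D {u, w} T := by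
  unfold hClass
  apply Finset.filter_congr
  intro T' _
  constructor
  · intro h e he
    have h1 : e.1 ≠ u := fun h' => he (by rw [h']; exact Finset.mem_insert_self _ _)
    have h2 : e.1 ≠ w := fun h' => he (by
      rw [h']; exact Finset.mem_insert_of_mem (Finset.mem_singleton_self _))
    rw [h e he, sw_of_row_ne T u w l l' e h1 h2]
  · intro h e he
    have h1 : e.1 ≠ u := fun h' => he (by rw [h']; exact Finset.mem_insert_self _ _)
    have h2 : e.1 ≠ w := fun h' => he (by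
      rw [h']; exact Finset.mem_insert_of_mem (Finset.mem_singleton_self _))
    rw [h e he, sw_of_row_ne T u w l l' e h1 h2]

theorem hAvg_sw (E : Finset (R × C)) (D : R ⊕ C → ℤ) (F : (R × C → ℕ) → ℝ) (T : R × C → ℕ)
    (u w : R) (l l' : C) :
    hAvg E D {u, w} F (sw T u w l l') = hAvg E D {u, w} F T := by
  unfold hAvg
  rw [hClass_sw]

/-- The squared increments of `F` along the unit switches on the rows `u`, `w` and the
columns `l`, `l'` are bounded by four times the row-pair energy of `{u, w}`. -/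
theorem switch_energy (E : Finset (R × C)) (D : R ⊕ C → ℤ) (u w : R) (huw : u ≠ w) (l l' : C)
    (hl : l ≠ l') (hE : (u, l) ∈ E ∧ (u, l') ∈ E ∧ (w, l) ∈ E ∧ (w, l') ∈ E)
    (F : (R × C → ℕ) → ℝ) :
    ∑ T ∈ OmF E D, (if 1 ≤ T (u, l) ∧ 1 ≤ T (w, l') then (F (sw T u w l l') - F T) ^ 2 else 0)
      ≤ 4 * hVar E D {u, w} F := by
  obtain ⟨G, hG⟩ : ∃ G : (R × C → ℕ) → ℝ, G = fun T => (F T - hAvg E D {u, w} F T) ^ 2 :=
    ⟨_, rfl⟩
  have hG0 : ∀ T, 0 ≤ G T := by
    intro T
    rw [hG]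
    exact sq_nonneg _
  have hvar : hVar E D {u, w} F = ∑ T ∈ OmF E D, G T := by
    unfold hVar
    rw [hG]
  obtain ⟨Dom, hDom⟩ : ∃ Dom : Finset (R × C → ℕ),
      Dom = (OmF E D).filter (fun T => 1 ≤ T (u, l) ∧ 1 ≤ T (w, l')) := ⟨_, rfl⟩
  have hmemDom : ∀ T ∈ Dom, T ∈ OmF E D ∧ 1 ≤ T (u, l) ∧ 1 ≤ T (w, l') := by
    intro T hT
    rw [hDom] at hT
    exact Finset.mem_filter.mp hT
  rw [← Finset.sum_filter, ← hDom]
  -- pointwise bound
  have hpt : ∀ T ∈ Dom, (F (sw T u w l l') - F T) ^ 2 ≤ 2 * G (sw T u w l l') + 2 * G T := by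
    intro T _
    rw [hG]
    show (F (sw T u w l l') - F T) ^ 2
      ≤ 2 * (F (sw T u w l l') - hAvg E D {u, w} F (sw T u w l l')) ^ 2
        + 2 * (F T - hAvg E D {u, w} F T) ^ 2
    rw [hAvg_sw]
    nlinarith [sq_nonneg ((F (sw T u w l l') - hAvg E D {u, w} F T)
      + (F T - hAvg E D {u, w} F T))]
  -- injectivity
  have hinj : Set.InjOn (fun T => sw T u w l l') (Dom : Set (R × C → ℕ)) := by
    intro T hT T' hT' heq
    have hT1 := hmemDom T (Finset.mem_coe.mp hT)
    have hT2 := hmemDom T' (Finset.mem_coe.mp hT')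
    have e1 := sw_inv T huw hl hT1.2.1 hT1.2.2
    have e2 := sw_inv T' huw hl hT2.2.1 hT2.2.2
    have heq' : sw T u w l l' = sw T' u w l l' := heq
    rw [heq'] at e1
    rw [← e1, e2]
  have himg : ∑ T ∈ Dom, G (sw T u w l l') ≤ ∑ T ∈ OmF E D, G T := by
    rw [← Finset.sum_image (f := G) (g := fun T => sw T u w l l') hinj]
    apply Finset.sum_le_sum_of_subset_of_nonneg
    · intro T' hT'
      obtain ⟨T, hT, rfl⟩ := Finset.mem_image.mp hT'
      have hT1 := hmemDom T hT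
      exact sw_mem hT1.1 huw hl hE hT1.2.1 hT1.2.2
    · intro T _ _
      exact hG0 T
  have hsub : ∑ T ∈ Dom, G T ≤ ∑ T ∈ OmF E D, G T := by
    apply Finset.sum_le_sum_of_subset_of_nonneg
    · intro T hT
      exact (hmemDom T hT).1
    · intro T _ _
      exact hG0 T
  calc ∑ T ∈ Dom, (F (sw T u w l l') - F T) ^ 2
      ≤ ∑ T ∈ Dom, (2 * G (sw T u w l l') + 2 * G T) := Finset.sum_le_sum hpt
    _ = 2 * ∑ T ∈ Dom, G (sw T u w l l') + 2 * ∑ T ∈ Dom, G T := by
        rw [Finset.sum_add_distrib, Finset.mul_sum, Finset.mul_sum]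
    _ ≤ 4 * hVar E D {u, w} F := by
        rw [hvar]
        linarith [himg, hsub]

theorem hVar_nonneg (E : Finset (R × C)) (D : R ⊕ C → ℤ) (q : Finset R)
    (F : (R × C → ℕ) → ℝ) : 0 ≤ hVar E D q F := by
  unfold hVar
  exact Finset.sum_nonneg (fun T _ => sq_nonneg _)

/-- All unit switches between the row `u` and the rows of `S'`: the sum of the squared
increments of `F` is at most `4 n^2` times the sum of the row-pair energies of the pairs
`{u, w}`, `w ∈ S'` (`n` the number of columns). -/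
theorem switch_energy_sum (S' : Finset R) (u : R) (hu : u ∉ S') (D : R ⊕ C → ℤ)
    (F : (R × C → ℕ) → ℝ) :
    ∑ T ∈ OmF (insert u S' ×ˢ (Finset.univ : Finset C)) D, ∑ l, ∑ w ∈ S',
        ∑ l' ∈ (Finset.univ : Finset C).erase l,
          (if 1 ≤ T (u, l) ∧ 1 ≤ T (w, l') then (F (sw T u w l l') - F T) ^ 2 else 0)
      ≤ 4 * (Fintype.card C : ℝ) ^ 2
          * ∑ w ∈ S', hVar (insert u S' ×ˢ (Finset.univ : Finset C)) D {u, w} F := by
  obtain ⟨E, hE⟩ : ∃ E : Finset (R × C), E = insert u S' ×ˢ (Finset.univ : Finset C) :=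
    ⟨_, rfl⟩
  rw [← hE]
  have hcell : ∀ (i : R) (j : C), i ∈ insert u S' → (i, j) ∈ E := by
    intro i j hi
    rw [hE, Finset.mem_product]
    exact ⟨hi, Finset.mem_univ j⟩
  have hterm : ∀ l : C, ∀ w ∈ S', ∀ l' ∈ (Finset.univ : Finset C).erase l,
      ∑ T ∈ OmF E D,
          (if 1 ≤ T (u, l) ∧ 1 ≤ T (w, l') then (F (sw T u w l l') - F T) ^ 2 else 0)
        ≤ 4 * hVar E D {u, w} F := by
    intro l w hw l' hl'
    have huw : u ≠ w := fun h => hu (h ▸ hw)
    have hl : l ≠ l' := (Finset.ne_of_mem_erase hl').symm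
    have hu' : u ∈ insert u S' := Finset.mem_insert_self _ _
    have hw' : w ∈ insert u S' := Finset.mem_insert_of_mem hw
    exact switch_energy E D u w huw l l' hl
      ⟨hcell u l hu', hcell u l' hu', hcell w l hw', hcell w l' hw'⟩ F
  have hS0 : 0 ≤ ∑ w ∈ S', hVar E D {u, w} F :=
    Finset.sum_nonneg (fun w _ => hVar_nonneg E D {u, w} F)
  have hn0 : (0 : ℝ) ≤ (Fintype.card C : ℝ) := Nat.cast_nonneg _
  -- reorder the sums
  have hswap : ∑ T ∈ OmF E D, ∑ l, ∑ w ∈ S', ∑ l' ∈ (Finset.univ : Finset C).erase l,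
        (if 1 ≤ T (u, l) ∧ 1 ≤ T (w, l') then (F (sw T u w l l') - F T) ^ 2 else 0)
      = ∑ l, ∑ w ∈ S', ∑ l' ∈ (Finset.univ : Finset C).erase l, ∑ T ∈ OmF E D,
        (if 1 ≤ T (u, l) ∧ 1 ≤ T (w, l') then (F (sw T u w l l') - F T) ^ 2 else 0) := by
    rw [Finset.sum_comm]
    refine Finset.sum_congr rfl (fun l _ => ?_)
    rw [Finset.sum_comm]
    refine Finset.sum_congr rfl (fun w _ => ?_)
    rw [Finset.sum_comm]
  rw [hswap]
  have hbound : ∀ l ∈ (Finset.univ : Finset C),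
      ∑ w ∈ S', ∑ l' ∈ (Finset.univ : Finset C).erase l, ∑ T ∈ OmF E D,
        (if 1 ≤ T (u, l) ∧ 1 ≤ T (w, l') then (F (sw T u w l l') - F T) ^ 2 else 0)
        ≤ 4 * (Fintype.card C : ℝ) * ∑ w ∈ S', hVar E D {u, w} F := by
    intro l _
    rw [Finset.mul_sum]
    refine Finset.sum_le_sum (fun w hw => ?_)
    have h1 : ∑ l' ∈ (Finset.univ : Finset C).erase l, ∑ T ∈ OmF E D,
        (if 1 ≤ T (u, l) ∧ 1 ≤ T (w, l') then (F (sw T u w l l') - F T) ^ 2 else 0)
        ≤ ∑ l' ∈ (Finset.univ : Finset C).erase l, 4 * hVar E D {u, w} F :=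
      Finset.sum_le_sum (fun l' hl' => hterm l w hw l' hl')
    rw [Finset.sum_const, nsmul_eq_mul] at h1
    have hcard : (((Finset.univ : Finset C).erase l).card : ℝ) ≤ (Fintype.card C : ℝ) := by
      have : ((Finset.univ : Finset C).erase l).card ≤ Fintype.card C := by
        rw [← Finset.card_univ]
        exact Finset.card_erase_le
      exact_mod_cast this
    have hv0 := hVar_nonneg E D {u, w} F
    nlinarith [h1, hcard, hv0]
  have htot := Finset.sum_le_sum hbound
  rw [Finset.sum_const, nsmul_eq_mul, Finset.card_univ] at htot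
  refine le_trans htot (le_of_eq ?_)
  ring

end Vale.Agent.Lib.P328.AM
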