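import Vale.Agent.Lib.P328.AM.BoxSym
import Vale.Agent.Lib.P328.AM.Top
import Vale.Agent.Lib.P328.AM.Bridge
import Vale.Agent.Lib.P328.AM.PeelAux
import Vale.Agent.Lib.P328.AM.Cross
import Vale.Agent.Lib.P328.AM.OneRowProof
import Vale.Agent.Lib.P328.AM.PColProof

/-!
# P328 / all margins: the 2 × 2 heat bath, rows or columns - final assembly

`pcrow_rows`: the Poincare constant `4 W^2 n^4 m` of the row-pair heat bath when all rows but
two have all their entries forced to be at most `W` (star coupling, the comparison of adjacent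
classes, the one-row inequality and the induction over the rows, assembled).
`pcbox_sym`: the Poincare constant `4 W^2 (max m n)^5` of the 2 × 2 heat bath when all rows but
two, or all columns but two, have all their entries forced to be at most `W`.
-/

namespace Vale.Agent.Lib.P328.AM

open Finset
open scoped Classical
open Vale.Agent.Lib.P328.CT Vale.Agent.Lib.P335.Bip

universe u v

/-- The peeling inequality of the cell model, assembled. -/
theorem peel_sym {R : Type u} {C : Type v} [Fintype R] [Fintype C] : PeelStatement R C :=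
  peel_of_cross oneRowStatement (fun S' u hu D F => cross_bound pColStatement S' u hu D F)

/-- Two rows `u₁ ≠ u₂` arbitrary, every entry of every other row forced to be at most `W` by
its row sum or its column sum: the row-pair heat bath has Poincare constant `4 W^2 n^4 m`. -/
theorem pcrow_rows {R : Type u} {C : Type v} [Fintype R] [Fintype C] [Nonempty C]
    (W : ℕ) (hW1 : 1 ≤ W) (r : R → ℕ) (c : C → ℕ) (u₁ u₂ : R) (hu : u₁ ≠ u₂)
    (hW : ∀ i, i ≠ u₁ → i ≠ u₂ → ∀ j, min (r i) (c j) ≤ W) :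
    PCrow (4 * (W : ℝ) ^ 2 * (Fintype.card C : ℝ) ^ 4 * (Fintype.card R : ℝ)) r c :=
  pcrow_all (fun _ _ => crossCT_of_peel peel_sym) W hW1 (Fintype.card R) R rfl r c
    u₁ u₂ hu hW

/-- All rows but two, or all columns but two, have all their entries forced to be at most `W`:
the 2 × 2 heat bath has Poincare constant `4 W^2 (max m n)^5`. -/
theorem pcbox_sym {R : Type u} {C : Type v} [Fintype R] [Fintype C] (r : R → ℕ) (c : C → ℕ)
    (W : ℕ) (hW : 1 ≤ W) (hR : 2 ≤ Fintype.card R) (hC : 2 ≤ Fintype.card C)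
    (h : (∃ u₁ u₂ : R, u₁ ≠ u₂ ∧ ∀ i, i ≠ u₁ → i ≠ u₂ → ∀ j, min (r i) (c j) ≤ W) ∨
      (∃ v₁ v₂ : C, v₁ ≠ v₂ ∧ ∀ j, j ≠ v₁ → j ≠ v₂ → ∀ i, min (r i) (c j) ≤ W)) :
    PCbox (4 * (W : ℝ) ^ 2 * ((max (Fintype.card R) (Fintype.card C) : ℕ) : ℝ) ^ 5) r c := by
  have hneR : Nonempty R := Fintype.card_pos_iff.mp (by omega)
  have hneC : Nonempty C := Fintype.card_pos_iff.mp (by omega)
  refine pcbox_rows_or_cols hW hR hC ?_ ?_ h
  · rintro ⟨u₁, u₂, hu, hall⟩
    exact pcrow_rows W hW r c u₁ u₂ hu hall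
  · rintro ⟨v₁, v₂, hv, hall⟩
    exact pcrow_rows W hW c r v₁ v₂ hv hall

/-- The constant `4 W^2 (max m n)^5` is at least `1`. -/
theorem one_le_symConst {R : Type u} {C : Type v} [Fintype R] [Fintype C] (W : ℕ) (hW : 1 ≤ W)
    (hR : 2 ≤ Fintype.card R) :
    (1 : ℝ) ≤ 4 * (W : ℝ) ^ 2 * ((max (Fintype.card R) (Fintype.card C) : ℕ) : ℝ) ^ 5 := by
  have hWr : (1 : ℝ) ≤ (W : ℝ) := by exact_mod_cast hW
  have hX : (1 : ℝ) ≤ ((max (Fintype.card R) (Fintype.card C) : ℕ) : ℝ) := by
    have h1 : 1 ≤ max (Fintype.card R) (Fintype.card C) :=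
      le_trans (by omega) (le_max_left (Fintype.card R) (Fintype.card C))
    exact_mod_cast h1
  have hW2 : (1 : ℝ) ≤ (W : ℝ) ^ 2 := one_le_pow₀ hWr
  have hX5 : (1 : ℝ) ≤ ((max (Fintype.card R) (Fintype.card C) : ℕ) : ℝ) ^ 5 := one_le_pow₀ hX
  nlinarith

end Vale.Agent.Lib.P328.AM
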