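import Mathlib

/-!
# P328: a Poincare inequality for unimodal weights on an integer interval

Nonnegative weights `p` on `{0, ..., N}` that increase up to an index `k` and decrease after
it.  Then the (unnormalised) variance of any `g` is at most `N ^ 2` times the total weight times
the nearest-neighbour Dirichlet form with the edge weights `min (p t) (p (t + 1))`.
-/

namespace Vale.Agent.Lib.P328.AM

open Finset

/-- The variance is at most the mean square deviation from any centre (unnormalised). -/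
theorem var_le_center (N : ℕ) (p g : ℕ → ℝ) (c : ℝ) :
    (∑ i ∈ range (N + 1), p i) * (∑ i ∈ range (N + 1), p i * g i ^ 2)
        - (∑ i ∈ range (N + 1), p i * g i) ^ 2
      ≤ (∑ i ∈ range (N + 1), p i) * ∑ i ∈ range (N + 1), p i * (g i - c) ^ 2 := by
  have e : ∑ i ∈ range (N + 1), p i * (g i - c) ^ 2
      = (∑ i ∈ range (N + 1), p i * g i ^ 2) - 2 * c * (∑ i ∈ range (N + 1), p i * g i)
        + c ^ 2 * ∑ i ∈ range (N + 1), p i := by
    rw [Finset.mul_sum, Finset.mul_sum, ← Finset.sum_sub_distrib, ← Finset.sum_add_distrib]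
    refine Finset.sum_congr rfl (fun i _ => ?_)
    ring
  rw [e]
  nlinarith [sq_nonneg ((∑ i ∈ range (N + 1), p i * g i) - c * ∑ i ∈ range (N + 1), p i)]

/-- Telescoping along an interval. -/
theorem tele_Ico (g : ℕ → ℝ) (a b : ℕ) (hab : a ≤ b) :
    ∑ t ∈ Ico a b, (g (t + 1) - g t) = g b - g a := by
  rw [Finset.sum_Ico_eq_sum_range]
  have h := Finset.sum_range_sub (fun t => g (a + t)) (b - a)
  simp only [add_zero] at h
  rw [Nat.add_sub_cancel' hab] at h
  exact h

/-- The square of an increment is at most the length times the sum of squared steps. -/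
theorem sq_incr_le (g : ℕ → ℝ) (a b : ℕ) (hab : a ≤ b) :
    (g b - g a) ^ 2 ≤ ((b - a : ℕ) : ℝ) * ∑ t ∈ Ico a b, (g (t + 1) - g t) ^ 2 := by
  rw [← tele_Ico g a b hab]
  have h := sq_sum_le_card_mul_sum_sq (s := Ico a b) (f := fun t => g (t + 1) - g t)
  rw [Nat.card_Ico] at h
  exact h

/-- Weights that increase up to `k`. -/
theorem mono_up (p : ℕ → ℝ) (k : ℕ) (hup : ∀ i, i < k → p i ≤ p (i + 1)) :
    ∀ d a : ℕ, a + d ≤ k → p a ≤ p (a + d) := by
  intro d
  induction d with
  | zero => intro a _; exact le_rfl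
  | succ d ih =>
    intro a h
    exact le_trans (ih a (by omega)) (hup (a + d) (by omega))

/-- Weights that decrease from `k` on. -/
theorem mono_down (p : ℕ → ℝ) (k N : ℕ) (hdown : ∀ i, k ≤ i → i < N → p (i + 1) ≤ p i) :
    ∀ d a : ℕ, k ≤ a → a + d ≤ N → p (a + d) ≤ p a := by
  intro d
  induction d with
  | zero => intro a _ _; exact le_rfl
  | succ d ih =>
    intro a h1 h2
    exact le_trans (hdown (a + d) (by omega) (by omega)) (ih a h1 (by omega))

/-- **Poincare inequality for unimodal weights on `{0, ..., N}`.** -/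
theorem unimodal_poincare (N : ℕ) (p g : ℕ → ℝ) (hp : ∀ i, 0 ≤ p i) (k : ℕ) (hk : k ≤ N)
    (hup : ∀ i, i < k → p i ≤ p (i + 1)) (hdown : ∀ i, k ≤ i → i < N → p (i + 1) ≤ p i) :
    (∑ i ∈ range (N + 1), p i) * (∑ i ∈ range (N + 1), p i * g i ^ 2)
        - (∑ i ∈ range (N + 1), p i * g i) ^ 2
      ≤ (N : ℝ) ^ 2 * (∑ i ∈ range (N + 1), p i)
          * ∑ t ∈ range N, min (p t) (p (t + 1)) * (g (t + 1) - g t) ^ 2 := by
  obtain ⟨U, hU⟩ : ∃ U : ℝ, U = ∑ t ∈ range N, min (p t) (p (t + 1)) * (g (t + 1) - g t) ^ 2 :=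
    ⟨_, rfl⟩
  have hterm0 : ∀ t, 0 ≤ min (p t) (p (t + 1)) * (g (t + 1) - g t) ^ 2 :=
    fun t => mul_nonneg (le_min (hp t) (hp (t + 1))) (sq_nonneg _)
  have hU0 : 0 ≤ U := by
    rw [hU]
    exact Finset.sum_nonneg (fun t _ => hterm0 t)
  have hN0 : (0 : ℝ) ≤ N := Nat.cast_nonneg N
  -- pointwise bound
  have hpt : ∀ i ∈ range (N + 1), p i * (g i - g k) ^ 2 ≤ (N : ℝ) * U := by
    intro i hi
    have hiN : i ≤ N := by have := Finset.mem_range.mp hi; omega
    rcases Nat.lt_or_ge i k with hik | hik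
    · -- i < k
      have h1 : (g i - g k) ^ 2 ≤ ((k - i : ℕ) : ℝ) * ∑ t ∈ Ico i k, (g (t + 1) - g t) ^ 2 := by
        have := sq_incr_le g i k hik.le
        have e : (g i - g k) ^ 2 = (g k - g i) ^ 2 := by ring
        rw [e]
        exact this
      have h2 : ((k - i : ℕ) : ℝ) ≤ N := by exact_mod_cast (by omega : k - i ≤ N)
      have hS0 : 0 ≤ ∑ t ∈ Ico i k, (g (t + 1) - g t) ^ 2 :=
        Finset.sum_nonneg (fun t _ => sq_nonneg _)
      have h3 : p i * ∑ t ∈ Ico i k, (g (t + 1) - g t) ^ 2 ≤ U := by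
        rw [Finset.mul_sum, hU]
        have hsub : Ico i k ⊆ range N := by
          intro t ht
          rw [Finset.mem_Ico] at ht
          rw [Finset.mem_range]
          omega
        refine le_trans (Finset.sum_le_sum (fun t ht => ?_))
          (Finset.sum_le_sum_of_subset_of_nonneg hsub (fun t _ _ => hterm0 t))
        rw [Finset.mem_Ico] at ht
        have hpit : p i ≤ p t := by
          have := mono_up p k hup (t - i) i (by omega)
          rw [Nat.add_sub_cancel' ht.1] at this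
          exact this
        have hmin : min (p t) (p (t + 1)) = p t := min_eq_left (hup t ht.2)
        rw [hmin]
        exact mul_le_mul_of_nonneg_right hpit (sq_nonneg _)
      calc p i * (g i - g k) ^ 2
          ≤ p i * (((k - i : ℕ) : ℝ) * ∑ t ∈ Ico i k, (g (t + 1) - g t) ^ 2) :=
            mul_le_mul_of_nonneg_left h1 (hp i)
        _ = ((k - i : ℕ) : ℝ) * (p i * ∑ t ∈ Ico i k, (g (t + 1) - g t) ^ 2) := by ring
        _ ≤ (N : ℝ) * (p i * ∑ t ∈ Ico i k, (g (t + 1) - g t) ^ 2) :=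
            mul_le_mul_of_nonneg_right h2 (mul_nonneg (hp i) hS0)
        _ ≤ (N : ℝ) * U := mul_le_mul_of_nonneg_left h3 hN0
    · -- k ≤ i
      have h1 : (g i - g k) ^ 2 ≤ ((i - k : ℕ) : ℝ) * ∑ t ∈ Ico k i, (g (t + 1) - g t) ^ 2 :=
        sq_incr_le g k i hik
      have h2 : ((i - k : ℕ) : ℝ) ≤ N := by exact_mod_cast (by omega : i - k ≤ N)
      have hS0 : 0 ≤ ∑ t ∈ Ico k i, (g (t + 1) - g t) ^ 2 :=
        Finset.sum_nonneg (fun t _ => sq_nonneg _)
      have h3 : p i * ∑ t ∈ Ico k i, (g (t + 1) - g t) ^ 2 ≤ U := by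
        rw [Finset.mul_sum, hU]
        have hsub : Ico k i ⊆ range N := by
          intro t ht
          rw [Finset.mem_Ico] at ht
          rw [Finset.mem_range]
          omega
        refine le_trans (Finset.sum_le_sum (fun t ht => ?_))
          (Finset.sum_le_sum_of_subset_of_nonneg hsub (fun t _ _ => hterm0 t))
        rw [Finset.mem_Ico] at ht
        have hpit : p i ≤ p (t + 1) := by
          have := mono_down p k N hdown (i - (t + 1)) (t + 1) (by omega) (by omega)
          rw [Nat.add_sub_cancel' (by omega : t + 1 ≤ i)] at this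
          exact this
        have hmin : min (p t) (p (t + 1)) = p (t + 1) :=
          min_eq_right (hdown t ht.1 (by omega))
        rw [hmin]
        exact mul_le_mul_of_nonneg_right hpit (sq_nonneg _)
      calc p i * (g i - g k) ^ 2
          ≤ p i * (((i - k : ℕ) : ℝ) * ∑ t ∈ Ico k i, (g (t + 1) - g t) ^ 2) :=
            mul_le_mul_of_nonneg_left h1 (hp i)
        _ = ((i - k : ℕ) : ℝ) * (p i * ∑ t ∈ Ico k i, (g (t + 1) - g t) ^ 2) := by ring
        _ ≤ (N : ℝ) * (p i * ∑ t ∈ Ico k i, (g (t + 1) - g t) ^ 2) :=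
            mul_le_mul_of_nonneg_right h2 (mul_nonneg (hp i) hS0)
        _ ≤ (N : ℝ) * U := mul_le_mul_of_nonneg_left h3 hN0
  -- the term i = k vanishes, so only N terms count
  have hsum : ∑ i ∈ range (N + 1), p i * (g i - g k) ^ 2 ≤ (N : ℝ) * ((N : ℝ) * U) := by
    have hk' : k ∈ range (N + 1) := Finset.mem_range.mpr (by omega)
    rw [← Finset.add_sum_erase _ _ hk', sub_self]
    have hcard : ((range (N + 1)).erase k).card = N := by
      rw [Finset.card_erase_of_mem hk', Finset.card_range]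
      rfl
    have hle : ∑ i ∈ (range (N + 1)).erase k, p i * (g i - g k) ^ 2
        ≤ ∑ _i ∈ (range (N + 1)).erase k, (N : ℝ) * U :=
      Finset.sum_le_sum (fun i hi => hpt i (Finset.mem_of_mem_erase hi))
    rw [Finset.sum_const, hcard, nsmul_eq_mul] at hle
    have h0 : p k * (0 : ℝ) ^ 2 = 0 := by ring
    rw [h0, zero_add]
    exact hle
  have hZ0 : 0 ≤ ∑ i ∈ range (N + 1), p i := Finset.sum_nonneg (fun i _ => hp i)
  rw [← hU]
  calc (∑ i ∈ range (N + 1), p i) * (∑ i ∈ range (N + 1), p i * g i ^ 2)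
        - (∑ i ∈ range (N + 1), p i * g i) ^ 2
      ≤ (∑ i ∈ range (N + 1), p i) * ∑ i ∈ range (N + 1), p i * (g i - g k) ^ 2 :=
        var_le_center N p g (g k)
    _ ≤ (∑ i ∈ range (N + 1), p i) * ((N : ℝ) * ((N : ℝ) * U)) :=
        mul_le_mul_of_nonneg_left hsum hZ0
    _ = (N : ℝ) ^ 2 * (∑ i ∈ range (N + 1), p i) * U := by ring

end Vale.Agent.Lib.P328.AM
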